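import Vale.Agent.P002S.Defs

/-! Algebra of `W`, isomorphisms, flags. -/

namespace Vale.Agent.P002S

open Matrix Vale.Agent.P002

variable {r : ℕ} {S T U S' T' : Finset (Fin r)} {x y : W r} {F G H : Fl r}

@[simp] theorem W.mul_a (x y : W r) : (x * y).a = x.a * y.a := rfl
@[simp] theorem W.mul_b (x y : W r) : (x * y).b = y.b * x.b := rfl
@[simp] theorem W.one_a : (1 : W r).a = 1 := rfl
@[simp] theorem W.one_b : (1 : W r).b = 1 := rfl
@[simp] theorem W.sw_a (x : W r) : x.sw.a = x.b := rfl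
@[simp] theorem W.sw_b (x : W r) : x.sw.b = x.a := rfl
@[simp] theorem W.ad_a (x y : W r) : (x.ad y).a = x.a + y.a := rfl
@[simp] theorem W.ad_b (x y : W r) : (x.ad y).b = x.b + y.b := rfl
@[simp] theorem e_a (S : Finset (Fin r)) : (e S).a = E S := rfl
@[simp] theorem e_b (S : Finset (Fin r)) : (e S).b = E S := rfl
@[simp] theorem W.sw_sw (x : W r) : x.sw.sw = x := rfl
@[simp] theorem W.sw_mul (x y : W r) : (x * y).sw = y.sw * x.sw := rfl
@[simp] theorem W.sw_one : (1 : W r).sw = 1 := rfl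
@[simp] theorem e_sw (S : Finset (Fin r)) : (e S).sw = e S := rfl
@[simp] theorem Fl.pt_false (F : Fl r) : F.pt false = F.1 := rfl
@[simp] theorem Fl.pt_true (F : Fl r) : F.pt true = F.2 := rfl
@[simp] theorem Lt.pc_false (x : Lt r) : x.pc false = x.p := rfl
@[simp] theorem Lt.pc_true (x : Lt r) : x.pc true = x.q := rfl
@[simp] theorem Occ.flip_flip (o : Occ r) : o.flip.flip = o := by simp [Occ.flip]
@[simp] theorem Fl.s_triv (A : Finset (Fin r)) : Fl.s ((A, ∅) : Fl r) = A := by simp [Fl.s]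

theorem E_mul (S T : Finset (Fin r)) : E S * E T = E (S ∩ T) := by
  unfold E; rw [diagonal_mul_diagonal]; congr 1; funext i
  by_cases h : i ∈ S <;> by_cases h' : i ∈ T <;> simp [h, h']

@[simp] theorem E_empty : E (∅ : Finset (Fin r)) = 0 := by simp [E]
@[simp] theorem E_univ : E (Finset.univ : Finset (Fin r)) = 1 := by simp [E]
theorem E_idem (S : Finset (Fin r)) : E S * E S = E S := by rw [E_mul, Finset.inter_self]
theorem E_disj (h : Disjoint S T) : E S * E T = 0 := by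
  rw [E_mul, Finset.disjoint_iff_inter_eq_empty.1 h, E_empty]
theorem E_sub (h : S ⊆ T) : E S * E T = E S := by rw [E_mul, Finset.inter_eq_left.2 h]
theorem E_sub' (h : S ⊆ T) : E T * E S = E S := by rw [E_mul, Finset.inter_eq_right.2 h]
theorem E_union (h : Disjoint S T) : E (S ∪ T) = E S + E T := by
  unfold E; rw [diagonal_add]; congr 1; funext i
  by_cases h1 : i ∈ S <;> by_cases h2 : i ∈ T <;> simp [h1, h2]
  exact Finset.disjoint_left.1 h h1 h2
theorem E_trace (S : Finset (Fin r)) : (E S).trace = S.card := by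
  simp [E, trace_diagonal]
theorem E_mul_apply (S : Finset (Fin r)) (M : Mat r) (i j : Fin r) :
    (E S * M) i j = if i ∈ S then M i j else 0 := by simp [E, diagonal_mul]
theorem mul_E_apply (S : Finset (Fin r)) (M : Mat r) (i j : Fin r) :
    (M * E S) i j = if j ∈ S then M i j else 0 := by simp [E, mul_diagonal]
theorem E_inj (h : E S = E T) : S = T := by
  ext i
  have := congrFun (congrFun h i) i
  clear h
  by_cases h1 : i ∈ S <;> by_cases h2 : i ∈ T <;> simp_all [E]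

theorem e_mul (S T : Finset (Fin r)) : e S * e T = e (S ∩ T) :=
  W.ext (E_mul S T) (by simp [E_mul, Finset.inter_comm])
theorem e_idem (S : Finset (Fin r)) : e S * e S = e S := by rw [e_mul, Finset.inter_self]
theorem e_sub (h : S ⊆ T) : e S * e T = e S := by rw [e_mul, Finset.inter_eq_left.2 h]
theorem e_sub' (h : S ⊆ T) : e T * e S = e S := by rw [e_mul, Finset.inter_eq_right.2 h]
@[simp] theorem e_univ : e (Finset.univ : Finset (Fin r)) = 1 := W.ext E_univ E_univ
theorem e_inj (h : e S = e T) : S = T := E_inj (congrArg W.a h)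

theorem dg_mul (D D' : Fin r → ℂˣ) : dg D * dg D' = dg (D * D') :=
  W.ext (by simp [dg, diagonal_mul_diagonal]) (by simp [dg, diagonal_mul_diagonal, mul_comm])
@[simp] theorem dg_one : dg (1 : Fin r → ℂˣ) = 1 := W.ext (by simp [dg]) (by simp [dg])
theorem dg_sw (D : Fin r → ℂˣ) : (dg D).sw = dg D⁻¹ := W.ext (by simp [dg]) (by simp [dg])
theorem dg_mul_sw (D : Fin r → ℂˣ) : dg D * (dg D).sw = 1 := by rw [dg_sw, dg_mul]; simp
theorem dg_sw_mul (D : Fin r → ℂˣ) : (dg D).sw * dg D = 1 := by rw [dg_sw, dg_mul]; simp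
theorem dg_e (D : Fin r → ℂˣ) (S : Finset (Fin r)) : dg D * e S = e S * dg D :=
  W.ext (by simp [dg, E, diagonal_mul_diagonal, mul_comm])
    (by simp [dg, E, diagonal_mul_diagonal, mul_comm])
theorem sc_a (z : ℂˣ) : (sc z : W r).a = (z : ℂ) • (1 : Mat r) := by
  simp [sc, dg, smul_one_eq_diagonal]
theorem sc_b (z : ℂˣ) : (sc z : W r).b = ((z⁻¹ : ℂˣ) : ℂ) • (1 : Mat r) := by
  simp [sc, dg, smul_one_eq_diagonal]
theorem sc_comm (z : ℂˣ) (x : W r) : sc z * x = x * sc z :=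
  W.ext (by simp [sc_a]) (by simp [sc_b])
theorem sc_mul (z z' : ℂˣ) : (sc z * sc z' : W r) = sc (z * z') := dg_mul _ _
@[simp] theorem sc_one : (sc 1 : W r) = 1 := dg_one
theorem sc_sw (z : ℂˣ) : (sc z : W r).sw = sc z⁻¹ := dg_sw _
/-- a diagonal that is constant on `S` is a scalar there -/
theorem e_dg_const {D : Fin r → ℂˣ} {z : ℂˣ} (h : ∀ i ∈ S, D i = z) : e S * dg D = e S * sc z := by
  refine W.ext ?_ ?_ <;> simp only [W.mul_a, W.mul_b, e_a, e_b, sc, dg, E, diagonal_mul_diagonal] <;>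
    congr 1 <;> funext i <;> by_cases hi : i ∈ S <;> simp [hi, h]

namespace IsIso

theorem r' (h : IsIso S T x) : x * e T = x := by rw [← h.m', ← mul_assoc, h.m, h.l]
theorem sw (h : IsIso S T x) : IsIso T S x.sw :=
  ⟨by simpa using congrArg W.sw h.r', h.m', h.m⟩
theorem mul (h : IsIso S T x) (h' : IsIso T U y) : IsIso S U (x * y) :=
  ⟨by rw [← mul_assoc, h.l], by
    rw [W.sw_mul, mul_assoc, ← mul_assoc y, h'.m, ← mul_assoc, h.r', h.m], by
    rw [W.sw_mul, mul_assoc, ← mul_assoc x.sw, h.m', h'.l, h'.m']⟩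
theorem id (S : Finset (Fin r)) : IsIso S S (e S) := ⟨e_idem S, e_idem S, e_idem S⟩
theorem dgl (h : IsIso S T x) (D : Fin r → ℂˣ) : IsIso S T (dg D * x) :=
  ⟨by rw [← mul_assoc, ← dg_e, mul_assoc, h.l], by
    rw [W.sw_mul, mul_assoc, ← mul_assoc x, h.m, ← mul_assoc, dg_e, mul_assoc, dg_mul_sw, mul_one],
    by rw [W.sw_mul, mul_assoc, ← mul_assoc (dg D).sw, dg_sw_mul, one_mul, h.m']⟩
theorem dgr (h : IsIso S T x) (D : Fin r → ℂˣ) : IsIso S T (x * dg D) := by
  have := (h.sw.dgl D⁻¹).sw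
  rwa [W.sw_mul, W.sw_sw, dg_sw, inv_inv] at this
/-- cancellation forms for `simp only [mul_assoc, ..]` -/
theorem lc (h : IsIso S T x) (y : W r) : e S * (x * y) = x * y := by rw [← mul_assoc, h.l]
theorem rc (h : IsIso S T x) (y : W r) : x * (e T * y) = x * y := by rw [← mul_assoc, h.r']
theorem mc (h : IsIso S T x) (y : W r) : x * (x.sw * y) = e S * y := by rw [← mul_assoc, h.m]
theorem mc' (h : IsIso S T x) (y : W r) : x.sw * (x * y) = e T * y := by rw [← mul_assoc, h.m']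
theorem card (h : IsIso S T x) : S.card = T.card := by
  have h1 := congrArg (fun w : W r => w.a.trace) h.m
  have h2 := congrArg (fun w : W r => w.a.trace) h.m'
  simp only [W.mul_a, W.sw_a, e_a, E_trace] at h1 h2
  rw [trace_mul_comm] at h1
  exact_mod_cast h1.symm.trans h2
theorem la (h : IsIso S T x) : E S * x.a = x.a := congrArg W.a h.l
theorem ra (h : IsIso S T x) : x.a * E T = x.a := congrArg W.a h.r'
theorem lb (h : IsIso S T x) : E T * x.b = x.b := congrArg W.b h.r'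
theorem rb (h : IsIso S T x) : x.b * E S = x.b := congrArg W.b h.l
theorem ab (h : IsIso S T x) : x.a * x.b = E S := congrArg W.a h.m
theorem ba (h : IsIso S T x) : x.b * x.a = E T := congrArg W.a h.m'
theorem of_mat (h1 : E S * x.a = x.a) (h2 : x.b * E S = x.b) (h3 : x.a * x.b = E S)
    (h4 : x.b * x.a = E T) : IsIso S T x := ⟨W.ext h1 h2, W.ext h3 h3, W.ext h4 h4⟩
theorem ext (h : IsIso S T x) (h' : IsIso S T y) (e1 : x.a = y.a) : x = y :=
  W.ext e1 (by rw [← h.rb, ← h'.ab, ← e1, ← Matrix.mul_assoc, h.ba, h'.lb])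
theorem src_eq (h : IsIso S T x) (h' : IsIso S' T' x) : S = S' := e_inj (h.m.symm.trans h'.m)
theorem tgt_eq (h : IsIso S T x) (h' : IsIso S' T' x) : T = T' := e_inj (h.m'.symm.trans h'.m')
theorem gr (h : IsIso S T x) : gr S T x = x := by unfold P002S.gr; rw [h.l, h.r']
theorem empty (h : IsIso ∅ T x) : x = e ∅ :=
  W.ext (by simpa using h.la.symm) (by simpa using h.rb.symm)
theorem ad (h : IsIso S T x) (h' : IsIso S' T' y) (hS : Disjoint S S') (hT : Disjoint T T') :
    IsIso (S ∪ S') (T ∪ T') (x.ad y) := by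
  have a1 : x.a * y.b = 0 := by
    rw [← h.ra, ← h'.lb, Matrix.mul_assoc, ← Matrix.mul_assoc (E T), E_disj hT]; simp
  have a2 : y.a * x.b = 0 := by
    rw [← h'.ra, ← h.lb, Matrix.mul_assoc, ← Matrix.mul_assoc (E T'), E_disj hT.symm]; simp
  have a3 : x.b * y.a = 0 := by
    rw [← h.rb, ← h'.la, Matrix.mul_assoc, ← Matrix.mul_assoc (E S), E_disj hS]; simp
  have a4 : y.b * x.a = 0 := by
    rw [← h'.rb, ← h.la, Matrix.mul_assoc, ← Matrix.mul_assoc (E S'), E_disj hS.symm]; simp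
  refine of_mat ?_ ?_ ?_ ?_ <;> simp only [W.ad_a, W.ad_b, mul_add, add_mul]
  · rw [← h.la, ← h'.la, ← Matrix.mul_assoc, ← Matrix.mul_assoc, E_sub' Finset.subset_union_left,
      E_sub' Finset.subset_union_right]
  · rw [← h.rb, ← h'.rb, Matrix.mul_assoc, Matrix.mul_assoc, E_sub Finset.subset_union_left,
      E_sub Finset.subset_union_right]
  · rw [h.ab, h'.ab, a1, a2, E_union hS]; simp
  · rw [h.ba, h'.ba, a3, a4, E_union hT]; simp

end IsIso

@[simp] theorem gr_sw (S T : Finset (Fin r)) (x : W r) : (gr S T x).sw = gr T S x.sw := by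
  simp [gr, mul_assoc]
theorem gr_empty (T : Finset (Fin r)) (x : W r) : gr ∅ T x = e ∅ := W.ext (by simp [gr]) (by simp [gr])
theorem gr_gr (hS : S ⊆ S') (hT : T ⊆ T') (x : W r) : gr S T (gr S' T' x) = gr S T x := by
  simp only [gr, ← mul_assoc, e_sub hS]; rw [mul_assoc _ (e T'), e_sub' hT]
theorem ev_flip (t : ℕ → W r) (o : Occ r) : ev t o.flip = (ev t o).sw := by
  unfold ev Occ.flip; cases o.σ <;> simp
theorem ev_empty (t : ℕ → W r) {o : Occ r} (h : o.S = ∅) : ev t o = e ∅ := by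
  rw [ev, h, gr_empty]
theorem gr_dgl (D : Fin r → ℂˣ) : gr S T (dg D * x) = dg D * gr S T x := by
  simp only [gr, ← mul_assoc, dg_e]
theorem gr_dgr (D : Fin r → ℂˣ) : gr S T (x * dg D) = gr S T x * dg D := by
  simp only [gr, mul_assoc, dg_e]

namespace A1

section Rg
variable {R : Type*} [Ring R] {a a' b f f' g g' h : R}

theorem aux_mul (ha : a * (g + g') = a) (h1 : f * a * g' = 0) (h2 : g * b * h = 0) :
    f * (a * b) * h = 0 := by
  calc f * (a * b) * h = f * (a * (g + g') * b) * h := by rw [ha]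
    _ = f * a * (g * b * h) + f * a * g' * b * h := by noncomm_ring
    _ = 0 := by rw [h1, h2]; simp

theorem aux_gr (ha : a * (g + g') = a) (gg : g * g = g) (hz : f * a * g' * a' * h = 0) :
    f * (a * a') * h = f * a * g * (g * a' * h) := by
  calc f * (a * a') * h = f * (a * (g + g') * a') * h := by rw [ha]
    _ = f * a * g * a' * h + f * a * g' * a' * h := by noncomm_ring
    _ = f * a * (g * g) * a' * h := by rw [hz, gg, add_zero]
    _ = _ := by noncomm_ring

theorem aux_iso (hab : a * b = f + f') (ha : a * (g + g') = a) (ff : f * f = f) (ff' : f * f' = 0)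
    (gg : g * g = g) (hz : f * a * g' * b * f = 0) : f * a * g * (g * b * f) = f := by
  rw [← aux_gr ha gg hz, hab, mul_add, ff, ff', add_zero, ff]

theorem aux_r (h2 : g * b * h = 0) : f * a * g * b * h = 0 := by
  calc f * a * g * b * h = f * a * (g * b * h) := by noncomm_ring
    _ = 0 := by rw [h2, mul_zero]

theorem aux_l (h2 : f * a * g = 0) : f * a * g * b * h = 0 := by rw [h2]; simp

end Rg

theorem idem_zero {N : Mat r} (h : N * N = N) (ht : N.trace = 0) : N = 0 := by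
  have h1 : IsIdempotentElem (Matrix.toLin' N) := by
    unfold IsIdempotentElem
    rw [Module.End.mul_eq_comp, ← Matrix.toLin'_mul, h]
  have h2 := LinearMap.IsIdempotentElem.eq_zero_of_trace_eq_zero h1
    (by rw [Matrix.trace_toLin'_eq, ht])
  exact (LinearEquiv.map_eq_zero_iff _).1 h2

theorem iso_gr (h3 : E S * x.a * E T * (E T * x.b * E S) = E S)
    (h4 : E T * x.b * E S * (E S * x.a * E T) = E T) : IsIso S T (gr S T x) := by
  refine IsIso.of_mat ?_ ?_ ?_ ?_ <;> simp only [gr, W.mul_a, W.mul_b, e_a, e_b]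
  · simp only [← Matrix.mul_assoc, E_idem]
  · simp only [Matrix.mul_assoc, E_idem]
  · rw [← Matrix.mul_assoc (E T)]; exact h3
  · rw [← Matrix.mul_assoc (E T) x.b]; exact h4

/-- coordinate embedding -/
def Jm {α : Type} (ι : α → Fin r) : Matrix α (Fin r) ℂ := fun p i => if ι p = i then 1 else 0

theorem J_mul {α : Type} [Fintype α] [DecidableEq α] {ι : α → Fin r} (h : Function.Injective ι) :
    Jm ι * (Jm ι)ᵀ = 1 := by
  ext p q
  simp [Jm, Matrix.mul_apply, Matrix.one_apply, h.eq_iff, eq_comm]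

theorem J_mul' {α : Type} [Fintype α] {ι : α → Fin r} (h : Function.Injective ι)
    (hT : ∀ i, i ∈ T ↔ ∃ p, ι p = i) : (Jm ι)ᵀ * Jm ι = E T := by
  ext i j
  simp only [Jm, Matrix.mul_apply, transpose_apply, E, diagonal_apply]
  by_cases hi : i ∈ T
  · obtain ⟨p, rfl⟩ := (hT i).1 hi
    rw [Finset.sum_eq_single p (fun q _ hq => by simp [h.eq_iff, hq]) (by simp)]
    simp [hi]
  · rw [Finset.sum_eq_zero fun q _ => by
      rw [if_neg fun e => hi ((hT i).2 ⟨q, e⟩), zero_mul]]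
    simp [hi]

theorem iso_of_unit (φ : S ≃ T) (M : Matrix S S ℂ) (hM : IsUnit M) :
    IsIso S T ⟨(Jm (Subtype.val : S → Fin r))ᵀ * M * Jm (fun q : S => (φ q).val),
      (Jm fun q : S => (φ q).val)ᵀ * (M⁻¹ : Matrix S S ℂ) * Jm (Subtype.val : S → Fin r)⟩ := by
  have i1 : Function.Injective (Subtype.val : S → Fin r) := Subtype.val_injective
  have i2 : Function.Injective fun q : S => (φ q).val := Subtype.val_injective.comp φ.injective
  have a1 := J_mul i1
  have a2 := J_mul i2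
  have b1 := J_mul' (T := S) i1 (by simp)
  have b2 := J_mul' (T := T) i2 fun i => ⟨fun hi => ⟨φ.symm ⟨i, hi⟩, by simp⟩,
    fun ⟨p, hp⟩ => hp ▸ (φ p).2⟩
  have hd := (Matrix.isUnit_iff_isUnit_det M).1 hM
  refine IsIso.of_mat ?_ ?_ ?_ ?_
  · simp only [← b1, Matrix.mul_assoc]
    rw [← Matrix.mul_assoc (Jm Subtype.val), a1, Matrix.one_mul]
  · simp only [← b1, Matrix.mul_assoc]
    rw [← Matrix.mul_assoc (Jm Subtype.val), a1, Matrix.one_mul]
  · simp only [Matrix.mul_assoc]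
    rw [← Matrix.mul_assoc (Jm fun q => (φ q).val), a2, Matrix.one_mul, ← Matrix.mul_assoc M,
      Matrix.mul_nonsing_inv _ hd, Matrix.one_mul, b1]
  · simp only [Matrix.mul_assoc]
    rw [← Matrix.mul_assoc (Jm Subtype.val), a1, Matrix.one_mul, ← Matrix.mul_assoc M⁻¹,
      Matrix.nonsing_inv_mul _ hd, Matrix.one_mul, b2]

theorem dga (D : Fin r → ℂˣ) (S : Finset (Fin r)) : (dg D).a * E S = E S * (dg D).a :=
  congrArg W.a (dg_e D S)

theorem dgb (D : Fin r → ℂˣ) (S : Finset (Fin r)) : E S * (dg D).b = (dg D).b * E S :=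
  congrArg W.b (dg_e D S)

end A1

open A1

namespace Tri

theorem sw (h : Tri F G x) : Tri G F x.sw := ⟨h.2, h.1⟩
theorem id (h : Disjoint F.1 F.2) (S : Finset (Fin r)) : Tri F F (e S) := by
  constructor <;> simp only [e_a, e_b, E_mul] <;>
    rw [Finset.inter_right_comm, Finset.disjoint_iff_inter_eq_empty.1 h] <;> simp
theorem dgl (h : Tri F G x) (D : Fin r → ℂˣ) : Tri F G (dg D * x) := by
  constructor
  · rw [W.mul_a, ← Matrix.mul_assoc, ← dga, Matrix.mul_assoc, Matrix.mul_assoc,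
      ← Matrix.mul_assoc (E F.1), h.1, Matrix.mul_zero]
  · rw [W.mul_b, Matrix.mul_assoc, Matrix.mul_assoc, ← dgb, ← Matrix.mul_assoc,
      ← Matrix.mul_assoc, h.2, Matrix.zero_mul]
theorem dgr (h : Tri F G x) (D : Fin r → ℂˣ) : Tri F G (x * dg D) := by
  have := (h.sw.dgl D⁻¹).sw
  rwa [W.sw_mul, W.sw_sw, dg_sw, inv_inv] at this
theorem mul (h : Tri F G x) (h' : Tri G H y) (hx : IsIso F.s G.s x) (hy : IsIso G.s H.s y)
    (hG : Disjoint G.1 G.2) : Tri F H (x * y) :=
  ⟨aux_mul (by rw [← E_union hG]; exact hx.ra) h.1 h'.1,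
    aux_mul (by rw [← E_union hG]; exact hy.rb) h'.2 h.2⟩
/-- the graded pieces of a flag preserving isomorphism are isomorphisms -/
theorem iso (h : Tri F G x) (hx : IsIso F.s G.s x) (hF : Disjoint F.1 F.2) (hG : Disjoint G.1 G.2)
    (b : Bool) : IsIso (F.pt b) (G.pt b) (gr (F.pt b) (G.pt b) x) := by
  have e1 : x.a * x.b = E F.1 + E F.2 := by rw [← E_union hF]; exact hx.ab
  have e2 : x.b * x.a = E G.1 + E G.2 := by rw [← E_union hG]; exact hx.ba
  have e3 : x.a * (E G.1 + E G.2) = x.a := by rw [← E_union hG]; exact hx.ra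
  have e4 : x.b * (E F.1 + E F.2) = x.b := by rw [← E_union hF]; exact hx.rb
  cases b
  · exact iso_gr (aux_iso e1 e3 (E_idem _) (E_disj hF) (E_idem _) (aux_l h.1))
      (aux_iso e2 e4 (E_idem _) (E_disj hG) (E_idem _) (aux_l h.2))
  · rw [add_comm] at e1 e2 e3 e4
    exact iso_gr (aux_iso e1 e3 (E_idem _) (E_disj hF.symm) (E_idem _) (aux_r h.2))
      (aux_iso e2 e4 (E_idem _) (E_disj hG.symm) (E_idem _) (aux_r h.1))
theorem gr_mul (h : Tri F G x) (h' : Tri G H y) (hx : IsIso F.s G.s x) (hy : IsIso G.s H.s y)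
    (hG : Disjoint G.1 G.2) (b : Bool) :
    gr (F.pt b) (H.pt b) (x * y) = gr (F.pt b) (G.pt b) x * gr (G.pt b) (H.pt b) y := by
  have e3 : x.a * (E G.1 + E G.2) = x.a := by rw [← E_union hG]; exact hx.ra
  have e4 : y.b * (E G.1 + E G.2) = y.b := by rw [← E_union hG]; exact hy.rb
  cases b
  · refine W.ext (aux_gr e3 (E_idem _) (aux_l h.1)) ?_
    have := aux_gr (a' := x.b) (h := E F.1) e4 (E_idem _) (aux_l h'.2)
    simpa only [gr, W.mul_b, e_b, Matrix.mul_assoc, Fl.pt_false] using this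
  · rw [add_comm] at e3 e4
    refine W.ext (aux_gr e3 (E_idem _) (aux_r h'.1)) ?_
    have := aux_gr (f := E H.2) e4 (E_idem _) (aux_r h.2)
    simpa only [gr, W.mul_b, e_b, Matrix.mul_assoc, Fl.pt_true] using this
theorem ad (h : IsIso F.1 G.1 x) (h' : IsIso F.2 G.2 y) (hF : Disjoint F.1 F.2)
    (hG : Disjoint G.1 G.2) :
    Tri F G (x.ad y) ∧ gr F.1 G.1 (x.ad y) = x ∧ gr F.2 G.2 (x.ad y) = y := by
  have a1 : x.a * E G.2 = 0 := by rw [← h.ra, Matrix.mul_assoc, E_disj hG, Matrix.mul_zero]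
  have a2 : E F.1 * y.a = 0 := by rw [← h'.la, ← Matrix.mul_assoc, E_disj hF, Matrix.zero_mul]
  have a3 : x.b * E F.2 = 0 := by rw [← h.rb, Matrix.mul_assoc, E_disj hF, Matrix.mul_zero]
  have a4 : E G.1 * y.b = 0 := by rw [← h'.lb, ← Matrix.mul_assoc, E_disj hG, Matrix.zero_mul]
  refine ⟨⟨?_, ?_⟩, W.ext ?_ ?_, W.ext ?_ ?_⟩ <;>
    simp only [gr, W.mul_a, W.mul_b, e_a, e_b, W.ad_a, W.ad_b, mul_add, add_mul]
  · rw [a2, Matrix.mul_assoc, a1]; simp
  · rw [a4, Matrix.mul_assoc, a3]; simp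
  · rw [a2, h.la, h.ra]; simp
  · rw [h.rb, h.lb, ← Matrix.mul_assoc, a4]; simp
  · rw [Matrix.mul_assoc, a1, h'.la, h'.ra]; simp
  · rw [a3, h'.rb, h'.lb]; simp
/-- one of the two conditions follows from the other one by counting -/
theorem of_card (hx : IsIso F.s G.s x) (hF : Disjoint F.1 F.2) (hG : Disjoint G.1 G.2)
    (hc : F.1.card = G.1.card) (h : E F.1 * x.a * E G.2 = 0) : Tri F G x := by
  have e1 : x.a * x.b = E F.1 + E F.2 := by rw [← E_union hF]; exact hx.ab
  have e3 : x.a * (E G.1 + E G.2) = x.a := by rw [← E_union hG]; exact hx.ra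
  have f1 : E F.1 * (x.a * x.b) = E F.1 := by rw [e1, mul_add, E_idem, E_disj hF, add_zero]
  obtain ⟨p, hp⟩ : ∃ p, p = x.b * E F.1 * x.a := ⟨_, rfl⟩
  have p1 : p * p = p := by
    calc p * p = x.b * (E F.1 * (x.a * x.b) * E F.1) * x.a := by
          rw [hp]; simp only [Matrix.mul_assoc]
      _ = p := by rw [f1, E_idem, hp]
  have p2 : p * E G.1 = p := by
    calc p * E G.1 = x.b * (E F.1 * x.a * E G.1 + E F.1 * x.a * E G.2) := by
          rw [h, add_zero, hp]; simp only [Matrix.mul_assoc]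
      _ = p := by rw [← mul_add, Matrix.mul_assoc, e3, hp, Matrix.mul_assoc]
  have p3 : p.trace = F.1.card := by
    rw [hp, Matrix.mul_assoc, trace_mul_comm, Matrix.mul_assoc, f1, E_trace]
  have p4 : E G.1 - E G.1 * p = 0 := by
    refine idem_zero ?_ ?_
    · calc (E G.1 - E G.1 * p) * (E G.1 - E G.1 * p) = E G.1 * E G.1 - E G.1 * E G.1 * p -
            E G.1 * (p * E G.1) + E G.1 * (p * E G.1 * p) := by noncomm_ring
        _ = _ := by rw [E_idem, p2, p1]; abel
    · rw [trace_sub, trace_mul_comm, p2, p3, E_trace, hc, sub_self]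
  refine ⟨h, ?_⟩
  calc E G.1 * x.b * E F.2 = E G.1 * p * x.b * E F.2 := by rw [← sub_eq_zero.1 p4]
    _ = E G.1 * x.b * (E F.1 * (x.a * x.b) * E F.2) := by rw [hp]; simp only [Matrix.mul_assoc]
    _ = 0 := by rw [f1, E_disj hF, Matrix.mul_zero]

end Tri

theorem exists_iso (h : S.card = T.card) : ∃ x : W r, IsIso S T x :=
  ⟨_, iso_of_unit (Finset.equivOfCardEq h) 1 isUnit_one⟩

/-- a basis of the coordinate space on `T`, indexed by `S` -/
theorem exists_iso_of_li (v : Fin r → Fin r → ℂ) (h0 : ∀ p ∈ S, ∀ j, j ∉ T → v p j = 0)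
    (hv : LinearIndepOn ℂ v (S : Set (Fin r))) (hc : S.card = T.card) :
    ∃ x : W r, IsIso S T x ∧ ∀ p ∈ S, x.a p = v p := by
  have φ : S ≃ T := Finset.equivOfCardEq hc
  have hv' : LinearIndependent ℂ fun p : S => v p := hv
  have hM : IsUnit (Matrix.of fun p q : S => v p (φ q)) := by
    rw [← Matrix.linearIndependent_rows_iff_isUnit, Fintype.linearIndependent_iff]
    intro c hc0
    refine Fintype.linearIndependent_iff.1 hv' c (funext fun j => ?_)
    by_cases hj : j ∈ T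
    · have := congrFun hc0 (φ.symm ⟨j, hj⟩)
      simpa [Finset.sum_apply] using this
    · rw [Finset.sum_apply]
      exact Finset.sum_eq_zero fun p _ => by simp [h0 p p.2 j hj]
  refine ⟨_, iso_of_unit φ _ hM, fun p hp => funext fun j => ?_⟩
  have e1 : ∀ q, ((Jm (Subtype.val : S → Fin r))ᵀ * Matrix.of fun p q : S => v p (φ q)) p q =
      v p (φ q) := fun q => by
    rw [Matrix.mul_apply, Finset.sum_eq_single ⟨p, hp⟩ (fun c _ hc => by
      rw [transpose_apply, Jm, if_neg fun e => hc (Subtype.ext e), zero_mul]) (by simp)]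
    simp [Jm]
  dsimp only
  rw [Matrix.mul_apply]
  simp only [e1]
  by_cases hj : j ∈ T
  · rw [Finset.sum_eq_single (φ.symm ⟨j, hj⟩) (fun c _ hc => by
      rw [Jm, if_neg fun e => hc (φ.injective (by simpa using Subtype.ext e)), mul_zero]) (by simp)]
    simp [Jm]
  · rw [h0 p hp j hj]
    exact Finset.sum_eq_zero fun c _ => by
      rw [Jm, if_neg fun e : (φ c).val = j => hj (e ▸ (φ c).2), mul_zero]

theorem Full.sets {x : Lt r} {o : Occ r} (h : Full x o) : x.src.s = o.S ∧ x.tgt.s = o.T := by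
  rcases h with ⟨rfl, h1, h2⟩ | ⟨rfl, h1, h2⟩ <;> simp [Lt.src, Lt.tgt, Fl.s, h1, h2]

theorem Full.ok {x : Lt r} {o : Occ r} (h : Full x o) (u : Pt r) :
    x.ok u ↔ IsIso o.S o.T (u.1 x.i) ∧ u.1 x.i = ev u.2 o := by
  unfold Lt.ok
  rw [h.sets.1, h.sets.2]
  refine and_congr_right fun hi => ?_
  rcases h with ⟨rfl, h1, h2⟩ | ⟨rfl, h1, h2⟩
  · rw [hi.gr, ev_empty _ h1, h1, gr_empty]
    simp [Tri, Lt.src, Lt.tgt, h1, h2]
  · rw [hi.gr, ev_empty _ h1, h1, gr_empty]
    simp [Tri, Lt.src, Lt.tgt, h1, h2]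

theorem full_fl (i : ℕ) (o : Occ r) : Full (fl i o) o := Or.inl ⟨rfl, rfl, rfl⟩

theorem Lt.ok.iso {x : Lt r} {u : Pt r} (h : x.ok u) (hw : x.wf) (b : Bool) :
    IsIso (x.pc b).S (x.pc b).T (ev u.2 (x.pc b)) ∧
      gr (x.pc b).S (x.pc b).T (u.1 x.i) = ev u.2 (x.pc b) := by
  have h1 := h.2.1.iso h.1 hw.1 hw.2.1 b
  cases b
  · exact ⟨h.2.2.1 ▸ h1, h.2.2.1⟩
  · exact ⟨h.2.2.2 ▸ h1, h.2.2.2⟩

end Vale.Agent.P002S
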