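import Vale.Agent.P002S.A1

/-! Words, paths, labels, locality. -/

namespace Vale.Agent.P002S

open Matrix Vale.Agent.P002 Function

variable {r : ℕ} {O : Subring ℂ} {A B : Finset (Fin r)} {F G F' G' : Fl r} {w w' : List (It r)}
  {ps ps' : List (Pa r)} {P R : Sy r} {u u' : Pt r} {y y' : ℕ → W r} {s : Sh r}

section simps
variable (y w w' ps ps' u B P R s)
@[simp] theorem wv_nil : wv y ([] : List (It r)) = 1 := rfl
@[simp] theorem wv_c (D) : wv y (.c D :: w) = dg D * wv y w := by simp [wv, It.v]
@[simp] theorem wv_l (x) : wv y (.l x :: w) = y x.i * wv y w := by simp [wv, It.v]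
@[simp] theorem wv_append : wv y (w ++ w') = wv y w * wv y w' := by simp [wv]
@[simp] theorem pv_nil : pv y ([] : List (Pa r)) = 1 := rfl
@[simp] theorem pv_cons (p) : pv y (p :: ps) = p.v y * pv y ps := by simp [pv]
@[simp] theorem pv_append : pv y (ps ++ ps') = pv y ps * pv y ps' := by simp [pv]
@[simp] theorem wok_nil : wok u [] := by simp [wok]
@[simp] theorem wok_c (D) : wok u (.c D :: w) ↔ wok u w := by simp [wok, It.ok]
@[simp] theorem wok_l (x) : wok u (.l x :: w) ↔ x.ok u ∧ wok u w := by simp [wok, It.ok]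
@[simp] theorem wok_append : wok u (w ++ w') ↔ wok u w ∧ wok u w' := by
  simp [wok, or_imp, forall_and]
@[simp] theorem pok_nil : pok u B [] := by simp [pok]
@[simp] theorem pok_cons (p) : pok u B (p :: ps) ↔ p.ok u B ∧ pok u B ps := by simp [pok]
@[simp] theorem pok_append : pok u B (ps ++ ps') ↔ pok u B ps ∧ pok u B ps' := by
  simp [pok, or_imp, forall_and]
@[simp] theorem pwf_nil : pwf O B [] := by simp [pwf]
@[simp] theorem pwf_cons (p) : pwf O B (p :: ps) ↔ p.wf O B ∧ pwf O B ps := by simp [pwf]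
@[simp] theorem pwf_append : pwf O B (ps ++ ps') ↔ pwf O B ps ∧ pwf O B ps' := by
  simp [pwf, or_imp, forall_and]
@[simp] theorem sol_nil : u ∈ Sol ([] : Sy r) := by simp [Sol]
@[simp] theorem sol_cons : u ∈ Sol (s :: R) ↔ s.ok u ∧ u ∈ Sol R := by simp [Sol]
@[simp] theorem sol_append : u ∈ Sol (P ++ R) ↔ u ∈ Sol P ∧ u ∈ Sol R := by
  simp [Sol, or_imp, forall_and]
@[simp] theorem wown_nil : wown ([] : List (It r)) = 0 := rfl
@[simp] theorem wown_c (D) : wown (.c D :: w) = wown w := by simp [wown, It.own]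
@[simp] theorem wown_l (x) : wown (.l x :: w) = {x.i} + wown w := by simp [wown, It.own]
@[simp] theorem wown_append : wown (w ++ w') = wown w + wown w' := by simp [wown]
@[simp] theorem woc_nil : woc ([] : List (It r)) = 0 := rfl
@[simp] theorem woc_c (D) : woc (.c D :: w) = woc w := by simp [woc, It.oc]
@[simp] theorem woc_l (x) : woc (.l x :: w) = {x.p} + {x.q} + woc w := by
  simp only [woc, It.oc, List.map_cons, List.sum_cons]
@[simp] theorem woc_append : woc (w ++ w') = woc w + woc w' := by simp [woc]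
@[simp] theorem pown_nil : pown ([] : List (Pa r)) = 0 := rfl
@[simp] theorem pown_cons (p) : pown (p :: ps) = p.own + pown ps := by simp [pown]
@[simp] theorem pown_append : pown (ps ++ ps') = pown ps + pown ps' := by simp [pown]
@[simp] theorem poc_nil : poc ([] : List (Pa r)) = 0 := rfl
@[simp] theorem poc_cons (p) : poc (p :: ps) = p.oc + poc ps := by simp [poc]
@[simp] theorem poc_append : poc (ps ++ ps') = poc ps + poc ps' := by simp [poc]
@[simp] theorem own_nil : own ([] : Sy r) = 0 := rfl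
@[simp] theorem own_cons : own (s :: R) = pown s.ps + own R := by simp [own]
@[simp] theorem own_append : own (P ++ R) = own P + own R := by simp [own]
@[simp] theorem oc_nil : oc ([] : Sy r) = 0 := rfl
@[simp] theorem oc_cons : oc (s :: R) = poc s.ps + oc R := by simp [oc]
@[simp] theorem oc_append : oc (P ++ R) = oc P + oc R := by simp [oc]
@[simp] theorem wwt_nil : wwt ([] : List (It r)) = 0 := rfl
@[simp] theorem wwt_c (D) : wwt (.c D :: w) = wwt w := by simp [wwt, It.wt]
@[simp] theorem wwt_l (x) : wwt (.l x :: w) = x.wt + wwt w := by simp [wwt, It.wt]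
@[simp] theorem wwt_append : wwt (w ++ w') = wwt w + wwt w' := by simp [wwt]
@[simp] theorem pwt_nil : pwt ([] : List (Pa r)) = 0 := rfl
@[simp] theorem pwt_cons (p) : pwt (p :: ps) = p.wt + pwt ps := by simp [pwt]
@[simp] theorem pwt_append : pwt (ps ++ ps') = pwt ps + pwt ps' := by simp [pwt]
@[simp] theorem ms_nil : ms ([] : Sy r) = 0 := rfl
@[simp] theorem ms_cons : ms (s :: R) = s.wt + ms R := by simp [ms]
@[simp] theorem ms_append : ms (P ++ R) = ms P + ms R := by simp [ms]
end simps

@[simp] theorem fs_nil (G : Fl r) : fs [] G = G := rfl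
@[simp] theorem fs_c (D) (w) (G : Fl r) : fs (.c D :: w) G = fs w G := rfl
@[simp] theorem fs_l (x) (w) (G : Fl r) : fs (.l x :: w) G = x.src := rfl
@[simp] theorem ls_nil (F : Fl r) : ls [] F = F := rfl
@[simp] theorem ls_c (D) (w) (F : Fl r) : ls (.c D :: w) F = ls w F := rfl
@[simp] theorem ls_l (x) (w) (F : Fl r) : ls (.l x :: w) F = ls w x.tgt := rfl
@[simp] theorem path_nil : Path O F [] G ↔ F.s = G.s := Iff.rfl
@[simp] theorem path_c (D) : Path O F (.c D :: w) G ↔ Cst O D F (fs w G) ∧ Path O F w G := Iff.rfl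
@[simp] theorem path_l (x) :
    Path O F (.l x :: w) G ↔ F.s = x.src.s ∧ x.wf ∧ Path O x.tgt w G := Iff.rfl

@[simp] theorem fs_append (w w' : List (It r)) (G : Fl r) : fs (w ++ w') G = fs w (fs w' G) := by
  induction w with
  | nil => rfl
  | cons a w ih => cases a <;> simp [ih]

@[simp] theorem ls_append (w w' : List (It r)) (F : Fl r) : ls (w ++ w') F = ls w' (ls w F) := by
  induction w generalizing F with
  | nil => rfl
  | cons a w ih => cases a <;> simp [ih]

theorem Un.one : Un O 1 := ⟨by simp, by simp⟩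
theorem Un.mul {a b : ℂˣ} (ha : Un O a) (hb : Un O b) : Un O (a * b) :=
  ⟨by simpa using mul_mem ha.1 hb.1, by simpa [mul_comm] using mul_mem ha.2 hb.2⟩
theorem Un.inv {a : ℂˣ} (ha : Un O a) : Un O a⁻¹ := ⟨ha.2, by simpa using ha.1⟩

theorem Path.fst (h : Path O F w G) : F.s = (fs w G).s := by
  induction w with
  | nil => exact h
  | cons a w ih =>
    cases a with
    | c D => exact ih h.2
    | l x => exact h.1
theorem Path.lst (h : Path O F w G) : (ls w F).s = G.s := by
  induction w generalizing F with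
  | nil => exact h
  | cons a w ih =>
    cases a with
    | c D => exact ih h.2
    | l x => exact ih h.2.2
theorem path_append :
    Path O F (w ++ w') G ↔ Path O F w (fs w' G) ∧ Path O (ls w F) w' G := by
  induction w generalizing F with
  | nil => exact ⟨fun h => ⟨h.fst, h⟩, And.right⟩
  | cons a w ih => cases a <;> simp [ih, and_assoc]
theorem Lt.wf.card {x : Lt r} (h : x.wf) : x.src.s.card = x.tgt.s.card := by
  simp only [Lt.src, Lt.tgt, Fl.s]
  rw [Finset.card_union_of_disjoint h.1, Finset.card_union_of_disjoint h.2.1, h.2.2.1, h.2.2.2]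
theorem Path.card (h : Path O F w G) : F.s.card = G.s.card := by
  induction w generalizing F with
  | nil => exact congrArg Finset.card h
  | cons a w ih =>
    cases a with
    | c D => exact ih h.2
    | l x => rw [h.1, h.2.1.card, ih h.2.2]
theorem Path.wf (h : Path O F w G) {x : Lt r} (hx : .l x ∈ w) : x.wf := by
  induction w generalizing F with
  | nil => cases hx
  | cons a w ih =>
    cases a with
    | c D => exact ih h.2 (by simpa using hx)
    | l z =>
      rcases List.mem_cons.1 hx with e | e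
      · cases e; exact h.2.1
      · exact ih h.2.2 e
theorem Path.card_src (h : Path O F w G) {x : Lt r} (hx : .l x ∈ w) :
    x.src.s.card = F.s.card := by
  induction w generalizing F with
  | nil => cases hx
  | cons a w ih =>
    cases a with
    | c D => exact ih h.2 (by simpa using hx)
    | l z =>
      rcases List.mem_cons.1 hx with e | e
      · cases e; rw [h.1]
      · rw [ih h.2.2 e, h.1, h.2.1.card]
theorem Path.un (h : Path O F w G) {D} (hx : .c D ∈ w) (i) : Un O (D i) := by
  induction w generalizing F with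
  | nil => cases hx
  | cons a w ih =>
    cases a with
    | c D' =>
      rcases List.mem_cons.1 hx with e | e
      · cases e; exact h.1.1 i
      · exact ih h.2 e
    | l z => exact ih h.2.2 (by simpa using hx)

/-- `F'` has the same set as `F` and its parts are contained in parts of `F` -/
def Fine (F F' : Fl r) : Prop :=
  F'.s = F.s ∧ ∀ i ∈ F.s, ∀ j ∈ F.s, (i ∈ F'.1 ↔ j ∈ F'.1) → (i ∈ F.1 ↔ j ∈ F.1)

theorem Fine.refl (F : Fl r) : Fine F F := ⟨rfl, fun _ _ _ _ h => h⟩
theorem Fine.of_triv (h : F.1 = ∅ ∨ F.2 = ∅) (hs : F'.s = F.s) : Fine F F' := by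
  refine ⟨hs, fun i hi j hj _ => ?_⟩
  rcases h with h | h
  · simp [h]
  · simp only [Fl.s, h, Finset.union_empty] at hi hj
    exact iff_of_true hi hj
theorem Fine.fs (hG : Fine G G') (w : List (It r)) : Fine (fs w G) (fs w G') := by
  induction w with
  | nil => exact hG
  | cons a w ih =>
    cases a with
    | c D => exact ih
    | l x => exact Fine.refl _
theorem Path.mono (h : Path O F w G) (hF : Fine F F') (hG : Fine G G') : Path O F' w G' := by
  induction w generalizing F F' with
  | nil => exact hF.1.trans (Eq.trans h hG.1.symm)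
  | cons a w ih =>
    cases a with
    | c D =>
      refine ⟨⟨h.1.1, fun i hi j hj h1 h2 => ?_⟩, ih h.2 hF⟩
      rw [hF.1] at hi hj
      exact h.1.2 i hi j hj (hF.2 i hi j hj h1)
        ((hG.fs w).2 i (h.2.fst ▸ hi) j (h.2.fst ▸ hj) h2)
    | l x => exact ⟨hF.1.trans h.1, h.2.1, ih h.2.2 (Fine.refl _)⟩
theorem Tight.path (ht : Tight w) (h : Path O F w G) (hF : F'.s = F.s) (hG : G'.s = G.s) :
    Path O F' w G' := by
  obtain ⟨⟨a, X, h1⟩, X', b, h2⟩ := ht
  have h3 : Path O F w G' := by
    subst h2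
    rw [path_append] at h ⊢
    exact ⟨h.1, h.2.1, h.2.2.1, Eq.trans h.2.2.2 hG.symm⟩
  subst h1
  exact ⟨hF.trans h3.1, h3.2⟩
theorem Tight.fs (ht : Tight w) (G G' : Fl r) : fs w G = fs w G' := by
  obtain ⟨⟨a, X, rfl⟩, -⟩ := ht
  rfl
theorem Tight.ls (ht : Tight w) (F F' : Fl r) : ls w F = ls w F' := by
  obtain ⟨⟨a, X, rfl⟩, -⟩ := ht
  rfl
theorem fs_fs (w : List (It r)) (G : Fl r) : fs w (fs w G) = fs w G := by
  have key : ∀ (v : List (It r)) (G' : Fl r), fs v G' = G' ∨ ∀ H, fs v H = fs v G' := by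
    intro v G'
    induction v with
    | nil => exact Or.inl rfl
    | cons a v ih =>
      cases a with
      | c D => exact ih
      | l x => exact Or.inr fun _ => rfl
  rcases key w G with h | h
  · rw [h, h]
  · exact h _
theorem Cyc.fst (h : Cyc O A w) : (fs w (A, ∅)).s = A := by
  rw [← fs_fs, ← h.2.fst, h.1]
/-- a path between trivial flags is a cycle -/
theorem Path.cyc (h : Path O F w G) (hF : F.1 = ∅ ∨ F.2 = ∅) (hG : G.1 = ∅ ∨ G.2 = ∅)
    (h1 : F.s = A) (h2 : G.s = A) : Cyc O A w := by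
  have h' : Path O (A, ∅) w (A, ∅) :=
    h.mono (Fine.of_triv hF (by simp [h1])) (Fine.of_triv hG (by simp [h2]))
  have e1 : (ls w (A, ∅)).s = A := h'.lst.trans (Fl.s_triv A)
  have e2 : (fs w (A, ∅)).s = A := h'.fst.symm.trans (Fl.s_triv A)
  exact ⟨e1, h.mono (Fine.of_triv hF (e1.trans h1.symm)) (Fine.of_triv hG (e2.trans h2.symm))⟩
theorem AllC.fs (h : AllC w) (G : Fl r) : fs w G = G := by
  induction w with
  | nil => rfl
  | cons a w ih =>
    obtain ⟨D, rfl⟩ := h a List.mem_cons_self
    exact ih fun b hb => h b (List.mem_cons_of_mem _ hb)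
theorem AllC.ls (h : AllC w) (F : Fl r) : ls w F = F := by
  induction w with
  | nil => rfl
  | cons a w ih =>
    obtain ⟨D, rfl⟩ := h a List.mem_cons_self
    exact ih fun b hb => h b (List.mem_cons_of_mem _ hb)
theorem AllC.wv (h : AllC w) : ∃ D, (∀ y, wv y w = dg D) ∧ wown w = 0 ∧ woc w = 0 ∧ wwt w = 0 ∧
    (∀ u, wok u w) ∧ ∀ (O : Subring ℂ) F G, Path O F w G → Path O F [.c D] G := by
  induction w with
  | nil =>
    exact ⟨1, fun _ => dg_one.symm, rfl, rfl, rfl, wok_nil, fun O F G h =>
      ⟨⟨fun _ => Un.one, fun _ _ _ _ _ _ => rfl⟩, h⟩⟩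
  | cons a w ih =>
    obtain ⟨D₀, rfl⟩ := h a List.mem_cons_self
    have h' : AllC w := fun b hb => h b (List.mem_cons_of_mem _ hb)
    obtain ⟨D, h1, h2, h3, h4, h5, h6⟩ := ih h'
    refine ⟨D₀ * D, fun y => by rw [wv_c, h1, dg_mul], by simp [h2], by simp [h3], by simp [h4],
      fun u => by simp [h5], fun O F G hp => ?_⟩
    obtain ⟨k1, k2⟩ := h6 O F G hp.2
    have k3 := hp.1
    rw [h'.fs] at k3
    exact ⟨⟨fun i => (k3.1 i).mul (k1.1 i), fun i hi j hj a b => by
      rw [Pi.mul_apply, Pi.mul_apply, k3.2 i hi j hj a b, k1.2 i hi j hj a b]⟩, k2⟩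

end Vale.Agent.P002S
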