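import Vale.Agent.P002S.A2

/-! Values of words; locality. -/

namespace Vale.Agent.P002S

open Matrix Vale.Agent.P002 Function

variable {r : ℕ} {O : Subring ℂ} {A B : Finset (Fin r)} {F G F' G' : Fl r} {w w' : List (It r)}
  {ps ps' : List (Pa r)} {P R : Sy r} {u u' : Pt r} {y y' : ℕ → W r} {s : Sh r}

theorem A2b.path (h : Path O F w G) (hu : wok u w) :
    IsIso F.s G.s (e F.s * wv u.1 w) ∧ e F.s * wv u.1 w = wv u.1 w * e G.s := by
  induction w generalizing F with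
  | nil =>
    rw [wv_nil, mul_one, one_mul, ← show F.s = G.s from h]
    exact ⟨IsIso.id _, rfl⟩
  | cons a w ih =>
    cases a with
    | c D =>
      obtain ⟨h1, h2⟩ := ih h.2 ((wok_c ..).1 hu)
      rw [wv_c, ← mul_assoc, ← dg_e, mul_assoc]
      exact ⟨h1.dgl D, by rw [h2, mul_assoc]⟩
    | l x =>
      obtain ⟨hx, hw⟩ := (wok_l ..).1 hu
      obtain ⟨h1, h2⟩ := ih h.2.2 hw
      have h3 := hx.1.mul h1
      rw [hx.1.rc] at h3
      rw [wv_l, h.1, hx.1.lc]
      exact ⟨h3, by rw [mul_assoc, ← h2, hx.1.rc]⟩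

theorem Path.iso (h : Path O F w G) (hu : wok u w) : IsIso F.s G.s (e F.s * wv u.1 w) :=
  (A2b.path h hu).1
theorem Path.comm (h : Path O F w G) (hu : wok u w) : e F.s * wv u.1 w = wv u.1 w * e G.s :=
  (A2b.path h hu).2
theorem Cyc.iso (h : Cyc O A w) (hu : wok u w) : IsIso A A (e A * wv u.1 w) := by
  have h1 := h.2.iso hu
  rwa [h.1, h.fst] at h1
theorem Pa.ok.iso {p : Pa r} (hu : p.ok u B) (h : p.wf O B) : IsIso B B (p.v u.1) := by
  cases p with
  | hd a b => exact ((hu.1.mul hu.2).mul hu.1.sw).mul hu.2.sw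
  | cy k A w =>
    have h1 := hu.1.mul (h.2.iso hu.2)
    rw [hu.1.rc] at h1
    exact h1.mul hu.1.sw
  | pu k i l => exact (hu.1.mul hu.2.1).mul hu.1.sw

theorem A2b.pok (hu : pok u B ps) (h : pwf O B ps) :
    IsIso B B (e B * pv u.1 ps) ∧ e B * pv u.1 ps = pv u.1 ps * e B := by
  induction ps with
  | nil =>
    rw [pv_nil, mul_one, one_mul]
    exact ⟨IsIso.id _, rfl⟩
  | cons p ps ih =>
    rw [pok_cons] at hu
    rw [pwf_cons] at h
    obtain ⟨h1, h2⟩ := ih hu.2 h.2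
    have hx := hu.1.iso h.1
    have h3 := hx.mul h1
    rw [hx.rc] at h3
    rw [pv_cons, hx.lc]
    exact ⟨h3, by rw [mul_assoc, ← h2, hx.rc]⟩

theorem pok.iso (hu : pok u B ps) (h : pwf O B ps) : IsIso B B (e B * pv u.1 ps) :=
  (A2b.pok hu h).1
theorem pok.comm (hu : pok u B ps) (h : pwf O B ps) : e B * pv u.1 ps = pv u.1 ps * e B :=
  (A2b.pok hu h).2

/-! ### Locality -/

theorem wv_congr (h : ∀ i ∈ wown w, y i = y' i) : wv y w = wv y' w := by
  induction w with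
  | nil => rfl
  | cons a w ih =>
    cases a with
    | c D => rw [wv_c, wv_c, ih fun i hi => h i (by simpa using hi)]
    | l x => rw [wv_l, wv_l, h x.i (by simp), ih fun i hi => h i (by simp [hi])]
theorem Pa.v_congr {p : Pa r} (h : ∀ i ∈ p.own, y i = y' i) : p.v y = p.v y' := by
  cases p with
  | hd a b => simp only [Pa.v, h a (by simp [Pa.own]), h b (by simp [Pa.own])]
  | cy k A w =>
    simp only [Pa.v, h k (by simp [Pa.own]),
      wv_congr (w := w) fun i hi => h i (by simp [Pa.own, hi])]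
  | pu k i l => simp only [Pa.v, h k (by simp [Pa.own]), h i (by simp [Pa.own])]
theorem pv_congr (h : ∀ i ∈ pown ps, y i = y' i) : pv y ps = pv y' ps := by
  induction ps with
  | nil => rfl
  | cons p ps ih =>
    rw [pv_cons, pv_cons, Pa.v_congr fun i hi => h i (by simp [hi]),
      ih fun i hi => h i (by simp [hi])]
theorem ev_congr {t t' : ℕ → W r} {o : Occ r} (h : o.S.Nonempty → t o.e = t' o.e) :
    ev t o = ev t' o := by
  rcases o.S.eq_empty_or_nonempty with k | k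
  · rw [ev_empty t k, ev_empty t' k]
  · rw [ev, ev, h k]
theorem wok.congr (hu : wok u w) (h : ∀ i ∈ wown w, u.1 i = u'.1 i)
    (h' : ∀ o ∈ woc w, o.S.Nonempty → u.2 o.e = u'.2 o.e) : wok u' w := by
  induction w with
  | nil => simp
  | cons a w ih =>
    cases a with
    | c D =>
      rw [wok_c] at hu ⊢
      exact ih hu (fun i hi => h i (by simpa using hi)) fun o ho => h' o (by simpa using ho)
    | l x =>
      rw [wok_l] at hu ⊢
      refine ⟨?_, ih hu.2 (fun i hi => h i (by simp [hi])) fun o ho => h' o (by simp [ho])⟩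
      have k := hu.1
      unfold Lt.ok at k ⊢
      rwa [← h x.i (by simp), ← ev_congr (h' x.p (by simp)), ← ev_congr (h' x.q (by simp))]
theorem A2b.pa {p : Pa r} (hu : p.ok u B) (h : ∀ i ∈ p.own, u.1 i = u'.1 i)
    (h' : ∀ o ∈ p.oc, o.S.Nonempty → u.2 o.e = u'.2 o.e) : p.ok u' B := by
  cases p with
  | hd a b =>
    simp only [Pa.ok] at hu ⊢
    rwa [← h a (by simp [Pa.own]), ← h b (by simp [Pa.own])]
  | cy k A w =>
    exact ⟨h k (by simp [Pa.own]) ▸ hu.1, hu.2.congr (fun i hi => h i (by simp [Pa.own, hi])) h'⟩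
  | pu k i l =>
    simp only [Pa.ok] at hu ⊢
    rwa [← h k (by simp [Pa.own]), ← h i (by simp [Pa.own])]
theorem pok.congr (hu : pok u B ps) (h : ∀ i ∈ pown ps, u.1 i = u'.1 i)
    (h' : ∀ o ∈ poc ps, o.S.Nonempty → u.2 o.e = u'.2 o.e) : pok u' B ps := by
  induction ps with
  | nil => simp
  | cons p ps ih =>
    rw [pok_cons] at hu ⊢
    exact ⟨A2b.pa hu.1 (fun i hi => h i (by simp [hi])) fun o ho => h' o (by simp [ho]),
      ih hu.2 (fun i hi => h i (by simp [hi])) fun o ho => h' o (by simp [ho])⟩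
theorem Sh.ok.congr (hu : s.ok u) (h : ∀ i ∈ pown s.ps, u.1 i = u'.1 i)
    (h' : ∀ o ∈ poc s.ps, o.S.Nonempty → u.2 o.e = u'.2 o.e) : s.ok u' :=
  ⟨hu.1.congr h h', pv_congr h ▸ hu.2⟩
theorem sol_congr (hu : u ∈ Sol P) (h : ∀ i ∈ own P, u.1 i = u'.1 i)
    (h' : ∀ o ∈ oc P, o.S.Nonempty → u.2 o.e = u'.2 o.e) : u' ∈ Sol P := by
  induction P with
  | nil => simp
  | cons s P ih =>
    rw [sol_cons] at hu ⊢
    exact ⟨hu.1.congr (fun i hi => h i (by simp [hi])) fun o ho => h' o (by simp [ho]),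
      ih hu.2 (fun i hi => h i (by simp [hi])) fun o ho => h' o (by simp [ho])⟩

theorem exists_below (P : Sy r) : ∃ N, Below N P :=
  ⟨(own P).sum + ((oc P).map Occ.e).sum + 1, fun _ hi => Nat.lt_succ_of_le
    ((Multiset.le_sum_of_mem hi).trans (Nat.le_add_right _ _)), fun _ ho _ => Nat.lt_succ_of_le
    ((Multiset.le_sum_of_mem (Multiset.mem_map_of_mem _ ho)).trans (Nat.le_add_left _ _))⟩

theorem mem_woc {o : Occ r} : o ∈ woc w ↔ ∃ x, .l x ∈ w ∧ (o = x.p ∨ o = x.q) := by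
  induction w with
  | nil => simp
  | cons a w ih => cases a <;> simp [ih, or_and_right, exists_or, or_assoc]
theorem mem_poc {o : Occ r} : o ∈ poc ps ↔ ∃ h A w, .cy h A w ∈ ps ∧ o ∈ woc w := by
  induction ps with
  | nil => simp
  | cons p ps ih =>
    rw [poc_cons, Multiset.mem_add, ih]
    cases p with
    | cy k A w =>
      refine ⟨fun h => h.elim (fun h => ⟨k, A, w, by simp, h⟩) fun ⟨k, A, w, h1, h2⟩ =>
        ⟨k, A, w, by simp [h1], h2⟩, fun ⟨k', A', w', h1, h2⟩ => ?_⟩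
      rcases List.mem_cons.1 h1 with h1 | h1
      · cases h1
        exact Or.inl h2
      · exact Or.inr ⟨_, _, _, h1, h2⟩
    | _ => simp [Pa.oc]
theorem mem_oc {o : Occ r} : o ∈ oc P ↔ ∃ s ∈ P, o ∈ poc s.ps := by
  induction P with
  | nil => simp
  | cons s P ih => simp [ih]

theorem A2b.cy {h : ℕ} {z : ℂˣ} (hw : Cyc O A w) : (⟨B, z, [.cy h A w]⟩ : Sh r).ok u ↔
    IsIso B A (u.1 h) ∧ wok u w ∧ e A * wv u.1 w = e A * sc z := by
  simp only [Sh.ok, pok_cons, pok_nil, and_true, pv_cons, pv_nil, mul_one, Pa.ok, Pa.v, and_assoc]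
  refine and_congr_right fun k => and_congr_right fun k' => ⟨fun a => ?_, fun a => ?_⟩
  · have b := congrArg (fun t => (u.1 h).sw * t * u.1 h) a
    have c := (hw.iso k').r'
    simp only [mul_assoc, sc_comm z (u.1 h), k.lc, k.mc', k.m'] at b c
    rwa [c] at b
  · rw [← k.rc, a, k.rc, mul_assoc, sc_comm, k.lc, k.mc]

theorem disk_ok {M : ℕ} {z : ℂˣ} (hw : Cyc O A w) : (disk M A z w).ok u ↔
    IsIso A A (u.1 M) ∧ wok u w ∧ e A * wv u.1 w = e A * sc z := A2b.cy hw
theorem disk_wf {M : ℕ} {z : ℂˣ} : (disk M A z w).wf O ↔ Un O z ∧ Cyc O A w := by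
  simp [disk, Sh.wf, Pa.wf]
/-- the relation of a sheet with one cycle -/
theorem one_cy {h : ℕ} {z : ℂˣ} (hw : Cyc O A w) : (⟨B, z, [.cy h A w]⟩ : Sh r).ok u ↔
    IsIso B A (u.1 h) ∧ wok u w ∧ e A * wv u.1 w = e A * sc z := A2b.cy hw

end Vale.Agent.P002S
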