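import Vale.Agent.P002S.A2

/-! Occurrence bookkeeping. -/

namespace Vale.Agent.P002S

open Matrix Vale.Agent.P002 Function

variable {r : ℕ} {O : Subring ℂ} {K : Multiset (Occ r)} {o : Occ r}

theorem A3.nd (o : Occ r) (K : Multiset (Occ r)) :
    ((({o} + K).filter fun o => o.S.Nonempty).map fun o => (o.e, o.σ)).Nodup ↔
      (o.S.Nonempty → ∀ o' ∈ K, o'.S.Nonempty → o'.e = o.e → o'.σ ≠ o.σ) ∧
        ((K.filter fun o => o.S.Nonempty).map fun o => (o.e, o.σ)).Nodup := by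
  rw [Multiset.singleton_add]
  by_cases h : o.S.Nonempty
  · rw [Multiset.filter_cons_of_pos (p := fun o : Occ r => o.S.Nonempty) _ h, Multiset.map_cons,
      Multiset.nodup_cons]
    refine and_congr_left fun _ => ?_
    simp only [Multiset.mem_map, Multiset.mem_filter, Prod.mk.injEq, not_exists, not_and, and_imp,
      h, forall_const, ne_eq]
  · rw [Multiset.filter_cons_of_neg (p := fun o : Occ r => o.S.Nonempty) _ h]
    simp only [h, false_imp_iff, true_and]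

theorem A3.mem {a o : Occ r} {K : Multiset (Occ r)} : a ∈ {o} + K ↔ a = o ∨ a ∈ K := by
  rw [Multiset.mem_add, Multiset.mem_singleton]

theorem OcOk.zero : OcOk (0 : Multiset (Occ r)) := by simp [OcOk]
theorem ocOk_empty (h : o.S = ∅) : OcOk ({o} + K) ↔ OcOk K := by
  have h0 : ¬ o.S.Nonempty := by rw [h]; exact Finset.not_nonempty_empty
  rw [OcOk, OcOk, A3.nd]
  refine ⟨fun k => ⟨k.1.2, fun a ha hS => ?_⟩,
    fun k => ⟨⟨fun x => absurd x h0, k.1⟩, fun a ha hS => ?_⟩⟩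
  · obtain ⟨h1, h2⟩ := k.2 a (A3.mem.2 (Or.inr ha)) hS
    exact ⟨h1, (A3.mem.1 h2).resolve_left fun e => h0 (e ▸ h1)⟩
  · obtain ⟨h1, h2⟩ := k.2 a ((A3.mem.1 ha).resolve_left fun e => h0 (e ▸ hS)) hS
    exact ⟨h1, A3.mem.2 (Or.inr h2)⟩
theorem OcOk.add_pair (h : OcOk K) (hc : o.S.card = o.T.card)
    (hf : ∀ o' ∈ K, o'.S.Nonempty → o'.e ≠ o.e) : OcOk ({o} + {o.flip} + K) := by
  have hn : o.S.Nonempty ↔ o.T.Nonempty := by rw [← Finset.card_pos, ← Finset.card_pos, hc]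
  rw [add_assoc, OcOk, A3.nd, A3.nd]
  refine ⟨⟨fun _ a ha hS he => ?_, fun _ a ha hS he => absurd he (hf a ha hS), h.1⟩,
    fun a ha hS => ?_⟩
  · rcases A3.mem.1 ha with rfl | ha
    · exact Bool.not_ne_self _
    · exact absurd he (hf a ha hS)
  · rcases A3.mem.1 ha with rfl | ha
    · exact ⟨hn.1 hS, A3.mem.2 (Or.inr (A3.mem.2 (Or.inl rfl)))⟩
    rcases A3.mem.1 ha with rfl | ha
    · exact ⟨hn.2 hS, A3.mem.2 (Or.inl o.flip_flip)⟩
    · exact ⟨(h.2 a ha hS).1, A3.mem.2 (Or.inr (A3.mem.2 (Or.inr (h.2 a ha hS).2)))⟩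
/-- a multiset of positive occurrences with distinct fresh edges, together with their flips -/
theorem OcOk.add_pairs (h : OcOk K) (J : Multiset (Occ r)) (hc : ∀ o ∈ J, o.S.card = o.T.card)
    (hJ : (J.map Occ.e).Nodup) (hf : ∀ o ∈ J, ∀ o' ∈ K, o'.S.Nonempty → o'.e ≠ o.e) :
    OcOk (J + J.map Occ.flip + K) := by
  induction J using Multiset.induction_on with
  | empty => simpa using h
  | cons o J ih =>
    rw [Multiset.map_cons, Multiset.nodup_cons] at hJ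
    have e : o ::ₘ J + (o ::ₘ J).map Occ.flip + K = {o} + {o.flip} + (J + J.map Occ.flip + K) := by
      rw [Multiset.map_cons, ← Multiset.singleton_add, ← Multiset.singleton_add o.flip]
      abel
    rw [e]
    refine (ih (fun a ha => hc a (Multiset.mem_cons_of_mem ha)) hJ.2 fun a ha =>
      hf a (Multiset.mem_cons_of_mem ha)).add_pair (hc o (Multiset.mem_cons_self _ _))
      fun a ha hS he => ?_
    rcases Multiset.mem_add.1 ha with ha | ha
    · rcases Multiset.mem_add.1 ha with ha | ha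
      · exact hJ.1 (Multiset.mem_map.2 ⟨a, ha, he⟩)
      · obtain ⟨b, hb, rfl⟩ := Multiset.mem_map.1 ha
        exact hJ.1 (Multiset.mem_map.2 ⟨b, hb, he⟩)
    · exact hf o (Multiset.mem_cons_self _ _) a ha hS he
theorem OcOk.del_pair (h : OcOk ({o} + {o.flip} + K)) (hS : o.S.Nonempty) :
    OcOk K ∧ ∀ o' ∈ K, o'.S.Nonempty → o'.e ≠ o.e := by
  rw [add_assoc, OcOk, A3.nd, A3.nd] at h
  obtain ⟨⟨h1, h2, h3⟩, h4⟩ := h
  have hT := (h4 o (A3.mem.2 (Or.inl rfl)) hS).1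
  have hf : ∀ o' ∈ K, o'.S.Nonempty → o'.e ≠ o.e := fun a ha hA he =>
    h2 hT a ha hA he (Bool.eq_not_of_ne (h1 hS a (A3.mem.2 (Or.inr ha)) hA he))
  refine ⟨⟨h3, fun a ha hA => ?_⟩, hf⟩
  obtain ⟨k1, k2⟩ := h4 a (A3.mem.2 (Or.inr (A3.mem.2 (Or.inr ha)))) hA
  exact ⟨k1, (A3.mem.1 ((A3.mem.1 k2).resolve_left fun e =>
    hf a ha hA (congrArg Occ.e e :))).resolve_left fun e => hf a ha hA (congrArg Occ.e e :)⟩

end Vale.Agent.P002S
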