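import Vale.Agent.P002S.A2b

/-! Approximation; polynomial maps. -/

namespace Vale.Agent.P002S

open Matrix Vale.Agent.P002 Function

variable {r : ℕ} {O : Subring ℂ}

variable {S S' V : Set (Pt r)} {A A' U : Set ℕ} {x x' : Pt r} {f g : Pt r → W r}
  {M N : Pt r → Mat r}

namespace A4

variable {k : Pt r → ℂ}

theorem le (h : k ∈ PO O A) : k ∈ Algebra.adjoin ℂ (co A : Set (Pt r → ℂ)) := by
  refine (Subring.closure_le (t := (Algebra.adjoin ℂ (co A : Set (Pt r → ℂ))).toSubring)).2 ?_ h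
  rintro _ (h | ⟨c, -, rfl⟩)
  · exact Algebra.subset_adjoin h
  · exact algebraMap_mem (Algebra.adjoin ℂ (co A : Set (Pt r → ℂ))) c

theorem itg (h : k ∈ PO O A) (hx : Itg O A x) : k x ∈ O := by
  refine (Subring.closure_le (t := O.comap (Pi.evalRingHom (fun _ : Pt r => ℂ) x))).2 ?_ h
  rintro _ (⟨i, hi, p, q, rfl | rfl⟩ | ⟨c, hc, rfl⟩)
  exacts [(hx i hi p q).1, (hx i hi p q).2, hc]

theorem loc (h : k ∈ Algebra.adjoin ℂ (co A : Set (Pt r → ℂ))) (hx : ∀ i ∈ A, x.1 i = x'.1 i) :
    k x = k x' := by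
  induction h using Algebra.adjoin_induction with
  | mem k hk => obtain ⟨i, hi, p, q, rfl | rfl⟩ := hk <;> simp only [hx i hi]
  | algebraMap c => rfl
  | add a b _ _ ha hb => simp only [Pi.add_apply, ha, hb]
  | mul a b _ _ ha hb => simp only [Pi.mul_apply, ha, hb]

theorem comp (F : Pt r → Pt r) (hF : ∀ i ∈ A, PW O A' fun u => (F u).1 i)
    (h : k ∈ Algebra.adjoin ℂ (co A : Set (Pt r → ℂ))) :
    (fun u => k (F u)) ∈ Algebra.adjoin ℂ (co A' : Set (Pt r → ℂ)) := by
  induction h using Algebra.adjoin_induction with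
  | mem k hk =>
    obtain ⟨i, hi, p, q, rfl | rfl⟩ := hk
    exacts [le ((hF i hi).1 p q), le ((hF i hi).2 p q)]
  | algebraMap c => exact algebraMap_mem (Algebra.adjoin ℂ (co A' : Set (Pt r → ℂ))) c
  | add a b _ _ ha hb => exact add_mem ha hb
  | mul a b _ _ ha hb => exact mul_mem ha hb

theorem free (i : ℕ) : App O Set.univ {i} x := by
  intro k hk h
  obtain ⟨P, hP⟩ : ∃ P : MvPolynomial (Bool × Fin r × Fin r) ℂ, ∀ u : Pt r, k u = MvPolynomial.eval
      (fun z => if z.1 then (u.1 i).a z.2.1 z.2.2 else (u.1 i).b z.2.1 z.2.2) P := by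
    clear h
    induction hk using Algebra.adjoin_induction with
    | mem k hk =>
      obtain ⟨_, rfl, p, q, rfl | rfl⟩ := hk
      exacts [⟨.X (true, p, q), fun u => by simp⟩, ⟨.X (false, p, q), fun u => by simp⟩]
    | algebraMap c => exact ⟨.C c, fun u => by simp⟩
    | add a b _ _ ha hb =>
      obtain ⟨P, hP⟩ := ha
      obtain ⟨Q, hQ⟩ := hb
      exact ⟨P + Q, fun u => by rw [map_add, ← hP, ← hQ, Pi.add_apply]⟩
    | mul a b _ _ ha hb =>
      obtain ⟨P, hP⟩ := ha
      obtain ⟨Q, hQ⟩ := hb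
      exact ⟨P * Q, fun u => by rw [map_mul, ← hP, ← hQ, Pi.mul_apply]⟩
  have h0 : P = 0 := by
    refine MvPolynomial.funext_set (fun _ => (O : Set ℂ)) (fun _ => Set.infinite_of_injective_forall_mem
      (f := fun n : ℕ => (n : ℂ)) Nat.cast_injective fun n => natCast_mem O n) fun y hy => ?_
    have h1 := h (fun _ => ⟨of fun p q => y (true, p, q), of fun p q => y (false, p, q)⟩, x.2)
      trivial fun _ _ p q => ⟨hy _ trivial, hy _ trivial⟩
    rw [hP] at h1
    rw [map_zero, ← h1]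
    congr 2
    funext ⟨b, p, q⟩
    cases b <;> rfl
  rw [hP, h0, map_zero]

end A4

theorem PM.const {C : Mat r} (h : ∀ p q, C p q ∈ O) : PM O A fun _ => C :=
  fun p q => Subring.subset_closure (Or.inr ⟨_, h p q, rfl⟩)
theorem PM.add (h : PM O A M) (h' : PM O A N) : PM O A fun u => M u + N u :=
  fun p q => add_mem (h p q) (h' p q)
theorem PM.sub (h : PM O A M) (h' : PM O A N) : PM O A fun u => M u - N u :=
  fun p q => sub_mem (h p q) (h' p q)
theorem PM.mul (h : PM O A M) (h' : PM O A N) : PM O A fun u => M u * N u := fun p q => by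
  have e : (fun u => (M u * N u) p q) = ∑ j, (fun u => M u p j) * fun u => N u j q := by
    funext u
    simp [mul_apply]
  beta_reduce
  rw [e]
  exact sum_mem fun j _ => mul_mem (h p j) (h' j q)
theorem PM.diag {d : Fin r → ℂ} (h : ∀ i, d i ∈ O) : PM O A fun _ => diagonal d :=
  PM.const fun p q => by
    rw [diagonal_apply]
    split_ifs
    exacts [h p, zero_mem O]
theorem PM.E (T : Finset (Fin r)) : PM O A fun _ => E T :=
  PM.diag fun i => by
    split_ifs
    exacts [one_mem O, zero_mem O]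
theorem PW.var {i : ℕ} (h : i ∈ A) : PW O A fun u : Pt r => u.1 i :=
  ⟨fun p q => Subring.subset_closure (Or.inl ⟨i, h, p, q, Or.inl rfl⟩),
    fun p q => Subring.subset_closure (Or.inl ⟨i, h, p, q, Or.inr rfl⟩)⟩
theorem PW.const {C : W r} (h : ∀ p q, C.a p q ∈ O ∧ C.b p q ∈ O) : PW O A fun _ => C :=
  ⟨PM.const fun p q => (h p q).1, PM.const fun p q => (h p q).2⟩
theorem PW.mul (h : PW O A f) (h' : PW O A g) : PW O A fun u => f u * g u :=
  ⟨h.1.mul h'.1, h'.2.mul h.2⟩
theorem PW.sw (h : PW O A f) : PW O A fun u => (f u).sw := ⟨h.2, h.1⟩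
theorem PW.ad (h : PW O A f) (h' : PW O A g) : PW O A fun u => (f u).ad (g u) :=
  ⟨h.1.add h'.1, h.2.add h'.2⟩
theorem PW.e (T : Finset (Fin r)) : PW O A fun _ => e T := ⟨PM.E T, PM.E T⟩
theorem PW.one : PW O A fun _ => (1 : W r) := e_univ (r := r) ▸ PW.e Finset.univ
theorem PW.dg {D : Fin r → ℂˣ} (h : ∀ i, Un O (D i)) : PW O A fun _ => dg D :=
  ⟨PM.diag fun i => (h i).1, PM.diag fun i => (h i).2⟩
theorem PW.sc {z : ℂˣ} (h : Un O z) : PW O A fun _ => (sc z : W r) := PW.dg fun _ => h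
theorem PW.gr (h : PW O A f) (S T : Finset (Fin r)) : PW O A fun u => gr S T (f u) :=
  ((PW.e S).mul h).mul (PW.e T)
theorem PW.wv {w : List (It r)} (h : ∀ i ∈ wown w, i ∈ A) (hu : ∀ D, .c D ∈ w → ∀ i, Un O (D i)) :
    PW O A fun u => wv u.1 w := by
  induction w with
  | nil => exact PW.one
  | cons a w ih =>
    have h1 := fun h => ih h fun D hD => hu D (List.mem_cons_of_mem _ hD)
    cases a with
    | c D =>
      simp only [wv_c, wown_c] at h ⊢
      exact (PW.dg (hu D List.mem_cons_self)).mul (h1 h)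
    | l x =>
      simp only [wv_l, wown_l, Multiset.mem_add, Multiset.mem_singleton] at h ⊢
      exact (PW.var (h _ (Or.inl rfl))).mul (h1 fun i hi => h i (Or.inr hi))
theorem PW.pv {ps : List (Pa r)} {B : Finset (Fin r)} (h : ∀ i ∈ pown ps, i ∈ A)
    (hu : pwf O B ps) : PW O A fun u => pv u.1 ps := by
  induction ps with
  | nil => exact PW.one
  | cons p ps ih =>
    simp only [pv_cons, pown_cons, pwf_cons, Multiset.mem_add] at h hu ⊢
    refine PW.mul ?_ (ih (fun i hi => h i (Or.inr hi)) hu.2)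
    have h1 := fun i hi => h i (Or.inl hi)
    cases p with
    | hd a b =>
      have ha := PW.var (r := r) (O := O) (h1 a (by simp [Pa.own]))
      have hb := PW.var (r := r) (O := O) (h1 b (by simp [Pa.own]))
      exact ((ha.mul hb).mul ha.sw).mul hb.sw
    | cy k A' w =>
      have ha := PW.var (r := r) (O := O) (h1 k (by simp [Pa.own]))
      exact (ha.mul (PW.wv (fun i hi => h1 i (Multiset.mem_add.2 (Or.inr hi)))
        fun D hD => hu.1.2.2.un hD)).mul ha.sw
    | pu k i l =>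
      have ha := PW.var (r := r) (O := O) (h1 k (by simp [Pa.own]))
      exact (ha.mul (PW.var (h1 i (by simp [Pa.own])))).mul ha.sw
/-- the standard way to check the hypothesis `hF` of `App.map` -/
theorem PW.update {y : Pt r → ℕ → W r} {j i : ℕ} (h : PW O A f)
    (h' : i ≠ j → PW O A fun u => y u i) : PW O A fun u => update (y u) j (f u) i := by
  by_cases hi : i = j
  · simpa only [hi, update_self] using h
  · simpa only [update_of_ne hi] using h' hi

theorem App.map (F : Pt r → Pt r) (hF : ∀ i ∈ A, PW O A' fun u => (F u).1 i)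
    (hS : ∀ u ∈ S', F u ∈ S) (hx : ∀ i ∈ A, (F x').1 i = x.1 i) (h : App O S' A' x') :
    App O S A x := fun k hk h0 => by
  rw [← A4.loc hk hx]
  exact h _ (A4.comp F hF hk) fun u hu hi => h0 _ (hS u hu) fun i h1 p q =>
    ⟨A4.itg ((hF i h1).1 p q) hi, A4.itg ((hF i h1).2 p q) hi⟩
theorem App.self (hx : x ∈ S) (hi : Itg O A x) : App O S A x := fun _ _ h => h x hx hi
theorem App.congr (h : App O S A x) (hS : S ⊆ S') (hA : A' ⊆ A) : App O S' A' x :=
  App.map id (fun _ hi => PW.var (hA hi)) hS (fun _ _ => rfl) h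

/-- `S` does not depend on the values at the labels in `U` -/
def Indep (S : Set (Pt r)) (U : Set ℕ) : Prop :=
  ∀ u ∈ S, ∀ y : ℕ → W r, (∀ i, i ∉ U → y i = u.1 i) → (y, u.2) ∈ S

/-- `V` only depends on the values at the labels in `U` -/
def Dep (V : Set (Pt r)) (U : Set ℕ) : Prop :=
  ∀ u ∈ V, ∀ u' : Pt r, (∀ i ∈ U, u'.1 i = u.1 i) → u' ∈ V

theorem App.prod (h : App O S A x) (h' : App O V U x) (hS : Indep S U) (hV : Dep V U)
    (hd : Disjoint A U) : App O (S ∩ V) (A ∪ U) x := by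
  classical
  intro k hk h0
  have hc : ∀ (B : Set ℕ) (C : W r), PW ⊤ B fun _ => C := fun B C =>
    PW.const fun _ _ => ⟨trivial, trivial⟩
  have h1 := h _ (A4.comp (O := ⊤) (fun u => (U.piecewise x.1 u.1, u.2)) (fun i hi => by
    by_cases hU : i ∈ U
    · simpa only [Set.piecewise_eq_of_mem _ _ _ hU] using hc A _
    · simpa only [Set.piecewise_eq_of_notMem _ _ _ hU] using PW.var (hi.resolve_right hU)) hk)
    fun u hu hi => h' _ (A4.comp (O := ⊤) (fun v => (U.piecewise v.1 u.1, u.2)) (fun i _ => by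
      by_cases hU : i ∈ U
      · simpa only [Set.piecewise_eq_of_mem _ _ _ hU] using PW.var hU
      · simpa only [Set.piecewise_eq_of_notMem _ _ _ hU] using hc U _) hk)
      fun v hv hj => h0 _ ⟨hS u hu _ fun i hU => Set.piecewise_eq_of_notMem _ _ _ hU,
        hV v hv _ fun i hU => Set.piecewise_eq_of_mem _ _ _ hU⟩ fun i h2 => by
          rcases h2 with h2 | h2
          · simpa only [Set.piecewise_eq_of_notMem _ _ _ (Set.disjoint_left.1 hd h2)] using hi i h2
          · simpa only [Set.piecewise_eq_of_mem _ _ _ h2] using hj i h2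
  simpa only [Set.piecewise_same] using h1
theorem App.free (h : App O S A x) {i : ℕ} (hS : Indep S {i}) (hi : i ∉ A) :
    App O S (A ∪ {i}) x :=
  (h.prod (A4.free i) hS (fun _ _ _ _ => trivial) (Set.disjoint_singleton_right.2 hi)).congr
    Set.inter_subset_left subset_rfl
theorem Indep.inter (h : Indep S U) (h' : Indep S' U) : Indep (S ∩ S') U :=
  fun u hu y hy => ⟨h u hu.1 y hy, h' u hu.2 y hy⟩
theorem indep_sol {P : Sy r} (h : ∀ i ∈ own P, i ∉ U) : Indep (Sol P) U :=
  fun _ hu _ hy => sol_congr hu (fun i hi => (hy i (h i hi)).symm) fun _ _ _ => rfl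
theorem indep_iso {i : ℕ} (h : i ∉ U) (S T : Finset (Fin r)) :
    Indep {u : Pt r | IsIso S T (u.1 i)} U := fun u hu y hy => by
  simpa only [Set.mem_setOf_eq, hy i h] using hu

theorem Step.trans {P P' P'' : Sy r} {x'' : Pt r} (h : Step O P x P' x') (h' : Step O P' x' P'' x'') :
    Step O P x P'' x'' := ⟨h'.wf, h'.sol, fun a => h.ap (h'.ap a)⟩
theorem Step.red {P P' : Sy r} (h : Step O P x P' x') (hm : ms P' ≤ ms P) (h' : Red O P' x') :
    Red O P x := by
  obtain ⟨P'', x'', a, b⟩ := h'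
  exact ⟨P'', x'', h.trans a, b.trans_le hm⟩

end Vale.Agent.P002S
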