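import Vale.Agent.P002S.FDefs

/-! Part F: algebra of block sums. -/

namespace Vale.Agent.P002S

open Matrix Vale.Agent.P002

namespace FBlk_

variable {p q r : ℕ}

theorem mul (A A' : Mat p) (B B' : Mat q) : blk A B * blk A' B' = blk (A * A') (B * B') := by
  simp only [blk, reindex_apply, submatrix_mul_equiv, fromBlocks_multiply, Matrix.mul_zero,
    Matrix.zero_mul, add_zero, zero_add]

theorem one (p q : ℕ) : blk (1 : Mat p) (1 : Mat q) = 1 := by
  simp only [blk, reindex_apply, fromBlocks_one, submatrix_one_equiv]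

theorem det (A : Mat p) (B : Mat q) : (blk A B).det = A.det * B.det := by
  rw [blk, det_reindex_self, det_fromBlocks_zero₂₁]

theorem inv (A : Mat p) (B : Mat q) (hA : A.det ≠ 0) (hB : B.det ≠ 0) :
    (blk A B)⁻¹ = blk A⁻¹ B⁻¹ :=
  Matrix.inv_eq_left_inv (by rw [mul, inv_mul' hA, inv_mul' hB, one])

theorem prod {n : ℕ} (a : Fin n → Mat p) (b : Fin n → Mat q) :
    (List.ofFn fun i => blk (a i) (b i)).prod = blk (List.ofFn a).prod (List.ofFn b).prod := by
  induction n with
  | zero => simp only [List.ofFn_zero, List.prod_nil, one]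
  | succ n ih => simp only [List.ofFn_succ, List.prod_cons, ih, mul]

theorem cmb {A A' : Mat p} {B B' : Mat q} (hA : A.det ≠ 0) (hA' : A'.det ≠ 0) (hB : B.det ≠ 0)
    (hB' : B'.det ≠ 0) : cm (blk A B) (blk A' B') = blk (cm A A') (cm B B') := by
  simp only [cm, inv _ _ hA hB, inv _ _ hA' hB', mul]

theorem cmc {T : Mat r} (hT : T.det ≠ 0) (A B : Mat r) :
    cm (T * A * T⁻¹) (T * B * T⁻¹) = T * cm A B * T⁻¹ := by
  simp only [cm, Matrix.mul_inv_rev, inv_inv' hT, mul_assoc, imc hT]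

theorem prodc {T : Mat r} (hT : T.det ≠ 0) {n : ℕ} (a : Fin n → Mat r) :
    (List.ofFn fun i => T * a i * T⁻¹).prod = T * (List.ofFn a).prod * T⁻¹ := by
  rw [← prod_conj hT, List.map_ofFn]
  rfl

theorem gp {O : Subring ℂ} {A : Mat p} {B : Mat q} (hA : ∀ i j, A i j ∈ O)
    (hB : ∀ i j, B i j ∈ O) (i j : Fin (p + q)) : blk A B i j ∈ O := by
  rw [blk, reindex_apply, submatrix_apply]
  rcases finSumFinEquiv.symm i with a | a <;> rcases finSumFinEquiv.symm j with b | b
  exacts [hA a b, O.zero_mem, O.zero_mem, hB a b]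

theorem reg : RegF Set.univ fun x : Mat p × Mat q => blk x.1 x.2 := by
  refine RegF.of_entries fun i j => ?_
  simp only [blk, reindex_apply, submatrix_apply]
  rcases finSumFinEquiv.symm i with a | a <;> rcases finSumFinEquiv.symm j with b | b
  exacts [RegF.id.fst.entry a b, Reg.const 0, Reg.const 0, RegF.id.snd.entry a b]

end FBlk_

theorem f_blk : BlkF where
  mul := FBlk_.mul
  one := FBlk_.one
  det := FBlk_.det
  inv := FBlk_.inv
  inj A A' B B' h := by
    have e := fromBlocks_inj.1 ((Matrix.reindex _ _).injective h)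
    exact ⟨e.1, e.2.2.2⟩
  charpoly A B := by rw [blk, charpoly_reindex, charpoly_fromBlocks_zero₂₁]
  surf y z hy hz := by
    simp only [surfW, FBlk_.cmb (hy _) (hy _) (hz _) (hz _), FBlk_.prod, FBlk_.mul]
  conj x T hT _ := by
    simp only [surfW, FBlk_.cmc hT, FBlk_.prodc hT]
    simp only [mul_assoc, imc hT]
  int O A B hA hB := by
    refine ⟨FBlk_.gp hA.1 hB.1, ?_, ?_⟩
    · rw [FBlk_.det]
      exact mul_ne_zero hA.2.1 hB.2.1
    · rw [FBlk_.inv _ _ hA.2.1 hB.2.1]
      exact FBlk_.gp hA.2.2 hB.2.2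
  reg := FBlk_.reg
  imul O A B hA hB := by
    refine ⟨gp_mul (S := O) hA.1 hB.1, det_mul_ne hA.2.1 hB.2.1, ?_⟩
    rw [Matrix.mul_inv_rev]
    exact gp_mul (S := O) hB.2.2 hA.2.2
  iinv O A hA := by
    refine ⟨hA.2.2, det_inv_ne hA.2.1, ?_⟩
    rw [inv_inv' hA.2.1]
    exact hA.1
  idet O A hA := by
    refine ⟨gp_det (S := O) hA.1, ?_⟩
    have h := gp_det (S := O) hA.2.2
    rwa [Matrix.det_nonsing_inv, Ring.inverse_eq_inv'] at h

end Vale.Agent.P002S
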