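import Vale.Agent.P002S.FDefs

/-! Burnside: irreducibility holds on a basic open set. -/

namespace Vale.Agent.P002S

open Matrix Vale.Agent.P002

namespace FBurn_

variable {r : ℕ} {ι : Type}

/-- the algebra generated by the family -/
noncomputable def alg (f : ι → Mat r) : Subalgebra ℂ (Module.End ℂ (Fin r → ℂ)) :=
  Algebra.adjoin ℂ (Set.range fun k => Matrix.toLin' (f k))

theorem simple (hr : 0 < r) {f : ι → Mat r} (hf : IrrF f) :
    IsSimpleModule (alg f) (Fin r → ℂ) := by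
  have : Nonempty (Fin r) := ⟨⟨0, hr⟩⟩
  refine (isSimpleModule_iff _ _).2 ⟨fun N => ?_⟩
  have h := hf (N.restrictScalars ℂ) fun k v hv =>
    N.smul_mem (⟨Matrix.toLin' (f k), Algebra.subset_adjoin ⟨k, rfl⟩⟩ : alg f) hv
  rcases h with h | h
  · exact Or.inl ((Submodule.restrictScalars_eq_bot_iff _ _ _).1 h)
  · exact Or.inr ((Submodule.restrictScalars_eq_top_iff _ _ _).1 h)

theorem mem_alg (hr : 0 < r) {f : ι → Mat r} (hf : IrrF f) (g : Module.End ℂ (Fin r → ℂ)) :
    g ∈ alg f := by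
  classical
  have := simple hr hf
  let g' : Module.End (Module.End (alg f) (Fin r → ℂ)) (Fin r → ℂ) :=
    { toFun := g
      map_add' := g.map_add
      map_smul' := fun φ v => by
        obtain ⟨c, rfl⟩ := (IsSimpleModule.algebraMap_end_bijective_of_isAlgClosed
          (A := alg f) (V := Fin r → ℂ) ℂ).2 φ
        exact g.map_smul c v }
  obtain ⟨a, ha⟩ := jacobson_density (R := alg f) (M := Fin r → ℂ) g'
    (Finset.univ.image fun i : Fin r => (Pi.single i 1 : Fin r → ℂ))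
  have e : g = a.1 := by
    refine LinearMap.pi_ext' fun i => LinearMap.ext_ring ?_
    exact ha _ (Finset.mem_image_of_mem _ (Finset.mem_univ i))
  rw [e]
  exact a.2

/-- `X` is the value at `f` of a regular map that preserves invariant subspaces -/
def Gd (f : ι → Mat r) (X : Mat r) : Prop :=
  ∃ P : (ι → Mat r) → Mat r, RegF Set.univ P ∧ P f = X ∧
    ∀ u N, Inv u N → ∀ v ∈ N, P u *ᵥ v ∈ N

theorem gd_alg (f : ι → Mat r) {g : Module.End ℂ (Fin r → ℂ)} (hg : g ∈ alg f) :
    Gd f (LinearMap.toMatrix' g) := by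
  induction hg using Algebra.adjoin_induction with
  | mem x hx =>
    obtain ⟨k, rfl⟩ := hx
    exact ⟨fun u => u k, RegF.proj k, (LinearMap.toMatrix'_toLin' _).symm,
      fun u N hN v hv => hN k v hv⟩
  | algebraMap c =>
    refine ⟨fun _ => c • (1 : Mat r), RegF.const _, ?_, fun u N _ v hv => ?_⟩
    · rw [Algebra.algebraMap_eq_smul_one, map_smul, LinearMap.toMatrix'_one]
    · rw [Matrix.smul_mulVec, Matrix.one_mulVec]
      exact N.smul_mem c hv
  | add x y _ _ hx hy =>
    obtain ⟨P, hP, eP, iP⟩ := hx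
    obtain ⟨Q, hQ, eQ, iQ⟩ := hy
    refine ⟨fun u => P u + Q u, hP.add hQ, ?_, fun u N hN v hv => ?_⟩
    · rw [map_add, ← eP, ← eQ]
    · rw [Matrix.add_mulVec]
      exact N.add_mem (iP u N hN v hv) (iQ u N hN v hv)
  | mul x y _ _ hx hy =>
    obtain ⟨P, hP, eP, iP⟩ := hx
    obtain ⟨Q, hQ, eQ, iQ⟩ := hy
    refine ⟨fun u => P u * Q u, hP.mul hQ, ?_, fun u N hN v hv => ?_⟩
    · rw [LinearMap.toMatrix'_mul, ← eP, ← eQ]
    · rw [← Matrix.mulVec_mulVec]
      exact iP u N hN _ (iQ u N hN v hv)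

theorem gd_all (hr : 0 < r) {f : ι → Mat r} (hf : IrrF f) (X : Mat r) : Gd f X := by
  have h := gd_alg f (mem_alg hr hf (Matrix.toLin' X))
  rwa [LinearMap.toMatrix'_toLin'] at h

end FBurn_

theorem f_burn : S_burn := by
  intro r ι _ f hf
  rcases Nat.eq_zero_or_pos r with rfl | hr
  · exact ⟨Set.univ, Bas.univ, Set.mem_univ _, fun u _ N _ => Or.inl (Subsingleton.elim _ _)⟩
  choose P hP eP iP using fun b : Fin r × Fin r =>
    FBurn_.gd_all hr hf (Matrix.single b.1 b.2 (1 : ℂ))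
  let M : (ι → Mat r) → Matrix (Fin r × Fin r) (Fin r × Fin r) ℂ := fun u =>
    Matrix.of fun a b => P b u a.1 a.2
  have hM : RegF Set.univ M := RegF.of_entries fun a b => (hP b).entry a.1 a.2
  have h0 : (M f).det ≠ 0 := by
    have e : M f = 1 := by
      ext a b
      change P b f a.1 a.2 = _
      rw [eP b, Matrix.single_apply, Matrix.one_apply]
      refine if_congr ?_ rfl rfl
      exact ⟨fun h => Prod.ext h.1.symm h.2.symm, fun h => by rw [h]; exact ⟨rfl, rfl⟩⟩
    rw [e, Matrix.det_one]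
    exact one_ne_zero
  refine ⟨_, Bas.univ.of_reg hM.det, ⟨Set.mem_univ _, h0⟩, fun u hu N hN' => ?_⟩
  have hall : ∀ X : Mat r, ∀ v ∈ N, X *ᵥ v ∈ N := by
    intro X v hv
    let c : Fin r × Fin r → ℂ := (M u)⁻¹ *ᵥ fun a => X a.1 a.2
    have hc : M u *ᵥ c = fun a => X a.1 a.2 := by
      rw [Matrix.mulVec_mulVec, mul_inv'' hu.2, Matrix.one_mulVec]
    have hX : X = ∑ b : Fin r × Fin r, c b • P b u := by
      ext i j
      rw [← congrFun hc (i, j), Matrix.sum_apply]
      refine Finset.sum_congr rfl fun b _ => ?_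
      exact mul_comm _ _
    rw [hX, Matrix.sum_mulVec]
    refine N.sum_mem fun b _ => ?_
    rw [Matrix.smul_mulVec]
    exact N.smul_mem _ (iP b u N hN' v hv)
  by_cases hN : N = ⊥
  · exact Or.inl hN
  refine Or.inr (eq_top_iff.2 fun w _ => ?_)
  obtain ⟨v, hv, hv0⟩ := (Submodule.ne_bot_iff N).1 hN
  obtain ⟨i, hi⟩ := Function.ne_iff.1 hv0
  have hi' : v i ≠ 0 := hi
  have := hall (vecMulVec w (Pi.single i (v i)⁻¹)) v hv
  rwa [Matrix.vecMulVec_mulVec, single_dotProduct, inv_mul_cancel₀ hi', MulOpposite.op_one,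
    one_smul] at this

end Vale.Agent.P002S
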