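import Vale.Agent.P002S.FDefs

/-! Part F: full triangular matrices. -/

namespace Vale.Agent.P002S

open Matrix Vale.Agent.P002

namespace FConj_

variable {n : ℕ} {S S' : Finset (Fin n)} {p : ℂˣ × Finset (Fin n)}
  {l : List (ℂˣ × Finset (Fin n))} {A : Mat n}

theorem E_sub (h : S ⊆ S') : E S * E S' = E S ∧ E S' * E S = E S := by
  simp only [E, diagonal_mul_diagonal]
  refine ⟨congrArg _ (funext fun i => ?_), congrArg _ (funext fun i => ?_)⟩ <;>
    by_cases h1 : i ∈ S <;> simp [h1, @h i]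

theorem E_add (h : Disjoint S S') : E (S ∪ S') = E S + E S' := by
  simp only [E, diagonal_add]
  refine congrArg _ (funext fun i => ?_)
  by_cases h1 : i ∈ S
  · simp [h1, Finset.disjoint_left.1 h h1]
  · simp [h1]

theorem key (hd : Disjoint p.2 (uni l)) (hT : TriM (p :: l) A) :
    E (uni l) * ((A - (p.1 : ℂ) • 1) * E (p.2 ∪ uni l)) = (A - (p.1 : ℂ) • 1) * E (p.2 ∪ uni l) := by
  have e := (E_sub (Finset.Subset.refl (p.2 ∪ uni l))).1
  have h1 : E (p.2 ∪ uni l) * A = A := by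
    rw [← hT.1, ← mul_assoc, ← mul_assoc, e]
  have h2 : A * E (p.2 ∪ uni l) = A := by
    rw [← hT.1, mul_assoc, e]
  have h3 : E (uni l) = E (p.2 ∪ uni l) - E p.2 := by rw [E_add hd, add_sub_cancel_left]
  rw [sub_mul, h2, smul_mul_assoc, one_mul, h3, sub_mul, mul_sub, mul_sub, h1, hT.2.1,
    mul_smul_comm, mul_smul_comm, e, (E_sub Finset.subset_union_left).1, sub_self, sub_zero]

/-- coordinate subspace -/
noncomputable def W (S : Finset (Fin n)) : Submodule ℂ (Fin n → ℂ) :=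
  LinearMap.range (E S).mulVecLin

theorem mem_W {w : Fin n → ℂ} : w ∈ W S ↔ E S *ᵥ w = w := by
  refine ⟨?_, fun h => ⟨w, h⟩⟩
  rintro ⟨v, rfl⟩
  rw [mulVecLin_apply, mulVec_mulVec, (E_sub (Finset.Subset.refl S)).1]

theorem W_le (h : S ⊆ S') : W S ≤ W S' := fun w hw => by
  rw [mem_W] at hw ⊢
  rw [← hw, mulVec_mulVec, (E_sub h).2]

theorem map_eq (hd : Disjoint p.2 (uni l)) (hT : TriM (p :: l) A) (hF : FullF (p :: l) A) :
    (W (p.2 ∪ uni l)).map (A - (p.1 : ℂ) • 1).mulVecLin = W (uni l) := by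
  refine le_antisymm ?_ ?_
  · rintro _ ⟨_, ⟨v, rfl⟩, rfl⟩
    simp only [mem_W, mulVecLin_apply, mulVec_mulVec, key hd hT]
  · rintro _ ⟨v, rfl⟩
    obtain ⟨R, hR⟩ := hF.1
    refine ⟨_, ⟨R *ᵥ v, rfl⟩, ?_⟩
    simp only [mulVecLin_apply, mulVec_mulVec, ← mul_assoc, hR]

theorem N_ap (c : ℂ) (w : Fin n → ℂ) : (A - c • 1).mulVecLin w = A *ᵥ w - c • w := by
  rw [mulVecLin_apply, sub_mulVec, smul_mulVec, one_mulVec]

theorem agree (hd : Disjoint p.2 (uni l)) (hT : TriM (p :: l) A) (hF : FullF (p :: l) A)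
    {w : Fin n → ℂ} (hw : w ∈ W (uni l)) : (E (uni l) * A * E (uni l)) *ᵥ w = A *ᵥ w := by
  have h1 : (A - (p.1 : ℂ) • 1).mulVecLin w ∈ W (uni l) :=
    map_eq hd hT hF ▸ Submodule.mem_map_of_mem (W_le Finset.subset_union_right hw)
  have h2 := add_mem h1 (Submodule.smul_mem _ (p.1 : ℂ) hw)
  rw [N_ap, sub_add_cancel, mem_W] at h2
  rw [← mulVec_mulVec, ← mulVec_mulVec, mem_W.1 hw, h2]

theorem main (hs : S_step) {O : Subring ℂ} : ∀ (l : List (ℂˣ × Finset (Fin n))) (A A' : Mat n),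
    BlOk O l → TriM l A → TriM l A' → FullF l A → FullF l A' →
    ∃ k : Module.End ℂ (Fin n → ℂ), (∀ w ∈ W (uni l), k w ∈ W (uni l)) ∧
      (∀ w ∈ W (uni l), k w = 0 → w = 0) ∧ ∀ w ∈ W (uni l), k (A *ᵥ w) = A' *ᵥ k w
  | [], A, A', _, _, _, _, _ => by
    refine ⟨0, fun _ _ => zero_mem _, fun w hw _ => ?_, fun _ _ => by simp⟩
    rw [← mem_W.1 hw]
    simp [E, uni]
  | p :: l, A, A', hB, hT, hT', hF, hF' => by
    obtain ⟨g, g1, g2, g3⟩ := main hs l _ _ hB.2.2 hT.2.2 hT'.2.2 hF.2 hF'.2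
    obtain ⟨k, k1, k2, k3⟩ := hs n _ _ _ _ g (W_le Finset.subset_union_right)
      (map_eq hB.2.1 hT hF) (map_eq hB.2.1 hT' hF') g1 g2 fun w hw => by
        rw [N_ap, N_ap, map_sub, map_smul, ← agree hB.2.1 hT hF hw, g3 w hw,
          agree hB.2.1 hT' hF' (g1 w hw)]
    refine ⟨k, k1, k2, fun w hw => ?_⟩
    have := k3 w hw
    rwa [N_ap, N_ap, map_sub, map_smul, sub_left_inj] at this

theorem full {P R e : Mat n} (he : e * e = e) (hP : e * P = P) (h : (P * R + (1 - e)).det ≠ 0) :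
    ∃ R', P * R' = e := by
  obtain ⟨X, hX⟩ : ∃ X, (P * R + (1 - e)) * X = e := ⟨_, mic h e⟩
  have h1 : (1 - e) * (P * R + (1 - e)) = 1 - e := by
    rw [mul_add, ← mul_assoc, sub_mul, one_mul, hP, sub_self, zero_mul, zero_add, sub_mul,
      one_mul, mul_sub, mul_one, he, sub_self, sub_zero]
  have h2 : (1 - e) * X = 0 := by rw [← h1, mul_assoc, hX, sub_mul, one_mul, he, sub_self]
  exact ⟨R * X, by rwa [add_mul, h2, add_zero, mul_assoc] at hX⟩

end FConj_

open FConj_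

theorem f_conj (hs : S_step) : S_conj := by
  intro O n l A A' hB hu hT hT' hF hF'
  obtain ⟨k, -, k2, k3⟩ := main hs l A A' hB hT hT' hF hF'
  have hW : ∀ w, w ∈ W (uni l) := fun w => by
    rw [mem_W, hu]
    simp [E]
  have hd : (LinearMap.toMatrix' k).det ≠ 0 := fun h => by
    obtain ⟨v, v0, hv⟩ := exists_mulVec_eq_zero_iff.2 h
    exact v0 (k2 v (hW v) (by rwa [LinearMap.toMatrix'_mulVec] at hv))
  have e : LinearMap.toMatrix' k * A = A' * LinearMap.toMatrix' k :=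
    toLin'.injective (LinearMap.ext fun w => by
      simp only [toLin'_apply, ← mulVec_mulVec, LinearMap.toMatrix'_mulVec, k3 w (hW w)])
  exact ⟨_, hd, by rw [e, mul_assoc, mul_inv'' hd, mul_one]⟩

theorem f_open : S_open := by
  intro O n l
  induction l with
  | nil => exact fun A _ _ _ => ⟨_, Bas.univ, trivial, fun _ _ _ => trivial⟩
  | cons p l ih =>
    intro A hB hT hF
    obtain ⟨R, hR⟩ := hF.1
    obtain ⟨U, u1, u2, u3⟩ := ih _ hB.2.2 hT.2.2 hF.2
    refine ⟨_, (Bas.univ.of_reg (φ := fun x : Mat n =>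
        ((x - (p.1 : ℂ) • 1) * E (p.2 ∪ uni l) * R + (1 - E (uni l))).det)
      (((((RegF.id.sub (RegF.const _)).mul (RegF.const _)).mul (RegF.const _)).add
        (RegF.const _)).det)).inter (Bas.univ.preimage u1 (f := fun x : Mat n =>
          E (uni l) * x * E (uni l)) (((RegF.const _).mul RegF.id).mul (RegF.const _))),
      ⟨⟨trivial, ?_⟩, trivial, u2⟩, fun A' hA hT' =>
        ⟨full (E_sub (Finset.Subset.refl _)).1 (key hB.2.1 hT') hA.1.2, u3 _ hA.2.2 hT'.2.2⟩⟩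
    rw [hR, add_sub_cancel, det_one]
    exact one_ne_zero

end Vale.Agent.P002S
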