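import Vale.Agent.P002S.FDefs

/-! Part F: every matrix is conjugate to a full triangular one. -/

namespace Vale.Agent.P002S

open Matrix Vale.Agent.P002

namespace FEx_

variable {n : ℕ}

theorem e_mul (S T : Finset (Fin n)) : E S * E T = E (S ∩ T) := by
  rw [E, E, E, diagonal_mul_diagonal]
  congr 1
  funext i
  by_cases h : i ∈ S <;> by_cases h' : i ∈ T <;> simp [h, h']

theorem e_empty : E (∅ : Finset (Fin n)) = 0 := by simp [E]

theorem e_union {S T : Finset (Fin n)} (h : Disjoint S T) : E (S ∪ T) = E S + E T := by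
  rw [E, E, E, diagonal_add]
  congr 1
  funext i
  have : i ∈ S → i ∉ T := fun k => Finset.disjoint_left.1 h k
  by_cases h : i ∈ S <;> by_cases h' : i ∈ T <;> simp_all

theorem factor {H M : Mat n} (h : ∀ v, ∃ y, H *ᵥ y = M *ᵥ v) : ∃ Y, H * Y = M := by
  choose y hy using h
  refine ⟨Matrix.of fun i j => y (Pi.single j 1) i, ?_⟩
  ext i j
  simpa [mul_apply, mulVec, dotProduct, Pi.single_apply] using congrFun (hy (Pi.single j 1)) i

theorem supp {l : List (ℂˣ × Finset (Fin n))} {A : Mat n} (h : TriM l A) :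
    E (uni l) * A * E (uni l) = A := by
  cases l with
  | nil => rw [show A = 0 from h, mul_zero, zero_mul]
  | cons p l => exact h.1

theorem compl {W W₁ : Submodule ℂ (Fin n → ℂ)} (h : W₁ ≤ W) (S : Finset (Fin n))
    (hd : Module.finrank ℂ W = Module.finrank ℂ W₁ + S.card) :
    ∃ G : Mat n, G * E S = G ∧ (∀ v, G *ᵥ v ∈ W) ∧ (∀ w ∈ W, ∃ v, w - G *ᵥ v ∈ W₁) ∧
      ∀ v, G *ᵥ v ∈ W₁ → E S *ᵥ v = 0 := by
  obtain ⟨K, hK⟩ := W₁.exists_isCompl
  have h1 : W₁ ⊔ K ⊓ W = W := by rw [← sup_inf_assoc_of_le _ h, hK.sup_eq_top, top_inf_eq]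
  have h2 : W₁ ⊓ (K ⊓ W) = ⊥ := by rw [← inf_assoc, hK.inf_eq_bot, bot_inf_eq]
  have h3 := Submodule.finrank_sup_add_finrank_inf_eq W₁ (K ⊓ W)
  rw [h1, h2, finrank_bot] at h3
  let e : (S → ℂ) ≃ₗ[ℂ] (K ⊓ W : Submodule ℂ (Fin n → ℂ)) :=
    LinearEquiv.ofFinrankEq _ _ (by rw [Module.finrank_fintype_fun_eq_card, Fintype.card_coe]; omega)
  obtain ⟨G, hG⟩ : ∃ G : Mat n, ∀ v, G *ᵥ v = e fun i => v i :=
    ⟨LinearMap.toMatrix' ((K ⊓ W).subtype ∘ₗ e.toLinearMap ∘ₗ LinearMap.funLeft ℂ ℂ Subtype.val),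
      fun v => LinearMap.toMatrix'_mulVec _ v⟩
  refine ⟨G, ext_iff_mulVec.2 fun v => ?_, fun v => hG v ▸ (e _).2.2, fun w hw => ?_,
    fun v hv => ?_⟩
  · rw [← mulVec_mulVec, hG, hG]
    congr 2
    funext i
    simp [E, mulVec_diagonal, i.2]
  · rw [← h1] at hw
    obtain ⟨a, ha, b, hb, rfl⟩ := Submodule.mem_sup.1 hw
    obtain ⟨x, hx⟩ := e.surjective ⟨b, hb⟩
    obtain ⟨v, rfl⟩ := LinearMap.funLeft_surjective_of_injective ℂ ℂ _
      (Subtype.val_injective (p := fun i => i ∈ S)) x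
    refine ⟨v, ?_⟩
    rw [hG, show ((e fun i => v i : (K ⊓ W : Submodule ℂ (Fin n → ℂ))) : Fin n → ℂ) = b from
      congrArg Subtype.val hx, add_sub_cancel_right]
    exact ha
  · have h4 : G *ᵥ v ∈ W₁ ⊓ (K ⊓ W) := ⟨hv, hG v ▸ (e _).2⟩
    rw [h2, Submodule.mem_bot, hG, Submodule.coe_eq_zero, e.map_eq_zero_iff] at h4
    funext i
    rw [E, mulVec_diagonal]
    split_ifs with hi
    · rw [one_mul]
      exact congrFun h4 ⟨i, hi⟩
    · exact zero_mul _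

/-- the inductive claim -/
def Cl (O : Subring ℂ) (C : Mat n) (W : Submodule ℂ (Fin n → ℂ)) (T : Finset (Fin n)) : Prop :=
  ∃ (l : List (ℂˣ × Finset (Fin n))) (H A : Mat n), BlOk O l ∧ uni l = T ∧ TriM l A ∧ FullF l A ∧
    C * H = H * A ∧ H * E T = H ∧ (∀ v, H *ᵥ v = 0 → E T *ᵥ v = 0) ∧
    ∀ w, w ∈ W ↔ ∃ v, H *ᵥ v = w

theorem step {O : Subring ℂ} {C : Mat n} {W W₁ : Submodule ℂ (Fin n → ℂ)} {S T : Finset (Fin n)}
    {c : ℂˣ} (hc : Un O c) (hd : Disjoint S T) (hW : W₁ ≤ W)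
    (h1 : ∀ w, w ∈ W₁ ↔ ∃ v ∈ W, (C - (c : ℂ) • 1) *ᵥ v = w)
    (hf : Module.finrank ℂ W = Module.finrank ℂ W₁ + S.card) (ih : Cl O C W₁ T) :
    Cl O C W (S ∪ T) := by
  obtain ⟨l, H, A, l1, rfl, l2, l3, e1, Hb, e3, e4⟩ := ih
  obtain ⟨G, Ga, g2, g3, g4⟩ := compl hW S hf
  obtain ⟨Y0, hY⟩ := factor (H := H) (M := (C - (c : ℂ) • 1) * G) fun v =>
    (e4 _).1 ((h1 _).2 ⟨_, g2 v, mulVec_mulVec _ _ _⟩)
  have hA := supp l2
  have hE := e_union hd
  have aa : E S * E S = E S := by rw [e_mul, Finset.inter_self]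
  have bb : E (uni l) * E (uni l) = E (uni l) := by rw [e_mul, Finset.inter_self]
  have ab : E S * E (uni l) = 0 := by rw [e_mul, Finset.disjoint_iff_inter_eq_empty.1 hd, e_empty]
  have ba : E (uni l) * E S = 0 := by
    rw [e_mul, Finset.disjoint_iff_inter_eq_empty.1 hd.symm, e_empty]
  obtain ⟨Y, aY, bY, Ya, Yb, HY⟩ : ∃ Y : Mat n, E S * Y = 0 ∧ E (uni l) * Y = Y ∧ Y * E S = Y ∧
      Y * E (uni l) = 0 ∧ H * Y = C * G - (c : ℂ) • G :=
    ⟨E (uni l) * Y0 * E S, by rw [← mul_assoc, ← mul_assoc, ab, zero_mul, zero_mul],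
      by rw [← mul_assoc, ← mul_assoc, bb], by rw [mul_assoc _ (E S), aa],
      by rw [mul_assoc _ (E S), ab, mul_zero], by
        rw [← mul_assoc, ← mul_assoc, Hb, hY, mul_assoc, Ga, sub_mul, smul_mul_assoc, one_mul]⟩
  have aA : E S * A = 0 := by rw [← hA, ← mul_assoc, ← mul_assoc, ab, zero_mul, zero_mul]
  have Aa : A * E S = 0 := by rw [← hA, mul_assoc _ _ (E S), ba, mul_zero]
  have bA : E (uni l) * A = A := by rw [← hA, ← mul_assoc, ← mul_assoc, bb]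
  have Ab : A * E (uni l) = A := by rw [← hA, mul_assoc _ _ (E (uni l)), bb]
  have Ha : H * E S = 0 := by rw [← Hb, mul_assoc, ba, mul_zero]
  have Gb : G * E (uni l) = 0 := by rw [← Ga, mul_assoc, ab, mul_zero]
  have GA : G * A = 0 := by rw [← Ga, mul_assoc, aA, mul_zero]
  have GY : G * Y = 0 := by rw [← Ga, mul_assoc, aY, mul_zero]
  have k1 : E (S ∪ uni l) * (A + (c : ℂ) • E S + Y) = A + (c : ℂ) • E S + Y := by
    simp only [hE, add_mul, mul_add, mul_smul_comm, aA, bA, aa, ba, aY, bY, zero_add, add_zero]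
  have k2 : (A + (c : ℂ) • E S + Y) * E (S ∪ uni l) = A + (c : ℂ) • E S + Y := by
    simp only [hE, add_mul, mul_add, smul_mul_assoc, Aa, Ab, aa, ab, Ya, Yb, smul_zero, zero_add,
      add_zero]
    abel
  have k3 : E (uni l) * (A + (c : ℂ) • E S + Y) * E (uni l) = A := by
    simp only [add_mul, mul_add, mul_smul_comm, bA, ba, bY, Ab, Yb, smul_zero, add_zero]
  have k4 : C * (H + G) = (H + G) * (A + (c : ℂ) • E S + Y) := by
    simp only [add_mul, mul_add, mul_smul_comm, e1, Ha, HY, GA, Ga, GY, zero_add, add_zero]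
    abel
  have k5 : (H + G) * E (S ∪ uni l) = H + G := by
    simp only [hE, add_mul, mul_add, Ha, Hb, Ga, Gb, zero_add, add_zero]
    abel
  have k6 : ∀ v, (H + G) *ᵥ v = 0 → E (S ∪ uni l) *ᵥ v = 0 := fun v hv => by
    rw [add_mulVec] at hv
    have a1 := g4 v (by
      rw [eq_neg_of_add_eq_zero_right hv]
      exact neg_mem ((e4 _).2 ⟨v, rfl⟩))
    rw [← Ga, ← mulVec_mulVec, a1, mulVec_zero, add_zero] at hv
    rw [hE, add_mulVec, a1, e3 v hv, add_zero]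
  have k7 : ∀ w, w ∈ W ↔ ∃ v, (H + G) *ᵥ v = w := fun w => by
    constructor
    · intro hw
      obtain ⟨v, hv⟩ := g3 w hw
      obtain ⟨u, hu⟩ := (e4 _).1 hv
      refine ⟨E (uni l) *ᵥ u + E S *ᵥ v, ?_⟩
      rw [mulVec_add, mulVec_mulVec, mulVec_mulVec, add_mul, add_mul, Hb, Gb, Ha, Ga, add_zero,
        zero_add, hu, sub_add_cancel]
    · rintro ⟨v, rfl⟩
      rw [add_mulVec]
      exact add_mem (hW ((e4 _).2 ⟨v, rfl⟩)) (g2 v)
  have k8 : E S * (A + (c : ℂ) • E S + Y) = (c : ℂ) • E S := by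
    simp only [mul_add, mul_smul_comm, aA, aa, aY, zero_add, add_zero]
  have k9 : (H + G) * E (uni l) = H := by rw [add_mul, Hb, Gb, add_zero]
  have k10 : E (S ∪ uni l) * E (uni l) = E (uni l) := by rw [hE, add_mul, ab, bb, zero_add]
  have k11 : E (S ∪ uni l) * E (S ∪ uni l) = E (S ∪ uni l) := by rw [e_mul, Finset.inter_self]
  generalize A + (c : ℂ) • E S + Y = A' at k1 k2 k3 k4 k8
  generalize H + G = H' at k4 k5 k6 k7 k9
  refine ⟨(c, S) :: l, H', A', ⟨hc, hd, l1⟩, rfl, ⟨by rw [k1, k2], k8, k3.symm ▸ l2⟩,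
    ⟨factor fun v => ?_, k3.symm ▸ l3⟩, k4, k5, k6, k7⟩
  obtain ⟨w, hw, hv⟩ := (h1 _).1 ((e4 _).2 ⟨v, rfl⟩)
  obtain ⟨u, rfl⟩ := (k7 w).1 hw
  have a1 : H' * ((A' - (c : ℂ) • 1) * E (S ∪ uni l)) = (C - (c : ℂ) • 1) * H' := by
    simp only [sub_mul, mul_sub, smul_mul_assoc, mul_smul_comm, one_mul, k2, k4, k5]
  have a2 : E (S ∪ uni l) * ((A' - (c : ℂ) • 1) * E (S ∪ uni l)) =
      (A' - (c : ℂ) • 1) * E (S ∪ uni l) := by
    simp only [sub_mul, mul_sub, smul_mul_assoc, mul_smul_comm, one_mul, k1, k2, k11]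
  have a3 := k6 (((A' - (c : ℂ) • 1) * E (S ∪ uni l)) *ᵥ u - E (uni l) *ᵥ v) (by
    rw [mulVec_sub, mulVec_mulVec, mulVec_mulVec, a1, k9, ← hv, mulVec_mulVec, sub_self])
  rw [mulVec_sub, mulVec_mulVec, mulVec_mulVec, a2, k10, sub_eq_zero] at a3
  exact ⟨u, a3⟩

theorem all {O : Subring ℂ} {C : Mat n}
    (hC : ∀ z, C.charpoly.IsRoot z → ∃ c : ℂˣ, Un O c ∧ z = c) (d : ℕ) :
    ∀ (W : Submodule ℂ (Fin n → ℂ)) (T : Finset (Fin n)), (∀ w ∈ W, C *ᵥ w ∈ W) →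
      Module.finrank ℂ W = d → T.card = d → Cl O C W T := by
  induction d using Nat.strong_induction_on with
  | _ d ih =>
    intro W T hW h1 h2
    rcases d.eq_zero_or_pos with rfl | h0
    · obtain rfl := Finset.card_eq_zero.1 h2
      obtain rfl := Submodule.finrank_eq_zero.1 h1
      exact ⟨[], 0, 0, trivial, rfl, rfl, trivial, by simp, zero_mul _,
        fun v _ => by rw [e_empty, zero_mulVec], fun w => by simp [eq_comm]⟩
    have : Nontrivial W := Module.finrank_pos_iff.1 (h1 ▸ h0)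
    obtain ⟨z, hz⟩ := Module.End.exists_eigenvalue (C.mulVecLin.restrict (p := W) (q := W) hW)
    obtain ⟨x, hx⟩ := hz.exists_hasEigenvector
    have x1 : C *ᵥ (x : Fin n → ℂ) = z • (x : Fin n → ℂ) := congrArg Subtype.val hx.apply_eq_smul
    have x0 : (x : Fin n → ℂ) ≠ 0 := fun e => hx.2 (Subtype.ext e)
    obtain ⟨c, hc, rfl⟩ := hC z (by
      rw [Polynomial.IsRoot, eval_charpoly, ← exists_mulVec_eq_zero_iff]
      refine ⟨x, x0, ?_⟩
      rw [sub_mulVec, x1, scalar_apply, sub_eq_zero]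
      funext i
      simp [mulVec_diagonal])
    have hN : ∀ v, (C - (c : ℂ) • 1) *ᵥ v = C *ᵥ v - (c : ℂ) • v := fun v => by
      rw [sub_mulVec, smul_mulVec, one_mulVec]
    have h3 := ((C - (c : ℂ) • 1).mulVecLin.domRestrict W).finrank_range_add_finrank_ker
    have x2 : x ∈ LinearMap.ker ((C - (c : ℂ) • 1).mulVecLin.domRestrict W) :=
      (hN x).trans (sub_eq_zero.2 x1)
    have h4 : 0 < Module.finrank ℂ (LinearMap.ker ((C - (c : ℂ) • 1).mulVecLin.domRestrict W)) :=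
      Module.finrank_pos_iff_exists_ne_zero.2 ⟨⟨x, x2⟩, fun e => hx.2 (congrArg Subtype.val e)⟩
    rw [LinearMap.range_domRestrict] at h3
    obtain ⟨T₁, t1, t2⟩ := Finset.exists_subset_card_eq
      (n := Module.finrank ℂ (W.map (C - (c : ℂ) • 1).mulVecLin)) (s := T) (by omega)
    rw [← Finset.sdiff_union_of_subset t1]
    refine step hc Finset.sdiff_disjoint ?_ (fun w => Iff.rfl) ?_ (ih _ (by omega) _ _ ?_ rfl t2)
    · rintro _ ⟨v, hv, rfl⟩
      rw [mulVecLin_apply, hN]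
      exact sub_mem (hW v hv) (W.smul_mem _ hv)
    · rw [Finset.card_sdiff_of_subset t1]
      omega
    · rintro _ ⟨v, hv, rfl⟩
      refine ⟨C *ᵥ v, hW v hv, ?_⟩
      rw [mulVecLin_apply, mulVecLin_apply, hN, hN, mulVec_sub, mulVec_smul]

end FEx_

theorem f_ex : S_ex := by
  intro O n C hC
  obtain ⟨l, H, A, l1, l2, l3, l4, e1, -, e2, -⟩ := FEx_.all hC n ⊤ Finset.univ
    (fun _ _ => trivial) (by simp) (by simp)
  have hH : H.det ≠ 0 := fun h0 => by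
    obtain ⟨v, v0, hv⟩ := exists_mulVec_eq_zero_iff.2 h0
    exact v0 (by simpa [E] using e2 v hv)
  exact ⟨l, H, A, l1, l2, hH, l3, l4, by rw [← e1, mul_assoc, mul_inv'' hH, mul_one]⟩

end Vale.Agent.P002S
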