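import Vale.Agent.P002S.FDefs

/-! Part F: from `GL` over `O_L` to `SL` over a finite extension. -/

namespace Vale.Agent.P002S

open Matrix Vale.Agent.P002

variable {r : ℕ}

/-- descent along the coordinates in `Hd` -/
theorem descent_on {J : Type} [Finite J] [DecidableEq J] (hr : 0 < r) {ω : ℂ}
    (hω : IsPrimitiveRoot ω r) (Hd : J → Prop) {S : Set (J → Mat r)}
    (hS1 : ∀ s ∈ S, ∀ k, (s k).det = 1)
    (hS2 : ∀ s ∈ S, ∀ k, Hd k → Function.update s k (ω • s k) ∈ S) {x : J → Mat r}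
    (hx : ∀ k, (x k).det = 1)
    (h : x ∈ Zc {y | ∃ s ∈ S, ∃ c : J → ℂ, (∀ k, c k ≠ 0) ∧ (∀ k, ¬ Hd k → c k = 1) ∧
      y = fun k => c k • s k}) : x ∈ Zc S := by
  classical
  have := Fintype.ofFinite J
  have key : ∀ T : Finset J, (∀ k ∈ T, Hd k) → x ∈ Zc {y | ∃ s ∈ S, ∃ c : J → ℂ,
      (∀ k, c k ≠ 0) ∧ (∀ k ∉ T, c k = 1) ∧ y = fun k => c k • s k} → x ∈ Zc S := by
    intro T
    induction T using Finset.induction_on with
    | empty =>
      refine fun _ h => Zc.mono ?_ h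
      rintro _ ⟨s, hs, c, -, hc, rfl⟩
      simpa [fun k => hc k (Finset.notMem_empty k)] using hs
    | insert k T hk ih =>
      refine fun hT h => ih (fun j hj => hT j (Finset.mem_insert_of_mem hj))
        (descent_one hr hω k ?_ ?_ (hx k) (Zc.mono ?_ h))
      · rintro _ ⟨s, hs, c, -, hc, rfl⟩
        simpa [hc k hk] using hS1 s hs k
      · rintro _ ⟨s, hs, c, h0, hc, rfl⟩
        refine ⟨_, hS2 s hs k (hT k (Finset.mem_insert_self _ _)), c, h0, hc, funext fun j => ?_⟩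
        by_cases e : j = k
        · subst e; simp [smul_comm ω]
        · simp [e]
      · rintro _ ⟨s, hs, c, h0, hc, rfl⟩
        refine ⟨_, ⟨s, hs, Function.update c k 1, fun j => ?_, fun j hj => ?_, rfl⟩, c k, h0 k,
          funext fun j => ?_⟩
        · by_cases e : j = k
          · subst e; simp
          · simp [e, h0]
        · by_cases e : j = k
          · subst e; simp
          · rw [Function.update_of_ne e, hc j (by simp [e, hj])]
        · by_cases e : j = k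
          · subst e; simp
          · simp [e]
  refine key (Finset.univ.filter Hd) (fun k hk => (Finset.mem_filter.1 hk).2) (Zc.mono ?_ h)
  rintro _ ⟨s, hs, c, h0, hc, rfl⟩
  exact ⟨s, hs, c, h0, fun k hk => hc k fun h => hk (Finset.mem_filter.2 ⟨Finset.mem_univ k, h⟩),
    rfl⟩

theorem surfW_smul {g s : ℕ} {u : Gens g s → Mat r} (hu : ∀ k, (u k).det ≠ 0) {a : Gens g s → ℂ}
    (ha : ∀ k, a k ≠ 0) (h1 : ∀ j, a (.inr (.inr j)) = 1) :
    surfW (fun k => a k • u k) = surfW u := by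
  unfold surfW
  congr 3
  · funext i; exact cm_smul (hu _) (hu _) (ha _) (ha _)
  · funext j; simp only [h1, one_smul]

theorem semis_smul {ι : Type} {u : ι → Mat r} (h : Semis u) {a : ι → ℂ} (ha : ∀ k, a k ≠ 0) :
    Semis fun k => a k • u k := by
  intro N hN
  obtain ⟨N', h1, h2⟩ := h N fun k v hv => by
    have := N.smul_mem (a k)⁻¹ (hN k v hv)
    rwa [Matrix.smul_mulVec, smul_smul, inv_mul_cancel₀ (ha k), one_smul] at this
  refine ⟨N', fun k v hv => ?_, h2⟩
  rw [Matrix.smul_mulVec]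
  exact N'.smul_mem _ (h1 k v hv)

theorem root_unit {C : Mat r} (hC : C.det = 1) (hi : ∀ z, C.charpoly.IsRoot z → IsIntegral ℤ z)
    {z : ℂ} (hz : C.charpoly.IsRoot z) : z ≠ 0 ∧ IsIntegral ℤ z⁻¹ := by
  classical
  have h0 := C.charpoly_monic.ne_zero
  have h1 := Multiset.prod_erase ((Polynomial.mem_roots h0).2 hz)
  rw [← Matrix.det_eq_prod_roots_charpoly, hC] at h1
  refine ⟨left_ne_zero_of_mul_eq_one h1, ?_⟩
  rw [← eq_inv_of_mul_eq_one_right h1]
  exact IsIntegral.multiset_prod fun w hw =>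
    hi w ((Polynomial.mem_roots h0).1 (Multiset.mem_of_mem_erase hw))

theorem f_fin (hb : S_big) (hg : S_gl) (hρ : S_root) (B : BlkF) : S_all := by
  classical
  intro r g s c hr hc hi
  obtain ⟨L, hL, hT, hB⟩ := hb r (⋃ j, {z | (c j).charpoly.IsRoot z})
    (Set.finite_iUnion fun j => Polynomial.finite_setOfPred_isRoot (c j).charpoly_monic.ne_zero)
    (fun z hz => by
      obtain ⟨j, hj⟩ := Set.mem_iUnion.1 hz
      exact hi j z hj)
  obtain ⟨L', hL', hle, ⟨ω, hωL, hω⟩, hroot⟩ := hρ r L hr hL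
  refine ⟨L', hL', fun v hv => ?_⟩
  obtain ⟨v1, v2, v3, v4⟩ := hv
  choose k hk hvk using v3
  have hk0 : ∀ j, (k j).det ≠ 0 := fun j => by rw [hk j]; exact one_ne_zero
  have h1 := hg (OL L) r g s v hB ⟨fun i => by rw [v1 i]; exact one_ne_zero, v2, fun j z hz => by
    rw [hvk j, mul_assoc, Matrix.charpoly_mul_comm, mul_assoc, inv_mul' (hk0 j), mul_one] at hz
    obtain ⟨z0, zi⟩ := root_unit (hc j) (hi j) hz
    have zL : z ∈ L := hT z (Set.mem_iUnion.2 ⟨j, hz⟩)
    exact ⟨Units.mk0 z z0, ⟨⟨zL, hi j z hz⟩, ⟨L.inv_mem zL, zi⟩⟩, rfl⟩⟩ v4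
  refine descent_on hr hω (fun i => ∀ j, i ≠ .inr (.inr j)) (fun u hu i => (hu.2 i).2.2)
    (fun u hu i hi' => ?_) v1 (Zc.mono (fun u hu => ?_) h1)
  · have e : Function.update u i (ω • u i) = fun j => (if j = i then ω else 1) • u j := by
      funext j
      by_cases hj : j = i
      · subst hj; simp
      · simp [hj]
    have hne : ∀ j, (if j = i then ω else 1) ≠ 0 := fun j => by
      split_ifs
      exacts [hω.ne_zero hr.ne', one_ne_zero]
    have hone : ∀ j : Fin s, (if (Sum.inr (Sum.inr j) : Gens g s) = i then ω else 1) = 1 :=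
      fun j => if_neg (hi' j).symm
    have hint : ∀ j, IntSL L' ((if j = i then ω else 1) • u j) := fun j => by
      split_ifs
      · exact (hu.2 j).smul hωL hω.pow_eq_one hr
      · rw [one_smul]; exact hu.2 j
    obtain ⟨⟨u1, u2, u3, u4⟩, -⟩ := hu
    rw [e]
    refine ⟨⟨fun j => (hint j).2.2, ?_, fun j => ?_, semis_smul u4 hne⟩, hint⟩
    · rw [surfW_smul (fun j => by rw [u1 j]; exact one_ne_zero) hne hone, u2]
    · simp only [hone, one_smul]
      exact u3 j
  · obtain ⟨u1, u2, u3, u4⟩ := hu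
    choose h hh huh using u3
    have hw : ∀ i, ∃ w ∈ L', w ≠ 0 ∧ IsIntegral ℤ w⁻¹ ∧ w ^ r = (u i).det ∧
        ((¬ ∀ j, i ≠ .inr (.inr j)) → w = 1) := by
      intro i
      by_cases hi' : ∀ j, i ≠ .inr (.inr j)
      · obtain ⟨w, a1, a2, a3, a4⟩ := hroot _ (u1 i).2.1 (B.idet _ _ (u1 i)).1
          (B.idet _ _ (u1 i)).2
        exact ⟨w, a1, a2, a3, a4, fun h => absurd hi' h⟩
      · push Not at hi'
        obtain ⟨j, rfl⟩ := hi'
        refine ⟨1, L'.one_mem, one_ne_zero, by rw [inv_one]; exact isIntegral_one, ?_, fun _ => rfl⟩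
        rw [one_pow, huh j, Matrix.det_conj ((Matrix.isUnit_iff_isUnit_det _).2 (hh j).isUnit),
          v1]
    choose w wL w0 wi wr w1 using hw
    have hone : ∀ j : Fin s, (w (.inr (.inr j)))⁻¹ = 1 := fun j => by
      rw [w1 _ fun h => h j rfl, inv_one]
    have hint : ∀ i, IntSL L' ((w i)⁻¹ • u i) := fun i => by
      refine ⟨fun a b => L'.mul_mem (L'.inv_mem (wL i)) (hle ((u1 i).1 a b).1),
        IntB.smul (wi i) fun a b => ((u1 i).1 a b).2, ?_⟩
      rw [Matrix.det_smul, Fintype.card_fin, inv_pow, wr, inv_mul_cancel₀ (u1 i).2.1]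
    refine ⟨fun i => (w i)⁻¹ • u i, ⟨⟨fun i => (hint i).2.2, ?_, fun j => ?_,
      semis_smul u4 fun i => inv_ne_zero (w0 i)⟩, hint⟩, w, w0, w1, funext fun i => ?_⟩
    · rw [surfW_smul (fun i => (u1 i).2.1) (fun i => inv_ne_zero (w0 i)) hone, u2]
    · have h0 : (h j * k j).det ≠ 0 := by rw [det_mul]; exact mul_ne_zero (hh j) (hk0 j)
      obtain ⟨t, t0, t1⟩ := exists_smul_det_one h0
      refine ⟨t • (h j * k j), t1, ?_⟩
      simp only [hone, one_smul]
      rw [conj_smul h0 _ t0, huh j, hvk j]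
      simp only [Matrix.mul_inv_rev, mul_assoc]
    · rw [smul_smul, mul_inv_cancel₀ (w0 i), one_smul]

end Vale.Agent.P002S
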