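import Vale.Agent.P002S.FDefs

/-! Part F: induction over the blocks of a semisimple point. -/

namespace Vale.Agent.P002S

open Matrix Vale.Agent.P002

theorem Big.mono {O : Subring ℂ} {n m : ℕ} (h : Big O n) (hm : m ≤ n) : Big O m :=
  ⟨fun k hk => h.cl k (hk.trans hm), fun k hk => h.gl k (hk.trans hm)⟩

theorem f_gl (hb : S_base) (hs : S_split) (hm : S_semis) (B : BlkF) : S_gl := by
  intro O n g s
  induction n using Nat.strong_induction_on with
  | _ n ih =>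
  intro x hO hx hS
  by_cases hI : IrrF x
  · exact hb O n g s x hO hx hI
  obtain ⟨p, q, hp, hq, rfl, h⟩ := hs n _ x hS hI
  obtain ⟨T, y, z, hT, e⟩ := h x HEq.rfl
  obtain ⟨hd, hw, hE⟩ := hx
  have hTi : T⁻¹.det ≠ 0 := det_inv_ne hT
  have e' : ∀ k, blk (y k) (z k) = T⁻¹ * x k * T⁻¹⁻¹ := fun k => by
    rw [e k, inv_inv' hT]
    simp only [mul_assoc, imc hT, inv_mul' hT, mul_one]
  have hdd : ∀ k, (y k).det ≠ 0 ∧ (z k).det ≠ 0 := fun k => by
    rw [← mul_ne_zero_iff, ← B.det, e' k, det_mul, det_mul]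
    exact mul_ne_zero (mul_ne_zero hTi (hd k)) (det_inv_ne hTi)
  have hyz : surfW y = 1 ∧ surfW z = 1 := by
    refine B.inj _ _ _ _ ?_
    rw [← B.surf y z (fun k => (hdd k).1) (fun k => (hdd k).2), B.one, funext e',
      B.conj x _ hTi hd, hw, mul_one, mul_inv'' hTi]
  have hch : ∀ k, (x k).charpoly = (y k).charpoly * (z k).charpoly := fun k => by
    rw [e k, mul_assoc, Matrix.charpoly_mul_comm, mul_assoc, inv_mul' hT, mul_one, B.charpoly]
  have hsem := (hm.1 p q _ y z).1 (by rw [funext e']; exact hm.2 _ _ x _ hTi hS)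
  have h1 := ih p (by omega) y (hO.mono (by omega)) ⟨fun k => (hdd k).1, hyz.1, fun j w hw =>
    hE j w (by rw [hch]; exact Polynomial.root_mul.2 (Or.inl hw))⟩ hsem.1
  have h2 := ih q (by omega) z (hO.mono (by omega)) ⟨fun k => (hdd k).2, hyz.2, fun j w hw =>
    hE j w (by rw [hch]; exact Polynomial.root_mul.2 (Or.inr hw))⟩ hsem.2
  have h3 := Zc.prod (hO.gl _ le_rfl T) (Zc.prod h1 h2)
  let Ψ : Mat (p + q) × (Gens g s → Mat p) × (Gens g s → Mat q) → Gens g s → Mat (p + q) :=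
    fun w k => w.1 * blk (w.2.1 k) (w.2.2 k) * w.1⁻¹
  have hD : Bas {w : Mat (p + q) × (Gens g s → Mat p) × (Gens g s → Mat q) |
      w ∈ Set.univ ∧ w.1.det ≠ 0} := Bas.univ.of_reg RegF.id.fst.det
  have key : Ψ (T, y, z) ∈ Zc (AppF O x) := by
    refine Zc.map h3 hD ⟨trivial, hT⟩ (f := Ψ) (RegF.pi fun k => (RegF.id.fst.mul
      (B.reg.comp ((RegF.id.snd.fst.apply k).prodMk (RegF.id.snd.snd.apply k))
        fun _ _ => trivial)).mul (RegF.id.fst.inv fun w hw => hw.2)) fun u hu _ => Zc.subset _ ?_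
    obtain ⟨T', y', z'⟩ := u
    obtain ⟨t1, ⟨a1, a2, a3, a4⟩, ⟨b1, b2, b3, b4⟩⟩ := hu
    have t0 : T'.det ≠ 0 := t1.2.1
    have hi : ∀ k, IntGL O (blk (y' k) (z' k)) := fun k => B.int O _ _ (a1 k) (b1 k)
    refine ⟨fun k => B.imul O _ _ (B.imul O _ _ t1 (hi k)) (B.iinv O _ t1), ?_, fun j => ?_,
      hm.2 _ _ _ _ t0 ((hm.1 p q _ y' z').2 ⟨a4, b4⟩)⟩
    · show surfW (fun k => T' * blk (y' k) (z' k) * T'⁻¹) = 1
      rw [B.conj _ _ t0 fun k => (hi k).2.1, B.surf y' z' (fun k => (a1 k).2.1)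
        (fun k => (b1 k).2.1), a2, b2, B.one, mul_one, mul_inv'' t0]
    · obtain ⟨h₁, c1, d1⟩ := a3 j
      obtain ⟨h₂, c2, d2⟩ := b3 j
      have c3 : (blk h₁ h₂).det ≠ 0 := by rw [B.det]; exact mul_ne_zero c1 c2
      refine ⟨T' * blk h₁ h₂ * T⁻¹, ?_, ?_⟩
      · rw [det_mul, det_mul]
        exact mul_ne_zero (mul_ne_zero t0 c3) hTi
      · show T' * blk (y' _) (z' _) * T'⁻¹ = _
        rw [e, show y' (.inr (.inr j)) = _ from d1, show z' (.inr (.inr j)) = _ from d2,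
          ← B.mul, ← B.mul, ← B.inv _ _ c1 c2]
        simp only [Matrix.mul_inv_rev, inv_inv' hT, mul_assoc, imc hT]
  rwa [show Ψ (T, y, z) = x from funext fun k => (e k).symm] at key

end Vale.Agent.P002S
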