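import Vale.Agent.P002S.FDefs

/-! Part F: roots of units. -/

namespace Vale.Agent.P002S

open Matrix Vale.Agent.P002

namespace FRoot_

open NumberField

/-- an element of `OL L` as an algebraic integer of `L` -/
def toO {L : IntermediateField ℚ ℂ} {z : ℂ} (h : z ∈ OL L) : 𝓞 L :=
  ⟨⟨z, h.1⟩, (isIntegral_algebraMap_iff (algebraMap L ℂ).injective).1 h.2⟩

/-- the complex value of an algebraic integer -/
noncomputable def val (L : IntermediateField ℚ ℂ) : 𝓞 L →+* ℂ :=
  (algebraMap L ℂ).comp (algebraMap (𝓞 L) L)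

theorem val_toO {L : IntermediateField ℚ ℂ} {z : ℂ} (h : z ∈ OL L) : val L (toO h) = z := rfl

theorem val_inj (L : IntermediateField ℚ ℂ) : Function.Injective (val L) :=
  (algebraMap L ℂ).injective.comp RingOfIntegers.coe_injective

theorem val_int (L : IntermediateField ℚ ℂ) (x : 𝓞 L) : IsIntegral ℤ (val L x) :=
  (RingOfIntegers.isIntegral_coe x).algebraMap

end FRoot_

open FRoot_ NumberField in
theorem f_root : S_root := by
  intro r L hr hL
  have : NumberField L := ⟨⟩
  obtain ⟨G, hG, hfin⟩ := Monoid.fg_iff.1 (inferInstance : Monoid.FG (𝓞 L)ˣ)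
  choose ρ hρ using fun u : (𝓞 L)ˣ => IsAlgClosed.exists_pow_nat_eq (val L u) hr
  have hω := Complex.isPrimitiveRoot_exp r hr.ne'
  generalize Complex.exp (2 * Real.pi * Complex.I / r) = ω at hω
  have : Finite (insert ω (ρ '' G) : Set ℂ) := (hfin.image ρ).insert ω
  have : FiniteDimensional ℚ (IntermediateField.adjoin ℚ (insert ω (ρ '' G))) := by
    refine IntermediateField.finiteDimensional_adjoin ?_
    rintro x (rfl | ⟨u, -, rfl⟩)
    · exact (hω.isIntegral hr).tower_top
    · exact (IsIntegral.of_pow hr (hρ u ▸ val_int L u)).tower_top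
  have hs : ∀ x ∈ insert ω (ρ '' G), x ∈ L ⊔ IntermediateField.adjoin ℚ (insert ω (ρ '' G)) :=
    fun x hx => (le_sup_right : _ ≤ L ⊔ _) (IntermediateField.subset_adjoin _ _ hx)
  have key : ∀ u : (𝓞 L)ˣ, ∃ w ∈ L ⊔ IntermediateField.adjoin ℚ (insert ω (ρ '' G)),
      w ^ r = val L u := fun u => by
    have hu : u ∈ Submonoid.closure G := hG ▸ Submonoid.mem_top u
    induction hu using Submonoid.closure_induction with
    | mem x hx => exact ⟨ρ x, hs _ (Or.inr ⟨x, hx, rfl⟩), hρ x⟩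
    | one => exact ⟨1, one_mem _, by rw [one_pow, Units.val_one, map_one]⟩
    | mul x y _ _ h1 h2 =>
      obtain ⟨a, ha, ha'⟩ := h1
      obtain ⟨b, hb, hb'⟩ := h2
      exact ⟨a * b, mul_mem ha hb, by rw [mul_pow, ha', hb', Units.val_mul, map_mul]⟩
  refine ⟨L ⊔ IntermediateField.adjoin ℚ (insert ω (ρ '' G)), inferInstance, le_sup_left,
    ⟨ω, hs _ (Or.inl rfl), hω⟩, fun z hz h1 h2 => ?_⟩
  obtain ⟨w, hw, e⟩ := key (Units.mkOfMulEqOne (toO h1) (toO h2) (val_inj L (by
    rw [map_mul, map_one, val_toO, val_toO, mul_inv_cancel₀ hz])))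
  rw [Units.val_mkOfMulEqOne, val_toO] at e
  refine ⟨w, hw, ?_, IsIntegral.of_pow hr ?_, e⟩
  · rintro rfl
    exact hz (by rw [← e, zero_pow hr.ne'])
  · rw [inv_pow, e]
    exact h2.2

end Vale.Agent.P002S
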