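import Vale.Agent.P002S.FDefs

/-! Semisimplicity of block sums and of conjugates. -/

namespace Vale.Agent.P002S

open Matrix Vale.Agent.P002

namespace FSemis_

variable {p q r : ℕ} {ι : Type} {x : ι → Mat r} {y : ι → Mat p} {z : ι → Mat q}

theorem inv_map {φ : (Fin p → ℂ) →ₗ[ℂ] (Fin r → ℂ)} (h : ∀ k v, φ (y k *ᵥ v) = x k *ᵥ φ v)
    {M : Submodule ℂ (Fin p → ℂ)} (hM : Inv y M) : Inv x (M.map φ) := by
  rintro k _ ⟨v, hv, rfl⟩
  exact ⟨_, hM k v hv, h k v⟩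

theorem inv_comap {φ : (Fin p → ℂ) →ₗ[ℂ] (Fin r → ℂ)} (h : ∀ k v, φ (y k *ᵥ v) = x k *ᵥ φ v)
    {M : Submodule ℂ (Fin r → ℂ)} (hM : Inv x M) : Inv y (M.comap φ) := fun k v hv => by
  rw [Submodule.mem_comap, h]
  exact hM k _ hv

theorem inv_sup {M N : Submodule ℂ (Fin r → ℂ)} (hM : Inv x M) (hN : Inv x N) :
    Inv x (M ⊔ N) := fun k v hv => by
  obtain ⟨a, ha, b, hb, rfl⟩ := Submodule.mem_sup.1 hv
  rw [mulVec_add]
  exact Submodule.add_mem_sup (hM k a ha) (hN k b hb)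

theorem sub {φ : (Fin p → ℂ) →ₗ[ℂ] (Fin r → ℂ)} (hi : ∀ v, φ v = 0 → v = 0)
    (h : ∀ k v, φ (y k *ᵥ v) = x k *ᵥ φ v) (hx : Semis x) : Semis y := by
  intro M hM
  obtain ⟨M', h1, h2⟩ := hx _ (inv_map h hM)
  refine ⟨M'.comap φ, inv_comap h h1, Submodule.disjoint_def.2 fun v a b =>
    hi v (Submodule.disjoint_def.1 h2.disjoint _ ⟨v, a, rfl⟩ b), codisjoint_iff_le_sup.2 fun v _ => ?_⟩
  obtain ⟨_, ⟨m, hm, rfl⟩, b, hb, e⟩ :=
    Submodule.mem_sup.1 (codisjoint_iff_le_sup.1 h2.codisjoint (Submodule.mem_top (x := φ v)))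
  refine Submodule.mem_sup.2 ⟨m, hm, v - m, ?_, add_sub_cancel _ _⟩
  rw [Submodule.mem_comap, map_sub, ← e, add_sub_cancel_left]
  exact hb

theorem sup {φ : (Fin p → ℂ) →ₗ[ℂ] (Fin r → ℂ)} {ψ : (Fin q → ℂ) →ₗ[ℂ] (Fin r → ℂ)}
    (h : ∀ k v, φ (y k *ᵥ v) = x k *ᵥ φ v) (h' : ∀ k v, ψ (z k *ᵥ v) = x k *ᵥ ψ v)
    (hs : ∀ v, ∃ a b, v = φ a + ψ b) (hy : Semis y) (hz : Semis z) : Semis x := by
  intro N hN
  obtain ⟨M1, a1, a2⟩ := hy _ (inv_comap h hN)
  obtain ⟨M2, b1, b2⟩ := hz _ (inv_comap h' (inv_sup hN (inv_map h a1)))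
  refine ⟨M1.map φ ⊔ M2.map ψ, inv_sup (inv_map h a1) (inv_map h' b1),
    Submodule.disjoint_def.2 fun n hn hn' => ?_, codisjoint_iff_le_sup.2 fun v _ => ?_⟩
  · obtain ⟨_, ⟨a, ha, rfl⟩, _, ⟨b, hb, rfl⟩, rfl⟩ := Submodule.mem_sup.1 hn'
    have e : b = 0 := Submodule.disjoint_def.1 b2.disjoint b (by
      rw [Submodule.mem_comap, ← add_sub_cancel_left (φ a) (ψ b)]
      exact sub_mem (Submodule.mem_sup_left hn) (Submodule.mem_sup_right ⟨a, ha, rfl⟩)) hb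
    rw [e, map_zero, add_zero] at hn ⊢
    rw [Submodule.disjoint_def.1 a2.disjoint a hn ha, map_zero]
  · obtain ⟨a, b, rfl⟩ := hs v
    obtain ⟨c, hc, d, hd, rfl⟩ :=
      Submodule.mem_sup.1 (codisjoint_iff_le_sup.1 a2.codisjoint (Submodule.mem_top (x := a)))
    obtain ⟨e, he, f, hf, rfl⟩ :=
      Submodule.mem_sup.1 (codisjoint_iff_le_sup.1 b2.codisjoint (Submodule.mem_top (x := b)))
    rw [map_add, map_add, ← sup_assoc]
    exact add_mem (Submodule.mem_sup_left (Submodule.add_mem_sup hc ⟨d, hd, rfl⟩))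
      (Submodule.add_mem_sup he ⟨f, hf, rfl⟩)

/-- inclusion of the first block -/
noncomputable def i1 (p q : ℕ) : (Fin p → ℂ) →ₗ[ℂ] (Fin (p + q) → ℂ) where
  toFun a := Sum.elim a 0 ∘ finSumFinEquiv.symm
  map_add' a b := by
    funext i
    rcases h : finSumFinEquiv.symm i with j | j <;> simp [h]
  map_smul' c a := by
    funext i
    rcases h : finSumFinEquiv.symm i with j | j <;> simp [h]

/-- inclusion of the second block -/
noncomputable def i2 (p q : ℕ) : (Fin q → ℂ) →ₗ[ℂ] (Fin (p + q) → ℂ) where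
  toFun b := Sum.elim 0 b ∘ finSumFinEquiv.symm
  map_add' a b := by
    funext i
    rcases h : finSumFinEquiv.symm i with j | j <;> simp [h]
  map_smul' c a := by
    funext i
    rcases h : finSumFinEquiv.symm i with j | j <;> simp [h]

theorem blk_mulVec (A : Mat p) (B : Mat q) (a : Fin p → ℂ) (b : Fin q → ℂ) :
    blk A B *ᵥ (Sum.elim a b ∘ finSumFinEquiv.symm) =
      Sum.elim (A *ᵥ a) (B *ᵥ b) ∘ finSumFinEquiv.symm := by
  rw [blk, reindex_apply, submatrix_mulVec_equiv, Equiv.symm_symm, Function.comp_assoc,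
    Equiv.symm_comp_self, Function.comp_id, fromBlocks_mulVec]
  simp

theorem i1_mul (A : Mat p) (B : Mat q) (v : Fin p → ℂ) : i1 p q (A *ᵥ v) = blk A B *ᵥ i1 p q v := by
  change _ = blk A B *ᵥ (Sum.elim v 0 ∘ finSumFinEquiv.symm)
  rw [blk_mulVec, mulVec_zero]
  rfl

theorem i2_mul (A : Mat p) (B : Mat q) (v : Fin q → ℂ) : i2 p q (B *ᵥ v) = blk A B *ᵥ i2 p q v := by
  change _ = blk A B *ᵥ (Sum.elim 0 v ∘ finSumFinEquiv.symm)
  rw [blk_mulVec, mulVec_zero]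
  rfl

end FSemis_

theorem f_semis : S_semis := by
  refine ⟨fun p q ι y z => ⟨fun h => ⟨?_, ?_⟩, fun h => ?_⟩, fun r ι f T hT h => ?_⟩
  · refine FSemis_.sub (φ := FSemis_.i1 p q) (fun v e => funext fun j => ?_)
      (fun k v => FSemis_.i1_mul _ _ v) h
    simpa [FSemis_.i1] using congrFun e (finSumFinEquiv (Sum.inl j))
  · refine FSemis_.sub (φ := FSemis_.i2 p q) (fun v e => funext fun j => ?_)
      (fun k v => FSemis_.i2_mul _ _ v) h
    simpa [FSemis_.i2] using congrFun e (finSumFinEquiv (Sum.inr j))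
  · refine FSemis_.sup (φ := FSemis_.i1 p q) (ψ := FSemis_.i2 p q)
      (fun k v => FSemis_.i1_mul _ _ v) (fun k v => FSemis_.i2_mul _ _ v) (fun v => ?_) h.1 h.2
    refine ⟨fun j => v (finSumFinEquiv (Sum.inl j)), fun j => v (finSumFinEquiv (Sum.inr j)),
      funext fun i => ?_⟩
    obtain ⟨i, rfl⟩ := finSumFinEquiv.surjective i
    rcases i with j | j <;> simp [FSemis_.i1, FSemis_.i2]
  · have hu : IsUnit T.det := isUnit_iff_ne_zero.2 hT
    refine FSemis_.sub (φ := mulVecLin T⁻¹) (fun v e => ?_) (fun k v => ?_) h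
    · rw [mulVecLin_apply] at e
      rw [← one_mulVec v, ← mul_nonsing_inv T hu, ← mulVec_mulVec, e, mulVec_zero]
    · simp only [mulVecLin_apply, mulVec_mulVec]
      rw [← Matrix.mul_assoc, ← Matrix.mul_assoc, nonsing_inv_mul T hu, Matrix.one_mul]

end Vale.Agent.P002S
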