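import Vale.Agent.P002S.FDefs

/-! Part F: splitting of a semisimple family that is not irreducible. -/

namespace Vale.Agent.P002S

open Matrix Vale.Agent.P002

namespace FSplit_

theorem of_basis {n : ℕ} (b : Module.Basis (Fin n) ℂ (Fin n → ℂ)) :
    ∃ T : Mat n, T.det ≠ 0 ∧
      ∀ A : Mat n, A = T * LinearMap.toMatrix b b (Matrix.toLin' A) * T⁻¹ := by
  have h := (Pi.basisFun ℂ (Fin n)).toMatrix_mul_toMatrix_flip b
  refine ⟨(Pi.basisFun ℂ (Fin n)).toMatrix b, (Matrix.isUnit_det_of_right_inverse h).ne_zero,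
    fun A => ?_⟩
  rw [Matrix.inv_eq_right_inv h, basis_toMatrix_mul_linearMap_toMatrix_mul_basis_toMatrix,
    LinearMap.toMatrix_eq_toMatrix', LinearMap.toMatrix'_toLin']

theorem eq_blk {p q : ℕ} (M : Mat (p + q))
    (h1 : ∀ i j, M (finSumFinEquiv (.inr i)) (finSumFinEquiv (.inl j)) = 0)
    (h2 : ∀ i j, M (finSumFinEquiv (.inl i)) (finSumFinEquiv (.inr j)) = 0) :
    ∃ (y : Mat p) (z : Mat q), M = blk y z := by
  refine ⟨Matrix.of fun i j => M (finSumFinEquiv (.inl i)) (finSumFinEquiv (.inl j)),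
    Matrix.of fun i j => M (finSumFinEquiv (.inr i)) (finSumFinEquiv (.inr j)), ?_⟩
  ext a c
  obtain ⟨a, rfl⟩ := finSumFinEquiv.surjective a
  obtain ⟨c, rfl⟩ := finSumFinEquiv.surjective c
  rw [blk, Matrix.reindex_apply, Matrix.submatrix_apply, Equiv.symm_apply_apply,
    Equiv.symm_apply_apply]
  rcases a with a | a <;> rcases c with c | c
  · rfl
  · exact h2 a c
  · exact h1 a c
  · rfl

end FSplit_

open FSplit_ in
theorem f_split : S_split := by
  intro r ι f hs hi
  simp only [IrrF, not_forall, not_or] at hi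
  obtain ⟨N, hN, h0, h1⟩ := hi
  obtain ⟨N', hN', h⟩ := hs N hN
  obtain ⟨p, hp⟩ : ∃ p, Module.finrank ℂ N = p := ⟨_, rfl⟩
  obtain ⟨q, hq⟩ : ∃ q, Module.finrank ℂ N' = q := ⟨_, rfl⟩
  have hpq : p + q = r := by
    rw [← hp, ← hq, Submodule.finrank_add_eq_of_isCompl h, Module.finrank_fin_fun]
  refine ⟨p, q, ?_, ?_, hpq, ?_⟩
  · rw [← hp]
    exact Nat.pos_of_ne_zero fun e => h0 (Submodule.finrank_eq_zero.1 e)
  · rw [← hq]
    refine Nat.pos_of_ne_zero fun e => h1 ?_
    have := h.sup_eq_top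
    rwa [Submodule.finrank_eq_zero.1 e, sup_bot_eq] at this
  subst hpq
  intro f' hf'
  cases hf'
  set b1 := Module.finBasisOfFinrankEq ℂ N hp
  set b2 := Module.finBasisOfFinrankEq ℂ N' hq
  set b := ((b1.prod b2).map (Submodule.prodEquivOfIsCompl N N' h)).reindex finSumFinEquiv with hb
  obtain ⟨T, hT, hA⟩ := of_basis b
  have e1 : ∀ a, b (finSumFinEquiv a) = Submodule.prodEquivOfIsCompl N N' h (b1.prod b2 a) :=
    fun a => by rw [hb, Module.Basis.reindex_apply, Equiv.symm_apply_apply, Module.Basis.map_apply]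
  have e2 : ∀ v a, b.repr v (finSumFinEquiv a) =
      (b1.prod b2).repr ((Submodule.prodEquivOfIsCompl N N' h).symm v) a := fun v a => by
    rw [hb, Module.Basis.repr_reindex_apply, Equiv.symm_apply_apply, Module.Basis.map_repr]
    rfl
  have key : ∀ k, ∃ (y : Mat p) (z : Mat q),
      LinearMap.toMatrix b b (Matrix.toLin' (f k)) = blk y z := fun k => by
    refine eq_blk _ (fun i j => ?_) fun i j => ?_
    · have m : f k *ᵥ b (finSumFinEquiv (.inl j)) ∈ N := by
        refine hN k _ ?_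
        rw [e1, Submodule.coe_prodEquivOfIsCompl', Module.Basis.prod_apply_inl_snd]
        simp
      rw [LinearMap.toMatrix_apply, e2, Module.Basis.prod_repr_inr, Matrix.toLin'_apply,
        show f k *ᵥ b (finSumFinEquiv (.inl j)) = ((⟨_, m⟩ : N) : Fin (p + q) → ℂ) from rfl,
        Submodule.prodEquivOfIsCompl_symm_apply_left]
      simp
    · have m : f k *ᵥ b (finSumFinEquiv (.inr j)) ∈ N' := by
        refine hN' k _ ?_
        rw [e1, Submodule.coe_prodEquivOfIsCompl', Module.Basis.prod_apply_inr_fst]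
        simp
      rw [LinearMap.toMatrix_apply, e2, Module.Basis.prod_repr_inl, Matrix.toLin'_apply,
        show f k *ᵥ b (finSumFinEquiv (.inr j)) = ((⟨_, m⟩ : N') : Fin (p + q) → ℂ) from rfl,
        Submodule.prodEquivOfIsCompl_symm_apply_right]
      simp
  choose y z hyz using key
  exact ⟨T, y, z, hT, fun k => by rw [← hyz]; exact hA _⟩

end Vale.Agent.P002S
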