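import Vale.Agent.P002S.FDefs

/-! Part F: extension of an intertwiner by one step. -/

namespace Vale.Agent.P002S

open Matrix Vale.Agent.P002

namespace FStep_

variable {V : Type} [AddCommGroup V] [Module ℂ V] [FiniteDimensional ℂ V]

theorem rk (W : Submodule ℂ V) (N : Module.End ℂ V) :
    Module.finrank ℂ (W.map N) + Module.finrank ℂ ↥(W ⊓ LinearMap.ker N) = Module.finrank ℂ W := by
  have := (N.domRestrict W).finrank_range_add_finrank_ker
  rwa [LinearMap.range_domRestrict, LinearMap.ker_domRestrict,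
    ← Submodule.finrank_map_subtype_eq W, Submodule.map_comap_subtype] at this

/-- the image of one new vector -/
theorem new {W U : Submodule ℂ V} {a b g : Module.End ℂ V} (h1 : W.map a ≤ W.map b)
    (h2 : Module.finrank ℂ ↥(W ⊓ LinearMap.ker a) ≤ Module.finrank ℂ ↥(W ⊓ LinearMap.ker b))
    (hU : U ≤ W) (g1 : ∀ u ∈ U, g u ∈ W) (g3 : ∀ u ∈ U, b (g u) = a u) {w : V} (hw : w ∈ W)
    (hn : w ∉ U) : ∃ x ∈ W, b x = a w ∧ ∀ u ∈ U, g u ≠ x := by
  by_cases h : ∃ u ∈ U, a u = a w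
  · obtain ⟨u, hu, e⟩ := h
    have hlt : U ⊓ (W ⊓ LinearMap.ker a) < W ⊓ LinearMap.ker a := by
      refine lt_of_le_of_ne inf_le_right fun h0 => hn ?_
      have : w - u ∈ W ⊓ LinearMap.ker a :=
        ⟨W.sub_mem hw (hU hu), by rw [SetLike.mem_coe, LinearMap.mem_ker, map_sub, e, sub_self]⟩
      rw [← h0] at this
      exact (U.sub_mem_iff_left hu).1 this.1
    have hz : ¬ W ⊓ LinearMap.ker b ≤ (U ⊓ (W ⊓ LinearMap.ker a)).map g := fun h0 =>
      ((Submodule.finrank_mono h0).trans (Submodule.finrank_map_le g _)).not_gt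
        ((Submodule.finrank_lt_finrank_of_lt hlt).trans_le h2)
    obtain ⟨z, hz1, hz2⟩ := SetLike.not_le_iff_exists.1 hz
    have hb : b z = 0 := hz1.2
    refine ⟨g u + z, W.add_mem (g1 u hu) hz1.1, by rw [map_add, g3 u hu, hb, add_zero, e],
      fun v hv e' => hz2 ⟨v - u, ⟨U.sub_mem hv hu, hU (U.sub_mem hv hu), ?_⟩, ?_⟩⟩
    · rw [SetLike.mem_coe, LinearMap.mem_ker, ← g3 _ (U.sub_mem hv hu), map_sub, e',
        add_sub_cancel_left, hb]
    · rw [map_sub, e', add_sub_cancel_left]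
  · obtain ⟨x, hx, e⟩ := h1 ⟨w, hw, rfl⟩
    exact ⟨x, hx, e, fun u hu e' => h ⟨u, hu, by rw [← g3 u hu, e', e]⟩⟩

theorem ext {W : Submodule ℂ V} {a b : Module.End ℂ V} (h1 : W.map a ≤ W.map b)
    (h2 : Module.finrank ℂ ↥(W ⊓ LinearMap.ker a) ≤ Module.finrank ℂ ↥(W ⊓ LinearMap.ker b))
    (U : Submodule ℂ V) : ∀ g : Module.End ℂ V, U ≤ W → (∀ u ∈ U, g u ∈ W) →
      (∀ u ∈ U, g u = 0 → u = 0) → (∀ u ∈ U, b (g u) = a u) →
      ∃ k : Module.End ℂ V, (∀ w ∈ W, k w ∈ W) ∧ (∀ w ∈ W, k w = 0 → w = 0) ∧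
        (∀ w ∈ W, b (k w) = a w) ∧ ∀ u ∈ U, k u = g u := by
  induction U using WellFoundedGT.induction with
  | ind U ih =>
    intro g hU g1 g2 g3
    by_cases h : W ≤ U
    · exact ⟨g, fun w hw => g1 w (h hw), fun w hw => g2 w (h hw), fun w hw => g3 w (h hw),
        fun _ _ => rfl⟩
    obtain ⟨w, hw, hn⟩ := SetLike.not_le_iff_exists.1 h
    obtain ⟨x, hx, x1, x2⟩ := new h1 h2 hU g1 g3 hw hn
    obtain ⟨f, f1, f2⟩ := Submodule.exists_le_ker_of_notMem hn
    obtain ⟨g', e0, e1⟩ : ∃ g' : Module.End ℂ V, (∀ u ∈ U, g' u = g u) ∧ g' w = x :=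
      ⟨g + f.smulRight ((f w)⁻¹ • (x - g w)),
        fun u hu => by simp [LinearMap.mem_ker.1 (f2 hu)], by simp [smul_smul, f1]⟩
    have key : ∀ v ∈ U ⊔ Submodule.span ℂ {w}, ∃ u ∈ U, ∃ c : ℂ, v = u + c • w ∧
        g' v = g u + c • x := fun v hv => by
      obtain ⟨u, hu, y, hy, rfl⟩ := Submodule.mem_sup.1 hv
      obtain ⟨c, rfl⟩ := Submodule.mem_span_singleton.1 hy
      exact ⟨u, hu, c, rfl, by rw [map_add, map_smul, e0 u hu, e1]⟩
    obtain ⟨k, k1, k2, k3, k4⟩ := ih (U ⊔ Submodule.span ℂ {w})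
      (lt_of_le_of_ne le_sup_left fun h0 =>
        hn (h0 ▸ Submodule.mem_sup_right (Submodule.mem_span_singleton_self w))) g'
      (sup_le hU ((Submodule.span_singleton_le_iff_mem w W).2 hw))
      (fun v hv => by
        obtain ⟨u, hu, c, -, e⟩ := key v hv
        exact e ▸ W.add_mem (g1 u hu) (W.smul_mem c hx))
      (fun v hv h0 => by
        obtain ⟨u, hu, c, rfl, e⟩ := key v hv
        rw [h0] at e
        by_cases hc : c = 0
        · rw [hc, zero_smul, add_zero] at e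
          rw [hc, zero_smul, add_zero, g2 u hu e.symm]
        · refine (x2 (c⁻¹ • -u) (U.smul_mem _ (U.neg_mem hu)) ?_).elim
          rw [map_smul, map_neg, neg_eq_of_add_eq_zero_right e.symm, inv_smul_smul₀ hc])
      (fun v hv => by
        obtain ⟨u, hu, c, rfl, e⟩ := key v hv
        rw [e, map_add, map_add, map_smul, map_smul, g3 u hu, x1])
    exact ⟨k, k1, k2, k3, fun u hu => (k4 u (Submodule.mem_sup_left hu)).trans (e0 u hu)⟩

end FStep_

theorem f_step : S_step := by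
  intro n W W₁ N N' g hW h1 h2 g1 g2 g3
  have hN : ∀ w ∈ W, N w ∈ W₁ := fun w hw => h1 ▸ Submodule.mem_map_of_mem hw
  have r1 := FStep_.rk W N
  have r2 := FStep_.rk W N'
  rw [h1] at r1
  rw [h2] at r2
  have hk : W ⊓ LinearMap.ker (g * N) ≤ W ⊓ LinearMap.ker N := fun w hw =>
    ⟨hw.1, g2 _ (hN w hw.1) hw.2⟩
  obtain ⟨k, k1, k2, k3, k4⟩ := FStep_.ext (W := W) (a := g * N) (b := N')
    (by rintro _ ⟨w, hw, rfl⟩; exact h2 ▸ g1 _ (hN w hw))
    ((Submodule.finrank_mono hk).trans (by omega)) W₁ g hW (fun u hu => hW (g1 u hu)) g2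
    fun u hu => (g3 u hu).symm
  exact ⟨k, k1, k2, fun w hw => by rw [k4 _ (hN w hw), k3 w hw]; rfl⟩

end Vale.Agent.P002S
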