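import Vale.Agent.P002S.FBase
import Vale.Agent.P002S.FInd
import Vale.Agent.P002S.FFin
import Vale.Agent.P002S.FBurn
import Vale.Agent.P002S.FSplit
import Vale.Agent.P002S.FSemis
import Vale.Agent.P002S.FStep
import Vale.Agent.P002S.FConj
import Vale.Agent.P002S.FEx
import Vale.Agent.P002S.FRoot
import Vale.Agent.P002S.FBlk

namespace Vale.Agent.P002S

theorem fin (hb : S_big) (ht : S_t) : S_all :=
  f_fin hb (f_gl (f_base ht f_burn (f_conj f_step) f_open f_ex f_blk) f_split f_semis f_blk)
    f_root f_blk

end Vale.Agent.P002S
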