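import Vale.Agent.P002S.ZDefs

/-! Part Z: assembly. -/

namespace Vale.Agent.P002S.Z

open Matrix Vale.Agent.P002

theorem closed_of (hcyc : Z_cyc) (hsch : Z_sch) (hstr : Z_str) (hpair : Z_pair) (hone : Z_one)
    (hunit : Z_unit) (hhigh : Z_high) {n : ℕ} {L : IntermediateField ℚ ℂ} (hn : 0 < n)
    (hL : Good L n) (hR : Rt L n) : ZClosed (OL L) n := by
  intro g z y h1 h2 h3
  have hy : y ∈ XX n g z := ⟨h1, h2, h3⟩
  have hz := XX.pow hy
  refine Zc.of_subset ((hunit n L hL).2 g z) ?_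
  rcases g with _ | _ | g
  · exact Zc.subset _ ⟨fun i => i.elim0, fun i => i.elim0, h3⟩
  · refine Zc.of_subset ?_ (hcyc n 0 z y hy)
    rintro u ⟨hu, hc⟩
    have e : ∀ a b : Fin 1 → Mat n, hprod a b = cm (a 0) (b 0) := fun a b => by simp [hprod]
    obtain ⟨P, c, q, hP, hm, ea, eb⟩ := hstr n z (u.1 0) (u.2 0) hz (hu.1 0) (hu.2.1 0)
      (by rw [← e]; exact hu.2.2) hc
    have h := hone n L z hn hL hR hz P c q hP hm
    rw [← ea, ← eb] at h
    have eu : u = (fun _ => u.1 0, fun _ => u.2 0) := by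
      ext1 <;> funext i <;> rw [Fin.fin_one_eq_zero i]
    rw [eu]
    exact Zc.map h Bas.univ (Set.mem_univ _)
      (f := fun q : Mat n × Mat n => ((fun _ => q.1, fun _ => q.2) :
        (Fin 1 → Mat n) × (Fin 1 → Mat n)))
      ((RegF.pi fun _ => RegF.id.fst).prodMk (RegF.pi fun _ => RegF.id.snd))
      fun s hs _ => Zc.subset _ ⟨fun _ => hs.1, fun _ => hs.2.1, by rw [e]; exact hs.2.2⟩
  · obtain ⟨-, A, B, hA, hB, hRS, hAB⟩ := hpair n L z hn hR hz
    refine Zc.of_subset ?_ (hcyc n (g + 1) z y hy)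
    rintro u ⟨hu, hc⟩
    refine Zc.of_subset ?_ (hsch n g z hn u hu hc)
    rintro v ⟨hv, hS⟩
    exact hhigh n g L z A B hn hL hA hB hRS hAB v hv hS

theorem big_of (hcyc : Z_cyc) (hsch : Z_sch) (hstr : Z_str) (hpair : Z_pair) (hone : Z_one)
    (hunit : Z_unit) (hhigh : Z_high) : S_big := by
  intro r T hT hi
  have hN : 0 < 2 * r.factorial := by positivity
  have hfin : {w : ℂ | w ^ (2 * r.factorial) = 1}.Finite := by
    refine (Polynomial.nthRoots (2 * r.factorial) (1 : ℂ)).toFinset.finite_toSet.subset ?_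
    intro w hw
    simpa [Polynomial.mem_nthRoots hN] using hw
  obtain ⟨L, hL, hm⟩ := exists_good (r := 1) one_pos (T ∪ {w : ℂ | w ^ (2 * r.factorial) = 1})
    (hT.union hfin) (by
      rintro z (hz | hz)
      · exact hi z hz
      · exact IsIntegral.of_pow hN (by rw [show z ^ (2 * r.factorial) = 1 from hz]; exact isIntegral_one))
  have hR : ∀ n ≤ r, 0 < n → Rt L n := by
    intro n hn h0 w hw
    obtain ⟨k, hk⟩ := Nat.dvd_factorial h0 hn
    refine hm w (Or.inr ?_)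
    show w ^ (2 * r.factorial) = 1
    rw [hk, ← mul_assoc, pow_mul, hw, one_pow]
  have hG : ∀ n ≤ r, 0 < n → Good L n := by
    intro n hn h0
    have hω := Complex.isPrimitiveRoot_exp n h0.ne'
    refine ⟨hL.1, hL.2.1, _, hR n hn h0 _ ?_, hω⟩
    rw [mul_comm 2 n, pow_mul, hω.pow_eq_one, one_pow]
  have h0 : ∀ M : Mat 0, IntGL (OL L) M := fun M =>
    ⟨fun i => i.elim0, by simp, fun i => i.elim0⟩
  refine ⟨L, hL.1, fun z hz => hm z (Or.inl hz), fun n hn => ?_, fun n hn => ?_⟩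
  · rcases Nat.eq_zero_or_pos n with rfl | h
    · exact fun g z y _ _ h3 => Zc.subset _ ⟨fun _ => h0 _, fun _ => h0 _, h3⟩
    · exact closed_of hcyc hsch hstr hpair hone hunit hhigh h (hG n hn h) (hR n hn h)
  · rcases Nat.eq_zero_or_pos n with rfl | h
    · exact fun M => Zc.subset _ (h0 M)
    · exact (hunit n L (hG n hn h)).1

end Vale.Agent.P002S.Z
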