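import Vale.Agent.P002S.ZDefs

/-! Tuples of two by two matrices with a large centraliser. -/

namespace Vale.Agent.P002S.Z

open Matrix Vale.Agent.P002

namespace ZBad2_

theorem comm {M Y : Mat 2} (h : Y * M = M * Y) (hY : ∀ c : ℂ, Y ≠ c • (1 : Mat 2)) :
    ∃ p : ℂ × ℂ, p.1 • (1 : Mat 2) + p.2 • !![Y 0 0 - Y 1 1, Y 0 1; Y 1 0, 0] = M := by
  have e0 := congrFun (congrFun h 0) 0
  have e1 := congrFun (congrFun h 0) 1
  have e2 := congrFun (congrFun h 1) 0
  simp only [Matrix.mul_apply, Fin.sum_univ_two] at e0 e1 e2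
  have key : ∀ β : ℂ, β * (Y 0 0 - Y 1 1) = M 0 0 - M 1 1 → β * Y 0 1 = M 0 1 → β * Y 1 0 = M 1 0 →
      ∃ p : ℂ × ℂ, p.1 • (1 : Mat 2) + p.2 • !![Y 0 0 - Y 1 1, Y 0 1; Y 1 0, 0] = M := by
    intro β h0 h1 h2
    refine ⟨(M 1 1, β), ?_⟩
    ext i j
    fin_cases i <;> fin_cases j <;> simp [h0, h1, h2]
  by_cases hq : Y 0 1 = 0
  · by_cases hr : Y 1 0 = 0
    · have hp : Y 0 0 - Y 1 1 ≠ 0 := fun hp => hY (Y 1 1) (by
        ext i j
        fin_cases i <;> fin_cases j <;> simp [hq, hr, sub_eq_zero.1 hp])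
      refine key ((M 0 0 - M 1 1) / (Y 0 0 - Y 1 1)) (by field_simp) ?_ ?_
      · field_simp
        linear_combination -e1
      · field_simp
        linear_combination e2
    · refine key (M 1 0 / Y 1 0) ?_ ?_ (by field_simp)
      · field_simp
        linear_combination -e2
      · field_simp
        linear_combination e0
  · refine key (M 0 1 / Y 0 1) ?_ (by field_simp) ?_
    · field_simp
      linear_combination e1
    · field_simp
      linear_combination -e0

end ZBad2_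

theorem z_bad2 : Z_bad2 := by
  intro ι _ hι
  refine (Small.par ((Fin 3 → ℂ) × (ι → ℂ × ℂ)) ?_
    (fun z k => (z.2 k).1 • (1 : Mat 2) + (z.2 k).2 • !![z.1 0, z.1 1; z.1 2, 0]) ?_).sub ?_
  · simp only [Module.finrank_prod, Module.finrank_pi_fintype, Module.finrank_self,
      Finset.sum_const, Finset.card_univ, Fintype.card_fin, smul_eq_mul]
    omega
  · refine RegF.pi fun k => ((RegF.const _).smul (RegF.id.snd.apply k).fst.reg).add
      (RegF.smul (RegF.id.snd.apply k).snd.reg (RegF.of_entries fun i j => ?_))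
    fin_cases i <;> fin_cases j
    exacts [(RegF.id.fst.apply 0).reg, (RegF.id.fst.apply 1).reg, (RegF.id.fst.apply 2).reg,
      Reg.const 0]
  · intro f hf
    obtain ⟨Y, hY⟩ := not_forall.1 hf
    obtain ⟨h1, h2⟩ := Classical.not_imp.1 hY
    choose p hp using fun k => ZBad2_.comm (h1 k) (not_exists.1 h2)
    exact ⟨(![Y 0 0 - Y 1 1, Y 0 1, Y 1 0], p), funext hp⟩

end Vale.Agent.P002S.Z
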