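import Vale.Agent.P002S.ZDefs

/-! The tuples with an invariant subspace in a fixed chart form a small set. -/

namespace Vale.Agent.P002S.Z

open Matrix Vale.Agent.P002

namespace ZChart_

variable {n : ℕ}

/-- the lower left block -/
noncomputable def pj (S : Finset (Fin n)) : Mat n →ₗ[ℂ] Mat n :=
  (LinearMap.mulRight ℂ (E S)).comp (LinearMap.mulLeft ℂ (1 - E S))

theorem pj_apply (S : Finset (Fin n)) (M : Mat n) : pj S M = (1 - E S) * M * E S := rfl

theorem single_mem {S : Finset (Fin n)} {i j : Fin n} (hi : i ∉ S) (hj : j ∈ S) :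
    pj S (Matrix.single i j 1) = Matrix.single i j 1 := by
  have h1 : E S * Matrix.single i j (1 : ℂ) = 0 := by
    ext a b
    rw [E, diagonal_mul]
    by_cases h : a = i
    · subst h; simp [hi]
    · simp [Matrix.single, Ne.symm h]
  have h2 : Matrix.single i j (1 : ℂ) * E S = Matrix.single i j 1 := by
    ext a b
    rw [E, mul_diagonal]
    by_cases h : b = j
    · subst h; simp [hj]
    · simp [Matrix.single, Ne.symm h]
  rw [pj_apply, sub_mul, one_mul, h1, sub_zero, h2]

theorem card_le (S : Finset (Fin n)) :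
    Sᶜ.card * S.card ≤ Module.finrank ℂ (LinearMap.range (pj S)) := by
  let g : (↥Sᶜ × ↥S) → Fin n × Fin n := fun p => (p.1, p.2)
  have hg : Function.Injective g := fun p q h =>
    Prod.ext (Subtype.ext (congrArg Prod.fst h)) (Subtype.ext (congrArg Prod.snd h))
  let w : (↥Sᶜ × ↥S) → LinearMap.range (pj S) := fun p =>
    ⟨Matrix.single p.1.1 p.2.1 1, _, single_mem (Finset.mem_compl.1 p.1.2) p.2.2⟩
  have hw : LinearIndependent ℂ w := by
    refine LinearIndependent.of_comp (LinearMap.range (pj S)).subtype ?_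
    have h := (Matrix.stdBasis ℂ (Fin n) (Fin n)).linearIndependent.comp g hg
    rwa [show (LinearMap.range (pj S)).subtype ∘ w = Matrix.stdBasis ℂ (Fin n) (Fin n) ∘ g from
      funext fun p => (Matrix.stdBasis_eq_single ℂ _ _).symm]
  simpa only [Fintype.card_prod, Fintype.card_coe] using hw.fintype_card_le_finrank

end ZChart_

open ZChart_ in
theorem z_chart : Z_chart := by
  intro n ι _ S hι hn h1 h2
  refine (Small.par (LinearMap.range (pj S) × (ι → LinearMap.ker (pj S))) ?_
    (fun y k => (1 + y.1.1) * (y.2 k).1 * (1 - y.1.1)) ?_).sub ?_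
  · have a1 := LinearMap.finrank_range_add_finrank_ker (pj S)
    have a2 := card_le S
    have a3 := Finset.card_add_card_compl S
    have a4 := h1.card_pos
    have a5 := h2.card_pos
    rw [Module.finrank_matrix, Fintype.card_fin, Module.finrank_self, mul_one] at a1
    rw [Fintype.card_fin] at a3
    rw [Module.finrank_prod, Module.finrank_pi_fintype, Finset.sum_const, Finset.card_univ,
      smul_eq_mul, ← a1]
    generalize Module.finrank ℂ (LinearMap.range (pj S)) = a at *
    generalize Module.finrank ℂ (LinearMap.ker (pj S)) = b at *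
    have a6 : n ≤ a + 1 := by nlinarith
    have a7 : 3 * a ≤ Fintype.card ι * a := Nat.mul_le_mul_right _ hι
    rw [mul_add]
    omega
  · have hX : RegF Set.univ fun y : LinearMap.range (pj S) × (ι → LinearMap.ker (pj S)) =>
        (y.1.1 : Mat n) := RegF.id.fst.map (LinearMap.range (pj S)).subtype
    exact RegF.pi fun k => (((RegF.const 1).add hX).mul
      ((RegF.id.snd.apply k).map (LinearMap.ker (pj S)).subtype)).mul ((RegF.const 1).sub hX)
  · rintro f ⟨X, e1, e2, e3⟩
    have e4 : X * X = 0 := by rw [← e2, mul_assoc, ← mul_assoc (E S), e1, zero_mul, mul_zero]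
    have e5 : (1 + X) * (1 - X) = 1 := by rw [add_mul, mul_sub, mul_sub, e4]; simp
    have e6 : (1 - E S) * (1 - X) = 1 - (E S + X) := by
      rw [sub_mul, mul_sub, mul_sub, e1]; simp only [one_mul, mul_one, sub_zero]; abel
    have e7 : (1 + X) * E S = E S + X := by rw [add_mul, one_mul, e2]
    refine ⟨(⟨X, X, by rw [pj_apply, sub_mul, one_mul, e1, sub_zero, e2]⟩,
      fun k => ⟨(1 - X) * f k * (1 + X), ?_⟩), funext fun k => ?_⟩
    · rw [LinearMap.mem_ker, pj_apply, ← e3 k, ← e6, ← e7]
      simp only [mul_assoc]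
    · show (1 + X) * ((1 - X) * f k * (1 + X)) * (1 - X) = f k
      rw [← mul_assoc, ← mul_assoc, e5, one_mul, mul_assoc, e5, mul_one]

end Vale.Agent.P002S.Z
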