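import Vale.Agent.P002S.ZDefs

/-! Companion matrices. -/

namespace Vale.Agent.P002S.Z

open Matrix Vale.Agent.P002

namespace ZCmp_

variable {n : ℕ}

theorem one (z : ℂ) (c : Fin n → ℂ) (hz : z ^ n = 1) (hc : Msk z c) :
    Dz n z * cpn c = z • (cpn c * Dz n z) := by
  ext i j
  rw [Dz, diagonal_mul, Matrix.smul_apply, mul_diagonal, smul_eq_mul, cpn, of_apply]
  split_ifs with h1 h2
  · have e : z * z ^ (j : ℕ) = 1 := by rw [← pow_succ', h1, hz]
    by_cases h : z ^ (i : ℕ) = 1
    · rw [h]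
      linear_combination (-c i) * e
    · rw [hc i h]
      ring
  · rw [h2, pow_succ']
    ring
  · ring

theorem two (b : Mat n) (u c : Fin n → ℂ) (h : b ^ n *ᵥ u = kry b u *ᵥ c) :
    b * kry b u = kry b u * cpn c := by
  ext i j
  have e : (b * kry b u) i j = (b ^ ((j : ℕ) + 1) *ᵥ u) i := by
    rw [pow_succ', ← mulVec_mulVec]
    rfl
  rw [e, mul_apply]
  by_cases h1 : (j : ℕ) + 1 = n
  · rw [h1, h]
    show ∑ k, kry b u i k * c k = _
    exact Finset.sum_congr rfl fun k _ => by rw [cpn, of_apply, if_pos h1]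
  · have h2 : (j : ℕ) + 1 < n := lt_of_le_of_ne j.2 h1
    rw [Finset.sum_eq_single ⟨j + 1, h2⟩]
    · rw [cpn, of_apply, if_neg h1, if_pos rfl, mul_one]
      rfl
    · intro k _ hk
      rw [cpn, of_apply, if_neg h1, if_neg fun h => hk (Fin.ext h), mul_zero]
    · exact fun h => absurd (Finset.mem_univ _) h

theorem three [NeZero n] : RS (cpn (Pi.single (0 : Fin n) (1 : ℂ))) := by
  have hω := Complex.isPrimitiveRoot_exp n (NeZero.ne n)
  generalize Complex.exp (2 * Real.pi * Complex.I / n) = ω at hω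
  have hd : Function.Injective fun j : Fin n => ω ^ (j : ℕ) := fun i j h =>
    Fin.ext (hω.pow_inj i.2 j.2 h)
  have hK := kry_diag_ne hd
  have h2 := two (diagonal fun j : Fin n => ω ^ (j : ℕ)) (fun _ => 1) (Pi.single 0 1) (by
    ext i
    rw [mulVec_single_one, diagonal_pow, mulVec_diagonal, Pi.pow_apply, ← pow_mul, mul_comm (i : ℕ),
      pow_mul, hω.pow_eq_one]
    simp [kry])
  have h3 := (rs_diagonal hd).conj (det_inv_ne hK)
  rwa [inv_inv' hK, mul_assoc, h2, imc hK] at h3

theorem four (m : ℕ) (c : Fin (m + 1) → ℂ) : (cpn c).det = (-1) ^ m * c 0 := by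
  rw [det_succ_row_zero, Finset.sum_eq_single (Fin.last m)]
  · have e : (cpn c).submatrix Fin.succ (Fin.last m).succAbove = 1 := by
      ext i j
      rw [submatrix_apply, Fin.succAbove_last, cpn, of_apply, one_apply, Fin.val_castSucc,
        Fin.val_succ, if_neg (by omega)]
      simp only [Fin.ext_iff, add_left_inj]
    rw [e, det_one, mul_one, cpn, of_apply, Fin.val_last, if_pos rfl]
  · intro j _ hj
    have : (j : ℕ) + 1 ≠ m + 1 := fun h => hj (Fin.ext (by simpa using h))
    rw [cpn, of_apply, if_neg this, if_neg (by simp), mul_zero, zero_mul]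
  · exact fun h => absurd (Finset.mem_univ _) h

end ZCmp_

theorem z_cmp : Z_cmp := by
  intro n _
  refine ⟨ZCmp_.one, ZCmp_.two, ZCmp_.three, ?_⟩
  obtain ⟨m, rfl⟩ := Nat.exists_eq_succ_of_ne_zero (NeZero.ne n)
  exact ⟨(-1) ^ m, by rw [← pow_mul, mul_comm, pow_mul]; simp, ZCmp_.four m⟩

end Vale.Agent.P002S.Z
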