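import Vale.Agent.P002S.ZDefs

/-! Cyclic matrices are the matrices with left eigenspaces of dimension at most one. -/

namespace Vale.Agent.P002S.Z

open Matrix Vale.Agent.P002

namespace ZCn_

variable {n : ℕ} {M : Mat n} {u w : Fin n → ℂ}

theorem kry_app (M : Mat n) (u w : Fin n → ℂ) (j : Fin n) :
    (w ᵥ* kry M u) j = w ⬝ᵥ (M ^ (j : ℕ) *ᵥ u) := rfl

theorem pow_eig {s : ℂ} (h : w ᵥ* M = s • w) (j : ℕ) : w ᵥ* M ^ j = s ^ j • w := by
  induction j with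
  | zero => simp
  | succ j ih => rw [pow_succ, ← vecMul_vecMul, ih, smul_vecMul, h, smul_smul, pow_succ]

theorem eq_zero {s : ℂ} (hK : (kry M u).det ≠ 0) (h : w ᵥ* M = s • w) (h0 : w ⬝ᵥ u = 0) : w = 0 :=
  Matrix.eq_zero_of_vecMul_eq_zero hK (funext fun j => by
    rw [kry_app, dotProduct_mulVec, pow_eig h, smul_dotProduct, h0, smul_zero, Pi.zero_apply])

theorem all_pow (h : w ᵥ* kry M u = 0) (j : ℕ) : w ⬝ᵥ (M ^ j *ᵥ u) = 0 := by
  rcases Nat.eq_zero_or_pos n with rfl | hr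
  · simp [dotProduct]
  have hd : M.charpoly.natDegree = n := by simp
  have hne : M.charpoly ≠ 1 := fun h1 => by
    rw [h1, Polynomial.natDegree_one] at hd
    omega
  rw [Matrix.pow_eq_aeval_mod_charpoly M, Polynomial.aeval_eq_sum_range'
    ((Polynomial.natDegree_modByMonic_lt (Polynomial.X ^ j) M.charpoly_monic hne).trans_eq hd),
    Matrix.sum_mulVec, dotProduct_sum]
  refine Finset.sum_eq_zero fun i hi => ?_
  rw [Matrix.smul_mulVec, dotProduct_smul, ← kry_app M u w ⟨i, Finset.mem_range.1 hi⟩, h,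
    Pi.zero_apply, smul_zero]

end ZCn_

open ZCn_

theorem z_cn : Z_cn := by
  rintro n M ⟨u, hK⟩ s w w' h h' h0
  have h1 : w ⬝ᵥ u ≠ 0 := fun e => h0 (eq_zero hK h e)
  refine ⟨(w' ⬝ᵥ u) / (w ⬝ᵥ u), sub_eq_zero.1 (eq_zero (s := s) hK ?_ ?_)⟩
  · rw [sub_vecMul, smul_vecMul, h, h', smul_sub, smul_comm s]
  · rw [sub_dotProduct, smul_dotProduct, smul_eq_mul, div_mul_cancel₀ _ h1, sub_self]

theorem z_nc : Z_nc := by
  intro n M hM
  let f : Module.End ℂ (Fin n → ℂ) := M.vecMulLinear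
  have : Finite {s // f.HasEigenvalue s} := f.finite_hasEigenvalue
  choose v hv using fun s : {s // f.HasEigenvalue s} => s.2.exists_hasEigenvector
  obtain ⟨u, hu⟩ : ∃ u : Fin n → ℂ, ∀ s, v s ⬝ᵥ u ≠ 0 := by
    refine Gen.ex (Gen.all fun s => ?_)
    obtain ⟨i, hi⟩ := Function.ne_iff.1 (hv s).2
    exact ⟨_, IsPoly.lin (dotProductBilin ℂ ℂ (v s)), ⟨Pi.single i 1, by simpa using hi⟩,
      fun _ h => h⟩
  refine ⟨u, fun hd => ?_⟩
  obtain ⟨w, hw0, hw⟩ := Matrix.exists_vecMul_eq_zero_iff.2 hd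
  let N : Submodule ℂ (Fin n → ℂ) := LinearMap.ker (kry M u).vecMulLinear
  have hN : ∀ x ∈ N, f x ∈ N := fun x hx => funext fun j => by
    have := all_pow (M := M) (u := u) (w := x) hx (j + 1)
    rw [pow_succ', ← mulVec_mulVec, dotProduct_mulVec] at this
    exact this
  have : Nontrivial N := ⟨⟨w, hw⟩, 0, fun e => hw0 (congrArg Subtype.val e)⟩
  obtain ⟨s, hs⟩ := Module.End.exists_eigenvalue (f.restrict hN)
  obtain ⟨x, hx⟩ := hs.exists_hasEigenvector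
  have h1 : x.1 ᵥ* M = s • x.1 := congrArg Subtype.val hx.apply_eq_smul
  have h2 : x.1 ≠ 0 := fun e => hx.2 (Subtype.ext e)
  have h3 : f.HasEigenvalue s := Module.End.hasEigenvalue_of_hasEigenvector
    ⟨Module.End.mem_eigenspace_iff.2 h1, h2⟩
  obtain ⟨c, hc⟩ := hM s x.1 (v ⟨s, h3⟩) h1 (hv ⟨s, h3⟩).apply_eq_smul h2
  have h4 := all_pow (M := M) (u := u) (w := x.1) x.2 0
  rw [pow_zero, one_mulVec] at h4
  exact hu ⟨s, h3⟩ (by rw [hc, smul_dotProduct, h4, smul_zero])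

end Vale.Agent.P002S.Z
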