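import Vale.Agent.P002S.ZDefs

/-! Subspaces as graphs over coordinate subspaces; the families that are not Schur. -/

namespace Vale.Agent.P002S.Z

open Matrix Vale.Agent.P002

namespace ZGraph_

variable {n : ℕ}

theorem ev (S : Finset (Fin n)) (v : Fin n → ℂ) (i : Fin n) :
    (E S *ᵥ v) i = if i ∈ S then v i else 0 := by
  simp [E, mulVec_diagonal]

theorem idem (S : Finset (Fin n)) : E S * E S = E S := by
  rw [E, diagonal_mul_diagonal]
  congr 1
  funext i
  split_ifs <;> simp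

theorem mem {S : Finset (Fin n)} {v : Fin n → ℂ} :
    v ∈ LinearMap.ker (E S).mulVecLin ↔ ∀ i ∈ S, v i = 0 := by
  simp only [LinearMap.mem_ker, mulVecLin_apply, funext_iff, ev, Pi.zero_apply, ite_eq_right_iff]

theorem compl (N : Submodule ℂ (Fin n → ℂ)) :
    ∃ S : Finset (Fin n), IsCompl N (LinearMap.ker (E S).mulVecLin) := by
  classical
  obtain ⟨S, hS, hm⟩ := Finset.exists_min_image (Finset.univ.filter fun S : Finset (Fin n) =>
    Disjoint N (LinearMap.ker (E S).mulVecLin)) Finset.card ⟨Finset.univ, Finset.mem_filter.2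
      ⟨Finset.mem_univ _, Submodule.disjoint_def.2 fun v _ hv =>
        funext fun i => mem.1 hv i (Finset.mem_univ i)⟩⟩
  have hd := (Finset.mem_filter.1 hS).2
  refine ⟨S, hd, codisjoint_iff_le_sup.2 ?_⟩
  rw [← (Pi.basisFun ℂ (Fin n)).span_eq, Submodule.span_le]
  rintro _ ⟨i, rfl⟩
  rw [Pi.basisFun_apply, SetLike.mem_coe]
  by_cases hi : i ∈ S
  · have h1 : ¬ Disjoint N (LinearMap.ker (E (S.erase i)).mulVecLin) := fun h =>
      absurd (hm _ (Finset.mem_filter.2 ⟨Finset.mem_univ _, h⟩))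
        (not_le.2 (Finset.card_erase_lt_of_mem hi))
    rw [Submodule.disjoint_def] at h1 hd
    push Not at h1
    obtain ⟨v, h2, h3, h4⟩ := h1
    have h5 : v i ≠ 0 := fun h => h4 (hd v h2 (mem.2 fun j hj => by
      by_cases e : j = i
      · rwa [e]
      · exact mem.1 h3 j (Finset.mem_erase.2 ⟨e, hj⟩)))
    refine Submodule.mem_sup.2 ⟨(v i)⁻¹ • v, N.smul_mem _ h2, Pi.single i 1 - (v i)⁻¹ • v,
      mem.2 fun j hj => ?_, add_sub_cancel _ _⟩
    by_cases e : j = i
    · simp [e, h5]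
    · simp [e, mem.1 h3 j (Finset.mem_erase.2 ⟨e, hj⟩)]
  · exact Submodule.mem_sup_right (mem.2 fun j hj => Pi.single_eq_of_ne (fun e : j = i => hi (e ▸ hj)) _)

end ZGraph_

open ZGraph_

theorem z_graph : Z_graph := by
  intro n N
  obtain ⟨S, h⟩ := compl N
  set p : Mat n := LinearMap.toMatrix' (N.projection _ h) with hp
  have e : ∀ v, p *ᵥ v = N.projection _ h v := fun v => LinearMap.toMatrix'_mulVec _ v
  have h1 : E S * p = E S := ext_iff_mulVec.2 fun v => by
    have := Submodule.sub_projection_mem h v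
    rw [LinearMap.mem_ker, map_sub, sub_eq_zero] at this
    rw [← mulVec_mulVec, e]
    exact this.symm
  have h2 : p * E S = p := ext_iff_mulVec.2 fun v => by
    rw [← mulVec_mulVec, e, e, eq_comm, ← sub_eq_zero, ← map_sub,
      Submodule.projection_apply_eq_zero_iff]
    exact mem.2 fun i hi => by simp [ev, hi]
  refine ⟨S, p - E S, by rw [mul_sub, h1, idem, sub_self], by rw [sub_mul, h2, idem], fun v => ?_⟩
  rw [add_sub_cancel, e, Submodule.projection_eq_self_iff]

theorem z_bad (h1 : Z_graph) (h2 : Z_chart) (h3 : Z_bad2) : Z_bad := by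
  intro n ι _ hι hn
  rcases (by omega : n = 1 ∨ n = 2 ∨ 3 ≤ n) with rfl | rfl | h
  · refine Small.empty.sub fun f hf => hf fun Y _ => ⟨Y 0 0, ?_⟩
    ext i j
    simp [Subsingleton.elim i 0, Subsingleton.elim j 0]
  · exact h3 ι hι
  refine (Small.iUnion fun S : {S : Finset (Fin n) // S.Nonempty ∧ Sᶜ.Nonempty} =>
    h2 n ι S.1 hι h S.2.1 S.2.2).sub fun f hf => ?_
  obtain ⟨Y, hY⟩ := not_forall.1 hf
  obtain ⟨hY, hs⟩ := Classical.not_imp.1 hY
  have : Nonempty (Fin n) := ⟨⟨0, hn⟩⟩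
  obtain ⟨c, hc⟩ := Module.End.exists_eigenvalue (Y.mulVecLin : Module.End ℂ (Fin n → ℂ))
  obtain ⟨w, hw⟩ := hc.exists_hasEigenvector
  obtain ⟨S, X, a1, a2, a3⟩ := h1 n (LinearMap.ker (Y - c • 1).mulVecLin)
  simp only [LinearMap.mem_ker, mulVecLin_apply] at a3
  have b1 : S.Nonempty := Finset.nonempty_iff_ne_empty.2 fun e => hw.2 (by
    have e0 : E S = 0 := by simp [e, E]
    rw [e0, mul_zero] at a2
    have := (a3 w).1 (by
      rw [sub_mulVec, smul_mulVec, one_mulVec, sub_eq_zero]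
      exact hw.apply_eq_smul)
    rwa [e0, ← a2, add_zero, zero_mulVec, eq_comm] at this)
  have b2 : Sᶜ.Nonempty := Finset.nonempty_iff_ne_empty.2 fun e => hs ⟨c, by
    have e0 : E S = 1 := by simp [(Finset.compl_eq_empty_iff S).1 e, E]
    rw [e0, one_mul] at a1
    rw [← sub_eq_zero, ext_iff_mulVec]
    intro v
    rw [zero_mulVec, a3, e0, a1, add_zero, one_mulVec]⟩
  refine Set.mem_iUnion.2 ⟨⟨S, b1, b2⟩, X, a1, a2, fun k => ext_iff_mulVec.2 fun v => ?_⟩
  have b3 : (E S + X) * (E S + X) = E S + X := by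
    have : X * X = 0 := by
      conv_lhs => rw [← a2, mul_assoc, a2, a1, mul_zero]
    rw [add_mul, mul_add, mul_add, idem, a1, a2, this, add_zero, add_zero]
  have b4 := (a3 ((E S + X) *ᵥ v)).2 (by rw [mulVec_mulVec, b3])
  have b5 : (Y - c • 1) * f k = f k * (Y - c • 1) := by
    rw [sub_mul, mul_sub, hY k, smul_mul_assoc, mul_smul_comm, one_mul, mul_one]
  have b6 := (a3 (f k *ᵥ (E S + X) *ᵥ v)).1 (by
    rw [mulVec_mulVec, b5, ← mulVec_mulVec, b4, mulVec_zero])
  rw [← mulVec_mulVec, ← mulVec_mulVec, sub_mulVec, one_mulVec, b6, sub_self, zero_mulVec]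

end Vale.Agent.P002S.Z
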