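import Vale.Agent.P002S.ZDefs

namespace Vale.Agent.P002S.Z

open Matrix Vale.Agent.P002

theorem z_high : Z_high := by
  intro n g L z A B hn hL hA hB hRS hAB y hy hS
  haveI : NeZero n := ⟨hn.ne'⟩
  have hz := XX.pow hy
  have hz0 : z ≠ 0 := by
    rintro rfl
    rw [zero_pow hn.ne'] at hz
    exact zero_ne_one hz
  obtain ⟨σ, -, -, H1, H2, H3, hcc, hcc', hσ, hW⟩ := exists_sys g 1
    (fun _ => z⁻¹ • (1 : Mat n)) (fun _ => by
      rw [det_smul, det_one, mul_one, Fintype.card_fin, inv_pow, hz, inv_one])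
  have hgp : ∀ k, Gp L (σ.cc k) := by
    rintro (i | i | j)
    · rw [hcc' _ (H1 i)]; exact Gp.one
    · rw [hcc' _ (H2 i)]; exact Gp.one
    · rw [hcc]; exact Gp.one.smul (inv_ne_zero hz0)
  have hv1 : ∀ x i, σ.val x (.inl i) = x (.inl i) := fun x i => σ.val_of_not_mem (H1 i) x
  have hv2 : ∀ x i, σ.val x (.inr (.inl i)) = x (.inr (.inl i)) :=
    fun x i => σ.val_of_not_mem (H2 i) x
  have hv3 : ∀ x ∈ UU n (Gens (g + 2) 1), ∀ j, σ.val x (.inr (.inr j)) = z⁻¹ • (1 : Mat n) :=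
    fun x hx j => by
      rw [σ.val_of_mem (H3 j), hcc, mul_smul_comm, mul_one, smul_mul_assoc, mul_inv'' (hx _)]
  have hrel : ∀ x ∈ UU n (Gens (g + 2) 1), σ.rel x =
      z⁻¹ • hprod (fun i => x (.inl i)) fun i => x (.inr (.inl i)) := by
    intro x hx
    rw [hσ]
    unfold surfW hprod
    simp only [hv1, hv2, hv3 x hx]
    simp
  obtain ⟨κ, hκ, hmain⟩ := σ.main_comp hL hgp hA hB hRS (by
    rw [hW, hAB]; simp [smul_smul, mul_inv_cancel₀ hz0, inv_mul_cancel₀ hz0])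
  let x : Gens (g + 2) 1 → Mat n := Sum.elim y.1 (Sum.elim y.2 fun _ => 1)
  have hxU : x ∈ UU n (Gens (g + 2) 1) := by
    rintro (i | i | j)
    exacts [hy.1 i, hy.2.1 i, by simp [x]]
  have hxR : x ∈ σ.R := ⟨hxU, by
    rw [hrel x hxU]
    show z⁻¹ • hprod y.1 y.2 = 1
    rw [hy.2.2, smul_smul, inv_mul_cancel₀ hz0, one_smul]⟩
  have hxS : Schur (σ.val x) := fun Y hY => hS Y (by
    rintro (i | i)
    · have := hY (.inl i); rwa [hv1] at this
    · have := hY (.inr (.inl i)); rwa [hv2] at this)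
  have hx : x ∈ Zc (σ.St L) := closure_minimal (fun v hv => hmain v hv.1 hv.2) (Zc.isClosed _)
    (σ.schur_closure hn hκ hxR hxS)
  refine Zc.map hx Bas.univ (Set.mem_univ _)
    (f := fun v : Gens (g + 2) 1 → Mat n => ((fun i => v (.inl i), fun i => v (.inr (.inl i))) :
      (Fin (g + 2) → Mat n) × (Fin (g + 2) → Mat n)))
    ((RegF.pi fun i => RegF.proj _).prodMk (RegF.pi fun i => RegF.proj _))
    fun s hs _ => Zc.subset _ ⟨fun i => hs.1 _, fun i => hs.1 _, ?_⟩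
  have e := hs.2
  rw [hrel s fun k => (hs.1 k).det_ne] at e
  rw [← e, smul_smul, mul_inv_cancel₀ hz0, one_smul]

end Vale.Agent.P002S.Z
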