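import Vale.Agent.P002S.ZDefs

/-! The height of a prime that contains all the variables. -/

namespace Vale.Agent.P002S.Z

open Matrix Vale.Agent.P002

namespace ZHt_

open MvPolynomial

/-- kill the first `k` variables -/
noncomputable def phi (m k : ℕ) : MvPolynomial (Fin m) ℂ →ₐ[ℂ] MvPolynomial (Fin m) ℂ :=
  aeval fun j => if (j : ℕ) < k then 0 else X j

theorem phi_X (m k : ℕ) (j : Fin m) : phi m k (X j) = if (j : ℕ) < k then 0 else X j :=
  aeval_X _ _

theorem phi_comp (m k : ℕ) : (phi m (k + 1)).comp (phi m k) = phi m (k + 1) := by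
  refine algHom_ext fun j => ?_
  rw [AlgHom.comp_apply, phi_X m k]
  by_cases h : (j : ℕ) < k
  · rw [if_pos h, map_zero, phi_X, if_pos (Nat.lt_succ_of_lt h)]
  · rw [if_neg h]

theorem prime (m k : ℕ) : (RingHom.ker (phi m k)).IsPrime := RingHom.ker_isPrime _

theorem lt {m k : ℕ} (h : k < m) : RingHom.ker (phi m k) < RingHom.ker (phi m (k + 1)) := by
  refine lt_of_le_of_ne (fun p hp => ?_) fun e => ?_
  · rw [RingHom.mem_ker] at hp ⊢
    rw [← phi_comp, AlgHom.comp_apply, hp, map_zero]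
  · have h1 : X (⟨k, h⟩ : Fin m) ∈ RingHom.ker (phi m (k + 1)) := by
      rw [RingHom.mem_ker, phi_X, if_pos (Nat.lt_succ_self k)]
    rw [← e, RingHom.mem_ker, phi_X, if_neg (lt_irrefl k)] at h1
    exact X_ne_zero _ h1

theorem ht {m : ℕ} : ∀ k : ℕ, k ≤ m → (k : ℕ∞) ≤ (RingHom.ker (phi m k)).height
  | 0, _ => bot_le
  | k + 1, h => by
    have := prime m k
    have := prime m (k + 1)
    refine le_trans ?_ (Ideal.height_add_one_le_of_lt_of_isPrime (lt h))
    rw [Nat.cast_succ]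
    exact add_le_add_left (ht k (Nat.le_of_succ_le h)) 1

end ZHt_

theorem z_ht : Z_ht := by
  intro m P _ hX
  refine (ZHt_.ht m le_rfl).trans (Ideal.height_mono fun p hp => ?_)
  have e : (Ideal.Quotient.mkₐ ℂ P).comp (ZHt_.phi m m) = Ideal.Quotient.mkₐ ℂ P := by
    refine MvPolynomial.algHom_ext fun j => ?_
    rw [AlgHom.comp_apply, ZHt_.phi_X, if_pos j.2, map_zero, Ideal.Quotient.mkₐ_eq_mk]
    exact (Ideal.Quotient.eq_zero_iff_mem.2 (hX j)).symm
  rw [RingHom.mem_ker] at hp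
  have h1 : Ideal.Quotient.mkₐ ℂ P p = 0 := by
    rw [← e, AlgHom.comp_apply, hp, map_zero]
  exact Ideal.Quotient.eq_zero_iff_mem.1 h1

end Vale.Agent.P002S.Z
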