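import Vale.Agent.P002S.ZDefs

/-! Every matrix commutes with a matrix whose left eigenspaces have dimension at most one. -/

namespace Vale.Agent.P002S.Z

open Matrix Vale.Agent.P002

namespace ZJor_

variable {n : ℕ}

theorem comm_diag {μ η δ : Fin n → ℂ} (h : ∀ i j : Fin n, (j : ℕ) = i + 1 → η i ≠ 0 → δ i = δ j) :
    diagonal δ * jb μ η = jb μ η * diagonal δ := by
  ext i j
  rw [diagonal_mul, mul_diagonal]
  simp only [jb, of_apply]
  split_ifs with h1 h2
  · rw [h1, mul_comm]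
  · by_cases h3 : η i = 0
    · rw [h3, mul_zero, zero_mul]
    · rw [h i j h2 h3, mul_comm]
  · rw [mul_zero, zero_mul]

theorem jb_add (μ μ' η : Fin n → ℂ) : jb μ' η = jb μ η + diagonal (μ' - μ) := by
  ext i j
  simp only [jb, of_apply, Matrix.add_apply, diagonal_apply, Pi.sub_apply]
  split_ifs <;> ring

theorem vec_zero (μ η w : Fin n → ℂ) (j : Fin n) (hj : (j : ℕ) = 0) :
    (w ᵥ* jb μ η) j = w j * μ j := by
  rw [vecMul, dotProduct, Finset.sum_eq_single j (fun i _ hi => by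
    simp only [jb, of_apply]
    rw [if_neg hi, if_neg (by omega), mul_zero]) (by simp)]
  simp [jb]

theorem vec_succ (μ η w : Fin n → ℂ) (i j : Fin n) (hj : (j : ℕ) = i + 1) :
    (w ᵥ* jb μ η) j = w j * μ j + w i * η i := by
  have hij : j ≠ i := fun h => by rw [h] at hj; omega
  rw [vecMul, dotProduct, Finset.sum_eq_add j i hij (fun k _ hk => by
    simp only [jb, of_apply]
    rw [if_neg hk.1, if_neg (fun h => hk.2 (Fin.ext (by omega))), mul_zero]) (by simp) (by simp)]
  simp only [jb, of_apply]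
  rw [if_pos trivial, if_neg hij.symm, if_pos hj]

theorem nd_jb {μ η : Fin n → ℂ} (h1 : ∀ i j : Fin n, (j : ℕ) = i + 1 → η i ≠ 0 → μ i = μ j)
    (h2 : ∀ i j : Fin n, i < j → η i = 0 → μ i ≠ μ j) : ND (jb μ η) := by
  have A : ∀ (s : ℂ) (w : Fin n → ℂ), w ᵥ* jb μ η = s • w → ∀ (k : ℕ) (j : Fin n), (j : ℕ) = k →
      μ j ≠ s → w j = 0 := by
    intro s w hw k
    induction k with
    | zero =>
      intro j hj hs
      have := (vec_zero μ η w j hj).symm.trans (congrFun hw j)
      rw [Pi.smul_apply, smul_eq_mul, mul_comm s] at this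
      exact by_contra fun h => hs (mul_left_cancel₀ h this)
    | succ k ih =>
      intro j hj hs
      let i : Fin n := ⟨k, by omega⟩
      have := (vec_succ μ η w i j hj).symm.trans (congrFun hw j)
      have h0 : w i * η i = 0 := by
        by_cases h : η i = 0
        · rw [h, mul_zero]
        · rw [ih i rfl ((h1 i j hj h).symm ▸ hs), zero_mul]
      rw [h0, add_zero, Pi.smul_apply, smul_eq_mul, mul_comm s] at this
      exact by_contra fun h => hs (mul_left_cancel₀ h this)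
  have B : ∀ (s : ℂ) (w : Fin n → ℂ), w ᵥ* jb μ η = s • w → ∀ i j : Fin n, i < j → μ j = s →
      w i = 0 := by
    intro s w hw i j hij hs
    by_contra h
    have a1 : μ i = s := by_contra fun k => h (A s w hw _ i rfl k)
    have a2 : η i ≠ 0 := fun k => h2 i j hij k (a1.trans hs.symm)
    let k : Fin n := ⟨i + 1, by omega⟩
    have := (vec_succ μ η w i k rfl).symm.trans (congrFun hw k)
    rw [← h1 i k rfl a2, a1, Pi.smul_apply, smul_eq_mul, mul_comm s, add_eq_left] at this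
    exact mul_ne_zero h a2 this
  intro s w w' hw hw' h0
  obtain ⟨q, hq⟩ := Function.ne_iff.1 h0
  have hq' : w q ≠ 0 := hq
  have a1 : μ q = s := by_contra fun k => hq' (A s w hw _ q rfl k)
  refine ⟨w' q / w q, funext fun j => ?_⟩
  rw [Pi.smul_apply, smul_eq_mul]
  rcases lt_trichotomy j q with h | h | h
  · rw [B s w hw j q h a1, B s w' hw' j q h a1, mul_zero]
  · rw [h, div_mul_cancel₀ _ hq']
  · have a2 : μ j ≠ s := fun k => hq' (B s w hw q j h k)
    rw [A s w hw _ j rfl a2, A s w' hw' _ j rfl a2, mul_zero]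

theorem nd_conj {M P : Mat n} (hP : P.det ≠ 0) (h : ND M) : ND (P * M * P⁻¹) := by
  have hu : IsUnit P.det := isUnit_iff_ne_zero.2 hP
  have e : ∀ (s : ℂ) (w : Fin n → ℂ), w ᵥ* (P * M * P⁻¹) = s • w → (w ᵥ* P) ᵥ* M = s • (w ᵥ* P) :=
    fun s w hw => by
      rw [← smul_vecMul, ← hw, vecMul_vecMul, vecMul_vecMul, nonsing_inv_mul_cancel_right _ _ hu]
  have e' : ∀ w : Fin n → ℂ, (w ᵥ* P) ᵥ* P⁻¹ = w := fun w => by
    rw [vecMul_vecMul, mul_nonsing_inv _ hu, vecMul_one]
  intro s w w' hw hw' h0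
  obtain ⟨c, hc⟩ := h s _ _ (e s w hw) (e s w' hw') fun k => h0 (by rw [← e' w, k, zero_vecMul])
  exact ⟨c, by rw [← e' w', hc, smul_vecMul, e']⟩

end ZJor_

open ZJor_ in
theorem z_jor : Z_jor := by
  intro n a
  obtain ⟨P, μ, η, hP, -, h1, rfl⟩ := jordan a
  have hu : IsUnit P.det := isUnit_iff_ne_zero.2 hP
  let m : Fin n → ℕ := fun i => (Finset.univ.filter fun j => j < i ∧ η j = 0).card
  have hm : ∀ i j : Fin n, (j : ℕ) = i + 1 → η i ≠ 0 → (m i : ℂ) = m j := fun i j hj hi => by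
    refine congrArg _ (congrArg Finset.card (Finset.filter_congr fun k _ => ⟨fun h => ⟨by omega, h.2⟩,
      fun h => ⟨?_, h.2⟩⟩))
    have : k ≠ i := fun e => hi (e ▸ h.2)
    omega
  refine ⟨P * jb (fun i => (m i : ℂ)) η * P⁻¹, ?_, nd_conj hP (nd_jb hm fun i j hij hi h => ?_)⟩
  · have e : jb (fun i => (m i : ℂ)) η * jb μ η = jb μ η * jb (fun i => (m i : ℂ)) η := by
      rw [jb_add μ, add_mul, mul_add, comm_diag fun i j hj hi => by
        rw [Pi.sub_apply, Pi.sub_apply, hm i j hj hi, h1 i j hj hi]]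
    simp only [Matrix.mul_assoc, nonsing_inv_mul_cancel_left _ _ hu]
    rw [← Matrix.mul_assoc (jb _ η), e, Matrix.mul_assoc]
  · refine (Finset.card_lt_card (Finset.ssubset_iff_of_subset (fun k hk => ?_) |>.2
      ⟨i, ?_, ?_⟩)).ne (Nat.cast_injective h)
    · rw [Finset.mem_filter] at hk ⊢
      exact ⟨hk.1, hk.2.1.trans hij, hk.2.2⟩
    · simp [hij, hi]
    · simp

end Vale.Agent.P002S.Z
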