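import Vale.Agent.P002S.ZDefs

/-! A common zero of `m` polynomials in `m + 1` variables is not isolated. -/

namespace Vale.Agent.P002S.Z

open Matrix Vale.Agent.P002

theorem z_kr (h : Z_ht) : Z_kr := by
  classical
  intro m φ hφ h0 P hP hz
  by_contra hne
  choose p hp using fun i => (hφ i).exists_mv
  obtain ⟨q, hq⟩ := hP.exists_mv
  have hM : (RingHom.ker (MvPolynomial.eval (0 : Fin (m + 1) → ℂ))).IsPrime :=
    RingHom.ker_isPrime _
  have hI : Ideal.span ((Finset.univ.image p : Finset _) : Set (MvPolynomial (Fin (m + 1)) ℂ)) ≤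
      RingHom.ker (MvPolynomial.eval (0 : Fin (m + 1) → ℂ)) := by
    refine Ideal.span_le.2 fun f hf => ?_
    obtain ⟨i, _, rfl⟩ := Finset.mem_image.1 (Finset.mem_coe.1 hf)
    exact RingHom.mem_ker.2 ((hp i 0).symm.trans (h0 i))
  obtain ⟨Q, hQ, hQM⟩ := Ideal.exists_minimalPrimes_le hI
  have hQp : Q.IsPrime := hQ.1.1
  have h1 := Ideal.height_le_card_of_mem_minimalPrimes_span_finset hQ
  have h2 : (Finset.univ.image p).card ≤ m :=
    Finset.card_image_le.trans (by rw [Finset.card_univ, Fintype.card_fin])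
  have h3 : ∀ j, MvPolynomial.X j ∈ Q := fun j => by
    have h4 : MvPolynomial.X j * q ∈ (Ideal.span ((Finset.univ.image p : Finset _) :
        Set (MvPolynomial (Fin (m + 1)) ℂ))).radical := by
      rw [← MvPolynomial.vanishingIdeal_zeroLocus_eq_radical (K := ℂ),
        MvPolynomial.mem_vanishingIdeal_iff]
      intro s hs
      rw [map_mul, MvPolynomial.aeval_X]
      by_cases s0 : s = 0
      · rw [s0, Pi.zero_apply, zero_mul]
      · have h5 : P s = 0 := hz s ⟨s0, fun i => (hp i s).trans (hs (p i) (Ideal.subset_span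
          (Finset.mem_coe.2 (Finset.mem_image_of_mem p (Finset.mem_univ i)))))⟩
        have h6 : MvPolynomial.aeval s q = 0 := (hq s).symm.trans h5
        rw [h6, mul_zero]
    refine (hQp.mem_or_mem (hQp.radical_le_iff.2 hQ.1.2 h4)).resolve_right fun h7 => hne ?_
    exact (hq 0).trans (RingHom.mem_ker.1 (hQM h7))
  have h8 := (h (m + 1) Q hQp h3).trans h1
  have h9 : m + 1 ≤ (Finset.univ.image p).card := by exact_mod_cast h8
  omega

end Vale.Agent.P002S.Z
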