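import Vale.Agent.P002S.ZDefs

/-! Genus one: every pair with cyclic second entry is a limit of integral pairs. -/

namespace Vale.Agent.P002S.Z

open Matrix Vale.Agent.P002

namespace ZOne_

variable {n : ℕ}

open Classical in
/-- cut off the coordinates where `z ^ i` is not one -/
noncomputable def mk (z : ℂ) (c : Fin n → ℂ) : Fin n → ℂ :=
  fun i => if z ^ (i : ℕ) = 1 then c i else 0

theorem msk (z : ℂ) (c : Fin n → ℂ) : Msk z (mk z c) := fun _ hi => if_neg hi

theorem mk_eq {z : ℂ} {c : Fin n → ℂ} (h : Msk z c) : mk z c = c := by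
  funext i
  unfold mk
  split_ifs with hi
  · rfl
  · exact (h i hi).symm

theorem msk_one [NeZero n] (z : ℂ) : Msk z (Pi.single (0 : Fin n) (1 : ℂ)) := fun i hi =>
  Pi.single_eq_of_ne (fun h => hi (by simp [h])) _

theorem pol_one [NeZero n] (B : Mat n) : pol B (Pi.single (0 : Fin n) (1 : ℂ)) = 1 := by
  unfold pol
  rw [Finset.sum_eq_single 0 (fun j _ hj => by simp [Pi.single_eq_of_ne hj]) (by simp)]
  simp

theorem reg_cpn (z : ℂ) :
    RegF Set.univ fun x : (Fin n → ℂ) × (Fin n → ℂ) => cpn (mk z x.1) := by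
  refine RegF.of_entries fun i j => ?_
  simp only [cpn, mk, of_apply]
  by_cases h1 : (j : ℕ) + 1 = n
  · by_cases h2 : z ^ (i : ℕ) = 1
    · simp only [h1, h2, if_true]
      exact (RegF.id.fst.apply i).reg
    · simp only [h1, h2, if_true, if_false]
      exact Reg.const _
  · simp only [h1, if_false]
    exact Reg.const _

theorem reg_pol (z : ℂ) :
    RegF Set.univ fun x : (Fin n → ℂ) × (Fin n → ℂ) => pol (cpn (mk z x.1)) x.2 :=
  RegF.sum _ fun j _ => RegF.smul (RegF.id.snd.apply j).reg ((reg_cpn z).pow j)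

theorem pol_conj {P : Mat n} (hP : P.det ≠ 0) (B : Mat n) (q : Fin n → ℂ) :
    pol (P * B * P⁻¹) q = P * pol B q * P⁻¹ := by
  simp only [pol, rs_conj_pow hP, Finset.mul_sum, Finset.sum_mul, mul_smul_comm, smul_mul_assoc]

theorem inA_pol (B : Mat n) (q : Fin n → ℂ) : InA B (pol B q) :=
  Finset.sum_induction _ (InA B) (fun _ _ => InA.add) ⟨0, by simp⟩
    fun j _ => (InA.self.pow j).smul _

theorem cm_mul {a b t : Mat n} (ht : t.det ≠ 0) (h : Commute t b) : cm (a * t) b = cm a b := by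
  unfold cm
  rw [Matrix.mul_inv_rev, mul_assoc a, h.eq]
  simp only [mul_assoc, mic ht]

theorem reg_m (U : Set ((Mat n × Mat n) × Mat n)) :
    RegF U fun y => ((y.1.1 * y.2, y.1.2) : Mat n × Mat n) := by
  have h : RegF U fun y => y := RegF.id
  exact (h.fst.fst.mul h.snd).prodMk h.fst.snd

end ZOne_

open ZOne_ in
theorem z_one (h : Z_cmp) (hb : Z_base) : Z_one := by
  intro n L z hn hL hR hz P c q hP hc
  have : NeZero n := ⟨hn.ne'⟩
  have g1 : Gen fun x : (Fin n → ℂ) × (Fin n → ℂ) =>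
      x ∈ {x : (Fin n → ℂ) × (Fin n → ℂ) | x ∈ Set.univ ∧ RS (cpn (mk z x.1))} :=
    (bas_rs Bas.univ (reg_cpn z)).gen ⟨(Pi.single 0 1, 0), Set.mem_univ _, by
      rw [mk_eq (msk_one z)]; exact (h n).2.2.1⟩
  have g2 := Gen.of_reg Bas.univ (reg_pol (n := n) z).det (x₀ := (0, Pi.single 0 1))
    (Set.mem_univ _) (by simp [pol_one])
  have key := Zc.map (T := G1 L n z) (Zc.of_gen (g1.and g2) (c, q)) Bas.univ (Set.mem_univ _)
    (f := fun x => (P * (Dz n z * pol (cpn (mk z x.1)) x.2) * P⁻¹, P * cpn (mk z x.1) * P⁻¹))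
    ((((RegF.const P).mul ((RegF.const _).mul (reg_pol z))).mul (RegF.const _)).prodMk
      (((RegF.const P).mul (reg_cpn z)).mul (RegF.const _))) fun x hx _ => by
      have := move_gen hL (E := Mat n × Mat n) (S := G1 L n z) Bas.univ (C := Prod.snd)
        RegF.id.snd (m := fun y => (y.1.1 * y.2, y.1.2)) (reg_m _) (fun s hs => hs.2.1)
        (fun s hs t ht hi => ⟨hs.1.mul ht, hs.2.1, by
          rw [← hs.2.2]; exact cm_mul ht.det_ne hi.commute⟩)
        (hb n L z hn hL hR hz P _ hP (msk z x.1)) (Set.mem_univ _) (hx.1.2.conj hP)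
        (inA_pol _ x.2) (by
          rw [pol_conj hP]; exact det_mul_ne (det_mul_ne hP hx.2.2) (det_inv_ne hP))
      rw [pol_conj hP] at this
      simpa only [mul_assoc, imc hP] using this
  simpa only [mk_eq hc] using key

end Vale.Agent.P002S.Z
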