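import Vale.Agent.P002S.ZDefs

/-! Integral pairs with a scalar commutator. -/

namespace Vale.Agent.P002S.Z

open Matrix Vale.Agent.P002

namespace ZPair_

variable {n : ℕ} {L : IntermediateField ℚ ℂ} {M : Mat n} {z : ℂ}

theorem gp_of (h : ∀ i j, M i j ∈ OL L) {w : ℂ} (hw : w ∈ L) (h0 : w ≠ 0)
    (hi : IsIntegral ℤ w⁻¹) (hd : M.det = w ^ n) : Gp L M := by
  refine ⟨w, w⁻¹ • M, h0, ⟨fun i j => mul_mem (L.inv_mem hw) (h i j).1,
    IntB.smul hi fun i j => (h i j).2, ?_⟩, ?_⟩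
  · rw [det_smul, Fintype.card_fin, hd, ← mul_pow, inv_mul_cancel₀ h0, one_pow]
  · rw [smul_smul, mul_inv_cancel₀ h0, one_smul]

theorem root (hn : 0 < n) (hL : Rt L n) {w : ℂ} (h : w ^ (2 * n) = 1) : w ∈ OL L :=
  ⟨hL w h, IsIntegral.of_pow (n := 2 * n) (by omega) (by rw [h]; exact isIntegral_one)⟩

theorem gp_root (hn : 0 < n) (hL : Rt L n) (h : ∀ i j, M i j ∈ OL L) (hd : M.det ^ 2 = 1) :
    Gp L M := by
  obtain ⟨w, hw⟩ := IsAlgClosed.exists_pow_nat_eq M.det hn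
  have h1 : w ^ (2 * n) = 1 := by rw [mul_comm, pow_mul, hw, hd]
  refine gp_of h (hL w h1) (fun h0 => ?_) (root hn hL (by rw [inv_pow, h1, inv_one])).2 hw.symm
  rw [h0, zero_pow (by omega)] at h1
  exact zero_ne_one h1

theorem cpn_mem {O : Subring ℂ} {c : Fin n → ℂ} (h : ∀ i, c i ∈ O) (i j : Fin n) :
    cpn c i j ∈ O := by
  rw [cpn, of_apply]
  split_ifs
  exacts [h i, one_mem O, zero_mem O]

theorem cm_eq {X Y : Mat n} (hX : X.det ≠ 0) (hY : Y.det ≠ 0) (h : X * Y = z • (Y * X)) :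
    cm X Y = z • (1 : Mat n) := by
  rw [cm, h, smul_mul_assoc, smul_mul_assoc, mul_assoc Y, mul_inv'' hX, mul_one, mul_inv'' hY]

theorem cpn_reg {V : Type} [AddCommGroup V] [Module ℂ V] {U : Set V} {c : V → Fin n → ℂ}
    (h : RegF U c) : RegF U fun x => cpn (c x) :=
  RegF.of_entries fun i j => by
    simp only [cpn, of_apply]
    split_ifs
    exacts [(h.apply i).reg, Reg.const 1, Reg.const 0]

end ZPair_

open ZPair_

theorem z_pair (h : Z_cmp) : Z_pair := by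
  intro n L z hn hL hz
  have : NeZero n := ⟨hn.ne'⟩
  obtain ⟨h1, -, h3, κ, hκ, h4⟩ := h n
  have hzO : z ∈ OL L := root hn hL (by rw [mul_comm, pow_mul, hz, one_pow])
  have hD : Gp L (Dz n z) := by
    refine gp_root hn hL (fun i j => ?_) ?_
    · rw [Dz, diagonal_apply]
      split_ifs
      exacts [pow_mem hzO _, zero_mem _]
    · rw [Dz, det_diagonal, Finset.prod_pow_eq_pow_sum, ← pow_mul,
        Fin.sum_univ_eq_sum_range (fun i => i), Finset.sum_range_id_mul_two, pow_mul, hz, one_pow]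
  have hA : Gp L (cpn (Pi.single (0 : Fin n) (1 : ℂ))) := by
    refine gp_root hn hL (cpn_mem fun i => ?_) (by rw [h4, Pi.single_eq_same, mul_one, hκ])
    rw [Pi.single_apply]
    split_ifs
    exacts [one_mem _, zero_mem _]
  refine ⟨hD, _, _, hA, hD.inv, h3, cm_eq hA.det_ne hD.inv.det_ne ?_⟩
  have h5 := h1 z (Pi.single 0 1) hz fun i hi => Pi.single_eq_of_ne (by
    rintro rfl
    exact hi (pow_zero z)) _
  rw [← imc hD.det_ne (cpn _ * _), ← mul_assoc (Dz n z), h5, smul_mul_assoc, mul_smul_comm,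
    mul_assoc, mul_inv'' hD.det_ne, mul_one]

theorem z_base (h : Z_cmp) (hp : Z_pair) : Z_base := by
  classical
  intro n L z hn hG hL hz P c hP hc
  have : NeZero n := ⟨hn.ne'⟩
  obtain ⟨h1, -, -, κ, hκ, h4⟩ := h n
  have hD := (hp n L z hn hL hz).1
  obtain ⟨θ, t1, t2, t3, t4, t5⟩ := hG.exists_unit
  have hκ0 : κ ≠ 0 := by
    rintro rfl
    simp at hκ
  have hinj : Function.Injective fun k : ℕ => κ * θ ^ (n * k) := fun a b e => by
    have e1 := congrArg norm (mul_left_cancel₀ hκ0 e)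
    rw [norm_pow, norm_pow] at e1
    exact Nat.eq_of_mul_eq_mul_left hn
      (pow_right_injective₀ (norm_pos_iff.2 t2) t5 e1)
  have hcZ : c ∈ Zc {y : Fin n → ℂ | ∀ i : Fin n, y i ∈
      (if i = 0 then Set.range fun k : ℕ => κ * θ ^ (n * k)
      else if z ^ (i : ℕ) = 1 then Set.range fun k : ℕ => (k : ℂ) else {0})} := by
    refine zc_pi fun i => ?_
    split_ifs with a b
    · exact Zc.of_infinite (Set.infinite_range_of_injective hinj) _
    · exact Zc.of_infinite (Set.infinite_range_of_injective Nat.cast_injective) _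
    · exact Zc.subset _ (hc i b)
  have hU : Bas {q : Mat n × (Fin n → ℂ) | q ∈ Set.univ ∧ q.1.det ≠ 0} :=
    Bas.univ.of_reg RegF.id.fst.det
  have hf : RegF {q : Mat n × (Fin n → ℂ) | q ∈ Set.univ ∧ q.1.det ≠ 0} fun q => q.1 := RegF.id.fst
  refine Zc.map (Zc.prod (gp_dense hG P) hcZ) hU ⟨trivial, hP⟩
    (f := fun q => (q.1 * Dz n z * q.1⁻¹, q.1 * cpn q.2 * q.1⁻¹))
    (((hf.mul (RegF.const _)).mul (hf.inv fun _ hx => hx.2)).prodMk
      ((hf.mul (cpn_reg RegF.id.snd)).mul (hf.inv fun _ hx => hx.2))) ?_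
  rintro ⟨Q, y⟩ ⟨hQ, hy⟩ -
  have hQ : Gp L Q := hQ
  simp only [Set.mem_ofPred_eq] at hy
  have hO : ∀ i, y i ∈ OL L := fun i => by
    have h5 := hy i
    split_ifs at h5
    · obtain ⟨k, hk⟩ := h5
      exact hk ▸ mul_mem (root hn hL (by rw [pow_mul, hκ, one_pow]))
        (pow_mem (show θ ∈ OL L from ⟨t1, t3⟩) _)
    · obtain ⟨k, hk⟩ := h5
      exact hk ▸ natCast_mem _ k
    · exact h5 ▸ zero_mem _
  have hM : Msk z y := fun i hi => by
    have h5 := hy i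
    rwa [if_neg (by
      rintro rfl
      exact hi (pow_zero z)), if_neg hi] at h5
  have hB : Gp L (cpn y) := by
    have h5 := hy 0
    rw [if_pos rfl] at h5
    obtain ⟨k, hk⟩ := h5
    refine gp_of (cpn_mem hO) (pow_mem t1 k) (pow_ne_zero k t2) (inv_pow θ k ▸ t4.pow k) ?_
    rw [h4, ← hk, ← mul_assoc, ← sq, hκ, one_mul, mul_comm, pow_mul]
  have g1 := (hQ.mul hD).mul hQ.inv
  have g2 := (hQ.mul hB).mul hQ.inv
  refine Zc.subset _ ⟨g1, g2, cm_eq g1.det_ne g2.det_ne ?_⟩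
  simp only [mul_assoc, imc hQ.det_ne]
  rw [← mul_assoc (Dz n z), h1 z y hz hM, smul_mul_assoc, mul_smul_comm, mul_assoc]

end Vale.Agent.P002S.Z
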