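import Vale.Agent.P002S.ZDefs

/-! Cyclic matrices are dense in the second coordinate of a handle. -/

namespace Vale.Agent.P002S.Z

open Matrix Vale.Agent.P002

namespace ZRb_

theorem fin_zero {φ : ℂ → ℂ} (h : Reg Set.univ φ) {t : ℂ} (ht : φ t ≠ 0) :
    {s | φ s = 0}.Finite := by
  by_contra k
  exact ht (Zc.reg_zero (Zc.of_infinite k t) Bas.univ (Set.mem_univ _) h fun s hs _ => hs)

theorem fin_eig {n : ℕ} (M : Mat n) : {α : ℂ | (M + α • (1 : Mat n)).det = 0}.Finite :=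
  (Polynomial.finite_setOfPred_isRoot (-M).charpoly_monic.ne_zero).subset fun α h => by
    rw [Set.mem_ofPred_eq, Polynomial.IsRoot, mm_eval, sub_neg_eq_add, add_comm]
    exact h

theorem cm_mul {n : ℕ} {a b t : Mat n} (h : t * a = a * t) (ht : t.det ≠ 0) :
    cm a (b * t) = cm a b := by
  have e : t * a⁻¹ = a⁻¹ * t := commute_inv h
  rw [cm, cm, Matrix.mul_inv_rev, ← Matrix.mul_assoc a, Matrix.mul_assoc _ t, e,
    Matrix.mul_assoc _ (a⁻¹ * t), Matrix.mul_assoc _ t, mic ht, ← Matrix.mul_assoc]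

end ZRb_

theorem z_rb (h1 : Z_cn) (h2 : Z_nc) (h3 : Z_jor) : Z_rb := by
  intro n a b hb
  obtain ⟨a', ha, hn⟩ := h3 n a
  obtain ⟨u, hu⟩ := h2 n a' hn
  have hF : {s : ℂ | (kry (a' - s • b⁻¹) u).det = 0}.Finite :=
    ZRb_.fin_zero (regF_kry ((RegF.const a').sub (RegF.smul RegF.id.reg (RegF.const b⁻¹)))
      (RegF.const u)).det (t := 0) (by simpa using hu)
  obtain ⟨α, hα⟩ := ((ZRb_.fin_eig a').union
    (hF.biUnion fun s _ => ZRb_.fin_eig (a' - s • b⁻¹))).exists_notMem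
  simp only [Set.mem_union, Set.mem_iUnion, Set.mem_ofPred_eq, not_or, not_exists] at hα
  refine ⟨a' + α • 1, by simp [add_mul, mul_add, ha], hα.1, h2 n _ fun s w w' hw hw' w0 => ?_⟩
  have k0 : ∀ v : Fin n → ℂ, v ᵥ* b ᵥ* b⁻¹ = v := fun v => by
    rw [vecMul_vecMul, mul_inv'' hb, vecMul_one]
  have k : ∀ v : Fin n → ℂ, v ᵥ* (b * (a' + α • 1)) = s • v →
      v ᵥ* b ᵥ* (a' - s • b⁻¹) = (-α) • (v ᵥ* b) := fun v hv => by
    rw [← vecMul_vecMul, vecMul_add, vecMul_smul, vecMul_one] at hv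
    rw [vecMul_sub, vecMul_smul, k0, ← hv, neg_smul]
    abel
  have w1 : w ᵥ* b ≠ 0 := fun e => w0 (by rw [← k0 w, e, zero_vecMul])
  by_cases hs : (kry (a' - s • b⁻¹) u).det = 0
  · refine absurd (eq_zero_of_vecMul_eq_zero (hα.2 s hs) ?_) w1
    rw [vecMul_add, k w hw, vecMul_smul, vecMul_one, neg_smul, neg_add_cancel]
  · obtain ⟨c, hc⟩ := h1 n _ ⟨u, hs⟩ _ _ _ (k w hw) (k w' hw') w1
    exact ⟨c, by rw [← k0 w', hc, smul_vecMul, k0]⟩

theorem z_cyc (h : Z_rb) : Z_cyc := by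
  intro n g z y hy
  obtain ⟨t, h1, h2, u, hu⟩ := h n (y.1 0) (y.2 0) (hy.2.1 0)
  have r1 : RegF Set.univ fun τ : ℂ => 1 + τ • (t - 1) :=
    (RegF.const 1).add (RegF.smul RegF.id.reg (RegF.const _))
  have r2 := (RegF.const (y.2 0)).mul r1
  have g1 := Gen.of_reg Bas.univ r1.det (Set.mem_univ 1) (by simpa using h2)
  have g2 := Gen.of_reg Bas.univ (regF_kry r2 (RegF.const u)).det (Set.mem_univ 1)
    (by simpa using hu)
  have k := Zc.map (T := {u | u ∈ XX n (g + 1) z ∧ Cyc (u.2 0)}) (Zc.of_gen (g1.and g2) 0)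
    Bas.univ (Set.mem_univ _) ((RegF.const y.1).prodMk ((RegF.const y.2).update 0 r2))
    fun τ hτ _ => Zc.subset _ ⟨⟨hy.1, fun i => ?_, ?_⟩, u, ?_⟩
  · simpa using k
  · refine Fin.cases ?_ (fun j => ?_) i
    · simpa only [Function.update_self] using det_mul_ne (hy.2.1 0) hτ.1.2
    · simpa using hy.2.1 j.succ
  · rw [← hy.2.2, hprod_succ, hprod_succ]
    simp only [Function.update_self, Function.update_of_ne (Fin.succ_ne_zero _)]
    rw [ZRb_.cm_mul (by simp [add_mul, mul_add, sub_mul, mul_sub, h1]) hτ.1.2]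
  · simpa only [Function.update_self] using hτ.2.2

end Vale.Agent.P002S.Z
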