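import Vale.Agent.P002S.ZDefs

namespace Vale.Agent.P002S.Z

open Matrix Vale.Agent.P002

theorem z_sch (h1 : Z_dim) (h2 : Z_bad) : Z_sch := by
  intro n g z hn y hy hc
  obtain ⟨m, rfl⟩ : ∃ m, n = m + 1 := ⟨n - 1, by omega⟩
  obtain ⟨u, hu⟩ := hc
  have hz := XX.pow hy
  let ι := Option (Fin (g + 1) ⊕ Fin (g + 1))
  have hcard : 3 ≤ Fintype.card ι := by simp [ι]; omega
  let ta : (ι → Mat (m + 1)) → Fin (g + 1) → Mat (m + 1) := fun e i => e (some (.inl i))
  let tb : (ι → Mat (m + 1)) → Fin (g + 1) → Mat (m + 1) := fun e i => e (some (.inr i))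
  let W : (ι → Mat (m + 1)) → Mat (m + 1) := fun e => z • (hprod (ta e) (tb e))⁻¹
  have hH : ∀ e ∈ UU (m + 1) ι, (hprod (ta e) (tb e)).det = 1 := fun e he =>
    hprod_det (fun i => he _) fun i => he _
  have hH0 : ∀ e ∈ UU (m + 1) ι, (hprod (ta e) (tb e)).det ≠ 0 := fun e he => by
    rw [hH e he]; exact one_ne_zero
  have hWd : ∀ e ∈ UU (m + 1) ι, (W e).det = 1 := fun e he => by
    simp only [W]
    rw [det_smul, Fintype.card_fin, hz, Matrix.det_nonsing_inv, hH e he, Ring.inverse_one, one_mul]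
  have hWH : ∀ e ∈ UU (m + 1) ι, W e * hprod (ta e) (tb e) = z • (1 : Mat (m + 1)) :=
    fun e he => by simp only [W]; rw [smul_mul_assoc, inv_mul' (hH0 e he)]
  have rta : ∀ U : Set (ι → Mat (m + 1)), RegF U ta := fun U => RegF.pi fun i => RegF.proj _
  have rtb : ∀ U : Set (ι → Mat (m + 1)), RegF U tb := fun U => RegF.pi fun i => RegF.proj _
  have rW : RegF (UU (m + 1) ι) W := RegF.smul (Reg.const z)
    ((regF_hprod (rta (UU (m + 1) ι)) (rtb _) (fun x hx i => hx _) fun x hx i => hx _).inv hH0)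
  let e₀ : ι → Mat (m + 1) := fun k => match k with
    | none => y.2 0
    | some (.inl i) => y.1 i.succ
    | some (.inr i) => y.2 i.succ
  have he₀ : e₀ ∈ UU (m + 1) ι := by
    rintro (_ | i | i)
    exacts [hy.2.1 0, hy.1 _, hy.2.1 _]
  have hW₀ : W e₀ * e₀ none = y.1 0 * y.2 0 * (y.1 0)⁻¹ := by
    have e1 : cm (y.1 0) (y.2 0) * hprod (ta e₀) (tb e₀) = W e₀ * hprod (ta e₀) (tb e₀) := by
      rw [hWH e₀ he₀, ← hy.2.2, hprod_succ y.1 y.2]
    have e2 : cm (y.1 0) (y.2 0) = W e₀ := by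
      have := congrArg (· * (hprod (ta e₀) (tb e₀))⁻¹) e1
      simpa only [mul_assoc, mul_inv'' (hH0 e₀ he₀), mul_one] using this
    rw [← e2]
    show cm (y.1 0) (y.2 0) * y.2 0 = _
    simp only [cm, mul_assoc, inv_mul' (hy.2.1 0), mul_one]
  let K : (ι → Mat (m + 1)) → Mat (m + 1) := fun e => kry (e none) u
  let K' : (ι → Mat (m + 1)) → Mat (m + 1) := fun e => kry (W e * e none) (y.1 0 *ᵥ u)
  have rK : RegF (UU (m + 1) ι) K := regF_kry (RegF.proj none) (RegF.const u)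
  have rK' : RegF (UU (m + 1) ι) K' := regF_kry (rW.mul (RegF.proj none)) (RegF.const _)
  have hK₀ : K' e₀ = y.1 0 * K e₀ := by
    simp only [K']; rw [hW₀, kry_conj (hy.1 0)]
  let U : Set (ι → Mat (m + 1)) := {e | e ∈ UU (m + 1) ι ∧ (K e).det * (K' e).det ≠ 0}
  have hU : Bas U := bas_UU.of_reg (rK.det.mul rK'.det)
  have hUU : U ⊆ UU (m + 1) ι := fun e he => he.1
  have hU₀ : e₀ ∈ U := ⟨he₀, mul_ne_zero hu (by
    rw [hK₀, det_mul]; exact mul_ne_zero (hy.1 0) hu)⟩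
  let d : Fin (m + 1) → ℂ := fun i => ((i : ℕ) + 1 : ℕ)
  have hd : Function.Injective d := fun i j h => by
    have : (i : ℕ) + 1 = (j : ℕ) + 1 := Nat.cast_injective (R := ℂ) h
    exact Fin.ext (by omega)
  have hd0 : ∀ i, d i ≠ 0 := fun i => Nat.cast_ne_zero.2 (by omega)
  have hfr : Module.finrank ℂ (ι → Mat (m + 1)) = Fintype.card ι * ((m + 1) * (m + 1)) := by
    simp [Module.finrank_pi_fintype, Module.finrank_matrix]
  have hx := h1 (ι → Mat (m + 1)) _ m _ U e₀ (fun i e => Gv (d i.succ) (e none) (W e))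
    (h2 (m + 1) ι hcard hn) (by
      rw [hfr]
      have : m + 1 + 1 ≤ Fintype.card ι * ((m + 1) * (m + 1)) := by nlinarith
      omega) hU hU₀ (fun i => (reg_gv _ (RegF.proj none) rW).mono hUU) (fun i => by
      refine gv_of_charpoly ?_ _
      rw [hW₀, Matrix.charpoly_mul_comm, imc (hy.1 0)])
  let Ψ : (ι → Mat (m + 1)) → (Fin (g + 2) → Mat (m + 1)) × (Fin (g + 2) → Mat (m + 1)) :=
    fun e => (Fin.cons (K' e * (K e)⁻¹) (ta e), Fin.cons (e none) (tb e))
  have hΨ : Ψ e₀ = y := by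
    refine Prod.ext (funext fun i => ?_) (funext fun i => ?_)
    · refine Fin.cases ?_ (fun i => rfl) i
      show K' e₀ * (K e₀)⁻¹ = _
      rw [hK₀, mul_assoc, mul_inv'' hu, mul_one]
    · exact Fin.cases rfl (fun i => rfl) i
  rw [← hΨ]
  refine Zc.map hx hU hU₀ (f := Ψ) (RegF.prodMk (RegF.pi fun i => ?_) (RegF.pi fun i => ?_))
    fun e he heU => Zc.subset _ ?_
  · refine Fin.cases ?_ (fun i => (rta U).apply i) i
    exact (rK'.mono hUU).mul ((rK.mono hUU).inv fun x hx => left_ne_zero_of_mul hx.2)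
  · exact Fin.cases (RegF.proj none) (fun i => (rtb U).apply i) i
  · obtain ⟨-, e1, e2⟩ := he
    have hKe : (K e).det ≠ 0 := left_ne_zero_of_mul heU.2
    have hKe' : (K' e).det ≠ 0 := right_ne_zero_of_mul heU.2
    have hcp := charpoly_eq_of_gv hd hd0 (hWd e heU.1) (A := e none) fun i hi => by
      obtain ⟨j, rfl⟩ := Fin.exists_succ_eq_of_ne_zero hi
      exact e1 j
    have hi : K' e * (K e)⁻¹ * e none = W e * e none * (K' e * (K e)⁻¹) :=
      kry_intertwine hcp u _ hKe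
    have ha : (K' e * (K e)⁻¹).det ≠ 0 := by
      rw [det_mul]; exact mul_ne_zero hKe' (det_inv_ne hKe)
    refine ⟨⟨fun i => Fin.cases ha (fun i => heU.1 _) i,
      fun i => Fin.cases (heU.1 none) (fun i => heU.1 _) i, ?_⟩, fun Y hY => ?_⟩
    · rw [hprod_succ, ← hWH e heU.1]
      show cm (K' e * (K e)⁻¹) (e none) * hprod (ta e) (tb e) = _
      rw [cm, hi, mul_assoc (W e * e none), mul_inv'' ha, mul_one, mul_assoc (W e),
        mul_inv'' (heU.1 none), mul_one]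
    · refine not_not.1 e2 Y ?_
      rintro (_ | i | i)
      exacts [hY (.inr 0), hY (.inl i.succ), hY (.inr i.succ)]

end Vale.Agent.P002S.Z
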