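import Vale.Agent.P002S.ZDefs

/-! Structure of pairs with scalar commutator whose second member is cyclic. -/

namespace Vale.Agent.P002S.Z

open Matrix Vale.Agent.P002

namespace ZStr_

variable {n : ℕ}

theorem kill {b Y : Mat n} {u : Fin n → ℂ} (hK : (kry b u).det ≠ 0) (h : Y * b = b * Y)
    (h0 : Y *ᵥ u = 0) : Y = 0 := by
  have h1 : Y * kry b u = 0 := by
    ext i j
    have h2 : (Y * kry b u) i j = (Y *ᵥ (b ^ (j : ℕ) *ᵥ u)) i := rfl
    have h3 : Y * b ^ (j : ℕ) = b ^ (j : ℕ) * Y := (Commute.pow_right (a := Y) (b := b) h _).eq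
    rw [h2, mulVec_mulVec, h3, ← mulVec_mulVec, h0, mulVec_zero]
    rfl
  have h4 : Y = Y * kry b u * (kry b u)⁻¹ := by
    rw [Matrix.mul_assoc, mul_inv'' hK, Matrix.mul_one]
  rw [h4, h1, Matrix.zero_mul]

theorem pol_mulVec (b : Mat n) (q u : Fin n → ℂ) : pol b q *ᵥ u = kry b u *ᵥ q := by
  unfold pol
  rw [Matrix.sum_mulVec]
  funext i
  rw [Finset.sum_apply]
  refine Finset.sum_congr rfl fun j _ => ?_
  rw [smul_mulVec, Pi.smul_apply, smul_eq_mul, mul_comm]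
  rfl

theorem pol_comm (b : Mat n) (q : Fin n → ℂ) : pol b q * b = b * pol b q := by
  unfold pol
  rw [Finset.sum_mul, Finset.mul_sum]
  refine Finset.sum_congr rfl fun j _ => ?_
  rw [smul_mul_assoc, mul_smul_comm, ← pow_succ, ← pow_succ']

theorem pol_conj {P : Mat n} (hP : P.det ≠ 0) (B : Mat n) (q : Fin n → ℂ) :
    pol (P * B * P⁻¹) q = P * pol B q * P⁻¹ := by
  unfold pol
  rw [Finset.mul_sum, Finset.sum_mul]
  refine Finset.sum_congr rfl fun j _ => ?_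
  rw [rs_conj_pow hP, mul_smul_comm, smul_mul_assoc]

theorem pol_smul (z : ℂ) (B : Mat n) (q : Fin n → ℂ) :
    pol (z • B) q = pol B fun j => z ^ (j : ℕ) * q j := by
  unfold pol
  refine Finset.sum_congr rfl fun j _ => ?_
  rw [smul_pow, smul_smul, mul_comm]

/-- the commutant of a cyclic matrix consists of polynomials -/
theorem eq_pol {b Y : Mat n} {u : Fin n → ℂ} (hK : (kry b u).det ≠ 0) (h : Y * b = b * Y) :
    Y = pol b ((kry b u)⁻¹ *ᵥ (Y *ᵥ u)) := by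
  refine sub_eq_zero.1 (kill hK ?_ ?_)
  · rw [sub_mul, mul_sub, h, pol_comm]
  · rw [sub_mulVec, pol_mulVec, mulVec_mulVec, mul_inv'' hK, one_mulVec, sub_self]

end ZStr_

open ZStr_ in
theorem z_str (h : Z_cmp) : Z_str := by
  intro n z a b hz ha hb hc hcyc
  rcases Nat.eq_zero_or_pos n with rfl | hn
  · exact ⟨1, 0, 0, by simp, fun i => i.elim0, Subsingleton.elim _ _, Subsingleton.elim _ _⟩
  have : NeZero n := ⟨hn.ne'⟩
  obtain ⟨h1, h2, -⟩ := h n
  obtain ⟨u, hK⟩ := hcyc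
  have hz0 : z ≠ 0 := by
    rintro rfl
    rw [zero_pow hn.ne'] at hz
    exact zero_ne_one hz
  obtain ⟨c, hcd⟩ : ∃ c, c = (kry b u)⁻¹ *ᵥ (b ^ n *ᵥ u) := ⟨_, rfl⟩
  have hKc : b ^ n *ᵥ u = kry b u *ᵥ c := by
    rw [hcd, mulVec_mulVec, mul_inv'' hK, one_mulVec]
  have hbn : b ^ n = pol b c := by
    rw [hcd]
    exact eq_pol hK (by rw [← pow_succ, ← pow_succ'])
  have hbK : b = kry b u * cpn c * (kry b u)⁻¹ := by
    rw [← h2 b u c hKc, Matrix.mul_assoc, mul_inv'' hK, Matrix.mul_one]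
  have haba : a * b * a⁻¹ = z • b := by
    have h3 : cm a b * b = a * b * a⁻¹ := by
      rw [cm, Matrix.mul_assoc _ b⁻¹, inv_mul' hb, Matrix.mul_one]
    rw [← h3, hc, smul_mul_assoc, Matrix.one_mul]
  have hab : a * b = z • (b * a) := by
    rw [← smul_mul_assoc, ← haba, Matrix.mul_assoc _ a⁻¹, inv_mul' ha, Matrix.mul_one]
  have hmsk : Msk z c := by
    have h3 : pol b c = pol b fun j => z ^ (j : ℕ) * c j := by
      rw [← pol_smul, ← haba, pol_conj ha, ← hbn, ← rs_conj_pow ha, haba, smul_pow, hz, one_smul]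
    have h4 := congrArg (fun M : Mat n => (kry b u)⁻¹ *ᵥ (M *ᵥ u)) h3
    simp only [pol_mulVec, mulVec_mulVec, inv_mul' hK, one_mulVec] at h4
    intro i hi
    have h5 : (z ^ (i : ℕ) - 1) * c i = 0 := by rw [sub_mul, one_mul, ← congrFun h4 i, sub_self]
    exact (mul_eq_zero.1 h5).resolve_left (sub_ne_zero.2 hi)
  have hD : (Dz n z).det ≠ 0 := by
    rw [Dz, det_diagonal]
    exact Finset.prod_ne_zero_iff.2 fun j _ => pow_ne_zero _ hz0
  obtain ⟨D, hDd⟩ : ∃ D, D = kry b u * Dz n z * (kry b u)⁻¹ := ⟨_, rfl⟩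
  have hD' : D.det ≠ 0 := by
    rw [hDd, det_mul, det_mul]
    exact mul_ne_zero (mul_ne_zero hK hD) (det_inv_ne hK)
  have hDb : D * b = z • (b * D) := by
    generalize kry b u = K at hbK hDd hK
    rw [hbK, hDd]
    simp only [Matrix.mul_assoc, imc hK]
    rw [← Matrix.mul_assoc (Dz n z), h1 z c hz hmsk, smul_mul_assoc, mul_smul_comm,
      Matrix.mul_assoc]
  have hbD : b * D⁻¹ = z • (D⁻¹ * b) := by
    have h3 : D⁻¹ * (D * b) * D⁻¹ = b * D⁻¹ := by rw [imc hD']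
    rw [← h3, hDb, mul_smul_comm, smul_mul_assoc, Matrix.mul_assoc, Matrix.mul_assoc,
      mul_inv'' hD', Matrix.mul_one]
  have hY : D⁻¹ * a * b = b * (D⁻¹ * a) := by
    rw [Matrix.mul_assoc, hab, ← Matrix.mul_assoc b, hbD, mul_smul_comm, smul_mul_assoc,
      Matrix.mul_assoc]
  obtain ⟨q, hq⟩ : ∃ q, D⁻¹ * a = pol b q := ⟨_, eq_pol hK hY⟩
  refine ⟨kry b u, c, q, hK, hmsk, ?_, hbK⟩
  generalize kry b u = K at hbK hDd hK
  rw [← mic hD' a, hq, hbK, pol_conj hK, hDd]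
  simp only [Matrix.mul_assoc, imc hK]

end Vale.Agent.P002S.Z
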