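import Vale.Agent.P002S.ZDefs

/-! The image of a polynomial map from a space of smaller dimension is not dense. -/

namespace Vale.Agent.P002S.Z

open Matrix Vale.Agent.P002

namespace ZThin_

/-- more polynomials than variables are algebraically dependent -/
theorem dep {D N : ℕ} (h : D < N) (q : Fin N → MvPolynomial (Fin D) ℂ) :
    ∃ Φ : MvPolynomial (Fin N) ℂ, Φ ≠ 0 ∧ MvPolynomial.aeval q Φ = 0 := by
  by_contra hc
  have hi : AlgebraicIndependent ℂ q := by
    rw [algebraicIndependent_iff]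
    intro p hp
    by_contra hp0
    exact hc ⟨p, hp0, hp⟩
  have h1 := hi.cardinalMk_le_trdeg
  rw [MvPolynomial.trdeg_of_isDomain] at h1
  simp only [Cardinal.mk_fintype, Fintype.card_fin, Cardinal.lift_natCast, Nat.cast_le] at h1
  omega

theorem ev {D N : ℕ} (q : Fin N → MvPolynomial (Fin D) ℂ) (Φ : MvPolynomial (Fin N) ℂ)
    (x : Fin D → ℂ) :
    MvPolynomial.eval (fun i => MvPolynomial.eval x (q i)) Φ =
      MvPolynomial.eval x (MvPolynomial.aeval q Φ) := by
  induction Φ using MvPolynomial.induction_on with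
  | C c => simp
  | add p r hp hr => simp only [map_add, hp, hr]
  | mul_X p i hp => simp only [map_mul, hp, MvPolynomial.eval_X, MvPolynomial.aeval_X]

end ZThin_

theorem z_thin : Z_thin := by
  intro F V _ _ _ _ _ _ f hlt hf
  let eF : (Fin (Module.finrank ℂ F) → ℂ) ≃ₗ[ℂ] F := (Module.finBasis ℂ F).equivFun.symm
  let eV : V ≃ₗ[ℂ] (Fin (Module.finrank ℂ V) → ℂ) := (Module.finBasis ℂ V).equivFun
  have h1 : RegF Set.univ fun x : Fin (Module.finrank ℂ F) → ℂ => eV (f (eF x)) :=
    (hf.comp (RegF.lin (U := Set.univ) eF.toLinearMap) fun _ _ => Set.mem_univ _).map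
      eV.toLinearMap
  have h2 : ∀ i, ∃ q : MvPolynomial (Fin (Module.finrank ℂ F)) ℂ,
      ∀ x, eV (f (eF x)) i = MvPolynomial.eval x q :=
    fun i => (reg_univ_poly (h1.apply i).reg).exists_mv
  choose q hq using h2
  obtain ⟨Φ, hΦ, h0⟩ := ZThin_.dep hlt q
  refine ⟨fun y => MvPolynomial.eval (eV y) Φ, reg_univ_poly (Reg.mv Φ fun i =>
    ((RegF.lin (U := Set.univ) eV.toLinearMap).apply i).reg), ?_, ?_⟩
  · by_contra hc
    apply hΦ
    refine MvPolynomial.funext fun x => ?_
    by_contra hx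
    refine hc ⟨eV.symm x, ?_⟩
    simpa using hx
  · rintro y hy ⟨x, rfl⟩
    apply hy
    have e : eV (f x) = fun i => MvPolynomial.eval (eF.symm x) (q i) := by
      funext i
      rw [← hq i (eF.symm x), eF.apply_symm_apply]
    beta_reduce
    rw [e, ZThin_.ev, h0, map_zero]

end Vale.Agent.P002S.Z
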