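import Vale.Agent.P002S.ZDefs

/-! Passing from integral points up to scalars to integral points. -/

namespace Vale.Agent.P002S.Z

open Matrix Vale.Agent.P002

namespace ZUnit_

variable {n : ℕ} {L : IntermediateField ℚ ℂ}

/-- the units of the ring of integers -/
def Th (L : IntermediateField ℚ ℂ) : Set ℂ := {c | c ≠ 0 ∧ c ∈ OL L ∧ c⁻¹ ∈ OL L}

theorem mem_OL {c : ℂ} : c ∈ OL L ↔ c ∈ L ∧ IsIntegral ℤ c := Iff.rfl

theorem th_infinite (hL : Good L n) : (Th L).Infinite := by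
  obtain ⟨θ, h1, h2, h3, h4, h5⟩ := hL.exists_unit
  have hinj : Function.Injective fun k : ℕ => θ ^ k := by
    intro a b hab
    have e := congrArg norm hab
    simp only [norm_pow] at e
    exact pow_right_injective₀ (norm_pos_iff.2 h2) h5 e
  refine (Set.infinite_range_of_injective hinj).mono ?_
  rintro _ ⟨k, rfl⟩
  refine ⟨pow_ne_zero _ h2, mem_OL.2 ⟨pow_mem h1 k, h3.pow k⟩, mem_OL.2 ⟨?_, ?_⟩⟩
  · exact L.inv_mem (pow_mem h1 k)
  · rw [← inv_pow]
    exact h4.pow k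

theorem intGL {N : Mat n} (hN : IntSL L N) {c : ℂ} (hc : c ∈ Th L) : IntGL (OL L) (c • N) := by
  have hd : N.det ≠ 0 := by rw [hN.2.2]; exact one_ne_zero
  have e : (c • N)⁻¹ = c⁻¹ • N⁻¹ := by
    refine Matrix.inv_eq_left_inv ?_
    rw [smul_mul_assoc, mul_smul_comm, smul_smul, inv_mul_cancel₀ hc.1, one_smul, inv_mul' hd]
  refine ⟨fun i j => ?_, ?_, fun i j => ?_⟩
  · exact (OL L).mul_mem hc.2.1 (mem_OL.2 ⟨hN.1 i j, hN.2.1 i j⟩)
  · rw [det_smul]
    exact mul_ne_zero (pow_ne_zero _ hc.1) hd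
  · rw [e]
    exact (OL L).mul_mem hc.2.2 (mem_OL.2 ⟨hN.inv.1 i j, hN.inv.2.1 i j⟩)

theorem hprod_smul {g : ℕ} {N N' : Fin g → Mat n} (hN : ∀ i, IntSL L (N i))
    (hN' : ∀ i, IntSL L (N' i)) {c c' : Fin g → ℂ} (hc : ∀ i, c i ≠ 0) (hc' : ∀ i, c' i ≠ 0) :
    hprod (fun i => c i • N i) (fun i => c' i • N' i) = hprod N N' := by
  unfold hprod
  have e : (fun i => cm (c i • N i) (c' i • N' i)) = fun i => cm (N i) (N' i) := funext fun i =>
    cm_smul (by rw [(hN i).2.2]; exact one_ne_zero) (by rw [(hN' i).2.2]; exact one_ne_zero)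
      (hc i) (hc' i)
  rw [e]

end ZUnit_

open ZUnit_

theorem z_unit : Z_unit := by
  intro n L hL
  have hT := th_infinite hL
  refine ⟨fun M => Zc.of_subset ?_ (gp_dense hL M), fun g z y hy => ?_⟩
  · rintro _ ⟨c, N, -, hN, rfl⟩
    exact Zc.map (Zc.of_infinite hT c) Bas.univ (Set.mem_univ _) (f := fun t : ℂ => t • N)
      (RegF.smul (Reg.lin LinearMap.id) (RegF.const N))
      fun s hs _ => Zc.subset _ (intGL hN hs)
  · obtain ⟨a, b⟩ := y
    obtain ⟨ha, hb, hp⟩ := hy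
    choose c N hc hN e using ha
    choose c' N' hc' hN' e' using hb
    have ea : a = fun i => c i • N i := funext e
    have eb : b = fun i => c' i • N' i := funext e'
    subst ea eb
    have hp' : hprod N N' = z • (1 : Mat n) := (hprod_smul hN hN' hc hc').symm.trans hp
    have h1 : c ∈ Zc {y : Fin g → ℂ | ∀ i, y i ∈ Th L} := zc_pi fun i => Zc.of_infinite hT (c i)
    have h2 : c' ∈ Zc {y : Fin g → ℂ | ∀ i, y i ∈ Th L} := zc_pi fun i => Zc.of_infinite hT (c' i)
    refine Zc.map (Zc.prod h1 h2) Bas.univ (Set.mem_univ _)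
      (f := fun u : (Fin g → ℂ) × (Fin g → ℂ) =>
        ((fun i => u.1 i • N i : Fin g → Mat n), (fun i => u.2 i • N' i : Fin g → Mat n)))
      (RegF.prodMk (RegF.pi fun i => RegF.smul
          (RegF.id.fst.apply i).reg (RegF.const (N i)))
        (RegF.pi fun i => RegF.smul
          (RegF.id.snd.apply i).reg (RegF.const (N' i))))
      fun s hs _ => Zc.subset _ ⟨fun i => intGL (hN i) (hs.1 i), fun i => intGL (hN' i) (hs.2 i),
        (hprod_smul hN hN' (fun i => (hs.1 i).1) fun i => (hs.2 i).1).trans hp'⟩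

end Vale.Agent.P002S.Z
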