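import Vale.Agent.P002S.TAll
import Vale.Agent.P002S.FMain
import Vale.Agent.P002S.ZAsm
import Vale.Agent.P002S.ZBad2
import Vale.Agent.P002S.ZChart
import Vale.Agent.P002S.ZCmp
import Vale.Agent.P002S.ZCn
import Vale.Agent.P002S.ZGraph
import Vale.Agent.P002S.ZHigh
import Vale.Agent.P002S.ZHt
import Vale.Agent.P002S.ZJor
import Vale.Agent.P002S.ZKr
import Vale.Agent.P002S.ZOne
import Vale.Agent.P002S.ZPair
import Vale.Agent.P002S.ZRb
import Vale.Agent.P002S.ZSch
import Vale.Agent.P002S.ZSlice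
import Vale.Agent.P002S.ZStr
import Vale.Agent.P002S.ZThin
import Vale.Agent.P002S.ZUnit

/-! Potential density for all curves. -/

namespace Vale.Agent.P002S

open Z in
theorem big : S_big :=
  big_of (z_cyc (z_rb z_cn z_nc z_jor))
    (z_sch (z_dim (z_kr z_ht) (z_slice z_thin)) (z_bad z_graph z_chart z_bad2)) (z_str z_cmp)
    (z_pair z_cmp) (z_one z_cmp (z_base z_cmp (z_pair z_cmp))) z_unit z_high

theorem all_curves : S_all := fin big s_t

end Vale.Agent.P002S
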