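import Vale.Agent.P002S.Stm

/-! Bruhat normal form of an isomorphism between two flagged spaces. -/

namespace Vale.Agent.P002S

open Matrix Vale.Agent.P002 Function Module

namespace Br

variable {r : ℕ}

theorem rank_span {τ V : Type} [AddCommGroup V] [Module ℂ V] (b : Basis τ ℂ V) (A : Finset τ) :
    finrank ℂ (Submodule.span ℂ (b '' (A : Set τ))) = A.card := by
  have h : LinearIndependent ℂ fun x : (A : Set τ) => b x :=
    b.linearIndependent.comp _ Subtype.val_injective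
  rw [Set.image_eq_range, finrank_span_eq_card h]
  simp

/-- vectors supported on `S` -/
noncomputable def Sup (S : Finset (Fin r)) : Submodule ℂ (Fin r → ℂ) :=
  Submodule.span ℂ (Pi.basisFun ℂ (Fin r) '' (S : Set (Fin r)))

theorem mem_sup {S : Finset (Fin r)} {v : Fin r → ℂ} : v ∈ Sup S ↔ ∀ j, j ∉ S → v j = 0 := by
  rw [Sup, Basis.mem_span_image]
  constructor
  · intro h j hj
    by_contra h0
    exact hj (h (by simpa using h0))
  · intro h j hj
    by_contra h0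
    exact absurd (h j h0) (by simpa using hj)

theorem rank_sup (S : Finset (Fin r)) : finrank ℂ (Sup S) = S.card := rank_span _ S

theorem sup_mono {S T : Finset (Fin r)} (h : S ⊆ T) : Sup S ≤ Sup T := fun _ hv =>
  mem_sup.2 fun j hj => mem_sup.1 hv j fun h' => hj (h h')

theorem sup_E {S : Finset (Fin r)} {v : Fin r → ℂ} (h : v ∈ Sup S) : v ᵥ* E S = v := by
  funext j
  rw [E, vecMul_diagonal]
  by_cases hj : j ∈ S
  · simp [hj]
  · simp [hj, mem_sup.1 h j hj]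

theorem E_sup (S : Finset (Fin r)) (v : Fin r → ℂ) : v ᵥ* E S ∈ Sup S :=
  mem_sup.2 fun j hj => by rw [E, vecMul_diagonal]; simp [hj]

theorem two (h : S_three1) (V : Type) [AddCommGroup V] [Module ℂ V] [FiniteDimensional ℂ V]
    (K0 K1 : Submodule ℂ V) (τ : Type) [Fintype τ] (hc : finrank ℂ V = Fintype.card τ) :
    ∃ (b : Basis τ ℂ V) (A0 A1 : Finset τ), K0 = Submodule.span ℂ (b '' (A0 : Set τ)) ∧
      K1 = Submodule.span ℂ (b '' (A1 : Set τ)) := by
  classical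
  obtain ⟨ι, κ, _, _, bit, b, h0, h1, -⟩ := h V K0 K1 ⊥
  let φ : ι ⊕ κ ⊕ κ ≃ τ := Fintype.equivOfCardEq ((finrank_eq_card_basis b).symm.trans hc)
  have k : ∀ A : Set (ι ⊕ κ ⊕ κ), ∃ A' : Finset τ, b.reindex φ '' (A' : Set τ) = b '' A := fun A =>
    ⟨(φ '' A).toFinset, by rw [Set.coe_toFinset, Set.image_image]; simp⟩
  obtain ⟨A0, e0⟩ := k (.inl '' {t | bit t 0 = false} ∪ Set.range fun p => .inr (.inl p))
  obtain ⟨A1, e1⟩ := k (.inl '' {t | bit t 1 = false} ∪ Set.range fun p => .inr (.inr p))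
  refine ⟨b.reindex φ, A0, A1, ?_, ?_⟩
  · rw [e0, Set.image_union, Set.image_image, ← Set.range_comp]
    exact h0
  · rw [e1, Set.image_union, Set.image_image, ← Set.range_comp]
    exact h1

theorem adapted (h : S_three1) (S : Finset (Fin r)) (K0 K1 : Submodule ℂ (Fin r → ℂ))
    (h0 : K0 ≤ Sup S) (h1 : K1 ≤ Sup S) : ∃ (v : Fin r → Fin r → ℂ) (A0 A1 : Finset (Fin r)),
      (∀ p ∈ S, v p ∈ Sup S) ∧ LinearIndepOn ℂ v (S : Set (Fin r)) ∧
      (A0 ⊆ S ∧ (∀ p ∈ A0, v p ∈ K0) ∧ A0.card = finrank ℂ K0) ∧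
      A1 ⊆ S ∧ (∀ p ∈ A1, v p ∈ K1) ∧ A1.card = finrank ℂ K1 := by
  obtain ⟨b, A0, A1, e0, e1⟩ := two h (Sup S) (K0.comap (Sup S).subtype)
    (K1.comap (Sup S).subtype) S (by rw [rank_sup, Fintype.card_coe])
  obtain ⟨v, hv⟩ : ∃ v : Fin r → Fin r → ℂ, ∀ p : S, v p = b p :=
    ⟨fun p => if hp : p ∈ S then b ⟨p, hp⟩ else 0, fun p => by simp⟩
  have k : ∀ (K : Submodule ℂ (Fin r → ℂ)) (A : Finset S), K ≤ Sup S →
      K.comap (Sup S).subtype = Submodule.span ℂ (b '' (A : Set S)) →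
      A.map (Embedding.subtype _) ⊆ S ∧ (∀ p ∈ A.map (Embedding.subtype _), v p ∈ K) ∧
        (A.map (Embedding.subtype _)).card = finrank ℂ K := fun K A hK e => by
    refine ⟨fun p hp => ?_, fun p hp => ?_, ?_⟩
    · obtain ⟨q, -, rfl⟩ := Finset.mem_map.1 hp
      exact q.2
    · obtain ⟨q, hq, rfl⟩ := Finset.mem_map.1 hp
      have h2 : b q ∈ K.comap (Sup S).subtype := e ▸ Submodule.subset_span ⟨q, hq, rfl⟩
      exact (hv q).symm ▸ h2
    · rw [Finset.card_map, ← rank_span b A, ← e]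
      exact (Submodule.comapSubtypeEquivOfLe hK).finrank_eq
  refine ⟨v, _, _, fun p hp => (hv ⟨p, hp⟩).symm ▸ (b ⟨p, hp⟩).2, ?_, k K0 A0 h0 e0, k K1 A1 h1 e1⟩
  have h2 : LinearIndependent ℂ ((Sup S).subtype ∘ b) :=
    b.linearIndependent.map' _ (Submodule.ker_subtype _)
  have e : (fun p : (S : Set (Fin r)) => v p) = (Sup S).subtype ∘ b := funext fun p => hv p
  rw [LinearIndepOn, e]
  exact h2

theorem tri0 {A T : Finset (Fin r)} {M : Mat r} {T' : Finset (Fin r)} (hT : Disjoint T T')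
    (h : ∀ p ∈ A, M p ∈ Sup T) : E A * M * E T' = 0 := by
  ext i j
  rw [mul_E_apply, E_mul_apply]
  split_ifs with hj hi
  · exact mem_sup.1 (h i hi) j fun h' => Finset.disjoint_left.1 hT h' hj
  · rfl
  · rfl

theorem back {S T T1 : Finset (Fin r)} {x : W r} (hx : IsIso S T x) (h : T1 ⊆ T) {u : Fin r → ℂ}
    (hu : u ∈ Sup T1) : u ᵥ* x.b ᵥ* x.a = u := by
  rw [vecMul_vecMul, hx.ba, sup_E (sup_mono h hu)]

theorem rank_map {S T T1 : Finset (Fin r)} {x : W r} (hx : IsIso S T x) (h : T1 ⊆ T) :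
    finrank ℂ ((Sup T1).map (vecMulLinear x.b)) = T1.card := by
  refine le_antisymm ((Submodule.finrank_map_le _ _).trans (rank_sup _).le) ?_
  rw [← rank_sup]
  refine le_trans (Submodule.finrank_mono ?_) (Submodule.finrank_map_le (vecMulLinear x.a) _)
  exact fun u hu => ⟨u ᵥ* x.b, ⟨u, hu, rfl⟩, back hx h hu⟩

end Br

open Br in
theorem s_br (h : S_three1) : S_br := by
  intro r F F' x hF hF' hx
  have hK : (Sup F'.1).map (vecMulLinear x.b) ≤ Sup F.s := by
    rintro _ ⟨u, -, rfl⟩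
    rw [vecMulLinear_apply, ← hx.rb, ← vecMul_vecMul]
    exact E_sup _ _
  obtain ⟨v, A0, A1, hv, hl, ⟨s0, m0, c0⟩, s1, m1, c1⟩ :=
    adapted h F.s (Sup F.1) _ (sup_mono Finset.subset_union_left) hK
  rw [rank_sup] at c0
  rw [rank_map hx Finset.subset_union_left] at c1
  obtain ⟨α, hα, hr⟩ := exists_iso_of_li v (fun p hp => mem_sup.1 (hv p hp)) hl rfl
  have e0 : Fl.s ((A0, F.s \ A0) : Fl r) = F.s := Finset.union_sdiff_of_subset s0
  have e1 : Fl.s ((A1, F.s \ A1) : Fl r) = F.s := Finset.union_sdiff_of_subset s1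
  have hy := hα.mul hx
  refine ⟨(A0, F.s \ A0), (A1, F.s \ A1), α, (α * x).sw, Finset.disjoint_sdiff,
    Finset.disjoint_sdiff, e0, e1, e0.symm ▸ hα, ?_, e1.symm ▸ hy.sw, Tri.sw ?_, hy.m⟩
  · exact Tri.of_card (e0.symm ▸ hα) Finset.disjoint_sdiff hF c0
      (tri0 hF fun p hp => (hr p (s0 hp)).symm ▸ m0 p hp)
  · refine Tri.of_card (e1.symm ▸ hy) Finset.disjoint_sdiff hF' c1 (tri0 hF' fun p hp => ?_)
    obtain ⟨u, hu, e⟩ := m1 p hp
    rw [W.mul_a, mul_apply_eq_vecMul, hr p (s1 hp), ← e, vecMulLinear_apply,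
      back hx Finset.subset_union_left hu]
    exact hu

end Vale.Agent.P002S
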