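import Vale.Agent.P002S.Stm

/-! Removing a disc with at most three letters. -/

namespace Vale.Agent.P002S

open Matrix Vale.Agent.P002 Function

namespace C3

variable {r : ℕ} {O : Subring ℂ} {B A : Finset (Fin r)} {z : ℂˣ} {h : ℕ} {w : List (It r)}
  {R : Sy r} {u : Pt r} {x : Lt r}

theorem wt_le (x : Lt r) : x.wt ≤ 2 := by
  unfold Lt.wt
  split_ifs <;> omega

theorem le_wt (x : Lt r) : 1 ≤ x.wt := by
  unfold Lt.wt
  split_ifs <;> omega

theorem wt_nt (hx : x.nt) : x.wt = 1 :=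
  if_neg fun hc => hc.elim hx.1.ne_empty hx.2.ne_empty

theorem allC (hw : wwt w = 0) : AllC w := by
  induction w with
  | nil => exact fun _ h => absurd h List.not_mem_nil
  | cons a w ih =>
    cases a with
    | c D =>
      intro it hit
      rcases List.mem_cons.1 hit with rfl | hit
      · exact ⟨D, rfl⟩
      · exact ih (by simpa using hw) it hit
    | l x =>
      have := le_wt x
      rw [wwt_l] at hw
      omega

theorem dec (hN : AllN w) (hw : 1 ≤ wwt w) :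
    ∃ C x V, w = C ++ .l x :: V ∧ AllC C ∧ x.nt ∧ AllN V ∧ wwt w = wwt V + 1 := by
  induction w with
  | nil => simp at hw
  | cons a w ih =>
    have hN' : AllN w := fun y hy => hN y (List.mem_cons_of_mem _ hy)
    cases a with
    | c D =>
      obtain ⟨C, x, V, rfl, h1, h2, h3, h4⟩ := ih hN' (by simpa using hw)
      refine ⟨.c D :: C, x, V, rfl, fun it hit => ?_, h2, h3, by simpa using h4⟩
      rcases List.mem_cons.1 hit with rfl | hit
      · exact ⟨D, rfl⟩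
      · exact h1 it hit
    | l x =>
      have hx := hN x List.mem_cons_self
      exact ⟨[], x, w, rfl, fun _ h => absurd h List.not_mem_nil, hx, hN',
        by rw [wwt_l, wt_nt hx, add_comm]⟩

theorem card (hW : WF O (⟨B, z, [.cy h A w]⟩ :: R)) (hx : .l x ∈ w) (hn : x.nt) :
    x.wf ∧ ∀ ε, (x.pc ε).S.card ≤ B.card - 1 := by
  have h1 : (Pa.cy h A w).wf O B := (hW.sh _ List.mem_cons_self).2 _ List.mem_cons_self
  obtain ⟨h2, h3, h4⟩ := h1
  have h5 := h4.wf hx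
  have h6 := h4.card_src hx
  rw [h3, h2, show x.src.s = x.p.S ∪ x.q.S from rfl, Finset.card_union_of_disjoint h5.1] at h6
  have h7 := hn.1.card_pos
  have h8 := hn.2.card_pos
  refine ⟨h5, fun ε => ?_⟩
  cases ε
  · rw [Lt.pc_false]; omega
  · rw [Lt.pc_true]; omega

theorem disk_wt {M b : ℕ} (hw : wwt w ≤ 6) (hb : A.card ≤ b) :
    (disk M A z w).wt ≤ 10 * 1000 ^ b := by
  have : (disk M A z w).wt = (1 + (3 + wwt w + 0)) * 1000 ^ A.card := by
    simp [disk, Sh.wt, Pa.wt]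
  rw [this]
  exact Nat.mul_le_mul (by omega) (Nat.pow_le_pow_right (by norm_num) hb)

theorem tri_wt {M b : ℕ} {o1 o2 o3 : Occ r} (hb : o1.S.card ≤ b) :
    (tri3 M o1 o2 o3).wt ≤ 10 * 1000 ^ b := by
  refine disk_wt ?_ hb
  simp only [wwt_l, wwt_nil]
  linarith [wt_le (fl (M + 1) o1), wt_le (fl (M + 2) o2), wt_le (fl (M + 3) o3)]

theorem low_wt {N b : ℕ} {x : Fin 3 → Lt r} {D G σ} (hb : ∀ i ε, ((x i).pc ε).S.card ≤ b)
    (i : Fin 3) (ε : Bool) : (low N z x D G σ i ε).wt ≤ 10 * 1000 ^ b := by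
  refine disk_wt ?_ (hb i ε)
  simp only [wwt_l, wwt_c, wwt_nil]
  exact add_le_add (wt_le _) (add_le_add (wt_le _) (wt_le _))

theorem three (hr : S_rot) (hn : S_norm) (h3 : S_r3) (hO : Big O r) (hN : AllN w)
    (hw : wwt w = 3) (hW : WF O (⟨B, z, [.cy h A w]⟩ :: R))
    (hu : u ∈ Sol (⟨B, z, [.cy h A w]⟩ :: R)) :
    ∃ P' u', Step O (⟨B, z, [.cy h A w]⟩ :: R) u (P' ++ R) u' ∧
      ms P' ≤ 60 * 1000 ^ (B.card - 1) := by
  obtain ⟨C0, x0, V0, rfl, a0, n0, hN0, e0⟩ := dec hN (by omega)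
  obtain ⟨C1, x1, V1, rfl, a1, n1, hN1, e1⟩ := dec hN0 (by omega)
  obtain ⟨C2, x2, C3, rfl, a2, n2, -, e2⟩ := dec hN1 (by omega)
  have a3 : AllC C3 := allC (by omega)
  have c0 := (card hW (x := x0) (by simp) n0).2
  have c1 := (card hW (x := x1) (by simp) n1).2
  have c2 := (card hW (x := x2) (by simp) n2).2
  have q0 : C0 ++ .l x0 :: (C1 ++ .l x1 :: (C2 ++ .l x2 :: C3)) =
      (C0 ++ .l x0 :: (C1 ++ .l x1 :: (C2 ++ [.l x2]))) ++ C3 := by simp
  rw [q0] at hW hu ⊢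
  have s0 := hr r O B z [] [] h A _ C3 R u hW hu
  have q1 : C3 ++ (C0 ++ .l x0 :: (C1 ++ .l x1 :: (C2 ++ [.l x2]))) =
      [] ++ (C3 ++ C0) ++ (.l x0 :: (C1 ++ .l x1 :: (C2 ++ [.l x2]))) := by simp
  rw [q1] at s0
  obtain ⟨D0, s1⟩ := hn r O B z [] [] h _ [] (C3 ++ C0) _ R _
    (fun it hit => (List.mem_append.1 hit).elim (a3 it) (a0 it)) s0.wf s0.sol
  obtain ⟨D1, s2⟩ := hn r O B z [] [] h _ [.c D0, .l x0] C1 (.l x1 :: (C2 ++ [.l x2])) R _ a1
    s1.wf s1.sol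
  obtain ⟨D2, s3⟩ := hn r O B z [] [] h _ [.c D0, .l x0, .c D1, .l x1] C2 [.l x2] R _ a2
    s2.wf s2.sol
  obtain ⟨N, hB⟩ := exists_below (⟨B, z, [.cy h (ls (C0 ++ .l x0 :: (C1 ++ .l x1 ::
    (C2 ++ [.l x2]))) (A, ∅)).s (tw ![x0, x1, x2] ![D0, D1, D2])]⟩ :: R)
  obtain ⟨G, σ, u', s4⟩ := h3 r O B z h _ ![x0, x1, x2] ![D0, D1, D2] R N _ hO s3.wf s3.sol hB
  refine ⟨_, u', s0.trans (s1.trans (s2.trans (s3.trans s4))), ?_⟩
  have hb : ∀ i ε, ((![x0, x1, x2] i).pc ε).S.card ≤ B.card - 1 := by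
    intro i
    fin_cases i
    · exact c0
    · exact c1
    · exact c2
  have k := low_wt (N := N) (z := z) (D := ![D0, D1, D2]) (G := G) (σ := σ) hb
  simp only [lows, ms_cons, ms_nil]
  linarith [k 0 false, k 0 true, k 1 false, k 1 true, k 2 false, k 2 true]

theorem split (hs : S_sp) (hN : AllN w) (hw : 1 ≤ wwt w)
    (hW : WF O (⟨B, z, [.cy h A w]⟩ :: R)) (hu : u ∈ Sol (⟨B, z, [.cy h A w]⟩ :: R)) :
    ∃ w' P' u', Step O (⟨B, z, [.cy h A w]⟩ :: R) u (⟨B, z, [.cy h A w']⟩ :: (P' ++ R)) u' ∧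
      AllN w' ∧ wwt w' = wwt w + 1 ∧ ms P' ≤ 20 * 1000 ^ (B.card - 1) := by
  obtain ⟨C, x, V, rfl, -, n, -, -⟩ := dec hN hw
  obtain ⟨hx, hc⟩ := card hW (x := x) (by simp) n
  obtain ⟨N, hB⟩ := exists_below (⟨B, z, [.cy h A (C ++ .l x :: V)]⟩ :: R)
  obtain ⟨u', s, -⟩ := hs r O B z [] [] h A C V x R N x.src (e x.src.s) u hW hu hB hx.1
    (IsIso.id _) (Tri.id hx.1 _)
  have n1 : (sp1 N x x.src).nt := n
  have n2 : (sp2 N x x.src).nt := n
  refine ⟨_, _, u', s, fun y hy => ?_, ?_, ?_⟩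
  · simp only [List.mem_append, List.mem_cons, It.l.injEq] at hy
    rcases hy with hy | rfl | rfl | hy
    · exact hN y (by simp [hy])
    · exact n1
    · exact n2
    · exact hN y (by simp [hy])
  · simp only [wwt_append, wwt_l, wt_nt n, wt_nt n1, wt_nt n2]
    omega
  · simp only [spSy, ms_cons, ms_nil]
    linarith [tri_wt (M := N + 1) (o2 := (sp2 N x x.src).p.flip) (o3 := (sp1 N x x.src).p.flip)
      (show x.p.S.card ≤ _ from hc false), tri_wt (M := N + 5) (o2 := (sp2 N x x.src).q.flip)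
      (o3 := (sp1 N x x.src).q.flip) (show x.q.S.card ≤ _ from hc true)]

theorem down (hs : S_sp) (hr : S_rot) (hn : S_norm) (h3 : S_r3) (hO : Big O r) (k : ℕ) :
    ∀ (w : List (It r)) (R : Sy r) (u : Pt r), AllN w → 1 ≤ wwt w → wwt w + k = 3 →
      WF O (⟨B, z, [.cy h A w]⟩ :: R) → u ∈ Sol (⟨B, z, [.cy h A w]⟩ :: R) →
      ∃ P' u', Step O (⟨B, z, [.cy h A w]⟩ :: R) u (P' ++ R) u' ∧
        ms P' ≤ (60 + 20 * k) * 1000 ^ (B.card - 1) := by
  induction k with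
  | zero => exact fun w R u hN _ hw hW hu => three hr hn h3 hO hN hw hW hu
  | succ k ih =>
    intro w R u hN h1 hw hW hu
    obtain ⟨w', P, u1, s, a, b, c⟩ := split hs hN h1 hW hu
    obtain ⟨P', u', s', c'⟩ := ih w' (P ++ R) u1 a (by omega) (by omega) s.wf s.sol
    refine ⟨P' ++ P, u', by rw [List.append_assoc]; exact s.trans s', ?_⟩
    rw [ms_append]
    linarith

end C3

theorem s_c3 (hs : S_sp) (hr : S_rot) (hn : S_norm) (h3 : S_r3) : S_c3 := by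
  intro r O B z h A w R u hO hN h1 hw hW hu
  obtain ⟨P', u', s, c⟩ := C3.down hs hr hn h3 hO (3 - wwt w) w R u hN h1 (by omega) hW hu
  exact ⟨P', u', s, c.trans (Nat.mul_le_mul_right _ (by omega))⟩

end Vale.Agent.P002S
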