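import Vale.Agent.P002S.Stm

/-! A handle next to a boundary cycle is removed. -/

namespace Vale.Agent.P002S

open Matrix Vale.Agent.P002 Function

namespace C4

variable {r : ℕ}

theorem wt_one {x : Lt r} (h1 : 0 < x.p.S.card) (h2 : 0 < x.q.S.card) : x.wt = 1 :=
  if_neg fun h => h.elim (Finset.card_pos.1 h1).ne_empty (Finset.card_pos.1 h2).ne_empty

theorem ms_sp (N : ℕ) (x : Lt r) (K : Fl r) :
    ms (spSy N x K) = 10 * 1000 ^ x.p.S.card + 10 * 1000 ^ x.q.S.card := by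
  simp [spSy, tri3, disk, Sh.wt, Pa.wt, Lt.wt, fl]

theorem num {m n : ℕ} (hm : 0 < m) (hn : 0 < n) :
    2 * (10 * 1000 ^ m + 10 * 1000 ^ n) < 1000 ^ (m + n) := by
  obtain ⟨k, hk⟩ : ∃ k, m + n = k + 1 := ⟨m + n - 1, by omega⟩
  have h1 : 1000 ^ m ≤ 1000 ^ k := Nat.pow_le_pow_right (by norm_num) (by omega)
  have h2 : 1000 ^ n ≤ 1000 ^ k := Nat.pow_le_pow_right (by norm_num) (by omega)
  have h3 : 0 < 1000 ^ k := by positivity
  rw [hk, pow_succ]
  omega

theorem alg {A B : Finset (Fin r)} {h b α β : W r} (hh : IsIso B A h) (hb : IsIso B B b)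
    (hα : IsIso A A α) (hβ : IsIso A A β) (e1 : α * (h.sw * b * h) * β = e A) :
    b = h * (β * 1) * (β.sw * α.sw) * (h * (β * 1)).sw := by
  have e2 : α.sw * β.sw = h.sw * b * h := by
    rw [← hβ.sw.l, ← e1]
    simp only [mul_assoc, hα.mc', hβ.m, hh.r', hh.sw.lc]
  have e3 : h * (α.sw * β.sw) * h.sw = b := by
    rw [e2]
    simp only [mul_assoc, hh.mc, hh.m, hb.lc, hb.r']
  rw [← e3]
  simp only [mul_assoc, mul_one, W.sw_mul, hβ.mc, hα.sw.lc]

end C4

open C4 in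
theorem s_c4 (hs : S_sp) (hr : S_rot) (hb : S_br) (hh : S_hand) : S_c4 := by
  intro r O B z Q a b h A q w R u nt wf sol
  obtain ⟨cA, cy⟩ : A.card = B.card ∧ Cyc O A (.l q :: w) :=
    (wf.sh _ List.mem_cons_self).2 _ (List.mem_cons_of_mem _ List.mem_cons_self)
  obtain rfl : q.src.s = A := cy.fst
  have qw : q.wf := cy.2.2.1
  have ok := (sol_cons _ _ _).1 sol
  have ib : IsIso B B (u.1 b) := (ok.1.1 _ List.mem_cons_self).2
  have ih : IsIso B q.src.s (u.1 h) :=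
    (ok.1.1 _ (List.mem_cons_of_mem _ List.mem_cons_self)).1
  obtain ⟨K, K', α, β, dK, dK', sK, sK', iα, tα, iβ, tβ, e1⟩ :=
    hb r q.src q.src _ qw.1 qw.1 ((ih.sw.mul ib).mul ih)
  obtain ⟨N, hN⟩ := exists_below (⟨B, z, .hd a b :: .cy h q.src.s (.l q :: w) :: Q⟩ :: R)
  have lb : b < N := hN.1 b (by simp [Pa.own])
  have lh : h < N := hN.1 h (by simp [Pa.own])
  have lq : q.i < N := hN.1 q.i (by simp [Pa.own])
  have nd := Multiset.nodup_iff_count_le_one.1 wf.nd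
  simp only [own_cons, pown_cons, Pa.own, wown_l, Multiset.count_add, Multiset.count_singleton]
    at nd
  have n1 : b ≠ h := fun e => by
    have := nd b
    rw [if_pos rfl, if_pos e] at this
    omega
  have n2 : b ≠ q.i := fun e => by
    have := nd b
    rw [if_pos rfl, if_pos e] at this
    omega
  have n3 : h ≠ q.i := fun e => by
    have := nd h
    rw [if_pos rfl, if_pos e] at this
    omega
  obtain ⟨u1, s1, b1, v1, -, v1', c1, c1'⟩ :=
    hs r O B z [.hd a b] Q h _ [] w q R N K' β u wf sol hN dK' iβ tβ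
  obtain ⟨u2, s2, -, v2, -, v2', c2, c2'⟩ :=
    hs r O B z [.hd a b] Q h _ [.l (sp1 N q K')] w (sp2 N q K') _ (N + 9) K (β.sw * α.sw) u1 s1.wf
      s1.sol b1 dK (iβ.sw.mul iα.sw) (tβ.sw.mul tα.sw iβ.sw iα.sw qw.1)
  have s3 := hr r O B z [.hd a b] Q h _ [.l (sp1 N q K')] _ _ u2 s2.wf s2.sol
  obtain ⟨u4, s4⟩ := hh r O B z Q a b h _ (sp1 (N + 9) (sp2 N q K') K)
    (It.l (sp2 (N + 9) (sp2 N q K') K) :: w ++ [It.l (sp1 N q K')]) _ _
    ⟨⟨_, _, rfl⟩, _, _, rfl⟩ (sK.trans sK'.symm) (by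
      show update u2.1 h _ b = update u2.1 h _ h * update u2.1 h _ (N + 9) * (update u2.1 h _ h).sw
      rw [update_self, update_of_ne n1, update_of_ne (by omega), v2, wv_l, wv_nil,
        v2' b (by omega) n2, v1' b lb n2, v2' h (by omega) n3, v1' h lh n3,
        show u2.1 (sp1 N q K').i = β from (v2' N (by omega) lq.ne').trans v1]
      exact alg ih ib (sK ▸ iα) (sK' ▸ iβ) e1) s3.wf s3.sol
  refine ⟨_, _, ((s1.trans s2).trans s3).trans s4, ?_⟩
  have p1 := Finset.card_pos.2 nt.1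
  have p2 := Finset.card_pos.2 nt.2
  have w0 : q.wt = 1 := wt_one p1 p2
  have w1 : (sp1 N q K').wt = 1 := wt_one p1 p2
  have w2 : (sp1 (N + 9) (sp2 N q K') K).wt = 1 := wt_one (p1.trans_eq c1) (p2.trans_eq c1')
  have w3 : (sp2 (N + 9) (sp2 N q K') K).wt = 1 :=
    wt_one (p1.trans_eq (c1.trans c2)) (p2.trans_eq (c1'.trans c2'))
  have cB : q.p.S.card + q.q.S.card = B.card := (Finset.card_union_of_disjoint qw.1).symm.trans cA
  have k := num p1 p2
  rw [cB] at k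
  simp only [ms_cons, ms_append, ms_sp, Sh.wt, pwt_cons, Pa.wt, wwt_l, wwt_nil, wwt_append,
    List.cons_append, w0, w1, w2, w3, show (sp2 N q K').p.S.card = q.p.S.card from c1.symm,
    show (sp2 N q K').q.S.card = q.q.S.card from c1'.symm, add_mul]
  omega

end Vale.Agent.P002S
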