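import Vale.Agent.P002S.Stm

/-! Merging two boundary cycles. -/

namespace Vale.Agent.P002S

open Matrix Vale.Agent.P002 Function

namespace C5

variable {r : ℕ}

theorem wt_nt {x : Lt r} (h : x.nt) : x.wt = 1 := by
  rw [Lt.wt, if_neg]
  exact not_or.2 ⟨h.1.ne_empty, h.2.ne_empty⟩

theorem wt_sp2 {x : Lt r} (h : x.nt) (N : ℕ) {K : Fl r} (h1 : x.p.S.card = K.1.card)
    (h2 : x.q.S.card = K.2.card) : (sp2 N x K).wt = 1 :=
  wt_nt ⟨Finset.card_pos.1 (h1 ▸ h.1.card_pos), Finset.card_pos.1 (h2 ▸ h.2.card_pos)⟩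

theorem wt_sp1 {x : Lt r} (h : x.nt) (N : ℕ) (K : Fl r) : (sp1 N x K).wt = 1 := wt_nt h

theorem ms_sp {x : Lt r} (h : x.nt) (hw : x.wf) (N : ℕ) (K : Fl r) :
    1000 * ms (spSy N x K) ≤ 20 * 1000 ^ x.src.s.card := by
  have h1 : x.src.s.card = x.p.S.card + x.q.S.card := Finset.card_union_of_disjoint hw.1
  have h2 := h.1.card_pos
  have h3 := h.2.card_pos
  have h4 : 1000 ^ (x.p.S.card + 1) ≤ 1000 ^ x.src.s.card :=
    Nat.pow_le_pow_right (by norm_num) (by omega)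
  have h5 : 1000 ^ (x.q.S.card + 1) ≤ 1000 ^ x.src.s.card :=
    Nat.pow_le_pow_right (by norm_num) (by omega)
  have h6 : ms (spSy N x K) = 10 * 1000 ^ x.p.S.card + 10 * 1000 ^ x.q.S.card := by
    simp [spSy, tri3, disk, Sh.wt, Pa.wt, fl, Lt.wt]
  rw [pow_succ] at h4 h5
  omega

end C5

theorem s_c5 (hs : S_sp) (hr : S_rot) (hb : S_br) (hj : S_join) : S_c5 := by
  intro r O B z Q h A q w h' A' q' w' R u hq hq' wf sol
  have w1 := (wf.sh _ List.mem_cons_self).2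
  simp only [pwf_cons, Pa.wf] at w1
  obtain ⟨⟨c1, y1⟩, ⟨c2, y2⟩, -⟩ := w1
  have a1 : q.src.s = A := y1.fst
  have a2 : q'.src.s = A' := y2.fst
  have q1 : q.wf := y1.2.wf List.mem_cons_self
  have q2 : q'.wf := y2.2.wf List.mem_cons_self
  have s1 := (sol _ List.mem_cons_self).1
  simp only [pok_cons, Pa.ok] at s1
  obtain ⟨⟨i1, -⟩, ⟨i2, -⟩, -⟩ := s1
  obtain ⟨K, K', α, β, d1, d2, k1, k2, iα, tα, iβ, tβ, hαβ⟩ :=
    hb r q.src q'.src ((u.1 h).sw * u.1 h') q1.1 q2.1 (by rw [a1, a2]; exact i1.sw.mul i2)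
  obtain ⟨N, bl⟩ := exists_below (⟨B, z, .cy h A (.l q :: w) :: .cy h' A' (.l q' :: w') :: Q⟩ :: R)
  have n1 := Multiset.nodup_iff_count_le_one.1 wf.nd h
  have n2 := Multiset.nodup_iff_count_le_one.1 wf.nd h'
  simp only [own_cons, pown_cons, Pa.own, wown_l, Multiset.count_add, Multiset.count_singleton,
    if_true] at n1 n2
  have e1 : h ≠ h' := fun k => by rw [if_pos k] at n1; omega
  have e2 : h ≠ q.i := fun k => by rw [if_pos k] at n1; omega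
  have e3 : h ≠ q'.i := fun k => by rw [if_pos k] at n1; omega
  have e4 : h' ≠ q.i := fun k => by rw [if_pos k] at n2; omega
  have e5 : h' ≠ q'.i := fun k => by rw [if_pos k] at n2; omega
  have l1 : h < N := bl.1 h (by simp [Pa.own])
  have l2 : h' < N := bl.1 h' (by simp [Pa.own])
  have l3 : q'.i < N := bl.1 q'.i (by simp [Pa.own])
  obtain ⟨u1, t1, b1, v1, -, v2, r1, r2⟩ := hs r O B z [] (.cy h' A' (.l q' :: w') :: Q) h A [] w q
    R N K α.sw u wf sol bl d1 iα.sw tα.sw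
  obtain ⟨u2, t2, -, v3, -, v4, r3, r4⟩ := hs r O B z
    [.cy h A (.l (sp1 N q K) :: .l (sp2 N q K) :: w)] Q h' A' [] w' q' (spSy N q K ++ R) (N + 9)
    K' β u1 t1.wf t1.sol b1 d2 iβ tβ
  have t3 := hr r O B z []
    (.cy h' A' (.l (sp1 (N + 9) q' K') :: .l (sp2 (N + 9) q' K') :: w') :: Q) h A
    [.l (sp1 N q K)] (.l (sp2 N q K) :: w) _ u2 t2.wf t2.sol
  have t4 := hr r O B z
    [.cy h (ls [.l (sp1 N q K)] (A, ∅)).s ((It.l (sp2 N q K) :: w) ++ [It.l (sp1 N q K)])] Q h' A'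
    [.l (sp1 (N + 9) q' K')] (.l (sp2 (N + 9) q' K') :: w') _ _ t3.wf t3.sol
  have key : u.1 h * α.sw = u.1 h' * β := by
    have f1 := congrArg (fun x => u.1 h * (α.sw * x)) hαβ
    rw [k1] at iα
    rw [a1] at iα
    simp only [mul_assoc, a1, iα.mc', i1.rc, i1.mc, i2.lc, iα.sw.r'] at f1
    exact f1.symm
  have t5 := hj r O B z Q h _ ((It.l (sp2 N q K) :: w) ++ [It.l (sp1 N q K)]) h' _
    ((It.l (sp2 (N + 9) q' K') :: w') ++ [It.l (sp1 (N + 9) q' K')]) _ _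
    ⟨⟨_, _, rfl⟩, .l (sp2 N q K) :: w, _, rfl⟩
    ⟨⟨_, _, rfl⟩, .l (sp2 (N + 9) q' K') :: w', _, rfl⟩ (by
      have g1 : (sp1 N q K).i = N := rfl
      have g2 : (sp1 (N + 9) q' K').i = N + 9 := rfl
      simp only [wv_l, wv_nil, mul_one, g1, g2, update_self, update_of_ne e1, update_of_ne e1.symm,
        update_of_ne (show N + 9 ≠ h by omega)]
      rw [v3, v4 h (by omega) e3, v4 h' (by omega) e5, v4 N (by omega) (by omega), v1,
        v2 h l1 e2, v2 h' l2 e4, key]) t4.wf t4.sol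
  refine ⟨_, _, (((t1.trans t2).trans t3).trans t4).trans t5, ?_⟩
  have m1 := C5.ms_sp hq q1 N K
  have m2 := C5.ms_sp hq' q2 (N + 9) K'
  rw [a1, c1] at m1
  rw [a2, c2] at m2
  have m3 : 0 < 1000 ^ B.card := by positivity
  simp only [ms_cons, ms_append, Sh.wt, pwt_cons, Pa.wt, wwt_append, wwt_l, wwt_nil,
    C5.wt_nt hq, C5.wt_nt hq', C5.wt_sp1 hq, C5.wt_sp1 hq', C5.wt_sp2 hq N r1 r2,
    C5.wt_sp2 hq' (N + 9) r3 r4, add_mul]
  omega

end Vale.Agent.P002S
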