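import Vale.Agent.P002S.Stm

/-! Reduction of a disc whose letters are all nontrivial. -/

namespace Vale.Agent.P002S

open Matrix Vale.Agent.P002 Function

namespace C6

variable {r : ℕ} {O : Subring ℂ}

theorem dec (w : List (It r)) (h : 1 ≤ wwt w) : ∃ C x V, w = C ++ .l x :: V ∧ wwt C = 0 := by
  induction w with
  | nil => simp at h
  | cons a w ih =>
    cases a with
    | c D =>
      obtain ⟨C, x, V, e1, e2⟩ := ih (by simpa using h)
      exact ⟨.c D :: C, x, V, by rw [e1]; rfl, by simpa using e2⟩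
    | l x => exact ⟨[], x, w, rfl, rfl⟩

theorem wt_nt {x : Lt r} (h : x.nt) : x.wt = 1 :=
  if_neg fun k => k.elim h.1.ne_empty h.2.ne_empty

theorem dec3 (w : List (It r)) (hn : AllN w) (h : 3 ≤ wwt w) :
    ∃ C x M y V, w = C ++ .l x :: (M ++ .l y :: V) ∧ wwt M = 1 := by
  obtain ⟨C0, x, V0, rfl, e0⟩ := dec w (by omega)
  have hx := wt_nt (hn x (by simp))
  simp only [wwt_append, wwt_l, e0, hx] at h
  obtain ⟨C1, q, V1, rfl, e1⟩ := dec V0 (by omega)
  have hq := wt_nt (hn q (by simp))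
  simp only [wwt_append, wwt_l, e1, hq] at h
  obtain ⟨C2, y, V, rfl, e2⟩ := dec V1 (by omega)
  exact ⟨C0, x, C1 ++ .l q :: C2, y, V, by simp, by simp [e1, e2, hq]⟩

theorem cards {B A : Finset (Fin r)} {z h w} {R : Sy r} (hW : WF O (⟨B, z, [.cy h A w]⟩ :: R))
    {x : Lt r} (hx : .l x ∈ w) (hn : x.nt) :
    1 ≤ B.card ∧ x.p.S.card ≤ B.card - 1 ∧ x.q.S.card ≤ B.card - 1 := by
  have h1 := (hW.sh _ List.mem_cons_self).2 _ List.mem_cons_self
  obtain ⟨h2, h3, h4⟩ := h1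
  have h5 := h4.card_src hx
  rw [h3, h2] at h5
  have h6 : (x.p.S ∪ x.q.S).card = B.card := h5
  rw [Finset.card_union_of_disjoint (h4.wf hx).1] at h6
  have := hn.1.card_pos
  have := hn.2.card_pos
  omega

theorem ms_sp (N : ℕ) (x : Lt r) (K : Fl r) {c : ℕ} (h1 : x.p.S.card ≤ c) (h2 : x.q.S.card ≤ c) :
    ms (spSy N x K) ≤ 20 * 1000 ^ c := by
  have a1 : 1000 ^ x.p.S.card ≤ 1000 ^ c := Nat.pow_le_pow_right (by norm_num) h1
  have a2 : 1000 ^ x.q.S.card ≤ 1000 ^ c := Nat.pow_le_pow_right (by norm_num) h2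
  simp [spSy, tri3, disk, Sh.wt, Pa.wt, fl, Lt.wt]
  omega

theorem pw {b : ℕ} (h : 1 ≤ b) : 1000 ^ b = 1000 * 1000 ^ (b - 1) := by
  rw [← pow_succ', Nat.sub_add_cancel h]

theorem core (h3 : S_c3) (hs : S_sp) (hr : S_rot) (hb : S_br) (hc : S_cut)
    {B A : Finset (Fin r)} {z h} {C M V : List (It r)} {x y : Lt r} {R : Sy r} {u : Pt r}
    (hO : Big O r) (hn : AllN (C ++ .l x :: (M ++ .l y :: V))) (hM : wwt M = 1)
    (hW : WF O (⟨B, z, [.cy h A (C ++ .l x :: (M ++ .l y :: V))]⟩ :: R))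
    (hu : u ∈ Sol (⟨B, z, [.cy h A (C ++ .l x :: (M ++ .l y :: V))]⟩ :: R)) :
    Red O (⟨B, z, [.cy h A (C ++ .l x :: (M ++ .l y :: V))]⟩ :: R) u := by
  have nx := hn x (by simp)
  have ny := hn y (by simp)
  obtain ⟨b1, cx1, cx2⟩ := cards hW (x := x) (by simp) nx
  obtain ⟨-, cy1, cy2⟩ := cards hW (x := y) (by simp) ny
  obtain ⟨-, -, hp⟩ := (hW.sh _ List.mem_cons_self).2 _ List.mem_cons_self
  have wx := hp.wf (x := x) (by simp)
  have wy := hp.wf (x := y) (by simp)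
  have pM : Path O x.tgt M y.src := (path_append.1 ((path_l x).1 (path_append.1 hp).2).2.2).1
  have ok : wok u (C ++ .l x :: (M ++ .l y :: V)) :=
    (((sol_cons _ _ _).1 hu).1.1 _ List.mem_cons_self).2
  simp only [wok_append, wok_l] at ok
  obtain ⟨-, okx, okM, -, -⟩ := ok
  obtain ⟨K, K', α, β, dK, dK', sK, -, iα, tα, iβ, tβ, hαβ⟩ :=
    hb r x.tgt y.src _ wx.2.1 wy.1 (pM.iso okM)
  obtain ⟨N, hN⟩ := exists_below (⟨B, z, [.cy h A (C ++ .l x :: (M ++ .l y :: V))]⟩ :: R)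
  have lt := hN.1
  have cn := fun i => Multiset.nodup_iff_count_le_one.1 hW.nd i
  simp only [own_cons, pown_cons, Pa.own, pown_nil, wown_append, wown_l, Multiset.count_add,
    Multiset.mem_add, Multiset.mem_singleton] at cn lt
  have lh : h < N := lt h (by simp)
  have lx : x.i < N := lt x.i (by simp)
  have xh : x.i ≠ h := fun e => by
    have := cn h
    rw [e, Multiset.count_singleton_self] at this
    omega
  have xy : x.i ≠ y.i := fun e => by
    have := cn y.i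
    rw [e, Multiset.count_singleton_self] at this
    omega
  have mM : ∀ i ∈ wown M, i < N ∧ i ≠ h ∧ i ≠ x.i ∧ i ≠ y.i := fun i hi => by
    have a := cn i
    have b := Multiset.one_le_count_iff_mem.2 hi
    refine ⟨lt i (by simp [hi]), fun e => ?_, fun e => ?_, fun e => ?_⟩ <;>
    · rw [← e, Multiset.count_singleton_self] at a
      omega
  obtain ⟨u1, s1, B1, -, v1, v2, k1, k2⟩ := hs r O B z [] [] h A C (M ++ .l y :: V) x R N K
    (u.1 x.i * α.sw) u hW hu hN dK (okx.1.mul iα.sw) (okx.2.1.mul tα.sw okx.1 iα.sw wx.2.1)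
  rw [W.sw_mul, W.sw_sw, mul_assoc, okx.1.m', iα.r'] at v1
  have e1 : C ++ .l (sp1 N x K) :: .l (sp2 N x K) :: (M ++ .l y :: V) =
      (C ++ .l (sp1 N x K) :: .l (sp2 N x K) :: M) ++ .l y :: V := by simp
  rw [e1] at s1 B1
  obtain ⟨u2, s2, -, v3, -, v4, k3, k4⟩ := hs r O B z [] [] h A _ V y _ (N + 9) K' β u1
    s1.wf s1.sol B1 dK' iβ tβ
  have e2 : (C ++ .l (sp1 N x K) :: .l (sp2 N x K) :: M) ++ .l (sp1 (N + 9) y K') ::
      .l (sp2 (N + 9) y K') :: V = (C ++ [.l (sp1 N x K)]) ++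
      (.l (sp2 N x K) :: (M ++ .l (sp1 (N + 9) y K') :: .l (sp2 (N + 9) y K') :: V)) := by simp
  rw [e2] at s2
  have s3 := hr r O B z [] [] h A _ _ _ u2 s2.wf s2.sol
  have e3 : (It.l (sp2 N x K) :: (M ++ .l (sp1 (N + 9) y K') :: .l (sp2 (N + 9) y K') :: V)) ++
      (C ++ [.l (sp1 N x K)]) = (.l (sp2 N x K) :: (M ++ [.l (sp1 (N + 9) y K')])) ++
      (.l (sp2 (N + 9) y K') :: (V ++ C ++ [.l (sp1 N x K)])) := by simp
  have e4 : (ls (C ++ [.l (sp1 N x K)]) (A, ∅)).s = x.tgt.s := by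
    rw [ls_append, ls_l, ls_nil, ← sK]; rfl
  rw [e3, e4] at s3
  obtain ⟨N', hN'⟩ := exists_below (⟨B, z, [.cy h x.tgt.s
    ((.l (sp2 N x K) :: (M ++ [.l (sp1 (N + 9) y K')])) ++
      (.l (sp2 (N + 9) y K') :: (V ++ C ++ [.l (sp1 N x K)])))]⟩ ::
      (spSy (N + 9) y K' ++ (spSy N x K ++ R)))
  rw [List.nil_append, List.nil_append] at s1 s2 s3
  obtain ⟨u4, s4⟩ := hc r O B z h x.tgt.s (It.l (sp2 N x K) :: (M ++ [It.l (sp1 (N + 9) y K')]))
    (It.l (sp2 (N + 9) y K') :: (V ++ C ++ [It.l (sp1 N x K)])) _ N' _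
    ⟨⟨_, _, rfl⟩, .l (sp2 N x K) :: M, _, rfl⟩ ⟨⟨_, _, rfl⟩, .l (sp2 (N + 9) y K') :: (V ++ C), _, rfl⟩
    (by
      have a1 : (sp2 N x K).i = x.i := rfl
      have a2 : (sp1 (N + 9) y K').i = N + 9 := rfl
      have a3 : ∀ g, wv (update u2.1 h g) M = wv u.1 M := fun g => wv_congr fun i hi => by
        obtain ⟨m1, m2, m3, m4⟩ := mM i hi
        rw [update_of_ne m2, v4 i (by omega) m4, v2 i m1 m3]
      simp only [wv_l, wv_append, wv_nil, mul_one, a1, a2, a3]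
      rw [update_of_ne xh, update_of_ne (by omega), v3, v4 _ (by omega) xy, v1, ← hαβ, iα.rc,
        mul_assoc]) s3.wf s3.sol hN'
  have n1 : (sp1 N x K).nt := nx
  have n2 : (sp2 N x K).nt :=
    ⟨Finset.card_pos.1 (k1 ▸ nx.1.card_pos), Finset.card_pos.1 (k2 ▸ nx.2.card_pos)⟩
  have n3 : (sp1 (N + 9) y K').nt := ny
  have n4 : (sp2 (N + 9) y K').nt :=
    ⟨Finset.card_pos.1 (k3 ▸ ny.1.card_pos), Finset.card_pos.1 (k4 ▸ ny.2.card_pos)⟩
  have w3 : wwt (It.l (sp2 N x K) :: (M ++ [.l (sp1 (N + 9) y K')])) = 3 := by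
    simp only [wwt_l, wwt_append, wwt_nil, wt_nt n2, wt_nt n3, hM]
  obtain ⟨P', u5, s5, hm⟩ := h3 r O B 1 N' x.tgt.s _ _ u4 hO (fun a ha => by
    simp only [List.mem_cons, List.mem_append, It.l.injEq, List.not_mem_nil, or_false] at ha
    rcases ha with rfl | ha | rfl
    · exact n2
    · exact hn a (by simp [ha])
    · exact n3) (by omega) w3.le s4.wf s4.sol
  refine ⟨_, u5, (((s1.trans s2).trans s3).trans s4).trans s5, ?_⟩
  have m1 := ms_sp N x K cx1 cx2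
  have m2 := ms_sp (N + 9) y K' cy1 cy2
  have := pw b1
  have : 0 < 1000 ^ (B.card - 1) := by positivity
  simp only [ms_append, ms_cons, Sh.wt, pwt_cons, pwt_nil, Pa.wt, wwt_l, wwt_append, wwt_nil,
    wt_nt n1, wt_nt n4, wt_nt nx, wt_nt ny, hM, add_mul, one_mul, zero_mul]
  omega

end C6

theorem s_c6 (h3 : S_c3) (hs : S_sp) (hr : S_rot) (hb : S_br) (hc : S_cut) : S_c6 := by
  intro r O B z h A w R u hO hn h1 hW hu
  rcases le_or_gt (wwt w) 3 with h4 | h4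
  · obtain ⟨P', u', st, hm⟩ := h3 r O B z h A w R u hO hn h1 h4 hW hu
    obtain ⟨C, x, V, rfl, -⟩ := C6.dec w h1
    have b1 := (C6.cards hW (x := x) (by simp) (hn x (by simp))).1
    refine ⟨_, u', st, ?_⟩
    have := C6.pw b1
    have : 0 < 1000 ^ (B.card - 1) := by positivity
    simp only [ms_append, ms_cons, Sh.wt, add_mul, one_mul]
    omega
  · obtain ⟨C, x, M, y, V, rfl, hM⟩ := C6.dec3 w hn h4.le
    exact C6.core h3 hs hr hb hc hO hn hM hW hu

end Vale.Agent.P002S
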