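import Vale.Agent.P002S.Stm

/-! Elimination of a full letter in a sheet of maximal rank. -/

namespace Vale.Agent.P002S

open Matrix Vale.Agent.P002 Function

namespace Ce

variable {r : ℕ} {O : Subring ℂ}

theorem card {P : Sy r} {s : Sh r} {h : ℕ} {A : Finset (Fin r)} {w : List (It r)} {x : Lt r}
    (hw : WF O P) (hs : s ∈ P) (hc : .cy h A w ∈ s.ps) (hx : .l x ∈ w) :
    x.wf ∧ x.p.S.card + x.q.S.card = s.B.card := by
  obtain ⟨a, b, c⟩ := (hw.sh s hs).2 _ hc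
  have d := c.wf hx
  have e := c.card_src hx
  rw [b, a] at e
  refine ⟨d, ?_⟩
  rw [← e, ← Finset.card_union_of_disjoint d.1]
  rfl

theorem full {x : Lt r} {o : Occ r} (hw : x.wf) (ho : o = x.p ∨ o = x.q)
    (hc : x.p.S.card + x.q.S.card ≤ o.S.card) : Full x o := by
  obtain ⟨_, _, a, b⟩ := hw
  rcases ho with rfl | rfl
  · exact .inl ⟨rfl, Finset.card_eq_zero.1 (by omega), Finset.card_eq_zero.1 (by omega)⟩
  · exact .inr ⟨rfl, Finset.card_eq_zero.1 (by omega), Finset.card_eq_zero.1 (by omega)⟩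

theorem wt {x : Lt r} {o : Occ r} (h : Full x o) : x.wt = 2 := by
  rcases h with h | h
  · exact if_pos (.inr h.2.1)
  · exact if_pos (.inl h.2.1)

theorem ne {x : Lt r} {o : Occ r} (h : Full x o) (hT : o.T.Nonempty) :
    ¬ (o.flip = x.p ∨ o.flip = x.q) := by
  have a : o.flip ≠ o := fun e => by
    have := congrArg Occ.σ e
    simp [Occ.flip] at this
  have b : ∀ o' : Occ r, o'.S = ∅ → o.flip ≠ o' := fun o' h' e =>
    hT.ne_empty ((congrArg Occ.S e).trans h')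
  rcases h with h | h
  · rintro (e | e)
    · exact a (e.trans h.1)
    · exact b _ h.2.1 e
  · rintro (e | e)
    · exact b _ h.2.1 e
    · exact a (e.trans h.1)

theorem lt {B : Finset (Fin r)} {z z' : ℂˣ} {ps ps' : List (Pa r)} {R : Sy r}
    (h : pwt ps' < pwt ps) : ms (⟨B, z', ps'⟩ :: R) < ms (⟨B, z, ps⟩ :: R) := by
  rw [ms_cons, ms_cons]
  exact Nat.add_lt_add_right (Nat.mul_lt_mul_of_pos_right (Nat.add_lt_add_left h 1)
    (Nat.pow_pos (by norm_num))) _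

theorem le {B : Finset (Fin r)} {z z' : ℂˣ} {ps ps' : List (Pa r)} {R : Sy r}
    (h : pwt ps' ≤ pwt ps) : ms (⟨B, z', ps'⟩ :: R) ≤ ms (⟨B, z, ps⟩ :: R) := by
  rw [ms_cons, ms_cons]
  exact Nat.add_le_add_right (Nat.mul_le_mul_right _ (Nat.add_le_add_left h 1)) _

theorem front (ht : S_prot) (hr : S_rot) {s : Sh r} {R : Sy r} {h : ℕ} {A : Finset (Fin r)}
    {w : List (It r)} {x : Lt r} {u : Pt r} (hc : .cy h A w ∈ s.ps) (hx : .l x ∈ w)
    (hw : WF O (s :: R)) (hu : u ∈ Sol (s :: R)) :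
    ∃ A1 X Q u', Step O (s :: R) u (⟨s.B, s.z, .cy h A1 (.l x :: X) :: Q⟩ :: R) u' ∧
      ms (⟨s.B, s.z, .cy h A1 (.l x :: X) :: Q⟩ :: R) ≤ ms (s :: R) := by
  obtain ⟨B, z, ps⟩ := s
  obtain ⟨X, Y, rfl⟩ := List.append_of_mem hc
  obtain ⟨w1, w2, rfl⟩ := List.append_of_mem hx
  have s1 := ht r O B z X (.cy h A (w1 ++ .l x :: w2) :: Y) R u hw hu
  have s2 := hr r O B z [] (Y ++ X) h A w1 (.l x :: w2) R u s1.wf s1.sol
  refine ⟨_, w2 ++ w1, Y ++ X, _, s1.trans s2, le ?_⟩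
  simp only [pwt_cons, pwt_append, Pa.wt, wwt_append, wwt_l]
  omega

theorem core (hp : S_perm) (ht : S_prot) (hl : S_pull) (hr : S_rot) (h1 : S_e1) (h2 : S_e2)
    (h3 : S_e3) {B : Finset (Fin r)} {z : ℂˣ} {Q : List (Pa r)} {R : Sy r} {h : ℕ}
    {A : Finset (Fin r)} {X : List (It r)} {x : Lt r} {u : Pt r} (hO : Big O r) (hB : B.Nonempty)
    (hR : ∀ s' ∈ R, s'.B.card ≤ B.card) (hx : ¬ x.nt)
    (hw : WF O (⟨B, z, .cy h A (.l x :: X) :: Q⟩ :: R))
    (hu : u ∈ Sol (⟨B, z, .cy h A (.l x :: X) :: Q⟩ :: R)) :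
    Red O (⟨B, z, .cy h A (.l x :: X) :: Q⟩ :: R) u := by
  obtain ⟨xw, xc⟩ := card hw List.mem_cons_self List.mem_cons_self List.mem_cons_self
  have hB' := Finset.card_pos.2 hB
  obtain ⟨o, ho, oS, oT⟩ : ∃ o : Occ r, (o = x.p ∨ o = x.q) ∧ o.S.card = B.card ∧
      o.T.card = B.card := by
    obtain ⟨_, _, a, b⟩ := xw
    simp only at xc
    by_cases k : x.p.S.Nonempty
    · have : x.q.S.card = 0 :=
        Finset.card_eq_zero.2 (Finset.not_nonempty_iff_eq_empty.1 fun e => hx ⟨k, e⟩)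
      exact ⟨x.p, .inl rfl, by omega, by omega⟩
    · have : x.p.S.card = 0 := Finset.card_eq_zero.2 (Finset.not_nonempty_iff_eq_empty.1 k)
      exact ⟨x.q, .inr rfl, by omega, by omega⟩
  have fx : Full x o := full xw ho (xc.trans oS.symm).le
  have hS : o.S.Nonempty := Finset.card_pos.1 (by omega)
  have hT : o.T.Nonempty := Finset.card_pos.1 (by omega)
  have hf := (hw.oc.2 o (mem_oc.2 ⟨_, List.mem_cons_self, mem_poc.2 ⟨h, A, _, List.mem_cons_self,
    mem_woc.2 ⟨x, List.mem_cons_self, ho⟩⟩⟩) hS).2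
  obtain ⟨s', hs', hf⟩ := mem_oc.1 hf
  obtain ⟨h', A', w', hc', hf⟩ := mem_poc.1 hf
  obtain ⟨x', hx', ho'⟩ := mem_woc.1 hf
  obtain ⟨xw', xc'⟩ := card hw hs' hc' hx'
  have hle : s'.B.card ≤ B.card := by
    rcases List.mem_cons.1 hs' with rfl | k
    · exact le_rfl
    · exact hR s' k
  have fx' : Full x' o.flip := full xw' ho' (xc'.le.trans (hle.trans oT.ge))
  have heq : s'.B.card = B.card := by
    have a : o.flip.S.card = B.card := oT
    rcases ho' with e | e <;> rw [e] at a <;> omega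
  have w1 := wt fx
  have w2 := wt fx'
  rcases List.mem_cons.1 hs' with rfl | k
  · rcases List.mem_cons.1 hc' with e | k
    · obtain ⟨rfl, rfl, rfl⟩ := Pa.cy.inj e
      rcases List.mem_cons.1 hx' with e' | k'
      · obtain rfl := It.l.inj e'
        exact absurd ho' (ne fx hT)
      · obtain ⟨X1, Y, rfl⟩ := List.append_of_mem k'
        obtain ⟨u', st⟩ := h3 r O B z Q h' A' x x' o X1 Y R u fx fx' hS hw hu
        refine ⟨_, u', st, lt ?_⟩
        simp only [pwt_cons, Pa.wt, wwt_append, wwt_l]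
        omega
    · obtain ⟨X2, Y2, rfl⟩ := List.append_of_mem k
      obtain ⟨U, Y, rfl⟩ := List.append_of_mem hx'
      have s1 := hl r O B z [.cy h A (.l x :: X)] X2 Y2 h' A' _ R u hw hu
      have s2 := hr r O B z [.cy h A (.l x :: X)] (X2 ++ Y2) h' A' U (.l x' :: Y) R _ s1.wf s1.sol
      obtain ⟨u', st⟩ := h2 r O B z (X2 ++ Y2) h A h' _ x x' o X (Y ++ U) R _ fx fx' hS s2.wf s2.sol
      refine ⟨_, u', (s1.trans s2).trans st, lt ?_⟩
      simp only [pwt_cons, pwt_append, Pa.wt, wwt_append, wwt_l]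
      omega
  · obtain ⟨R1, R2, rfl⟩ := List.append_of_mem k
    obtain ⟨s1, m1⟩ := hp r O _ (s' :: ⟨B, z, .cy h A (.l x :: X) :: Q⟩ :: (R1 ++ R2)) u
      ((List.perm_middle.cons _).trans (List.Perm.swap _ _ _)) hw hu
    obtain ⟨A1, Y, Q', u1, s2, m2⟩ := front ht hr hc' hx' s1.wf s1.sol
    obtain ⟨s3, m3⟩ := hp r O _ _ u1 (List.Perm.swap _ _ _) s2.wf s2.sol
    obtain ⟨u', st⟩ := h1 r O B z s'.B s'.z Q Q' h A h' A1 x x' o X Y (R1 ++ R2) u1 hO fx fx' hS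
      s3.wf s3.sol
    refine ⟨_, u', ((s1.trans s2).trans s3).trans st, ?_⟩
    refine lt_of_lt_of_le ?_ (m3.le.trans (m2.trans m1.le))
    have hN : 0 < 1000 ^ B.card := Nat.pow_pos (by norm_num)
    simp only [ms_cons, Sh.wt, pwt_cons, pwt_append, Pa.wt, wwt_append, wwt_l, heq, w1, w2]
    generalize 1000 ^ B.card = N at hN ⊢
    nlinarith

end Ce

theorem s_ce (hp : S_perm) (ht : S_prot) (hl : S_pull) (hr : S_rot) (h1 : S_e1) (h2 : S_e2)
    (h3 : S_e3) : S_ce := by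
  intro r O s R h A w x u hO hB hR hc hx hn hw hu
  obtain ⟨A1, X, Q, u', st, m⟩ := Ce.front ht hr hc hx hw hu
  exact st.red m (Ce.core hp ht hl hr h1 h2 h3 hO hB hR hn st.wf st.sol)

end Vale.Agent.P002S
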