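import Vale.Agent.P002S.Stm

/-! Conjugation of all parts of a sheet. -/

namespace Vale.Agent.P002S

open Matrix Vale.Agent.P002 Function

namespace Cj

variable {r : ℕ} {ps : List (Pa r)} {B B' : Finset (Fin r)} {u : Pt r} {g : W r} {y : ℕ → W r}
  {i : ℕ}

/-- the labels that are not moved -/
def rest : List (Pa r) → Multiset ℕ
  | [] => 0
  | .hd _ _ :: ps => rest ps
  | .cy _ _ w :: ps => wown w + rest ps
  | .pu _ i _ :: ps => {i} + rest ps

theorem split (ps : List (Pa r)) :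
    (hdl ps : Multiset ℕ) + (cnl ps : Multiset ℕ) + rest ps = pown ps := by
  induction ps with
  | nil => rfl
  | cons p ps ih =>
    rw [pown_cons, ← ih]
    cases p <;> simp only [hdl, cnl, rest, Pa.own, ← Multiset.cons_coe, ← Multiset.singleton_add] <;>
      abel

theorem mem (p : Pa r) (hp : p ∈ ps) :
    (∀ a b, p = .hd a b → a ∈ hdl ps ∧ b ∈ hdl ps) ∧
    (∀ h A w, p = .cy h A w → h ∈ cnl ps ∧ ∀ i ∈ wown w, i ∈ rest ps) ∧
    ∀ h i l, p = .pu h i l → h ∈ cnl ps ∧ i ∈ rest ps := by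
  induction ps with
  | nil => simp at hp
  | cons q ps ih =>
    rcases List.mem_cons.1 hp with rfl | hp
    · refine ⟨?_, ?_, ?_⟩ <;> intros <;> subst_vars <;> simp +contextual [hdl, cnl, rest]
    · obtain ⟨h1, h2, h3⟩ := ih hp
      refine ⟨fun a b e => ?_, fun h A w e => ?_, fun h i l e => ?_⟩
      · have := h1 a b e
        cases q <;> simp [hdl, this]
      · have := h2 h A w e
        cases q <;> simp +contextual [cnl, rest, this.1, this.2]
      · have := h3 h i l e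
        cases q <;> simp [cnl, rest, this]

theorem hdl_iso (hu : pok u B ps) (hi : i ∈ hdl ps) : IsIso B B (u.1 i) := by
  induction ps with
  | nil => simp [hdl] at hi
  | cons p ps ih =>
    rw [pok_cons] at hu
    cases p with
    | hd a b =>
      simp only [hdl, List.mem_cons] at hi
      rcases hi with rfl | rfl | hi
      exacts [hu.1.1, hu.1.2, ih hu.2 hi]
    | cy h A w => exact ih hu.2 hi
    | pu h j l => exact ih hu.2 hi

theorem cnl_iso (hu : pok u B ps) (hi : i ∈ cnl ps) : ∃ A, IsIso B A (u.1 i) := by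
  induction ps with
  | nil => simp [cnl] at hi
  | cons p ps ih =>
    rw [pok_cons] at hu
    cases p with
    | hd a b => exact ih hu.2 hi
    | cy h A w =>
      rcases List.mem_cons.1 hi with rfl | hi
      exacts [⟨_, hu.1.1⟩, ih hu.2 hi]
    | pu h j l =>
      rcases List.mem_cons.1 hi with rfl | hi
      exacts [⟨_, hu.1.1⟩, ih hu.2 hi]

theorem v_hd (hi : i ∈ hdl ps) : cj ps g y i = g * y i * g.sw := if_pos hi

theorem v_cn (hn : (pown ps).Nodup) (hi : i ∈ cnl ps) : cj ps g y i = g * y i := by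
  rw [← split, Multiset.nodup_add, Multiset.nodup_add] at hn
  rw [cj, if_neg fun h => Multiset.disjoint_left.1 hn.1.2.2 (Multiset.mem_coe.2 h)
    (Multiset.mem_coe.2 hi), if_pos hi]

theorem v_rest (hn : (pown ps).Nodup) (hi : i ∈ rest ps) : cj ps g y i = y i := by
  rw [← split, Multiset.nodup_add] at hn
  have h := Multiset.disjoint_right.1 hn.2.2 hi
  simp only [Multiset.mem_add, Multiset.mem_coe, not_or] at h
  rw [cj, if_neg h.1, if_neg h.2]

theorem part (hn : (pown ps).Nodup) (hg : IsIso B B' g) {p : Pa r} (hp : p ∈ ps)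
    (hu : p.ok u B') : p.ok (cj ps g u.1, u.2) B ∧ p.v (cj ps g u.1) = g * p.v u.1 * g.sw := by
  obtain ⟨h1, h2, h3⟩ := mem p hp
  cases p with
  | hd a b =>
    obtain ⟨a1, a2⟩ := h1 a b rfl
    simp only [Pa.ok, Pa.v, v_hd a1, v_hd a2]
    refine ⟨⟨(hg.mul hu.1).mul hg.sw, (hg.mul hu.2).mul hg.sw⟩, ?_⟩
    simp only [mul_assoc, W.sw_mul, W.sw_sw, hg.mc', hu.1.rc, hu.2.rc, hu.1.sw.rc]
  | cy h A w =>
    obtain ⟨a1, a2⟩ := h2 h A w rfl
    simp only [Pa.ok, Pa.v, v_cn hn a1, wv_congr fun i hi => v_rest (g := g) hn (a2 i hi)]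
    refine ⟨⟨hg.mul hu.1, hu.2.congr (fun i hi => (v_rest hn (a2 i hi)).symm) fun _ _ _ => rfl⟩, ?_⟩
    simp only [mul_assoc, W.sw_mul]
  | pu h j l =>
    obtain ⟨a1, a2⟩ := h3 h j l rfl
    simp only [Pa.ok, Pa.v, v_cn hn a1, v_rest hn a2]
    refine ⟨⟨hg.mul hu.1, hu.2⟩, ?_⟩
    simp only [mul_assoc, W.sw_mul]

theorem prod {y' : ℕ → W r} (hg : IsIso B B' g) (qs : List (Pa r))
    (h : ∀ p ∈ qs, p.v y' = g * p.v y * g.sw ∧ IsIso B' B' (p.v y)) :
    e B * pv y' qs = g * pv y qs * g.sw := by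
  induction qs with
  | nil => simp only [pv_nil, mul_one, hg.m]
  | cons p qs ih =>
    obtain ⟨a1, a2⟩ := h p List.mem_cons_self
    rw [pv_cons, pv_cons, a1, mul_assoc (g * p.v y), ← hg.sw.rc,
      ih fun q hq => h q (List.mem_cons_of_mem _ hq)]
    simp only [mul_assoc, hg.mc', hg.lc, a2.rc]

end Cj

theorem s_cj : S_cj := by
  intro r O ps B B' g u hn hw hu hg
  refine ⟨fun p hp => (Cj.part hn hg hp (hu p hp)).1, Cj.prod hg ps fun p hp =>
    ⟨(Cj.part hn hg hp (hu p hp)).2, (hu p hp).iso (hw p hp)⟩, fun i hi => ?_, fun i _ => ?_,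
    fun A f y i hf hy => ?_⟩
  · simp only [← Cj.split, Multiset.mem_add, Multiset.mem_coe, not_or] at hi
    rw [cj, if_neg hi.1.1, if_neg hi.1.2]
  · simp only [cj]
    split_ifs with h1 h2
    · have a := Cj.hdl_iso hu h1
      simp only [mul_assoc, W.sw_sw, hg.mc', hg.m', a.l, a.r']
    · obtain ⟨A, a⟩ := Cj.cnl_iso hu h2
      rw [hg.mc', a.l]
    · rfl
  · simp only [cj]
    split_ifs
    exacts [(hf.mul hy).mul hf.sw, hf.mul hy, hy]

end Vale.Agent.P002S
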