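import Vale.Agent.P002S.Stm

/-! Approximation on closed sheets. -/

namespace Vale.Agent.P002S

open Matrix Vale.Agent.P002 Function

namespace Closed

variable {n r : ℕ} {J : Matrix (Fin n) (Fin r) ℂ} {B : Finset (Fin r)}

noncomputable def lift (J : Matrix (Fin n) (Fin r) ℂ) (M : Mat n) : W r :=
  ⟨Jᵀ * M * J, Jᵀ * M⁻¹ * J⟩

noncomputable def drop (J : Matrix (Fin n) (Fin r) ℂ) (x : W r) : Mat n := J * x.a * Jᵀ

theorem exists_J (B : Finset (Fin r)) : ∃ J : Matrix (Fin B.card) (Fin r) ℂ,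
    J * Jᵀ = 1 ∧ Jᵀ * J = E B ∧ ∀ k j, J k j = 0 ∨ J k j = 1 := by
  refine ⟨Matrix.of fun k j => if B.orderEmbOfFin rfl k = j then 1 else 0, ?_, ?_, ?_⟩
  · ext k l
    simp only [Matrix.mul_apply, of_apply, transpose_apply, ite_mul, one_mul, zero_mul,
      Finset.sum_ite_eq, Finset.mem_univ, if_true, one_apply, (B.orderEmbOfFin rfl).injective.eq_iff]
    by_cases h : k = l
    · simp [h]
    · rw [if_neg h, if_neg (Ne.symm h)]
  · ext i j
    simp only [Matrix.mul_apply, of_apply, transpose_apply, E, diagonal_apply]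
    by_cases hi : i ∈ B
    · have : i ∈ Set.range (B.orderEmbOfFin rfl) := by
        rw [Finset.range_orderEmbOfFin]; exact hi
      obtain ⟨k, rfl⟩ := this
      rw [Finset.sum_eq_single k]
      · simp [hi]
      · intro l _ hl
        rw [if_neg fun h => hl ((B.orderEmbOfFin rfl).injective h), zero_mul]
      · simp
    · rw [Finset.sum_eq_zero]
      · simp [hi]
      · intro k _
        rw [if_neg, zero_mul]
        rintro rfl
        exact hi (Finset.orderEmbOfFin_mem B rfl k)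
  · intro k j
    by_cases h : B.orderEmbOfFin rfl k = j <;> simp [h]

theorem lift_mul (h1 : J * Jᵀ = 1) (M N : Mat n) : lift J (M * N) = lift J M * lift J N := by
  have hc : ∀ X : Matrix (Fin n) (Fin r) ℂ, J * (Jᵀ * X) = X := fun X => by
    rw [← Matrix.mul_assoc, h1, Matrix.one_mul]
  refine W.ext ?_ ?_ <;>
    simp only [lift, W.mul_a, W.mul_b, Matrix.mul_inv_rev, Matrix.mul_assoc, hc]

theorem lift_one (h2 : Jᵀ * J = E B) : lift J 1 = e B := by
  refine W.ext ?_ ?_ <;> simp [lift, h2]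

theorem lift_sw {M : Mat n} (hM : M.det ≠ 0) : (lift J M).sw = lift J M⁻¹ := by
  refine W.ext rfl ?_
  simp only [lift, W.sw_b, inv_inv' hM]

theorem lift_iso (h1 : J * Jᵀ = 1) (h2 : Jᵀ * J = E B) {M : Mat n} (hM : M.det ≠ 0) :
    IsIso B B (lift J M) := by
  refine ⟨?_, ?_, ?_⟩
  · rw [← lift_one h2, ← lift_mul h1, one_mul]
  · rw [lift_sw hM, ← lift_mul h1, mul_inv'' hM, lift_one h2]
  · rw [lift_sw hM, ← lift_mul h1, inv_mul' hM, lift_one h2]

theorem lift_inj (h1 : J * Jᵀ = 1) {M N : Mat n} (h : lift J M = lift J N) : M = N := by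
  have key : ∀ X : Mat n, J * (lift J X).a * Jᵀ = X := fun X => by
    simp only [lift, Matrix.mul_assoc, h1, Matrix.mul_one]
    rw [← Matrix.mul_assoc, h1, Matrix.one_mul]
  rw [← key M, h, key]

theorem lift_sc (h2 : Jᵀ * J = E B) (z : ℂˣ) :
    lift J ((z : ℂ) • (1 : Mat n)) = e B * sc z := by
  have : ((z : ℂ) • (1 : Mat n))⁻¹ = ((z⁻¹ : ℂˣ) : ℂ) • (1 : Mat n) :=
    Matrix.inv_eq_right_inv (by simp [smul_smul])
  refine W.ext ?_ ?_
  · simp [lift, sc_a, h2]
  · simp only [lift, this, W.mul_b, sc_b, e_b]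
    simp [h2]

theorem drop_mul (h1 : J * Jᵀ = 1) (h2 : Jᵀ * J = E B) {x : W r} (hx : IsIso B B x) :
    drop J x * (J * x.b * Jᵀ) = 1 := by
  have e1 : drop J x * (J * x.b * Jᵀ) = J * (x.a * (Jᵀ * J) * x.b) * Jᵀ := by
    simp only [drop, Matrix.mul_assoc]
  rw [e1, h2, hx.ra, hx.ab, ← h2, ← Matrix.mul_assoc, h1, Matrix.one_mul, h1]

theorem drop_det (h1 : J * Jᵀ = 1) (h2 : Jᵀ * J = E B) {x : W r} (hx : IsIso B B x) :
    (drop J x).det ≠ 0 := by
  have := congrArg Matrix.det (drop_mul h1 h2 hx)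
  rw [det_mul, det_one] at this
  exact left_ne_zero_of_mul_eq_one this

theorem lift_drop (h1 : J * Jᵀ = 1) (h2 : Jᵀ * J = E B) {x : W r} (hx : IsIso B B x) :
    lift J (drop J x) = x := by
  refine (lift_iso h1 h2 (drop_det h1 h2 hx)).ext hx ?_
  have e1 : (lift J (drop J x)).a = Jᵀ * J * x.a * (Jᵀ * J) := by
    simp only [lift, drop, Matrix.mul_assoc]
  rw [e1, h2, hx.la, hx.ra]

theorem pv_lift {ι : Type} (h1 : J * Jᵀ = 1) (h2 : Jᵀ * J = E B) {a b : ι → ℕ} {y : ℕ → W r}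
    {M N : ι → Mat n} (hM : ∀ k, (M k).det ≠ 0) (hN : ∀ k, (N k).det ≠ 0)
    (ha : ∀ k, y (a k) = lift J (M k)) (hb : ∀ k, y (b k) = lift J (N k)) (l : List ι) :
    e B * pv y (l.map fun k => .hd (a k) (b k)) =
      lift J (l.map fun k => cm (M k) (N k)).prod := by
  induction l with
  | nil => simp [lift_one h2]
  | cons k l ih =>
    have e1 : Pa.v y (.hd (a k) (b k)) = lift J (cm (M k) (N k)) := by
      simp only [Pa.v, ha, hb, lift_sw (hM k), lift_sw (hN k), cm, lift_mul h1]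
    rw [List.map_cons, List.map_cons, List.prod_cons, pv_cons, e1, lift_mul h1, ← ih,
      ← lift_one h2, ← mul_assoc, ← mul_assoc, ← lift_mul h1, ← lift_mul h1, one_mul, mul_one]

theorem pown_map {ι : Type} (a b : ι → ℕ) (l : List ι) :
    pown (l.map fun k => (.hd (a k) (b k) : Pa r)) =
      (l : Multiset ι).map a + (l : Multiset ι).map b := by
  induction l with
  | nil => simp
  | cons k l ih =>
    rw [List.map_cons, pown_cons, ih, ← Multiset.cons_coe, Multiset.map_cons, Multiset.map_cons,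
      ← Multiset.singleton_add, ← Multiset.singleton_add, Pa.own]
    abel

theorem mem_O {O : Subring ℂ} (hJ : ∀ k j, J k j = 0 ∨ J k j = 1) {M : Mat n}
    (hM : ∀ i j, M i j ∈ O) (p q : Fin r) : (Jᵀ * M * J) p q ∈ O := by
  have hJ' : ∀ k j, J k j ∈ O := fun k j => by
    rcases hJ k j with h | h <;> rw [h]
    exacts [O.zero_mem, O.one_mem]
  simp only [Matrix.mul_apply, transpose_apply]
  exact O.sum_mem fun j _ => O.mul_mem (O.sum_mem fun i _ => O.mul_mem (hJ' _ _) (hM _ _)) (hJ' _ _)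

theorem reg_lift {X : Type} [AddCommGroup X] [Module ℂ X] {U : Set X} {M : X → Mat n}
    (hM : RegF U M) (h0 : ∀ y ∈ U, (M y).det ≠ 0) (p q : Fin r) :
    Reg U (fun y => (lift J (M y)).a p q) ∧ Reg U fun y => (lift J (M y)).b p q :=
  ⟨(((RegF.const Jᵀ).mul hM).mul (RegF.const J)).entry p q,
    (((RegF.const Jᵀ).mul (hM.inv h0)).mul (RegF.const J)).entry p q⟩

end Closed

open Closed in
theorem s_closed : S_closed := by
  classical
  rintro r O ⟨B, z, ps⟩ x hO hp hnd hx f hf h0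
  dsimp only at hp hnd hf h0
  obtain ⟨J, h1, h2, hJ⟩ := exists_J B
  have hn : B.card ≤ r := by simpa using B.card_le_univ
  generalize B.card = n at J h1 h2 hJ hn
  obtain ⟨g, a, b, rfl⟩ : ∃ (g : ℕ) (a b : Fin g → ℕ),
      ps = (List.finRange g).map fun k => .hd (a k) (b k) := by
    choose a b hab using fun k : Fin ps.length => hp (ps.get k) (List.get_mem _ _)
    exact ⟨_, a, b, by rw [← funext hab, ← List.ofFn_eq_map, List.ofFn_get]⟩
  rw [pown_map] at hnd hf h0
  obtain ⟨na, nb, nab⟩ := Multiset.nodup_add.1 hnd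
  have hmem : ∀ k : Fin g, k ∈ (List.finRange g : Multiset (Fin g)) := fun k => by simp
  have hinj : Injective (Sum.elim a b) := by
    refine Injective.sumElim (fun k l h => Multiset.inj_on_of_nodup_map na k (hmem k) l (hmem l) h)
      (fun k l h => Multiset.inj_on_of_nodup_map nb k (hmem k) l (hmem l) h) fun k l h => ?_
    exact Multiset.disjoint_left.1 nab (Multiset.mem_map_of_mem a (hmem k))
      (h ▸ Multiset.mem_map_of_mem b (hmem l))
  have hlab : ∀ i, i ∈ (List.finRange g : Multiset (Fin g)).map a +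
      (List.finRange g : Multiset (Fin g)).map b → (∃ k, a k = i) ∨ ∃ k, b k = i := fun i hi => by
    rcases Multiset.mem_add.1 hi with h | h <;> obtain ⟨k, -, hk⟩ := Multiset.mem_map.1 h
    exacts [Or.inl ⟨k, hk⟩, Or.inr ⟨k, hk⟩]
  let φ : (Fin g → Mat n) × (Fin g → Mat n) → Pt r := fun y =>
    (extend (Sum.elim a b) (Sum.elim (fun k => lift J (y.1 k)) fun k => lift J (y.2 k)) x.1, x.2)
  have φa : ∀ y k, (φ y).1 (a k) = lift J (y.1 k) := fun y k => hinj.extend_apply _ _ (.inl k)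
  have φb : ∀ y k, (φ y).1 (b k) = lift J (y.2 k) := fun y k => hinj.extend_apply _ _ (.inr k)
  let U : Set ((Fin g → Mat n) × (Fin g → Mat n)) :=
    {y | (∀ k, (y.1 k).det ≠ 0) ∧ ∀ k, (y.2 k).det ≠ 0}
  have hU : Bas U := by
    refine ((Bas.all (W := fun k : Fin g => {y : (Fin g → Mat n) × (Fin g → Mat n) |
        y ∈ Set.univ ∧ (y.1 k).det ≠ 0}) fun k => Bas.univ.of_reg (RegF.id.fst.apply k).det).inter
      (Bas.all (W := fun k : Fin g => {y : (Fin g → Mat n) × (Fin g → Mat n) |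
        y ∈ Set.univ ∧ (y.2 k).det ≠ 0}) fun k =>
          Bas.univ.of_reg (RegF.id.snd.apply k).det)).congr fun y => ?_
    simp [U]
  have hreg : Reg U fun y => f (φ y) := by
    clear h0
    induction hf using Algebra.adjoin_induction with
    | mem f hf =>
      obtain ⟨i, hi, p, q, hf⟩ := hf
      rcases hlab i hi with ⟨k, rfl⟩ | ⟨k, rfl⟩
      · have := reg_lift (J := J) (U := U) (RegF.id.fst.apply k) (fun y hy => hy.1 k) p q
        rcases hf with rfl | rfl <;> simp only [φa]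
        exacts [this.1, this.2]
      · have := reg_lift (J := J) (U := U) (RegF.id.snd.apply k) (fun y hy => hy.2 k) p q
        rcases hf with rfl | rfl <;> simp only [φb]
        exacts [this.1, this.2]
    | algebraMap c => exact Reg.const c
    | add f g _ _ hf hg => exact hf.add hg
    | mul f g _ _ hf hg => exact hf.mul hg
  have hrel : ∀ y ∈ U, e B * pv (φ y).1 ((List.finRange g).map fun k => .hd (a k) (b k)) =
      lift J (hprod y.1 y.2) := fun y hy => by
    rw [pv_lift h1 h2 hy.1 hy.2 (φa y) (φb y), hprod, List.ofFn_eq_map]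
  have hxa : ∀ k, IsIso B B (x.1 (a k)) ∧ IsIso B B (x.1 (b k)) := fun k =>
    hx.1 _ (List.mem_map_of_mem (List.mem_finRange k))
  let y0 : (Fin g → Mat n) × (Fin g → Mat n) :=
    (fun k => drop J (x.1 (a k)), fun k => drop J (x.1 (b k)))
  have hy0 : y0 ∈ U := ⟨fun k => drop_det h1 h2 (hxa k).1, fun k => drop_det h1 h2 (hxa k).2⟩
  have e0 : φ y0 = x := by
    refine Prod.ext (funext fun i => ?_) rfl
    by_cases hi : ∃ k, Sum.elim a b k = i
    · obtain ⟨k | k, rfl⟩ := hi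
      · exact (φa y0 k).trans (lift_drop h1 h2 (hxa k).1)
      · exact (φb y0 k).trans (lift_drop h1 h2 (hxa k).2)
    · exact extend_apply' _ _ _ hi
  have hr0 : hprod y0.1 y0.2 = (z : ℂ) • (1 : Mat n) := by
    refine lift_inj h1 ?_
    rw [← hrel y0 hy0, e0, lift_sc h2]
    exact hx.2
  rw [← e0]
  refine Zc.reg_zero (hO.cl n hn g z y0 hy0.1 hy0.2 hr0) hU hy0 hreg fun y hy hyU => ?_
  refine h0 (φ y) ⟨fun p hp => ?_, ?_⟩ fun i hi p q => ?_
  · obtain ⟨k, -, rfl⟩ := List.mem_map.1 hp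
    simp only [Pa.ok, φa, φb]
    exact ⟨lift_iso h1 h2 (hyU.1 k), lift_iso h1 h2 (hyU.2 k)⟩
  · dsimp only
    rw [hrel y hyU, hy.2.2, lift_sc h2]
  · rcases hlab i hi with ⟨k, rfl⟩ | ⟨k, rfl⟩
    · rw [φa]
      exact ⟨mem_O hJ (hy.1 k).1 p q, mem_O hJ (hy.1 k).2.2 p q⟩
    · rw [φb]
      exact ⟨mem_O hJ (hy.2.1 k).1 p q, mem_O hJ (hy.2.1 k).2.2 p q⟩

end Vale.Agent.P002S
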