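import Vale.Agent.P002S.Stm

/-! A sheet without punctures whose letters are all nontrivial. -/

namespace Vale.Agent.P002S

open Matrix Vale.Agent.P002 Function

namespace Cn

variable {r : ℕ} {B : Finset (Fin r)} {z z' : ℂˣ} {ps ps' : List (Pa r)} {R : Sy r}

theorem le (h : pwt ps' ≤ pwt ps) : ms (⟨B, z', ps'⟩ :: R) ≤ ms (⟨B, z, ps⟩ :: R) := by
  simp only [ms_cons, Sh.wt]
  gcongr

theorem lt (h : pwt ps' < pwt ps) : ms (⟨B, z', ps'⟩ :: R) < ms (⟨B, z, ps⟩ :: R) := by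
  simp only [ms_cons, Sh.wt]
  gcongr

theorem let1 {w : List (It r)} (hC : ¬ AllC w) (hN : AllN w) :
    ∃ w1 q w2, w = w1 ++ .l q :: w2 ∧ q.nt := by
  unfold AllC at hC
  push Not at hC
  obtain ⟨it, hm, hi⟩ := hC
  cases it with
  | c D => exact absurd rfl (hi D)
  | l q =>
    obtain ⟨w1, w2, e⟩ := List.append_of_mem hm
    exact ⟨w1, q, w2, e, hN q hm⟩

theorem wt1 (q : Lt r) : 1 ≤ q.wt := by
  unfold Lt.wt
  split_ifs <;> omega

end Cn

theorem s_cn (ht : S_prot) (hl : S_pull) (hr : S_rot) (hd : S_del) (hc : S_cl) (h4 : S_c4)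
    (h5 : S_c5) (h6 : S_c6) : S_cn := by
  intro r O ⟨B, z, ps⟩ R u hO hpu hN hW hu
  by_cases h1 : ∀ p ∈ ps, ∃ a b, p = .hd a b
  · exact ⟨R, u, hc r O _ R u hO h1 hW hu, by simp [Sh.wt]⟩
  by_cases h2 : ∃ h A w, .cy h A w ∈ ps ∧ AllC w
  · obtain ⟨h, A, w, hm, hC⟩ := h2
    obtain ⟨X, Y, rfl⟩ := List.append_of_mem hm
    have s1 := ht r O B z X (.cy h A w :: Y) R u hW hu
    obtain ⟨z', s2⟩ := hd r O B z (Y ++ X) h A w R u hO hC s1.wf s1.sol
    exact ⟨_, _, s1.trans s2, Cn.lt (by simp only [pwt_append, pwt_cons, Pa.wt]; omega)⟩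
  have h3 : ∀ h A w, .cy h A w ∈ ps → ∃ w1 q w2, w = w1 ++ .l q :: w2 ∧ q.nt :=
    fun h A w hm => Cn.let1 (fun hC => h2 ⟨h, A, w, hm, hC⟩) (hN h A w hm)
  by_cases h7 : ∃ a b, .hd a b ∈ ps
  · obtain ⟨a, b, hm⟩ := h7
    obtain ⟨X, Y, rfl⟩ := List.append_of_mem hm
    have s1 := ht r O B z X (.hd a b :: Y) R u hW hu
    obtain ⟨h, A, w, hm'⟩ : ∃ h A w, .cy h A w ∈ Y ++ X := by
      push Not at h1
      obtain ⟨p, hp, hn⟩ := h1
      cases p with
      | hd a b => exact absurd rfl (hn a b)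
      | cy h A w => exact ⟨h, A, w, by simpa [or_comm] using hp⟩
      | pu h i l => exact absurd hp (hpu h i l)
    obtain ⟨w1, q, w2, rfl, hq⟩ := h3 h A w (by simpa [or_comm] using hm')
    obtain ⟨X', Y', e⟩ := List.append_of_mem hm'
    have e2 := congrArg pwt e
    rw [List.cons_append, e] at s1
    have s2 := hl r O B z [.hd a b] X' Y' h A _ R u s1.wf s1.sol
    have s3 := hr r O B z [.hd a b] (X' ++ Y') h A w1 (.l q :: w2) R _ s2.wf s2.sol
    refine (s1.trans (s2.trans s3)).red (Cn.le ?_)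
      (h4 r O B z _ a b h _ q (w2 ++ w1) R _ hq s3.wf s3.sol)
    simp only [pwt_append, pwt_cons, Pa.wt, wwt_append, wwt_l, pwt_nil] at e2 ⊢
    omega
  have h8 : ∀ p ∈ ps, ∃ h A w1 q w2, p = .cy h A (w1 ++ .l q :: w2) ∧ q.nt := by
    intro p hp
    cases p with
    | hd a b => exact absurd ⟨a, b, hp⟩ h7
    | cy h A w =>
      obtain ⟨w1, q, w2, rfl, hq⟩ := h3 h A w hp
      exact ⟨h, A, w1, q, w2, rfl, hq⟩
    | pu h i l => exact absurd hp (hpu h i l)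
  rcases ps with _ | ⟨p, _ | ⟨p', Q⟩⟩
  · exact absurd (by simp) h1
  · obtain ⟨h, A, w1, q, w2, rfl, hq⟩ := h8 p (by simp)
    refine h6 r O B z h A _ R u hO (hN h A _ (by simp)) ?_ hW hu
    have := Cn.wt1 q
    simp only [wwt_append, wwt_l]
    omega
  · obtain ⟨h, A, w1, q, w2, rfl, hq⟩ := h8 p (by simp)
    obtain ⟨h', A', w1', q', w2', rfl, hq'⟩ := h8 p' (by simp)
    have s1 := hr r O B z [] _ h A w1 (.l q :: w2) R u hW hu
    have s2 := hr r O B z [_] Q h' A' w1' (.l q' :: w2') R _ s1.wf s1.sol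
    refine (s1.trans s2).red (Cn.le ?_)
      (h5 r O B z Q h _ q (w2 ++ w1) h' _ q' (w2' ++ w1') R _ hq hq' s2.wf s2.sol)
    simp only [pwt_append, pwt_cons, Pa.wt, wwt_append, wwt_l, pwt_nil]
    omega

end Vale.Agent.P002S
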