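import Vale.Agent.P002S.Stm

/-! A sheet with a puncture can be reduced. -/

namespace Vale.Agent.P002S

open Matrix Vale.Agent.P002 Function

namespace Cp

theorem wt_le {r : ℕ} (x : Lt r) : x.wt ≤ 2 := by
  unfold Lt.wt
  split_ifs <;> omega

theorem ar {a b c q n X Y Z : ℕ} (ha : a ≤ 2) (hb : b ≤ 2) (hc : c ≤ 2) (hY : Y ≤ X) (hZ : Z ≤ X)
    (hX : 0 < X) : (1 + (3 + a + q)) * X + ((1 + (3 + b)) * Y + (1 + (3 + c + 30 * (n + 1))) * Z) <
      (1 + (30 * (n + 1 + 1) + q)) * X := by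
  have h1 : (1 + (3 + a + q)) * X ≤ (6 + q) * X := Nat.mul_le_mul_right _ (by omega)
  have h2 : (1 + (3 + b)) * Y ≤ 6 * X := Nat.mul_le_mul (by omega) hY
  have h3 : (1 + (3 + c + 30 * (n + 1))) * Z ≤ (36 + 30 * n) * X := Nat.mul_le_mul (by omega) hZ
  nlinarith

end Cp

theorem s_cp (ht : S_prot) (hp : S_pu) : S_cp := by
  rintro r O ⟨B, z, ps⟩ R h i l u hB hm hw hu
  obtain ⟨X, Y, rfl⟩ := List.append_of_mem hm
  have h1 := ht r O B z X (.pu h i l :: Y) R u hw hu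
  refine h1.red (le_of_eq ?_) ?_
  · simp only [ms_cons, Sh.wt, pwt_append, add_comm]
  have hc : (uni l).card = B.card :=
    ((h1.wf.sh _ List.mem_cons_self).2 (.pu h i l) List.mem_cons_self).2
  rcases l with _ | ⟨⟨c, S⟩, l⟩
  · exact absurd hc.symm (Finset.card_pos.2 hB).ne'
  obtain ⟨N, hN⟩ := exists_below (⟨B, z, .pu h i ((c, S) :: l) :: (Y ++ X)⟩ :: R)
  obtain ⟨u', h2⟩ := hp r O B z (Y ++ X) h i c S l R N u h1.wf h1.sol hN
  refine ⟨_, u', h2, ?_⟩
  have h3 : S.card ≤ B.card := hc ▸ Finset.card_le_card Finset.subset_union_left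
  have h4 : (uni l).card ≤ B.card := hc ▸ Finset.card_le_card Finset.subset_union_right
  simp only [List.cons_append, List.nil_append, puSy, disk, ms_cons, Sh.wt, pwt_cons, pwt_nil,
    Pa.wt, wwt_l, wwt_nil, add_zero, List.length_cons, ← add_assoc _ _ (ms R),
    add_lt_add_iff_right]
  exact Cp.ar (Cp.wt_le _) (Cp.wt_le _) (Cp.wt_le _) (Nat.pow_le_pow_right (by norm_num) h3)
    (Nat.pow_le_pow_right (by norm_num) h4) (by positivity)

end Vale.Agent.P002S
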