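import Vale.Agent.P002S.Iface

/-! Systems of flagged surfaces. Matrices act on ROW vectors, products are read left to right. -/

namespace Vale.Agent.P002S

open Matrix Vale.Agent.P002

variable {r : ℕ}

/-- a matrix together with a candidate inverse -/
@[ext] structure W (r : ℕ) where
  a : Mat r
  b : Mat r

noncomputable instance : Monoid (W r) where
  mul x y := ⟨x.a * y.a, y.b * x.b⟩
  one := ⟨1, 1⟩
  mul_assoc x y z := W.ext (Matrix.mul_assoc _ _ _) (Matrix.mul_assoc _ _ _).symm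
  one_mul x := W.ext (Matrix.one_mul _) (Matrix.mul_one _)
  mul_one x := W.ext (Matrix.mul_one _) (Matrix.one_mul _)

/-- the inverse -/
def W.sw (x : W r) : W r := ⟨x.b, x.a⟩

/-- block sum -/
def W.ad (x y : W r) : W r := ⟨x.a + y.a, x.b + y.b⟩

noncomputable def e (S : Finset (Fin r)) : W r := ⟨E S, E S⟩

noncomputable def dg (D : Fin r → ℂˣ) : W r :=
  ⟨diagonal fun i => (D i : ℂ), diagonal fun i => (((D i)⁻¹ : ℂˣ) : ℂ)⟩

noncomputable def sc (z : ℂˣ) : W r := dg fun _ => z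

/-- isomorphism from the coordinate space on `S` to the coordinate space on `T` -/
structure IsIso (S T : Finset (Fin r)) (x : W r) : Prop where
  l : e S * x = x
  m : x * x.sw = e S
  m' : x.sw * x = e T

/-- two step coordinate flag: subspace part, quotient part -/
abbrev Fl (r : ℕ) := Finset (Fin r) × Finset (Fin r)

def Fl.s (F : Fl r) : Finset (Fin r) := F.1 ∪ F.2

/-- part `false` is the subspace, part `true` the quotient -/
def Fl.pt (F : Fl r) (b : Bool) : Finset (Fin r) := if b then F.2 else F.1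

/-- `x` carries the subspace of `F` to the subspace of `G` -/
def Tri (F G : Fl r) (x : W r) : Prop := E F.1 * x.a * E G.2 = 0 ∧ E G.1 * x.b * E F.2 = 0

noncomputable def gr (S T : Finset (Fin r)) (x : W r) : W r := e S * x * e T

/-- occurrence of an edge -/
@[ext] structure Occ (r : ℕ) where
  e : ℕ
  σ : Bool
  S : Finset (Fin r)
  T : Finset (Fin r)

def Occ.flip (o : Occ r) : Occ r := ⟨o.e, !o.σ, o.T, o.S⟩

/-- letter: label, subspace piece, quotient piece -/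
structure Lt (r : ℕ) where
  i : ℕ
  p : Occ r
  q : Occ r

def Lt.src (x : Lt r) : Fl r := (x.p.S, x.q.S)
def Lt.tgt (x : Lt r) : Fl r := (x.p.T, x.q.T)
def Lt.pc (x : Lt r) (b : Bool) : Occ r := if b then x.q else x.p

inductive It (r : ℕ) where
  | c (D : Fin r → ℂˣ)
  | l (x : Lt r)

inductive Pa (r : ℕ) where
  | hd (a b : ℕ)
  | cy (h : ℕ) (A : Finset (Fin r)) (w : List (It r))
  | pu (h i : ℕ) (l : List (ℂˣ × Finset (Fin r)))

structure Sh (r : ℕ) where
  B : Finset (Fin r)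
  z : ℂˣ
  ps : List (Pa r)

abbrev Sy (r : ℕ) := List (Sh r)

/-- values of the owned labels, values of the edges -/
abbrev Pt (r : ℕ) := (ℕ → W r) × (ℕ → W r)

/-! ### Semantics -/

noncomputable def ev (t : ℕ → W r) (o : Occ r) : W r :=
  gr o.S o.T (if o.σ then t o.e else (t o.e).sw)

def Lt.ok (u : Pt r) (x : Lt r) : Prop :=
  IsIso x.src.s x.tgt.s (u.1 x.i) ∧ Tri x.src x.tgt (u.1 x.i) ∧
    gr x.p.S x.p.T (u.1 x.i) = ev u.2 x.p ∧ gr x.q.S x.q.T (u.1 x.i) = ev u.2 x.q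

noncomputable def It.v (y : ℕ → W r) : It r → W r
  | .c D => dg D
  | .l x => y x.i

def It.ok (u : Pt r) : It r → Prop
  | .c _ => True
  | .l x => x.ok u

noncomputable def wv (y : ℕ → W r) (w : List (It r)) : W r := (w.map (It.v y)).prod

def wok (u : Pt r) (w : List (It r)) : Prop := ∀ it ∈ w, it.ok u

noncomputable def Pa.v (y : ℕ → W r) : Pa r → W r
  | .hd a b => y a * y b * (y a).sw * (y b).sw
  | .cy h _ w => y h * wv y w * (y h).sw
  | .pu h i _ => y h * y i * (y h).sw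

def Pa.ok (u : Pt r) (B : Finset (Fin r)) : Pa r → Prop
  | .hd a b => IsIso B B (u.1 a) ∧ IsIso B B (u.1 b)
  | .cy h A w => IsIso B A (u.1 h) ∧ wok u w
  | .pu h i l => IsIso B (uni l) (u.1 h) ∧ IsIso (uni l) (uni l) (u.1 i) ∧ TriM l (u.1 i).a

noncomputable def pv (y : ℕ → W r) (ps : List (Pa r)) : W r := (ps.map (Pa.v y)).prod

def pok (u : Pt r) (B : Finset (Fin r)) (ps : List (Pa r)) : Prop := ∀ p ∈ ps, p.ok u B

def Sh.ok (u : Pt r) (s : Sh r) : Prop := pok u s.B s.ps ∧ e s.B * pv u.1 s.ps = e s.B * sc s.z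

def Sol (P : Sy r) : Set (Pt r) := {u | ∀ s ∈ P, s.ok u}

/-! ### Labels -/

def It.own : It r → Multiset ℕ
  | .c _ => 0
  | .l x => {x.i}

def It.oc : It r → Multiset (Occ r)
  | .c _ => 0
  | .l x => {x.p} + {x.q}

def wown (w : List (It r)) : Multiset ℕ := (w.map It.own).sum
def woc (w : List (It r)) : Multiset (Occ r) := (w.map It.oc).sum

def Pa.own : Pa r → Multiset ℕ
  | .hd a b => {a} + {b}
  | .cy h _ w => {h} + wown w
  | .pu h i _ => {h} + {i}

def Pa.oc : Pa r → Multiset (Occ r)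
  | .hd _ _ => 0
  | .cy _ _ w => woc w
  | .pu _ _ _ => 0

def pown (ps : List (Pa r)) : Multiset ℕ := (ps.map Pa.own).sum
def poc (ps : List (Pa r)) : Multiset (Occ r) := (ps.map Pa.oc).sum
def own (P : Sy r) : Multiset ℕ := (P.map fun s => pown s.ps).sum
def oc (P : Sy r) : Multiset (Occ r) := (P.map fun s => poc s.ps).sum

/-- every nonempty signed edge occurs at most once and its opposite occurs -/
def OcOk (K : Multiset (Occ r)) : Prop :=
  ((K.filter fun o => o.S.Nonempty).map fun o => (o.e, o.σ)).Nodup ∧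
    ∀ o ∈ K, o.S.Nonempty → o.T.Nonempty ∧ o.flip ∈ K

def Below (N : ℕ) (P : Sy r) : Prop :=
  (∀ i ∈ own P, i < N) ∧ ∀ o ∈ oc P, o.S.Nonempty → o.e < N

/-! ### Well formed systems -/

/-- `D` is a unit diagonal that is constant on the common refinement of two flags -/
def Cst (O : Subring ℂ) (D : Fin r → ℂˣ) (F G : Fl r) : Prop :=
  (∀ i, Un O (D i)) ∧
    ∀ i ∈ F.s, ∀ j ∈ F.s, (i ∈ F.1 ↔ j ∈ F.1) → (i ∈ G.1 ↔ j ∈ G.1) → D i = D j

def Lt.wf (x : Lt r) : Prop :=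
  Disjoint x.p.S x.q.S ∧ Disjoint x.p.T x.q.T ∧ x.p.S.card = x.p.T.card ∧ x.q.S.card = x.q.T.card

/-- source flag of the first letter -/
def fs : List (It r) → Fl r → Fl r
  | [], G => G
  | .c _ :: w, G => fs w G
  | .l x :: _, _ => x.src

/-- target flag of the last letter -/
def ls : List (It r) → Fl r → Fl r
  | [], F => F
  | .c _ :: w, F => ls w F
  | .l x :: w, _ => ls w x.tgt

def Path (O : Subring ℂ) : Fl r → List (It r) → Fl r → Prop
  | F, [], G => F.s = G.s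
  | F, .c D :: w, G => Cst O D F (fs w G) ∧ Path O F w G
  | F, .l x :: w, G => F.s = x.src.s ∧ x.wf ∧ Path O x.tgt w G

/-- closed path based at `A` -/
def Cyc (O : Subring ℂ) (A : Finset (Fin r)) (w : List (It r)) : Prop :=
  (ls w (A, ∅)).s = A ∧ Path O (ls w (A, ∅)) w (fs w (A, ∅))

def Pa.wf (O : Subring ℂ) (B : Finset (Fin r)) : Pa r → Prop
  | .hd _ _ => True
  | .cy _ A w => A.card = B.card ∧ Cyc O A w
  | .pu _ _ l => BlOk O l ∧ (uni l).card = B.card

def pwf (O : Subring ℂ) (B : Finset (Fin r)) (ps : List (Pa r)) : Prop := ∀ p ∈ ps, p.wf O B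

def Sh.wf (O : Subring ℂ) (s : Sh r) : Prop := Un O s.z ∧ pwf O s.B s.ps

structure WF (O : Subring ℂ) (P : Sy r) : Prop where
  sh : ∀ s ∈ P, s.wf O
  nd : (own P).Nodup
  oc : OcOk (oc P)

/-! ### Approximation by integral points -/

def co (A : Set ℕ) : Set (Pt r → ℂ) :=
  {f | ∃ i ∈ A, ∃ p q, f = (fun u => (u.1 i).a p q) ∨ f = fun u => (u.1 i).b p q}

def Itg (O : Subring ℂ) (A : Set ℕ) (u : Pt r) : Prop :=
  ∀ i ∈ A, ∀ p q, (u.1 i).a p q ∈ O ∧ (u.1 i).b p q ∈ O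

def App (O : Subring ℂ) (S : Set (Pt r)) (A : Set ℕ) (x : Pt r) : Prop :=
  ∀ f ∈ Algebra.adjoin ℂ (co A : Set (Pt r → ℂ)), (∀ u ∈ S, Itg O A u → f u = 0) → f x = 0

/-- polynomials with coefficients in `O` in the coordinates with labels in `A` -/
noncomputable def PO (O : Subring ℂ) (A : Set ℕ) : Subring (Pt r → ℂ) :=
  Subring.closure (co A ∪ {f | ∃ c ∈ O, f = fun _ => c})

def PM (O : Subring ℂ) (A : Set ℕ) (f : Pt r → Mat r) : Prop :=
  ∀ p q, (fun u => f u p q) ∈ PO O A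

def PW (O : Subring ℂ) (A : Set ℕ) (f : Pt r → W r) : Prop :=
  PM O A (fun u => (f u).a) ∧ PM O A fun u => (f u).b

def AP (O : Subring ℂ) (P : Sy r) (x : Pt r) : Prop := App O (Sol P) {i | i ∈ own P} x

/-- the point `x` of `P` is approximable if the point `x'` of `P'` is -/
structure Step (O : Subring ℂ) (P : Sy r) (x : Pt r) (P' : Sy r) (x' : Pt r) : Prop where
  wf : WF O P'
  sol : x' ∈ Sol P'
  ap : AP O P' x' → AP O P x

/-! ### Measure -/

def Lt.wt (x : Lt r) : ℕ := if x.p.S = ∅ ∨ x.q.S = ∅ then 2 else 1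

def It.wt : It r → ℕ
  | .c _ => 0
  | .l x => x.wt

def wwt (w : List (It r)) : ℕ := (w.map It.wt).sum

def Pa.wt : Pa r → ℕ
  | .hd _ _ => 6
  | .cy _ _ w => 3 + wwt w
  | .pu _ _ l => 30 * (l.length + 1)

def pwt (ps : List (Pa r)) : ℕ := (ps.map Pa.wt).sum

def Sh.wt (s : Sh r) : ℕ := (1 + pwt s.ps) * 1000 ^ s.B.card

def ms (P : Sy r) : ℕ := (P.map Sh.wt).sum

def Red (O : Subring ℂ) (P : Sy r) (x : Pt r) : Prop :=
  ∃ P' x', Step O P x P' x' ∧ ms P' < ms P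

/-! ### Shapes -/

/-- both pieces are nonempty -/
def Lt.nt (x : Lt r) : Prop := x.p.S.Nonempty ∧ x.q.S.Nonempty

/-- the letter has the single piece `o` -/
def Full (x : Lt r) (o : Occ r) : Prop :=
  (x.p = o ∧ x.q.S = ∅ ∧ x.q.T = ∅) ∨ (x.q = o ∧ x.p.S = ∅ ∧ x.p.T = ∅)

def fl (i : ℕ) (o : Occ r) : Lt r := ⟨i, o, ⟨0, false, ∅, ∅⟩⟩

def disk (M : ℕ) (A : Finset (Fin r)) (z : ℂˣ) (w : List (It r)) : Sh r := ⟨A, z, [.cy M A w]⟩

def tri3 (M : ℕ) (o1 o2 o3 : Occ r) : Sh r :=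
  disk M o1.S 1 [.l (fl (M + 1) o1), .l (fl (M + 2) o2), .l (fl (M + 3) o3)]

def AllC (w : List (It r)) : Prop := ∀ it ∈ w, ∃ D, it = .c D

/-- all letters are nontrivial -/
def AllN (w : List (It r)) : Prop := ∀ x, .l x ∈ w → x.nt

def Tight (w : List (It r)) : Prop := (∃ a X, w = .l a :: X) ∧ ∃ X b, w = X ++ [.l b]

/-- first and second half of a split letter -/
def sp1 (N : ℕ) (x : Lt r) (K : Fl r) : Lt r :=
  ⟨N, ⟨N, true, x.p.S, K.1⟩, ⟨N + 1, true, x.q.S, K.2⟩⟩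

def sp2 (N : ℕ) (x : Lt r) (K : Fl r) : Lt r :=
  ⟨x.i, ⟨N + 2, true, K.1, x.p.T⟩, ⟨N + 3, true, K.2, x.q.T⟩⟩

end Vale.Agent.P002S
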