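import Vale.Agent.P002S.Stm

/-! Removing a cycle without letters. -/

namespace Vale.Agent.P002S

open Matrix Vale.Agent.P002 Function

namespace Del

variable {r : ℕ} {A B : Finset (Fin r)} {x : W r} {D : Fin r → ℂˣ} {κ : ℂˣ}

theorem conj (hx : IsIso B A x) (hD : ∀ i ∈ A, D i = κ) : x * dg D * x.sw = e B * sc κ := by
  rw [← hx.rc, e_dg_const hD, hx.rc, ← sc_comm, mul_assoc, hx.m, sc_comm]

theorem rel (hx : IsIso B A x) (hD : ∀ i ∈ A, D i = κ) (y : W r) (z : ℂˣ) :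
    e B * (x * dg D * x.sw * y) = e B * sc z ↔ e B * y = e B * sc (z * κ⁻¹) := by
  rw [conj hx hD, ← mul_assoc, ← mul_assoc, e_idem, mul_assoc, sc_comm, ← mul_assoc]
  constructor <;> intro h
  · rw [← sc_mul, ← mul_assoc, ← h, mul_assoc _ (sc κ), sc_mul, mul_inv_cancel, sc_one, mul_one]
  · rw [h, mul_assoc, sc_mul, inv_mul_cancel_right]

end Del

theorem s_del (h : S_iso) : S_del := by
  intro r O B z Q k A w R u hb hw hf hu
  obtain ⟨D, h1, h2, h3, -, h4, h5⟩ := hw.wv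
  have s0 := hf.sh _ List.mem_cons_self
  simp only [Sh.wf, pwf_cons, Pa.wf] at s0
  obtain ⟨hz, ⟨-, -, hc⟩, hQ⟩ := s0
  rw [hw.ls, hw.fs] at hc
  have hc' := (h5 O _ _ hc).1
  obtain ⟨κ, hκ, hD⟩ : ∃ κ, Un O κ ∧ ∀ i ∈ A, D i = κ := by
    rcases A.eq_empty_or_nonempty with rfl | ⟨j, hj⟩
    · exact ⟨1, Un.one, by simp⟩
    · exact ⟨D j, hc'.1 j, fun i hi =>
        hc'.2 i (by simpa using hi) j (by simpa using hj) (by simp [hi, hj]) (by simp [hi, hj])⟩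
  have key : ∀ v : Pt r, v ∈ Sol (⟨B, z, .cy k A w :: Q⟩ :: R) ↔
      v ∈ Sol (⟨B, z * κ⁻¹, Q⟩ :: R) ∧ IsIso B A (v.1 k) := fun v => by
    simp only [sol_cons, Sh.ok, pok_cons, Pa.ok, pv_cons, Pa.v, h1, h4, and_true]
    constructor
    · rintro ⟨⟨⟨a, b⟩, c⟩, d⟩
      exact ⟨⟨⟨b, (Del.rel a hD _ z).1 c⟩, d⟩, a⟩
    · rintro ⟨⟨⟨b, c⟩, d⟩, a⟩
      exact ⟨⟨⟨a, b⟩, (Del.rel a hD _ z).2 c⟩, d⟩
  have ow : own (⟨B, z, .cy k A w :: Q⟩ :: R) = k ::ₘ own (⟨B, z * κ⁻¹, Q⟩ :: R) := by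
    simp [Pa.own, h2]
  have nd := hf.nd
  rw [ow, Multiset.nodup_cons] at nd
  refine ⟨z * κ⁻¹, ⟨fun s hs => ?_, nd.2, ?_⟩, ((key u).1 hu).1, fun a => ?_⟩
  · rcases List.mem_cons.1 hs with rfl | hs
    · exact ⟨hz.mul hκ.inv, hQ⟩
    · exact hf.sh s (List.mem_cons_of_mem _ hs)
  · simpa [Pa.oc, h3] using hf.oc
  · refine (App.prod a (h r O B A k u hb ((key u).1 hu).2)
      (indep_sol fun i hi e => nd.1 (by rwa [← Set.mem_singleton_iff.1 e]))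
      (fun v hv v' e => by rw [Set.mem_ofPred_eq, e k rfl]; exact hv)
      (Set.disjoint_singleton_right.2 nd.1)).congr (fun v hv => (key v).2 hv) fun i hi => ?_
    rw [Set.mem_ofPred_eq, ow, Multiset.mem_cons] at hi
    exact hi.symm

end Vale.Agent.P002S
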