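import Vale.Agent.P002S.Stm

/-! Elimination of a pair of full letters on two different sheets. -/

namespace Vale.Agent.P002S

open Matrix Vale.Agent.P002 Function

variable {r : ℕ} {O : Subring ℂ}

namespace E1

variable {B B' S T : Finset (Fin r)} {a a' l M P g p q m n : W r} {z z' : ℂˣ} {x : Lt r}
  {o : Occ r}

theorem scl (x y : W r) : x * (sc z * y) = sc z * (x * y) := by
  rw [← mul_assoc, ← sc_comm, mul_assoc]

theorem sci (z : ℂˣ) (y : W r) : sc z⁻¹ * (sc z * y) = y := by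
  rw [← mul_assoc, sc_mul, inv_mul_cancel, sc_one, one_mul]

theorem sci' (z : ℂˣ) (y : W r) : sc z * (sc z⁻¹ * y) = y := by simpa using sci z⁻¹ y

theorem alg1 (ha : IsIso B' T a') (hl : IsIso S T l) (hm : IsIso S T (e S * m))
    (hp : IsIso B' B' (e B' * p)) : e B' * (a' * (l.sw * m) * a'.sw * p) = e B' * sc z' ↔
      l = sc z'⁻¹ * (e S * m) * a'.sw * (e B' * p) * a' := by
  have e1 : e B' * (a' * (l.sw * m) * a'.sw * p) = a' * (l.sw * (e S * m)) * a'.sw * (e B' * p) := by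
    simp only [mul_assoc, ha.lc, hl.sw.rc, ha.sw.rc]
  rw [e1]
  generalize e S * m = M at hm
  generalize e B' * p = P at hp
  constructor
  · intro h
    have : l * a'.sw * (a' * (l.sw * M) * a'.sw * P) * a' = M * a'.sw * P * a' := by
      simp only [mul_assoc, ha.mc', hl.rc, hl.mc, hm.lc]
    rw [h] at this
    simp only [mul_assoc, scl (e B'), scl a'.sw, scl l, ha.l, ha.m', hl.r'] at this
    simp only [mul_assoc, ← this, sci]
  · rintro rfl
    simp only [mul_assoc, W.sw_mul, W.sw_sw, sc_sw, inv_inv, scl M.sw, scl a', scl P.sw, scl a'.sw,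
      hm.mc', ha.rc, ha.mc, hp.l, hp.m', ha.m, e_idem, sc_comm z' (e B')]

theorem alg2 (ha : IsIso B S a) (ha' : IsIso B' T a') (hm : IsIso S T M) :
    a * M * a'.sw * P * (a * M * a'.sw).sw * (a * M) =
      sc z' * (a * (sc z'⁻¹ * M * a'.sw * P * a')) := by
  simp only [mul_assoc, W.sw_mul, W.sw_sw, scl a, sci', ha.mc', hm.l, hm.m', ha'.r']

theorem rel (ha : IsIso B S a) (k : e B * p * (a * (e S * m)) = sc z' * (a * l)) :
    e B * (p * (a * (m * n) * a.sw * q)) = e B * sc (z * z') ↔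
      e B * (a * (l * n) * a.sw * q) = e B * sc z := by
  have e1 : e B * (p * (a * (m * n) * a.sw * q)) = sc z' * (e B * (a * (l * n) * a.sw * q)) := by
    have := congrArg (· * (n * a.sw * q)) k
    simpa only [mul_assoc, ha.rc, ha.lc] using this
  have e2 : (e B * sc (z * z') : W r) = sc z' * (e B * sc z) := by
    rw [mul_comm z, ← sc_mul, scl]
  rw [e1, e2]
  exact ⟨fun h => by simpa only [sci] using congrArg (sc z'⁻¹ * ·) h, fun h => by rw [h]⟩

theorem triv (h : Full x o) : (x.src.1 = ∅ ∨ x.src.2 = ∅) ∧ (x.tgt.1 = ∅ ∨ x.tgt.2 = ∅) := by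
  rcases h with ⟨-, h1, h2⟩ | ⟨-, h1, h2⟩
  exacts [⟨Or.inr h1, Or.inr h2⟩, ⟨Or.inl h1, Or.inl h2⟩]

theorem occ (h : Full x o) : ∃ o0 : Occ r, o0.S = ∅ ∧
    ({x.p} + {x.q} : Multiset (Occ r)) = {o} + {o0} := by
  rcases h with ⟨rfl, h1, -⟩ | ⟨rfl, h1, -⟩
  exacts [⟨_, h1, rfl⟩, ⟨_, h1, add_comm _ _⟩]

theorem pwf_card {ps : List (Pa r)} (h : pwf O B' ps) (hc : B.card = B'.card) : pwf O B ps :=
  fun p hp => by
    have := h p hp
    cases p <;> simpa only [Pa.wf, hc] using this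

theorem cj_congr (ps : List (Pa r)) (g : W r) {y y' : ℕ → W r} {i : ℕ} (h : y i = y' i) :
    cj ps g y i = cj ps g y' i := by simp only [cj, h]

theorem ev_upd (t : ℕ → W r) (hl : IsIso o.S o.T l) :
    ev (update t o.e (if o.σ then l else l.sw)) o = l := by
  unfold ev
  rw [update_self]
  cases o.σ <;> exact hl.gr

end E1

open E1 in
theorem s_e1 (hc : S_cj) (hi : S_iso) : S_e1 := by
  intro r O B z B' z' Q Q' h A h' A' x x' o X Y R u hB fx fx' hS hW hu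
  have s1 := hW.sh _ List.mem_cons_self
  have s2 := hW.sh _ (List.mem_cons_of_mem _ List.mem_cons_self)
  simp only [Sh.wf, pwf_cons, Pa.wf, Cyc, ls_l, fs_l, path_l] at s1 s2
  obtain ⟨hz, ⟨cA, t1, t2, -, pX⟩, wQ⟩ := s1
  obtain ⟨hz', ⟨-, t3, t4, -, pY⟩, wQ'⟩ := s2
  have ⟨xs, xt⟩ := fx.sets
  have ⟨ys, yt⟩ : x'.src.s = o.T ∧ x'.tgt.s = o.S := fx'.sets
  obtain rfl : A = o.S := t1.symm.trans (t2.trans xs)
  obtain rfl : A' = o.T := t3.symm.trans (t4.trans ys)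
  have iY : ∀ v : Pt r, wok v Y → IsIso o.S o.T (e o.S * wv v.1 Y) := fun v hv => by
    have := pY.iso hv
    rwa [ys, yt] at this
  simp only [sol_cons, Sh.ok, pok_cons, Pa.ok, wok_l, pv_cons, Pa.v, wv_l, fx.ok, fx'.ok,
    ev_flip] at hu
  obtain ⟨⟨⟨⟨ih, ⟨il, el⟩, oX⟩, oQ⟩, r1⟩, ⟨⟨⟨ih', ⟨-, el'⟩, oY⟩, oQ'⟩, r2⟩, uR⟩ := hu
  rw [← el] at el'
  rw [el', alg1 ih' il (iY u oY) (oQ'.iso wQ')] at r2
  obtain ⟨K, hK⟩ : ∃ K, K = {h} + wown X + wown Y + pown Q + own R := ⟨_, rfl⟩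
  have k1 : own (⟨B, z * z', Q' ++ .cy h o.S (Y ++ X) :: Q⟩ :: R) = pown Q' + K := by
    simp only [hK, own_cons, pown_append, pown_cons, Pa.own, wown_append]; abel
  have k2 : own (⟨B, z, .cy h o.S (.l x :: X) :: Q⟩ :: ⟨B', z', .cy h' o.T (.l x' :: Y) :: Q'⟩ :: R) =
      {x'.i} + ({x.i} + ({h'} + (pown Q' + K))) := by
    simp only [hK, own_cons, pown_cons, Pa.own, wown_l]; abel
  have nd := hW.nd
  simp only [k2, Multiset.singleton_add, Multiset.nodup_cons, Multiset.mem_cons, not_or] at nd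
  obtain ⟨⟨n1, n2, n3⟩, ⟨n4, n5⟩, n6, nd⟩ := nd
  have ⟨ndQ, _, dj⟩ := Multiset.nodup_add.1 nd
  have kq : ∀ i ∈ K, i ∉ pown Q' := fun i hi hq => Multiset.disjoint_left.1 dj hq hi
  have kh : h ∈ K := by simp [hK]
  have kX : ∀ i ∈ wown X, i ∈ K := fun i hi => by simp [hK, hi]
  have kY : ∀ i ∈ wown Y, i ∈ K := fun i hi => by simp [hK, hi]
  have kQ : ∀ i ∈ pown Q, i ∈ K := fun i hi => by simp [hK, hi]
  have kR : ∀ i ∈ own R, i ∈ K := fun i hi => by simp [hK, hi]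
  have mk : ∀ i ∈ K, i ∈ pown Q' + K := fun i hi => Multiset.mem_add.2 (Or.inr hi)
  have mq : ∀ i ∈ pown Q', i ∈ pown Q' + K := fun i hi => Multiset.mem_add.2 (Or.inl hi)
  have m3 : ∀ i ∈ pown Q' + K, i ≠ x'.i := fun i hi e => n3 (e ▸ hi)
  have m5 : ∀ i ∈ pown Q' + K, i ≠ x.i := fun i hi e => n5 (e ▸ hi)
  have m6 : ∀ i ∈ pown Q' + K, i ≠ h' := fun i hi e => n6 (e ▸ hi)
  obtain ⟨o1, e1, f1⟩ := occ fx
  obtain ⟨o2, e2, f2⟩ := occ fx'
  have oc1 := hW.oc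
  rw [show oc (⟨B, z, .cy h o.S (.l x :: X) :: Q⟩ :: ⟨B', z', .cy h' o.T (.l x' :: Y) :: Q'⟩ :: R) =
      {o1} + ({o2} + ({o} + {o.flip} + oc (⟨B, z * z', Q' ++ .cy h o.S (Y ++ X) :: Q⟩ :: R))) by
    simp only [oc_cons, poc_append, poc_cons, Pa.oc, woc_append, woc_l, f1, f2]; abel,
    ocOk_empty e1, ocOk_empty e2] at oc1
  obtain ⟨oc2, ne⟩ := oc1.del_pair hS
  set g := u.1 h * (e o.S * wv u.1 Y) * (u.1 h').sw with hg
  have ig : IsIso B B' g := (ih.mul (iY u oY)).mul ih'.sw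
  have wB := pwf_card wQ' ig.card
  obtain ⟨c1, c2, c3, c4, c5⟩ := hc r O Q' B B' g u ndQ wQ' oQ' ig
  set u' : Pt r := (update (cj Q' g u.1) x'.i g, u.2) with hu'
  have uq : ∀ i ∈ pown Q', cj Q' g u.1 i = u'.1 i := fun i hi =>
    (update_of_ne (m3 i (mq i hi)) _ _).symm
  have uk : ∀ i ∈ K, u.1 i = u'.1 i := fun i hi =>
    ((update_of_ne (m3 i (mk i hi)) _ _).trans (c3 i (kq i hi))).symm
  have ux : u'.1 x'.i = g := update_self ..
  have vY : wv u'.1 Y = wv u.1 Y := (wv_congr fun i hi => uk i (kY i hi)).symm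
  have vQ' : e B * pv u'.1 Q' = g * (e B' * pv u.1 Q') * g.sw := by
    rw [← pv_congr uq, c2, ig.rc]
  refine ⟨u', ⟨fun s hs => ?_, k1 ▸ nd, oc2⟩, ?_, fun a => ?_⟩
  · rcases List.mem_cons.1 hs with rfl | hs
    · refine ⟨hz.mul hz', (pwf_append ..).2 ⟨wB, (pwf_cons ..).2 ⟨⟨cA, ?_⟩, wQ⟩⟩⟩
      exact Path.cyc (path_append.2 ⟨pY.mono (.refl _) (.of_triv (triv fx').1
        (pX.fst.symm.trans (xt.trans ys.symm))), pX.mono (.of_triv (triv fx).2
        (pY.lst.trans (ys.trans xt.symm))) (.refl _)⟩) (triv fx').2 (triv fx).1 yt xs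
    · exact hW.sh s (by simp [hs])
  · simp only [sol_cons, Sh.ok, pok_cons, pok_append, Pa.ok, wok_append, pv_cons, pv_append, Pa.v,
      wv_append, ← uk h kh, vY, ← wv_congr fun i hi => uk i (kX i hi),
      ← pv_congr fun i hi => uk i (kQ i hi)]
    refine ⟨⟨⟨c1.congr uq fun _ _ _ => rfl, ⟨ih, oY.congr (fun i hi => uk i (kY i hi))
      fun _ _ _ => rfl, oX.congr (fun i hi => uk i (kX i hi)) fun _ _ _ => rfl⟩,
      oQ.congr (fun i hi => uk i (kQ i hi)) fun _ _ _ => rfl⟩, (rel ih ?_).2 r1⟩,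
      sol_congr uR (fun i hi => uk i (kR i hi)) fun _ _ _ => rfl⟩
    rw [vQ', hg, alg2 (z' := z') ih ih' (iY u oY), ← r2]
  have a1 := App.prod a (hi r O B B' x'.i u' hB (ux ▸ ig))
    (indep_sol fun j hj (e : j = x'.i) => n3 (k1 ▸ e ▸ hj))
    (fun w hw w' e => by rw [Set.mem_ofPred_eq, e _ rfl]; exact hw)
    (Set.disjoint_singleton_right.2 fun t => n3 (k1 ▸ t))
  let H : Pt r → W r := fun v => (v.1 x'.i).sw * v.1 h * (e o.S * wv v.1 Y)
  let L : Pt r → W r := fun v => sc z'⁻¹ * (e o.S * wv v.1 Y) * (H v).sw *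
    ((v.1 x'.i).sw * pv v.1 Q' * v.1 x'.i) * H v
  let F : Pt r → Pt r := fun v =>
    (update (update (update (cj Q' (v.1 x'.i).sw v.1) h' (H v)) x.i (L v)) x'.i (L v).sw,
      update v.2 o.e (if o.σ then L v else (L v).sw))
  have F1 : ∀ v, (F v).1 x'.i = (L v).sw := fun v => update_self ..
  have F2 : ∀ v, (F v).1 x.i = L v := fun v => (update_of_ne (Ne.symm n1) _ _).trans (update_self ..)
  have F3 : ∀ v, (F v).1 h' = H v := fun v => (update_of_ne (Ne.symm n2) _ _).trans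
    ((update_of_ne (Ne.symm n4) _ _).trans (update_self ..))
  have F4 : ∀ v, ∀ i ∈ pown Q' + K, (F v).1 i = cj Q' (v.1 x'.i).sw v.1 i := fun v i hi =>
    (update_of_ne (m3 i hi) _ _).trans
      ((update_of_ne (m5 i hi) _ _).trans (update_of_ne (m6 i hi) _ _))
  refine App.map F (fun j hj => ?_) (fun v hv => ?_) (fun j hj => ?_) a1
  · have va : ∀ i ∈ pown Q' + K,
        i ∈ {i | i ∈ own (⟨B, z * z', Q' ++ .cy h o.S (Y ++ X) :: Q⟩ :: R)} ∪ {x'.i} :=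
      fun i hi => Or.inl (k1 ▸ hi)
    have pγ := PW.var (O := O) (r := r) (Set.mem_union_right
      {i | i ∈ own (⟨B, z * z', Q' ++ .cy h o.S (Y ++ X) :: Q⟩ :: R)} (Set.mem_singleton x'.i))
    have pM := (PW.e o.S).mul (PW.wv (fun i hi => va i (mk i (kY i hi))) fun D hD => pY.un hD)
    have pH : PW O _ H := (pγ.sw.mul (PW.var (va h (mk h kh)))).mul pM
    have pL : PW O _ L := ((((PW.sc hz'.inv).mul pM).mul pH.sw).mul
      ((pγ.sw.mul (PW.pv (fun i hi => va i (mq i hi)) wQ')).mul pγ)).mul pH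
    refine PW.update pL.sw fun j1 => PW.update pL fun j2 => PW.update pH fun j3 => ?_
    simp only [Set.mem_ofPred_eq, k2, Multiset.singleton_add, Multiset.mem_cons, j1, j2, j3,
      false_or] at hj
    exact c5 _ _ _ j pγ.sw (PW.var (va j hj))
  · obtain ⟨v1, iγ⟩ := hv
    rw [Set.mem_ofPred_eq] at iγ
    simp only [sol_cons, Sh.ok, pok_cons, pok_append, Pa.ok, wok_append, pv_cons, pv_append, Pa.v,
      wv_append] at v1
    obtain ⟨⟨⟨pQ', ⟨jh, jY, jX⟩, jQ⟩, r3⟩, vR⟩ := v1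
    obtain ⟨d1, d2, d3, -, -⟩ := hc r O Q' B' B _ v ndQ wB pQ' iγ.sw
    rw [W.sw_sw] at d2
    have fk : ∀ i ∈ K, v.1 i = (F v).1 i := fun i hi =>
      ((F4 v i (mk i hi)).trans (d3 i (kq i hi))).symm
    have fq : ∀ i ∈ pown Q', cj Q' (v.1 x'.i).sw v.1 i = (F v).1 i := fun i hi =>
      (F4 v i (mq i hi)).symm
    have fe : ∀ o' ∈ oc (⟨B, z * z', Q' ++ .cy h o.S (Y ++ X) :: Q⟩ :: R), o'.S.Nonempty →
        v.2 o'.e = (F v).2 o'.e := fun o' h1 h2 => (update_of_ne (ne o' h1 h2) _ _).symm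
    have iH : IsIso B' o.T (H v) := (iγ.sw.mul jh).mul (iY v jY)
    have iP := d1.iso wQ'
    have eL : L v = sc z'⁻¹ * (e o.S * wv v.1 Y) * (H v).sw *
        (e B' * pv (cj Q' (v.1 x'.i).sw v.1) Q') * H v := by rw [d2]
    have iL : IsIso o.S o.T (L v) := by
      rw [eL]
      exact ((((iY v jY).dgl _).mul iH.sw).mul iP).mul iH
    have ev1 : ev (F v).2 o = L v := ev_upd _ iL
    have gγ : v.1 h * (e o.S * wv v.1 Y) * (H v).sw = v.1 x'.i := by
      have := iY v jY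
      simp only [H]
      generalize e o.S * wv v.1 Y = M at this
      simp only [mul_assoc, W.sw_mul, W.sw_sw, this.mc, jh.rc, jh.mc, iγ.l]
    simp only [sol_cons, Sh.ok, pok_cons, Pa.ok, wok_l, pv_cons, Pa.v, wv_l, fx.ok, fx'.ok,
      ev_flip, F1, F2, F3, ev1, ← fk h kh, ← wv_congr fun i hi => fk i (kX i hi),
      ← wv_congr fun i hi => fk i (kY i hi), ← pv_congr fun i hi => fk i (kQ i hi), ← pv_congr fq]
    refine ⟨⟨⟨⟨jh, ⟨iL, trivial⟩, jX.congr (fun i hi => fk i (kX i hi)) fun o' h1 => fe o' ?_⟩,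
      jQ.congr (fun i hi => fk i (kQ i hi)) fun o' h1 => fe o' ?_⟩, (rel jh ?_).1 r3⟩,
      ⟨⟨⟨iH, ⟨iL.sw, trivial⟩, jY.congr (fun i hi => fk i (kY i hi)) fun o' h1 => fe o' ?_⟩,
      d1.congr fq fun o' h1 => fe o' ?_⟩, (alg1 iH iL (iY v jY) iP).2 eL⟩,
      sol_congr vR (fun i hi => fk i (kR i hi)) fun o' h1 => fe o' ?_⟩
    rotate_left 2
    · rw [eL, ← alg2 jh iH (iY v jY), gγ, d2]
      simp only [mul_assoc, iγ.mc]
      rw [← mul_assoc (pv v.1 Q') (e B), ← pQ'.comm wB, mul_assoc, ← mul_assoc (e B) (e B), e_idem]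
    all_goals simp [Pa.oc, h1]
  · have eH : H u' = u.1 h' := by
      have := iY u oY
      simp only [H, ux, ← uk h kh, vY, hg]
      generalize e o.S * wv u.1 Y = M at this
      simp only [mul_assoc, W.sw_mul, W.sw_sw, ih.mc', this.l, this.m', ih'.r']
    have eL : L u' = u.1 x.i := by
      simp only [L, eH, ux, vY]
      rw [← ig.sw.r', mul_assoc g.sw, vQ', r2]
      simp only [mul_assoc, ig.mc', ih'.sw.rc, ih'.l]
    simp only [Set.mem_ofPred_eq, k2, Multiset.singleton_add, Multiset.mem_cons] at hj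
    rcases hj with rfl | rfl | rfl | hj
    · rw [F1, eL, el']
    · rw [F2, eL]
    · rw [F3, eH]
    · rw [F4 u' j hj, ux, cj_congr Q' g.sw (update_of_ne (m3 j hj) _ _)]
      by_cases hq : j ∈ pown Q'
      · exact c4 j hq
      · exact ((hc r O Q' B' B g.sw (cj Q' g u.1, u.2) ndQ wB c1 ig.sw).2.2.1 j hq).trans (c3 j hq)

end Vale.Agent.P002S
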