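import Vale.Agent.P002S.Stm

/-! Elimination of a full letter whose partner lies in another cycle of the same sheet. -/

namespace Vale.Agent.P002S

open Matrix Vale.Agent.P002 Function

namespace E2

variable {r : ℕ} {B S T : Finset (Fin r)} {h h' l m a c : W r}

theorem key {M : W r} (hh : IsIso B S h) (hh' : IsIso B T h') (hl : IsIso S T l)
    (hm : IsIso T S (e T * M)) (ha : a = h * l * (e T * M) * h.sw)
    (hc : c = h' * (e T * M) * h.sw) (N q : W r) :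
    a * c * a.sw * c.sw * (h' * (M * N) * h'.sw * q) =
      h * (l * M) * h.sw * (h' * (l.sw * N) * h'.sw * q) := by
  rw [← hh'.rc (M * N), ← mul_assoc (e T), ← hl.rc M, ha, hc]
  generalize e T * M = m at hm
  simp only [mul_assoc, W.sw_mul, W.sw_sw, hh.mc', hh'.mc', hm.rc, hm.mc, hh'.rc, hl.sw.rc,
    hm.sw.rc, hm.mc']

theorem forth (hh : IsIso B S h) (hh' : IsIso B T h') (hl : IsIso S T l) (hm : IsIso T S m) :
    (h' * m * h.sw).sw * h' * m = h ∧ h.sw * (h * l * m * h.sw) * h * m.sw = l := by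
  constructor
  · simp only [mul_assoc, W.sw_mul, W.sw_sw, hh'.mc', hm.sw.rc, hm.m', hh.r']
  · simp only [mul_assoc, hh.mc', hl.lc, hm.rc, hm.m, hl.r']

theorem back (ha : IsIso B B a) (hc : IsIso B B c) (hh' : IsIso B T h') (hm : IsIso T S m)
    (e1 : h = c.sw * h' * m) (e2 : l = h.sw * a * h * m.sw) : IsIso B S h ∧ IsIso S T l ∧
      a = h * l * m * h.sw ∧ c = h' * m * h.sw := by
  have hh : IsIso B S h := e1 ▸ (hc.sw.mul hh').mul hm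
  refine ⟨hh, e2 ▸ ((hh.sw.mul ha).mul hh).mul hm.sw, ?_, ?_⟩
  · simp only [e2, mul_assoc, hh.mc, ha.lc, hm.mc', hh.rc, hh.m, ha.r']
  · simp only [e1, mul_assoc, W.sw_mul, W.sw_sw, hm.mc, hh'.rc, hh'.mc, hc.l]

theorem foc {x : Lt r} {o : Occ r} (f : Full x o) :
    (∃ o1 : Occ r, o1.S = ∅ ∧ ({x.p} + {x.q} : Multiset (Occ r)) = {o1} + {o}) ∧
      (x.src.1 = ∅ ∨ x.src.2 = ∅) ∧ (x.tgt.1 = ∅ ∨ x.tgt.2 = ∅) := by
  rcases f with ⟨rfl, h1, h2⟩ | ⟨rfl, h1, h2⟩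
  · exact ⟨⟨_, h1, add_comm _ _⟩, Or.inr h1, Or.inr h2⟩
  · exact ⟨⟨_, h1, rfl⟩, Or.inl h1, Or.inl h2⟩

/-- the common part of the two systems -/
def Cm (B T : Finset (Fin r)) (h' : ℕ) (X Y : List (It r)) (Q : List (Pa r)) (R : Sy r)
    (u : Pt r) : Prop :=
  IsIso B T (u.1 h') ∧ wok u X ∧ wok u Y ∧ pok u B Q ∧ u ∈ Sol R

theorem tr {h' : ℕ} {X Y : List (It r)} {Q : List (Pa r)} {R : Sy r} {u v : Pt r}
    (h1 : ∀ i ∈ {h'} + wown X + wown Y + pown Q + own R, u.1 i = v.1 i)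
    (h2 : ∀ o ∈ woc X + woc Y + poc Q + oc R, o.S.Nonempty → u.2 o.e = v.2 o.e)
    (k : Cm B T h' X Y Q R u) : Cm B T h' X Y Q R v ∧ v.1 h' = u.1 h' ∧ wv v.1 X = wv u.1 X ∧
      wv v.1 Y = wv u.1 Y ∧ pv v.1 Q = pv u.1 Q := by
  simp only [Multiset.mem_add, Multiset.mem_singleton, or_imp, forall_and, forall_eq] at h1 h2
  obtain ⟨⟨⟨⟨a1, a2⟩, a3⟩, a4⟩, a5⟩ := h1
  obtain ⟨⟨⟨b2, b3⟩, b4⟩, b5⟩ := h2
  exact ⟨⟨a1 ▸ k.1, k.2.1.congr a2 b2, k.2.2.1.congr a3 b3, k.2.2.2.1.congr a4 b4,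
    sol_congr k.2.2.2.2 a5 b5⟩, a1.symm, (wv_congr a2).symm, (wv_congr a3).symm,
    (pv_congr a4).symm⟩

theorem sol1 {z : ℂˣ} {Q : List (Pa r)} {h h' : ℕ} {x x' : Lt r} {o : Occ r} {X Y : List (It r)}
    {R : Sy r} (f : Full x o) (f' : Full x' o.flip) (u : Pt r) :
    u ∈ Sol (⟨B, z, .cy h o.S (.l x :: X) :: .cy h' o.T (.l x' :: Y) :: Q⟩ :: R) ↔
      Cm B o.T h' X Y Q R u ∧ IsIso B o.S (u.1 h) ∧ IsIso o.S o.T (u.1 x.i) ∧
        u.1 x.i = ev u.2 o ∧ u.1 x'.i = (u.1 x.i).sw ∧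
        e B * (u.1 h * (u.1 x.i * wv u.1 X) * (u.1 h).sw *
          (u.1 h' * (u.1 x'.i * wv u.1 Y) * (u.1 h').sw * pv u.1 Q)) = e B * sc z := by
  simp only [sol_cons, Sh.ok, pok_cons, Pa.ok, wok_l, f.ok, f'.ok, ev_flip, pv_cons, Pa.v, wv_l, Cm]
  constructor
  · rintro ⟨⟨⟨⟨a1, ⟨a2, a3⟩, a4⟩, ⟨a5, ⟨-, a6⟩, a7⟩, a8⟩, a9⟩, a10⟩
    exact ⟨⟨a5, a4, a7, a8, a10⟩, a1, a2, a3, by rw [a6, a3], a9⟩
  · rintro ⟨⟨a5, a4, a7, a8, a10⟩, a1, a2, a3, a6, a9⟩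
    exact ⟨⟨⟨⟨a1, ⟨a2, a3⟩, a4⟩, ⟨a5, ⟨a6 ▸ a2.sw, by rw [a6, a3]⟩, a7⟩, a8⟩, a9⟩, a10⟩

theorem sol2 {z : ℂˣ} {Q : List (Pa r)} {i h h' : ℕ} {X Y : List (It r)} {R : Sy r} (u : Pt r) :
    u ∈ Sol (⟨B, z, .hd i h :: .cy h' T (X ++ Y) :: Q⟩ :: R) ↔
      Cm B T h' X Y Q R u ∧ IsIso B B (u.1 i) ∧ IsIso B B (u.1 h) ∧
        e B * (u.1 i * u.1 h * (u.1 i).sw * (u.1 h).sw *
          (u.1 h' * (wv u.1 X * wv u.1 Y) * (u.1 h').sw * pv u.1 Q)) = e B * sc z := by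
  simp only [sol_cons, Sh.ok, pok_cons, Pa.ok, wok_append, pv_cons, Pa.v, wv_append, Cm]
  tauto

end E2

open E2

theorem s_e2 : S_e2 := by
  intro r O B z Q h A h' A' x x' o X Y R u f f' ho hw hu
  obtain ⟨w1, w2, w3⟩ := hw
  simp only [List.forall_mem_cons, Sh.wf, pwf_cons, Pa.wf, Cyc, ls_l, fs_l, path_l] at w1
  obtain ⟨⟨wz, ⟨-, a1, a2, -, pX⟩, ⟨c', a3, a4, -, pY⟩, wQ⟩, wR⟩ := w1
  obtain ⟨s1, s2⟩ := f.sets
  obtain ⟨s3, s4⟩ : x'.src.s = o.T ∧ x'.tgt.s = o.S := f'.sets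
  obtain rfl : A = o.S := a1.symm.trans (a2.trans s1)
  obtain rfl : A' = o.T := a3.symm.trans (a4.trans s3)
  obtain ⟨⟨o1, e1, g1⟩, t1, t2⟩ := foc f
  obtain ⟨⟨o2, e2, g2⟩, t3, t4⟩ := foc f'
  have iso : ∀ v, wok v X → IsIso o.T o.S (e o.T * wv v.1 X) := fun v hv => by
    simpa only [s1, s2] using pX.iso hv
  obtain ⟨K, hK⟩ : ∃ K, K = {h'} + wown X + wown Y + pown Q + own R := ⟨_, rfl⟩
  have n1 : own (⟨B, z, .cy h o.S (.l x :: X) :: .cy h' o.T (.l x' :: Y) :: Q⟩ :: R) =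
      x'.i ::ₘ x.i ::ₘ h ::ₘ K := by
    simp only [own_cons, pown_cons, Pa.own, wown_l, ← Multiset.singleton_add, hK]
    abel
  have n2 : own (⟨B, z, .hd x.i h :: .cy h' o.T (X ++ Y) :: Q⟩ :: R) = x.i ::ₘ h ::ₘ K := by
    simp only [own_cons, pown_cons, Pa.own, wown_append, ← Multiset.singleton_add, hK]
    abel
  rw [n1, Multiset.nodup_cons] at w2
  obtain ⟨d1, d2⟩ := w2
  have d3 := Multiset.nodup_cons.1 d2
  have d4 := (Multiset.nodup_cons.1 d3.2).1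
  simp only [Multiset.mem_cons, not_or] at d1 d3
  have n3 : oc (⟨B, z, .cy h o.S (.l x :: X) :: .cy h' o.T (.l x' :: Y) :: Q⟩ :: R) =
      {o1} + ({o2} + ({o} + {o.flip} + (woc X + woc Y + poc Q + oc R))) := by
    simp only [oc_cons, poc_cons, Pa.oc, woc_l, g1, g2]
    abel
  rw [n3, ocOk_empty e1, ocOk_empty e2] at w3
  obtain ⟨w4, w5⟩ := w3.del_pair ho
  obtain ⟨k, i1, i2, -, i4, i5⟩ := (sol1 f f' u).1 hu
  have im := iso u k.2.1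
  obtain ⟨u', hu', ua, uc⟩ : ∃ u' : Pt r, ((∀ i ∈ K, u.1 i = u'.1 i) ∧ u'.2 = u.2) ∧
      u'.1 x.i = u.1 h * u.1 x.i * (e o.T * wv u.1 X) * (u.1 h).sw ∧
      u'.1 h = u.1 h' * (e o.T * wv u.1 X) * (u.1 h).sw :=
    ⟨(update (update u.1 h _) x.i _, u.2), ⟨fun i hi => by
      simp only [update_of_ne (ne_of_mem_of_not_mem hi d3.1.2),
        update_of_ne (ne_of_mem_of_not_mem hi d4)], rfl⟩, update_self ..,
      (update_of_ne (Ne.symm d3.1.1) _ _).trans (update_self ..)⟩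
  obtain ⟨k', j1, j2, j3, j4⟩ := tr (v := u') (hK ▸ hu'.1) (fun _ _ _ => by rw [hu'.2]) k
  refine ⟨u', ⟨?_, n2 ▸ d2, ?_⟩, (sol2 u').2 ⟨k', ua ▸ ((i1.mul i2).mul im).mul i1.sw,
    uc ▸ (k.1.mul im).mul i1.sw, ?_⟩, fun hap => ?_⟩
  · simp only [List.forall_mem_cons, Sh.wf, pwf_cons, Pa.wf]
    exact ⟨⟨wz, trivial, ⟨c', (path_append.2 ⟨pX.mono (Fine.refl _) (Fine.of_triv t1
      (pY.fst.symm.trans (s4.trans s1.symm))), pY.mono (Fine.of_triv t4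
      (a2.trans (s1.trans s4.symm))) (Fine.refl _)⟩).cyc t2 t3 s2 s3⟩, wQ⟩, wR⟩
  · simpa only [oc_cons, poc_cons, Pa.oc, woc_append, zero_add] using w4
  · rw [j1, j2, j3, j4, key i1 k.1 i2 im ua uc, ← i4, i5]
  obtain ⟨H, hH⟩ : ∃ H : Pt r → W r, H = fun v => (v.1 h).sw * v.1 h' * (e o.T * wv v.1 X) :=
    ⟨_, rfl⟩
  obtain ⟨L, hL⟩ : ∃ L : Pt r → W r,
      L = fun v => (H v).sw * v.1 x.i * H v * (e o.T * wv v.1 X).sw := ⟨_, rfl⟩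
  obtain ⟨F, F1, F2⟩ : ∃ F : Pt r → Pt r,
      (∀ v, (F v).1 = update (update (update v.1 h (H v)) x.i (L v)) x'.i (L v).sw) ∧
      ∀ v, (F v).2 = update v.2 o.e (if o.σ then L v else (L v).sw) :=
    ⟨fun v => (_, _), fun _ => rfl, fun _ => rfl⟩
  have Fk : ∀ v, ∀ i ∈ K, v.1 i = (F v).1 i := fun v i hi => by
    simp only [F1, update_of_ne (ne_of_mem_of_not_mem hi d3.1.2),
      update_of_ne (ne_of_mem_of_not_mem hi d4), update_of_ne (ne_of_mem_of_not_mem hi d1.2.2)]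
  have Fh : ∀ v, (F v).1 h = H v := fun v => by
    simp only [F1, update_of_ne (Ne.symm d3.1.1), update_of_ne (Ne.symm d1.2.1), update_self]
  have Fx : ∀ v, (F v).1 x.i = L v := fun v => by
    simp only [F1, update_of_ne (Ne.symm d1.1), update_self]
  have Fx' : ∀ v, (F v).1 x'.i = (L v).sw := fun v => by simp only [F1, update_self]
  unfold AP at hap ⊢
  rw [n2] at hap
  rw [n1]
  have pm : PW O {i | i ∈ x.i ::ₘ h ::ₘ K} fun v : Pt r => e o.T * wv v.1 X :=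
    (PW.e _).mul (PW.wv (fun i hi => by simp [hK, hi]) fun _ => pX.un)
  have pH : PW O {i | i ∈ x.i ::ₘ h ::ₘ K} H :=
    hH ▸ ((PW.var (by simp)).sw.mul (PW.var (by simp [hK]))).mul pm
  have pL : PW O {i | i ∈ x.i ::ₘ h ::ₘ K} L :=
    hL ▸ ((pH.sw.mul (PW.var (by simp))).mul pH).mul pm.sw
  refine App.map F (fun i hi => ?_) (fun v hv => ?_) (fun i hi => ?_) hap
  · simp only [F1]
    exact pL.sw.update fun b => pL.update fun _ => pH.update fun _ =>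
      PW.var ((Multiset.mem_cons.1 hi).resolve_left b)
  · obtain ⟨c1, c2, c3, c4⟩ := (sol2 v).1 hv
    obtain ⟨b1, b2, b3, b4⟩ := back c2 c3 c1.1 (iso v c1.2.1) (congrFun hH v) (congrFun hL v)
    obtain ⟨l0, l1, l2, l3, l4⟩ := tr (hK ▸ Fk v)
      (fun o' a b => by rw [F2, update_of_ne (w5 o' a b)]) c1
    refine (sol1 f f' _).2 ⟨l0, Fh v ▸ b1, Fx v ▸ b2, ?_, by rw [Fx', Fx], ?_⟩
    · rw [Fx, F2, ev, update_self]
      cases o.σ <;> exact b2.gr.symm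
    · rw [Fh, Fx, Fx', l1, l2, l3, l4, ← key b1 c1.1 b2 (iso v c1.2.1) b3 b4, c4]
  · obtain ⟨b1, b2⟩ := forth i1 k.1 i2 im
    have q1 : H u' = u.1 h := by rw [hH]; simp only [j1, j2, uc, b1]
    have q2 : L u' = u.1 x.i := by rw [hL]; simp only [q1, j2, ua, b2]
    simp only [Set.mem_ofPred_eq, Multiset.mem_cons] at hi
    rcases hi with rfl | rfl | rfl | hi
    · rw [Fx', q2, i4]
    · rw [Fx, q2]
    · rw [Fh, q1]
    · rw [← Fk u' i hi, hu'.1 i hi]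

end Vale.Agent.P002S
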