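import Vale.Agent.P002S.Stm

/-! Elimination of a full letter whose partner lies in the same cycle. -/

namespace Vale.Agent.P002S

open Matrix Vale.Agent.P002 Function

namespace E3

variable {r : ℕ} {x x' : Lt r} {o : Occ r}

theorem oc_full (h : Full x o) (K : Multiset (Occ r)) :
    OcOk ({x.p} + {x.q} + K) ↔ OcOk ({o} + K) := by
  rcases h with ⟨rfl, h1, -⟩ | ⟨rfl, h1, -⟩
  · rw [add_right_comm, add_comm, ocOk_empty h1]
  · rw [add_assoc, ocOk_empty h1]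

theorem triv (h : Full x o) : (x.src.1 = ∅ ∨ x.src.2 = ∅) ∧ (x.tgt.1 = ∅ ∨ x.tgt.2 = ∅) := by
  rcases h with ⟨-, h1, h2⟩ | ⟨-, h1, h2⟩
  exacts [⟨Or.inr h1, Or.inr h2⟩, ⟨Or.inl h1, Or.inl h2⟩]

theorem core {B : Finset (Fin r)} {z : ℂˣ} {Q : List (Pa r)} {h : ℕ} {X Y : List (It r)}
    {R : Sy r} {u v : Pt r} (hx : Full x o) (hx' : Full x' o.flip) (k : x.ok u) (k' : x'.ok u)
    (g : IsIso B o.S (u.1 h)) (e1 : v.1 x.i = u.1 h * u.1 x.i)
    (e2 : ∀ i ∈ wown X + ({h} + wown Y + pown Q) + own R, u.1 i = v.1 i)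
    (e3 : ∀ o' ∈ woc X + (woc Y + poc Q) + oc R, o'.S.Nonempty → u.2 o'.e = v.2 o'.e) :
    u ∈ Sol (⟨B, z, .cy h o.S (.l x :: X ++ .l x' :: Y) :: Q⟩ :: R) ↔
      v ∈ Sol (⟨B, z, .cy x.i o.T X :: .cy h o.S Y :: Q⟩ :: R) := by
  obtain ⟨l, l1⟩ := (hx.ok u).1 k
  have l2 : u.1 x'.i = (u.1 x.i).sw := by rw [((hx'.ok u).1 k').2, ev_flip, ← l1]
  simp only [Multiset.mem_add, Multiset.mem_singleton, or_imp, forall_and, forall_eq] at e2 e3
  obtain ⟨⟨a1, ⟨a2, a3⟩, a4⟩, a5⟩ := e2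
  obtain ⟨⟨b1, b3, b4⟩, b5⟩ := e3
  have c1 : wok u X ↔ wok v X := ⟨fun t => t.congr a1 b1, fun t =>
    t.congr (fun i hi => (a1 i hi).symm) fun i hi hn => (b1 i hi hn).symm⟩
  have c3 : wok u Y ↔ wok v Y := ⟨fun t => t.congr a3 b3, fun t =>
    t.congr (fun i hi => (a3 i hi).symm) fun i hi hn => (b3 i hi hn).symm⟩
  have c4 : pok u B Q ↔ pok v B Q := ⟨fun t => t.congr a4 b4, fun t =>
    t.congr (fun i hi => (a4 i hi).symm) fun i hi hn => (b4 i hi hn).symm⟩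
  have c5 : u ∈ Sol R ↔ v ∈ Sol R := ⟨fun t => sol_congr t a5 b5, fun t =>
    sol_congr t (fun i hi => (a5 i hi).symm) fun i hi hn => (b5 i hi hn).symm⟩
  simp only [sol_cons, Sh.ok, pok_cons, Pa.ok, pv_cons, Pa.v, wok_append, wok_l, wv_append, wv_l,
    k, k', c1, c3, c4, c5, e1, ← a2, g, g.mul l, l2, ← wv_congr a1, ← wv_congr a3, ← pv_congr a4,
    true_and, and_assoc, mul_assoc, W.sw_mul, g.mc', l.sw.rc]

end E3

theorem s_e3 : S_e3 := by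
  intro r O B z Q h A x x' o X Y R u hx hx' hn hw hu
  obtain ⟨hz, hp⟩ := hw.sh _ List.mem_cons_self
  obtain ⟨⟨hc, hy⟩, hq⟩ := (pwf_cons _ _ _).1 hp
  obtain rfl : A = o.S := hy.fst.symm.trans hx.sets.1
  obtain ⟨⟨-, -, p1⟩, -, -, p2⟩ := path_append.1 hy.2
  obtain ⟨⟨g, hk⟩, -⟩ := (pok_cons _ _ _ _).1 ((sol_cons _ _ _).1 hu).1.1
  obtain ⟨hk, hk'⟩ := (wok_append _ _ _).1 hk
  have k := ((wok_l _ _ _).1 hk).1
  have k' := ((wok_l _ _ _).1 hk').1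
  obtain ⟨l, l1⟩ := (hx.ok u).1 k
  have l2 : u.1 x'.i = (u.1 x.i).sw := by rw [((hx'.ok u).1 k').2, ev_flip, ← l1]
  obtain ⟨K, hK⟩ : ∃ K, K = wown X + ({h} + wown Y + pown Q) + own R := ⟨_, rfl⟩
  have o1 : own (⟨B, z, .cy x.i o.T X :: .cy h o.S Y :: Q⟩ :: R) = x.i ::ₘ K := by
    simp only [own_cons, pown_cons, Pa.own, hK, ← Multiset.singleton_add, add_assoc]
  have o2 : own (⟨B, z, .cy h o.S (.l x :: X ++ .l x' :: Y) :: Q⟩ :: R) = x'.i ::ₘ x.i ::ₘ K := by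
    simp only [own_cons, pown_cons, Pa.own, hK, ← Multiset.singleton_add, wown_append, wown_l]
    abel
  have nd := hw.nd
  rw [o2, Multiset.nodup_cons, Multiset.mem_cons, not_or] at nd
  obtain ⟨⟨n1, n2⟩, n3⟩ := nd
  have n4 := (Multiset.nodup_cons.1 n3).1
  have hh : h ∈ K := by simp [hK]
  have m1 : ∀ i ∈ K, i ≠ x.i := fun i hi e => n4 (e ▸ hi)
  have m2 : ∀ i ∈ K, i ≠ x'.i := fun i hi e => n2 (e ▸ hi)
  obtain ⟨q1, q2⟩ : OcOk (woc X + (woc Y + poc Q) + oc R) ∧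
      ∀ o' ∈ woc X + (woc Y + poc Q) + oc R, o'.S.Nonempty → o'.e ≠ o.e := by
    refine OcOk.del_pair ?_ hn
    rw [add_assoc, ← E3.oc_full hx, add_left_comm, ← E3.oc_full hx']
    refine Eq.mp (congrArg OcOk ?_) hw.oc
    simp only [oc_cons, poc_cons, Pa.oc, woc_append, woc_l]
    abel
  refine ⟨(update u.1 x.i (u.1 h * u.1 x.i), u.2), ⟨fun s hs => ?_, o1 ▸ n3, ?_⟩, ?_, ?_⟩
  · rcases List.mem_cons.1 hs with rfl | hs
    · exact ⟨hz, (pwf_cons _ _ _).2 ⟨⟨(g.mul l).card.symm, p1.cyc (E3.triv hx).2 (E3.triv hx').1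
        hx.sets.2 hx'.sets.1⟩, (pwf_cons _ _ _).2 ⟨⟨hc, p2.cyc (E3.triv hx').2 (E3.triv hx).1
          hx'.sets.2 hx.sets.1⟩, hq⟩⟩⟩
    · exact hw.sh s (List.mem_cons_of_mem _ hs)
  · simpa only [oc_cons, poc_cons, Pa.oc] using q1
  · refine (E3.core hx hx' k k' g ?_ (fun i hi => ?_) fun _ _ _ => ?_).1 hu
    exacts [update_self .., (update_of_ne (m1 i (hK ▸ hi)) ..).symm, rfl]
  have pL : PW O {i | i ∈ x.i ::ₘ K} fun v : Pt r => (v.1 h).sw * v.1 x.i :=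
    (PW.var (Multiset.mem_cons_of_mem hh)).sw.mul (PW.var (Multiset.mem_cons_self ..))
  unfold AP
  rw [o1, o2]
  refine App.map (fun v => (update (update v.1 x.i ((v.1 h).sw * v.1 x.i)) x'.i
    ((v.1 h).sw * v.1 x.i).sw, update v.2 o.e
      (if o.σ then (v.1 h).sw * v.1 x.i else ((v.1 h).sw * v.1 x.i).sw))) (fun i hi => ?_)
    (fun v hv => ?_) fun i hi => ?_
  · exact PW.update pL.sw fun e => PW.update pL fun _ =>
      PW.var ((Multiset.mem_cons.1 hi).resolve_left e)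
  · obtain ⟨⟨g1, -⟩, t⟩ := (pok_cons _ _ _ _).1 ((sol_cons _ _ _).1 hv).1.1
    obtain ⟨⟨g2, -⟩, -⟩ := (pok_cons _ _ _ _).1 t
    have L := g2.sw.mul g1
    have eL : v.1 x.i = v.1 h * ((v.1 h).sw * v.1 x.i) := by rw [g2.mc, g1.l]
    generalize (v.1 h).sw * v.1 x.i = l at L eL
    have ee : ev (update v.2 o.e (if o.σ then l else l.sw)) o = l := by
      rw [ev, update_self]
      cases o.σ <;> exact L.gr
    have f1 : update (update v.1 x.i l) x'.i l.sw x.i = l := by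
      rw [update_of_ne (Ne.symm n1), update_self]
    have f2 : ∀ i ∈ K, update (update v.1 x.i l) x'.i l.sw i = v.1 i := fun i hi => by
      rw [update_of_ne (m2 i hi), update_of_ne (m1 i hi)]
    refine (E3.core hx hx' ((hx.ok _).2 ?_) ((hx'.ok _).2 ?_) ?_ ?_ (fun i hi => f2 i (hK ▸ hi))
      fun o' ho hn' => update_of_ne (q2 o' ho hn') ..).2 hv
    · simp only [f1, ee, L, and_self]
    · simp only [update_self, ev_flip, ee, and_true]
      exact L.sw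
    · simp only [f2 h hh, g2]
    · simp only [f2 h hh, f1, ← eL]
  · have eL : (u.1 h).sw * (u.1 h * u.1 x.i) = u.1 x.i := by rw [g.mc', l.l]
    simp only [update_self, update_of_ne (m1 h hh), eL, update_idem, update_eq_self, ← l2]

end Vale.Agent.P002S
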