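import Vale.Agent.P002S.FDefs

/-! Part F: density at irreducible points. -/

namespace Vale.Agent.P002S

open Matrix Vale.Agent.P002

theorem IrrF.semis {r : ℕ} {ι : Type} {f : ι → Mat r} (h : IrrF f) : Semis f := by
  intro N hN
  rcases h N hN with rfl | rfl
  · exact ⟨⊤, fun _ _ _ => Submodule.mem_top, isCompl_bot_top⟩
  · refine ⟨⊥, fun k v hv => ?_, isCompl_top_bot⟩
    rw [(Submodule.mem_bot ℂ).1 hv, Matrix.mulVec_zero]
    exact Submodule.zero_mem _

theorem f_base (ht : S_t) (hb : S_burn) (hc : S_conj) (ho : S_open) (he : S_ex) (B : BlkF) :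
    S_base := by
  intro O n g s x hO hx hI
  obtain ⟨hd, hw, hE⟩ := hx
  choose l h A hl hu hh hT hF hC using fun j => he O n (x (.inr (.inr j))) (hE j)
  choose U hU hAU hUF using fun j => ho O n (l j) (A j) (hl j) (hT j) (hF j)
  obtain ⟨V, hV, hxV, hVI⟩ := hb n (Gens g s) x hI
  let Φ : ((Fin g → Mat n) × (Fin g → Mat n)) × (Fin s → Mat n) × (Fin s → Mat n) →
      Gens g s → Mat n := fun y k => match k with
    | .inl i => y.1.1 i
    | .inr (.inl i) => y.1.2 i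
    | .inr (.inr j) => y.2.1 j * y.2.2 j * (y.2.1 j)⁻¹
  have hsurf : ∀ y, surfW (Φ y) = hprod y.1.1 y.1.2 *
      (List.ofFn fun j => y.2.1 j * y.2.2 j * (y.2.1 j)⁻¹).prod := fun y => rfl
  let y₀ : ((Fin g → Mat n) × (Fin g → Mat n)) × (Fin s → Mat n) × (Fin s → Mat n) :=
    ((fun i => x (.inl i), fun i => x (.inr (.inl i))), (h, A))
  have e : Φ y₀ = x := by
    funext k
    rcases k with i | i | j
    · rfl
    · rfl
    · exact (hC j).symm
  have hy := ht O n g s l hO hl hu y₀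
    ⟨fun i => hd _, fun i => hd _, hh, hT, by rw [← hsurf, e, hw]⟩
  let D : Set (((Fin g → Mat n) × (Fin g → Mat n)) × (Fin s → Mat n) × (Fin s → Mat n)) :=
    {y | ∀ j, y ∈ {y | y ∈ Set.univ ∧ (y.2.1 j).det ≠ 0}}
  have hD : Bas D := Bas.all fun j => Bas.univ.of_reg (RegF.id.snd.fst.apply j).det
  have hΦ : RegF D Φ := by
    refine RegF.pi ?_
    rintro (i | i | j)
    · exact RegF.id.fst.fst.apply i
    · exact RegF.id.fst.snd.apply i
    · exact ((RegF.id.snd.fst.apply j).mul (RegF.id.snd.snd.apply j)).mul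
        ((RegF.id.snd.fst.apply j).inv fun y hy => (hy j).2)
  have hD2 := (hD.preimage hV hΦ).inter
    (Bas.all fun j => Bas.univ.preimage (hU j) (RegF.id.snd.snd.apply j))
  have key : Φ y₀ ∈ Zc (AppF O x) := by
    refine Zc.map hy hD2 ⟨⟨fun j => ⟨trivial, hh j⟩, by rw [e]; exact hxV⟩,
      fun j => ⟨trivial, hAU j⟩⟩ (hΦ.mono fun y hy => hy.1.1) fun u hu1 hu2 => Zc.subset _ ?_
    obtain ⟨⟨-, -, r3, r4, r5⟩, i1, i2, i3, i4⟩ := hu1
    refine ⟨?_, by rw [hsurf]; exact r5, fun j => ?_, (hVI _ hu2.1.2).semis⟩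
    · rintro (i | i | j)
      · exact i1 i
      · exact i2 i
      · exact B.imul O _ _ (B.imul O _ _ (i3 j) (i4 j)) (B.iinv O _ (i3 j))
    · obtain ⟨k, hk, ek⟩ := hc O n (l j) (A j) (u.2.2 j) (hl j) (hu j) (hT j) (r4 j) (hF j)
        (hUF j _ (hu2.2 j).2 (r4 j))
      refine ⟨u.2.1 j * k * (h j)⁻¹, ?_, ?_⟩
      · rw [det_mul, det_mul]
        exact mul_ne_zero (mul_ne_zero (r3 j) hk) (det_inv_ne (hh j))
      · show u.2.1 j * u.2.2 j * (u.2.1 j)⁻¹ = _
        rw [hC j, ek]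
        simp only [Matrix.mul_inv_rev, inv_inv' (hh j), mul_assoc, imc (hh j)]
  rwa [e] at key

end Vale.Agent.P002S
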