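import Vale.Agent.P002S.Iface

/-! Part F: definitions and statements of the pieces. -/

namespace Vale.Agent.P002S

open Matrix Vale.Agent.P002

variable {r : ℕ}

/-- irreducible family of matrices -/
def IrrF {ι : Type} (f : ι → Mat r) : Prop := ∀ N, Inv f N → N = ⊥ ∨ N = ⊤

/-- block diagonal matrix -/
noncomputable def blk {p q : ℕ} (A : Mat p) (B : Mat q) : Mat (p + q) :=
  Matrix.reindex finSumFinEquiv finSumFinEquiv (Matrix.fromBlocks A 0 0 B)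

/-- at each level `A - λ` maps the current coordinate space onto the next one -/
def FullF : List (ℂˣ × Finset (Fin r)) → Mat r → Prop
  | [], _ => True
  | p :: l, A => (∃ R : Mat r, (A - (p.1 : ℂ) • 1) * E (p.2 ∪ uni l) * R = E (uni l)) ∧
      FullF l (E (uni l) * A * E (uni l))

/-- invertible solutions of the relation whose boundary eigenvalues are units of `O` -/
def Dom (O : Subring ℂ) {g s : ℕ} (x : Gens g s → Mat r) : Prop :=
  (∀ k, (x k).det ≠ 0) ∧ surfW x = 1 ∧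
    ∀ j z, (x (.inr (.inr j))).charpoly.IsRoot z → ∃ c : ℂˣ, Un O c ∧ z = c

/-- integral semisimple points with the boundary classes of `x` -/
def AppF (O : Subring ℂ) {g s : ℕ} (x : Gens g s → Mat r) : Set (Gens g s → Mat r) :=
  {u | (∀ k, IntGL O (u k)) ∧ surfW u = 1 ∧
    (∀ j, ∃ h : Mat r, h.det ≠ 0 ∧ u (.inr (.inr j)) = h * x (.inr (.inr j)) * h⁻¹) ∧ Semis u}

/-- irreducibility holds on a basic open set -/
def S_burn : Prop :=
  ∀ (r : ℕ) (ι : Type) [Finite ι] (f : ι → Mat r), IrrF f →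
    ∃ U : Set (ι → Mat r), Bas U ∧ f ∈ U ∧ ∀ u ∈ U, IrrF u

/-- a semisimple family that is not irreducible splits into two blocks -/
def S_split : Prop :=
  ∀ (r : ℕ) (ι : Type) (f : ι → Mat r), Semis f → ¬ IrrF f →
    ∃ p q : ℕ, 0 < p ∧ 0 < q ∧ p + q = r ∧ ∀ f' : ι → Mat (p + q), HEq f' f →
      ∃ (T : Mat (p + q)) (y : ι → Mat p) (z : ι → Mat q),
        T.det ≠ 0 ∧ ∀ k, f' k = T * blk (y k) (z k) * T⁻¹

/-- semisimplicity of block sums and of conjugates -/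
def S_semis : Prop :=
  (∀ (p q : ℕ) (ι : Type) (y : ι → Mat p) (z : ι → Mat q),
    Semis (fun k => blk (y k) (z k)) ↔ Semis y ∧ Semis z) ∧
  ∀ (r : ℕ) (ι : Type) (f : ι → Mat r) (T : Mat r), T.det ≠ 0 → Semis f →
    Semis fun k => T * f k * T⁻¹

/-- extension of an intertwiner by one step -/
def S_step : Prop :=
  ∀ (n : ℕ) (W W₁ : Submodule ℂ (Fin n → ℂ)) (N N' g : Module.End ℂ (Fin n → ℂ)), W₁ ≤ W →
    W.map N = W₁ → W.map N' = W₁ → (∀ w ∈ W₁, g w ∈ W₁) → (∀ w ∈ W₁, g w = 0 → w = 0) →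
    (∀ w ∈ W₁, g (N w) = N' (g w)) →
    ∃ k : Module.End ℂ (Fin n → ℂ), (∀ w ∈ W, k w ∈ W) ∧ (∀ w ∈ W, k w = 0 → w = 0) ∧
      ∀ w ∈ W, k (N w) = N' (k w)

/-- two full triangular matrices of the same shape are conjugate -/
def S_conj : Prop :=
  ∀ (O : Subring ℂ) (n : ℕ) (l : List (ℂˣ × Finset (Fin n))) (A A' : Mat n), BlOk O l →
    uni l = Finset.univ → TriM l A → TriM l A' → FullF l A → FullF l A' →
    ∃ k : Mat n, k.det ≠ 0 ∧ A' = k * A * k⁻¹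

/-- fullness is an open condition -/
def S_open : Prop :=
  ∀ (O : Subring ℂ) (n : ℕ) (l : List (ℂˣ × Finset (Fin n))) (A : Mat n), BlOk O l →
    TriM l A → FullF l A → ∃ U : Set (Mat n), Bas U ∧ A ∈ U ∧ ∀ A' ∈ U, TriM l A' → FullF l A'

/-- every matrix is conjugate to a full triangular one -/
def S_ex : Prop :=
  ∀ (O : Subring ℂ) (n : ℕ) (C : Mat n),
    (∀ z, C.charpoly.IsRoot z → ∃ c : ℂˣ, Un O c ∧ z = c) →
    ∃ (l : List (ℂˣ × Finset (Fin n))) (h A : Mat n), BlOk O l ∧ uni l = Finset.univ ∧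
      h.det ≠ 0 ∧ TriM l A ∧ FullF l A ∧ C = h * A * h⁻¹

/-- all units of `O_L` have `r`-th roots in one finite extension -/
def S_root : Prop :=
  ∀ (r : ℕ) (L : IntermediateField ℚ ℂ), 0 < r → FiniteDimensional ℚ L →
    ∃ L' : IntermediateField ℚ ℂ, FiniteDimensional ℚ L' ∧ L ≤ L' ∧
      (∃ ω ∈ L', IsPrimitiveRoot ω r) ∧ ∀ z : ℂ, z ≠ 0 → z ∈ OL L → z⁻¹ ∈ OL L →
        ∃ w ∈ L', w ≠ 0 ∧ IsIntegral ℤ w⁻¹ ∧ w ^ r = z

/-- algebra of block sums -/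
structure BlkF : Prop where
  mul : ∀ {p q : ℕ} (A A' : Mat p) (B B' : Mat q), blk A B * blk A' B' = blk (A * A') (B * B')
  one : ∀ p q : ℕ, blk (1 : Mat p) (1 : Mat q) = 1
  det : ∀ {p q : ℕ} (A : Mat p) (B : Mat q), (blk A B).det = A.det * B.det
  inv : ∀ {p q : ℕ} (A : Mat p) (B : Mat q), A.det ≠ 0 → B.det ≠ 0 →
    (blk A B)⁻¹ = blk A⁻¹ B⁻¹
  inj : ∀ {p q : ℕ} (A A' : Mat p) (B B' : Mat q), blk A B = blk A' B' → A = A' ∧ B = B'
  charpoly : ∀ {p q : ℕ} (A : Mat p) (B : Mat q),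
    (blk A B).charpoly = A.charpoly * B.charpoly
  surf : ∀ {p q g s : ℕ} (y : Gens g s → Mat p) (z : Gens g s → Mat q), (∀ k, (y k).det ≠ 0) →
    (∀ k, (z k).det ≠ 0) → surfW (fun k => blk (y k) (z k)) = blk (surfW y) (surfW z)
  conj : ∀ {r g s : ℕ} (x : Gens g s → Mat r) (T : Mat r), T.det ≠ 0 → (∀ k, (x k).det ≠ 0) →
    surfW (fun k => T * x k * T⁻¹) = T * surfW x * T⁻¹
  int : ∀ {p q : ℕ} (O : Subring ℂ) (A : Mat p) (B : Mat q), IntGL O A → IntGL O B →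
    IntGL O (blk A B)
  reg : ∀ {p q : ℕ}, RegF Set.univ fun x : Mat p × Mat q => blk x.1 x.2
  imul : ∀ {r : ℕ} (O : Subring ℂ) (A B : Mat r), IntGL O A → IntGL O B → IntGL O (A * B)
  iinv : ∀ {r : ℕ} (O : Subring ℂ) (A : Mat r), IntGL O A → IntGL O A⁻¹
  idet : ∀ {r : ℕ} (O : Subring ℂ) (A : Mat r), IntGL O A → A.det ∈ O ∧ A.det⁻¹ ∈ O

/-- density at irreducible points -/
def S_base : Prop :=
  ∀ (O : Subring ℂ) (n g s : ℕ) (x : Gens g s → Mat n), Big O n → Dom O x → IrrF x →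
    x ∈ Zc (AppF O x)

/-- density at semisimple points, `GL` version -/
def S_gl : Prop :=
  ∀ (O : Subring ℂ) (n g s : ℕ) (x : Gens g s → Mat n), Big O n → Dom O x → Semis x →
    x ∈ Zc (AppF O x)

end Vale.Agent.P002S
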