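import Vale.Agent.P002S.Stm

/-! Cutting a handle along a letter. -/

namespace Vale.Agent.P002S

open Matrix Vale.Agent.P002 Function

variable {r : ℕ}

namespace Hand

theorem alg {A B : Finset (Fin r)} {a h q : W r} (hh : IsIso B A h) (hq : IsIso A A q)
    (x y : W r) :
    a * (h * q * h.sw) * a.sw * (h * q * h.sw).sw * (h * (q * x) * h.sw * y) =
      a * h * (q * 1) * (a * h).sw * (h * x * h.sw * y) := by
  simp only [mul_assoc, W.sw_mul, W.sw_sw, hh.mc', hq.lc, hq.mc', hh.rc, one_mul]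

theorem tr {A B : Finset (Fin r)} {z : ℂˣ} {Q : List (Pa r)} {a b h : ℕ} {q : Lt r}
    {w : List (It r)} {R : Sy r} {u v : Pt r} (e2 : v.2 = u.2) (ea : v.1 a = u.1 a * u.1 h)
    (eh : v.1 h = u.1 h) (eq : v.1 q.i = u.1 q.i)
    (eK : ∀ i ∈ wown w + pown Q + own R, v.1 i = u.1 i)
    (eb : u.1 b = u.1 h * u.1 q.i * (u.1 h).sw) (ha : IsIso B B (u.1 a)) (hh : IsIso B A (u.1 h))
    (hq : IsIso A A (u.1 q.i)) :
    u ∈ Sol (⟨B, z, .hd a b :: .cy h A (.l q :: w) :: Q⟩ :: R) ↔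
      v ∈ Sol (⟨B, z, .cy a A [.l q] :: .cy h A w :: Q⟩ :: R) := by
  have k1 : ∀ i ∈ wown w, v.1 i = u.1 i := fun i hi => eK i (by simp [hi])
  have k2 : ∀ i ∈ pown Q, v.1 i = u.1 i := fun i hi => eK i (by simp [hi])
  have k3 : ∀ i ∈ own R, v.1 i = u.1 i := fun i hi => eK i (by simp [hi])
  have i0 : q.ok u ↔ q.ok v := by simp only [Lt.ok, eq, e2]
  have i1 : wok u w ↔ wok v w :=
    ⟨fun x => x.congr (fun i hi => (k1 i hi).symm) fun _ _ _ => by rw [e2],
      fun x => x.congr k1 fun _ _ _ => by rw [e2]⟩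
  have i2 : pok u B Q ↔ pok v B Q :=
    ⟨fun x => x.congr (fun i hi => (k2 i hi).symm) fun _ _ _ => by rw [e2],
      fun x => x.congr k2 fun _ _ _ => by rw [e2]⟩
  have i3 : u ∈ Sol R ↔ v ∈ Sol R :=
    ⟨fun x => sol_congr x (fun i hi => (k3 i hi).symm) fun _ _ _ => by rw [e2],
      fun x => sol_congr x k3 fun _ _ _ => by rw [e2]⟩
  have j1 : IsIso B B (u.1 h * u.1 q.i * (u.1 h).sw) := (hh.mul hq).mul hh.sw
  have j2 : IsIso B A (u.1 a * u.1 h) := ha.mul hh
  simp only [sol_cons, Sh.ok, pok_cons, Pa.ok, wok_l, wok_nil, pv_cons, Pa.v, wv_l, wv_nil, ea, eh,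
    eq, eb, wv_congr k1, pv_congr k2, alg hh hq, i0, i1, i2, i3, eq_true ha, eq_true hh,
    eq_true j1, eq_true j2, true_and, and_true, and_assoc]

end Hand

theorem s_hand : S_hand := by
  intro r O B z Q a b h A q w R u ht hA eb hw hu
  have eo : own (⟨B, z, .hd a b :: .cy h A (.l q :: w) :: Q⟩ :: R) =
      {b} + own (⟨B, z, .cy a A [.l q] :: .cy h A w :: Q⟩ :: R) := by
    simp only [own_cons, pown_cons, Pa.own, wown_l, wown_nil]
    abel
  have eo' : own (⟨B, z, .cy a A [.l q] :: .cy h A w :: Q⟩ :: R) =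
      {a} + ({h} + ({q.i} + (wown w + pown Q + own R))) := by
    simp only [own_cons, pown_cons, Pa.own, wown_l, wown_nil]
    abel
  have nd := hw.nd
  rw [eo] at nd
  have nd' := (Multiset.nodup_add.1 nd).2.1
  rw [eo'] at nd
  simp only [Multiset.singleton_add, Multiset.nodup_cons, Multiset.mem_cons, not_or] at nd
  obtain ⟨⟨ba, bh, bq, bK⟩, ⟨ah, aq, aK⟩, -⟩ := nd
  obtain ⟨hz, hp⟩ := hw.sh _ List.mem_cons_self
  simp only [pwf_cons, Pa.wf, Cyc, ls_l, fs_l, path_l, true_and] at hp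
  obtain ⟨⟨hc, c1, c2, c3, c4⟩, hQ⟩ := hp
  have hs : q.src.s = A := c2.symm.trans c1
  have hu' := hu
  simp only [sol_cons, Sh.ok, pok_cons, Pa.ok, wok_l] at hu'
  obtain ⟨⟨⟨⟨ha, -⟩, ⟨hh, hq, -⟩, -⟩, -⟩, -⟩ := hu'
  have hq' : IsIso A A (u.1 q.i) := by
    have := hq.1
    rwa [hs, hA] at this
  refine ⟨(update u.1 a (u.1 a * u.1 h), u.2), ⟨fun s hs' => ?_, nd', ?_⟩, ?_, fun H => ?_⟩
  · rcases List.mem_cons.1 hs' with rfl | hs'
    · have l1 : (ls w (A, ∅)).s = A := by rw [ht.ls _ q.tgt, c1]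
      have l2 : (fs w (A, ∅)).s = q.src.s := by rw [ht.fs _ q.src, ← c4.fst, hA, hs]
      refine ⟨hz, ?_⟩
      simp only [pwf_cons, Pa.wf]
      refine ⟨⟨hc, hA, hA.trans hs.symm, c3, hA.trans hs.symm⟩,
        ⟨hc, l1, ht.path c4 (l1.trans hA.symm) l2⟩, hQ⟩
    · exact hw.sh s (List.mem_cons_of_mem _ hs')
  · have h1 := hw.oc
    simp only [oc_cons, poc_cons, Pa.oc, woc_l, woc_nil, zero_add, add_zero, add_assoc] at h1 ⊢
    exact h1
  · exact (Hand.tr (u := u) (v := (update u.1 a (u.1 a * u.1 h), u.2)) rfl (update_self ..)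
      (update_of_ne (Ne.symm ah) ..) (update_of_ne (Ne.symm aq) ..)
      (fun i hi => update_of_ne (fun e : i = a => aK (e ▸ hi)) ..) eb ha hh hq').1 hu
  · refine App.map (fun v => (update (update v.1 a (v.1 a * (v.1 h).sw)) b
      (v.1 h * v.1 q.i * (v.1 h).sw), v.2)) (fun i hi => ?_) (fun v hv => ?_) (fun i hi => ?_) H
    · have m : ∀ j, j = a ∨ j = h ∨ j = q.i →
          j ∈ {i | i ∈ own (⟨B, z, .cy a A [.l q] :: .cy h A w :: Q⟩ :: R)} := fun j hj => by
        rw [Set.mem_ofPred_eq, eo']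
        rcases hj with rfl | rfl | rfl <;> simp
      have pa := PW.var (r := r) (O := O) (m a (by simp))
      have ph := PW.var (r := r) (O := O) (m h (by simp))
      have pq := PW.var (r := r) (O := O) (m q.i (by simp))
      refine PW.update ((ph.mul pq).mul ph.sw) fun hb => PW.update (pa.mul ph.sw) fun _ =>
        PW.var ?_
      rw [Set.mem_ofPred_eq, eo, Multiset.singleton_add, Multiset.mem_cons] at hi
      exact hi.resolve_left hb
    · have hv' := hv
      simp only [sol_cons, Sh.ok, pok_cons, Pa.ok, wok_l] at hv'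
      obtain ⟨⟨⟨⟨va, vq, -⟩, ⟨vh, -⟩, -⟩, -⟩, -⟩ := hv'
      have vq' : IsIso A A (v.1 q.i) := by
        have := vq.1
        rwa [hs, hA] at this
      have f1 : ∀ i, i ≠ a → i ≠ b → update (update v.1 a (v.1 a * (v.1 h).sw)) b
          (v.1 h * v.1 q.i * (v.1 h).sw) i = v.1 i := fun i h1 h2 => by
        rw [update_of_ne h2, update_of_ne h1]
      have f2 : update (update v.1 a (v.1 a * (v.1 h).sw)) b
          (v.1 h * v.1 q.i * (v.1 h).sw) a = v.1 a * (v.1 h).sw := by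
        rw [update_of_ne (Ne.symm ba), update_self]
      have fh := f1 h (Ne.symm ah) (Ne.symm bh)
      have fq := f1 q.i (Ne.symm aq) (Ne.symm bq)
      refine (Hand.tr (u := (update (update v.1 a (v.1 a * (v.1 h).sw)) b
        (v.1 h * v.1 q.i * (v.1 h).sw), v.2)) (v := v) rfl ?_ fh.symm fq.symm
        (fun i hi => (f1 i (fun e => aK (e ▸ hi)) fun e => bK (e ▸ hi)).symm) ?_ ?_ ?_ ?_).2 hv
      · simp only [f2, fh]
        rw [mul_assoc, vh.m', va.r']
      · simp only [fh, fq, update_self]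
      · simp only [f2]
        exact va.mul vh.sw
      · simp only [fh]
        exact vh
      · simp only [fq]
        exact vq'
    · rcases eq_or_ne i b with rfl | h1
      · simp only [update_self, update_of_ne (Ne.symm ah), update_of_ne (Ne.symm aq), eb]
      rcases eq_or_ne i a with rfl | h2
      · simp only [update_self, update_of_ne h1, update_of_ne (Ne.symm ah)]
        rw [mul_assoc, hh.m, ha.r']
      · simp only [update_of_ne h1, update_of_ne h2]

end Vale.Agent.P002S
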