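import Vale.Agent.P002.Main

/-! Interfaces between the three parts of the proof for all curves. See `skel/P002S/README.md`. -/

namespace Vale.Agent.P002S

open Matrix Vale.Agent.P002

/-- the ring of integers of `L` as a subring of `ℂ` -/
noncomputable def OL (L : IntermediateField ℚ ℂ) : Subring ℂ := L.toSubring ⊓ (integralClosure ℤ ℂ).toSubring

/-- `GL_n(O)` -/
def IntGL (O : Subring ℂ) {n : ℕ} (M : Mat n) : Prop :=
  (∀ i j, M i j ∈ O) ∧ M.det ≠ 0 ∧ ∀ i j, M⁻¹ i j ∈ O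

/-- units of `O` -/
def Un (O : Subring ℂ) (c : ℂˣ) : Prop := (c : ℂ) ∈ O ∧ ((c⁻¹ : ℂˣ) : ℂ) ∈ O

/-- product of the commutators -/
noncomputable def hprod {n g : ℕ} (a b : Fin g → Mat n) : Mat n :=
  (List.ofFn fun i => cm (a i) (b i)).prod

/-- density on closed surfaces with a scalar twist, at all points -/
def ZClosed (O : Subring ℂ) (n : ℕ) : Prop :=
  ∀ (g : ℕ) (z : ℂ) (y : (Fin g → Mat n) × (Fin g → Mat n)), (∀ i, (y.1 i).det ≠ 0) →
    (∀ i, (y.2 i).det ≠ 0) → hprod y.1 y.2 = z • (1 : Mat n) →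
    y ∈ Zc {u : (Fin g → Mat n) × (Fin g → Mat n) | (∀ i, IntGL O (u.1 i)) ∧
      (∀ i, IntGL O (u.2 i)) ∧ hprod u.1 u.2 = z • (1 : Mat n)}

/-- density of `GL_n(O)` -/
def ZGl (O : Subring ℂ) (n : ℕ) : Prop := ∀ M : Mat n, M ∈ Zc {u : Mat n | IntGL O u}

/-- the properties of the ring of integers that are used -/
structure Big (O : Subring ℂ) (r : ℕ) : Prop where
  cl : ∀ n ≤ r, ZClosed O n
  gl : ∀ n ≤ r, ZGl O n

/-- PART Z -/
def S_big : Prop := ∀ (r : ℕ) (T : Set ℂ), T.Finite → (∀ z ∈ T, IsIntegral ℤ z) →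
  ∃ L : IntermediateField ℚ ℂ, FiniteDimensional ℚ L ∧ (∀ z ∈ T, z ∈ L) ∧ Big (OL L) r

variable {r : ℕ}

/-- coordinate projector -/
noncomputable def E (S : Finset (Fin r)) : Mat r := diagonal fun i => if i ∈ S then 1 else 0

/-- union of the blocks -/
def uni : List (ℂˣ × Finset (Fin r)) → Finset (Fin r)
  | [] => ∅
  | p :: l => p.2 ∪ uni l

/-- block triangular (rows of the first block stay in the first block) with scalar diagonal
blocks, supported on the union of the blocks -/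
def TriM : List (ℂˣ × Finset (Fin r)) → Mat r → Prop
  | [], A => A = 0
  | p :: l, A => E (p.2 ∪ uni l) * A * E (p.2 ∪ uni l) = A ∧ E p.2 * A = (p.1 : ℂ) • E p.2 ∧
      TriM l (E (uni l) * A * E (uni l))

/-- admissible block lists -/
def BlOk (O : Subring ℂ) : List (ℂˣ × Finset (Fin r)) → Prop
  | [] => True
  | p :: l => Un O p.1 ∧ Disjoint p.2 (uni l) ∧ BlOk O l

/-- points of the relaxed variety: handles `a, b`, connectors `h`, triangular matrices `A` -/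
def Rel {n g s : ℕ} (l : Fin s → List (ℂˣ × Finset (Fin n)))
    (y : ((Fin g → Mat n) × (Fin g → Mat n)) × (Fin s → Mat n) × (Fin s → Mat n)) : Prop :=
  (∀ i, (y.1.1 i).det ≠ 0) ∧ (∀ i, (y.1.2 i).det ≠ 0) ∧ (∀ j, (y.2.1 j).det ≠ 0) ∧
    (∀ j, TriM (l j) (y.2.2 j)) ∧
    hprod y.1.1 y.1.2 * (List.ofFn fun j => y.2.1 j * y.2.2 j * (y.2.1 j)⁻¹).prod = 1

/-- PART T -/
def S_t : Prop := ∀ (O : Subring ℂ) (n g s : ℕ) (l : Fin s → List (ℂˣ × Finset (Fin n))),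
  Big O n → (∀ j, BlOk O (l j)) → (∀ j, uni (l j) = Finset.univ) → ∀ y, Rel (g := g) l y →
    y ∈ Zc {u | Rel l u ∧ (∀ i, IntGL O (u.1.1 i)) ∧ (∀ i, IntGL O (u.1.2 i)) ∧
      (∀ j, IntGL O (u.2.1 j)) ∧ ∀ j, IntGL O (u.2.2 j)}

/-- PART F: the theorem for all curves -/
def S_all : Prop := ∀ (r g s : ℕ) (c : Fin s → Mat r), 0 < r → (∀ j, (c j).det = 1) →
  (∀ j z, (c j).charpoly.IsRoot z → IsIntegral ℤ z) →
  ∃ L : IntermediateField ℚ ℂ, FiniteDimensional ℚ L ∧ ∀ v ∈ Pts (g := g) c,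
    v ∈ Zc {u | u ∈ Pts (g := g) c ∧ ∀ k, IntSL L (u k)}

end Vale.Agent.P002S
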