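import Vale.Agent.P002S.Stm

/-! Integral isomorphisms between coordinate spaces are dense. -/

namespace Vale.Agent.P002S

open Matrix Vale.Agent.P002 Function

namespace Iso

variable {r n : ℕ} {S T : Finset (Fin r)} {O : Subring ℂ}

/-- enumerations of a finset -/
structure En (O : Subring ℂ) (S : Finset (Fin r)) (J : Matrix (Fin n) (Fin r) ℂ) : Prop where
  one : J * Jᵀ = 1
  pr : Jᵀ * J = E S
  mem : ∀ a i, J a i ∈ O

theorem en_ex (O : Subring ℂ) (h : S.card = n) : ∃ J : Matrix (Fin n) (Fin r) ℂ, En O S J := by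
  have hi := (S.orderEmbOfFin h).injective
  refine ⟨of fun a i => if S.orderEmbOfFin h a = i then 1 else 0, ?_, ?_, fun a i => ?_⟩
  · ext a b
    simp [mul_apply, one_apply, hi.eq_iff, eq_comm]
  · ext i j
    by_cases k : i ∈ S
    · obtain ⟨a, rfl⟩ : i ∈ Set.range (S.orderEmbOfFin h) := by
        rwa [Finset.range_orderEmbOfFin]
      rw [mul_apply, Finset.sum_eq_single a (fun b _ hb => by simp [hi.eq_iff, hb]) (by simp)]
      simp [E, diagonal_apply]
    · have : ∀ a, S.orderEmbOfFin h a ≠ i := fun a e => k (e ▸ S.orderEmbOfFin_mem h a)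
      simp [mul_apply, E, diagonal_apply, this, k]
  · rw [of_apply]
    split_ifs
    · exact O.one_mem
    · exact O.zero_mem

variable {J K : Matrix (Fin n) (Fin r) ℂ}

theorem En.c {m : Type} (h : En O S J) (X : Matrix (Fin n) m ℂ) : J * (Jᵀ * X) = X := by
  rw [← Matrix.mul_assoc, h.one, Matrix.one_mul]

theorem En.c' (h : En O S J) (X : Mat r) : Jᵀ * (J * X) = E S * X := by
  rw [← Matrix.mul_assoc, h.pr]

/-- the isomorphism given by an invertible matrix -/
noncomputable def lift (J K : Matrix (Fin n) (Fin r) ℂ) (M : Mat n) : W r :=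
  ⟨Jᵀ * M * K, Kᵀ * M⁻¹ * J⟩

theorem lift_iso (hJ : En O S J) (hK : En O T K) {M : Mat n} (hM : M.det ≠ 0) :
    IsIso S T (lift J K M) := by
  have u := isUnit_iff_ne_zero.2 hM
  refine ⟨W.ext ?_ ?_, W.ext ?_ ?_, W.ext ?_ ?_⟩ <;>
    simp only [lift, W.mul_a, W.mul_b, W.sw_a, W.sw_b, e_a, e_b, ← hJ.pr, ← hK.pr, Matrix.mul_assoc,
      hJ.c, hK.c, mul_nonsing_inv_cancel_left _ _ u, nonsing_inv_mul_cancel_left _ _ u]

theorem lift_eq (hJ : En O S J) (hK : En O T K) {x : W r} (h : IsIso S T x) :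
    (J * x.a * Kᵀ).det ≠ 0 ∧ lift J K (J * x.a * Kᵀ) = x := by
  have h1 : x.a * x.b = E S := congrArg W.a h.m
  have h2 : x.b * E S = x.b := congrArg W.b h.l
  have e : J * x.a * Kᵀ * (K * x.b * Jᵀ) = 1 := by
    rw [← hJ.one]
    calc _ = J * (x.a * (Kᵀ * K * x.b)) * Jᵀ := by simp only [Matrix.mul_assoc]
      _ = _ := by rw [hK.pr, h.lb, h1, ← hJ.pr, hJ.c]
  refine ⟨(isUnit_det_of_right_inverse e).ne_zero, W.ext ?_ ?_⟩
  · simp only [lift, Matrix.mul_assoc, hK.pr, h.ra, hJ.c', h.la]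
  · rw [lift, inv_eq_right_inv e]
    simp only [Matrix.mul_assoc, hJ.pr, h2, hK.c', h.lb]

theorem mul_mem {k l m : ℕ} {X : Matrix (Fin k) (Fin l) ℂ} {Y : Matrix (Fin l) (Fin m) ℂ}
    (hX : ∀ a b, X a b ∈ O) (hY : ∀ a b, Y a b ∈ O) (a : Fin k) (b : Fin m) : (X * Y) a b ∈ O := by
  rw [mul_apply]
  exact O.sum_mem fun c _ => O.mul_mem (hX a c) (hY c b)

theorem reg (J K : Matrix (Fin n) (Fin r) ℂ) (i : ℕ) (x : Pt r) {f : Pt r → ℂ}
    (hf : f ∈ Algebra.adjoin ℂ (co {i} : Set (Pt r → ℂ))) :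
    Reg {M : Mat n | M.det ≠ 0} fun M => f (update x.1 i (lift J K M), x.2) := by
  induction hf using Algebra.adjoin_induction with
  | mem f hf =>
    obtain ⟨j, rfl, p, q, rfl | rfl⟩ := hf
    · exact ((((RegF.const Jᵀ).mul RegF.id).mul (RegF.const K)).entry p q).congr fun M _ => by
        simp only [update_self, lift]
    · exact ((((RegF.const Kᵀ).mul (RegF.id.inv fun _ h => h)).mul (RegF.const J)).entry p q).congr
        fun M _ => by simp only [update_self, lift]
  | algebraMap c => exact Reg.const c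
  | add f g _ _ h1 h2 => exact h1.add h2
  | mul f g _ _ h1 h2 => exact h1.mul h2

end Iso

open Iso

theorem s_iso : S_iso := by
  intro r O S T i x hO hx f hf h0
  obtain ⟨J, hJ⟩ := en_ex O (rfl : S.card = S.card)
  obtain ⟨K, hK⟩ := en_ex O hx.card.symm
  obtain ⟨h1, h2⟩ := lift_eq hJ hK hx
  have h := Zc.reg_zero (hO.gl _ (by simpa using S.card_le_univ) _) bas_det h1 (reg J K i x hf)
    fun M hM _ => h0 _ (by simpa only [Set.mem_ofPred_eq, update_self] using lift_iso hJ hK hM.2.1)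
      fun j hj p q => by
        rw [show j = i from hj]
        simp only [update_self]
        exact ⟨mul_mem (mul_mem (fun a b => hJ.mem b a) hM.1) hK.mem p q,
          mul_mem (mul_mem (fun a b => hK.mem b a) hM.2.2) hJ.mem p q⟩
  simpa only [h2, update_eq_self] using h

end Vale.Agent.P002S
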