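import Vale.Agent.P002S.Stm

/-! Joining two cycles with the same connector, cutting a cycle along a trivial subword. -/

namespace Vale.Agent.P002S

open Matrix Vale.Agent.P002 Function

variable {r : ℕ}

namespace Join

variable {O : Subring ℂ} {A B : Finset (Fin r)} {w w' : List (It r)} {F G : Fl r} {u : Pt r}

theorem comm (h : Cyc O A w) (hu : wok u w) : e A * wv u.1 w = wv u.1 w * e A := by
  have := Path.comm h.2 hu
  rwa [h.1, h.fst] at this

theorem cyc_of (ht : Tight w) (h : Path O F w G) (h1 : F.s = A) (h2 : G.s = A) : Cyc O A w := by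
  have a1 : (ls w (A, ∅)).s = A := by rw [ht.ls (A, ∅) F, h.lst, h2]
  have a2 : (fs w (A, ∅)).s = A := by rw [ht.fs (A, ∅) G, ← h.fst, h1]
  exact ⟨a1, ht.path h (a1.trans h1.symm) (a2.trans h2.symm)⟩

theorem cyc_append (ht : Tight w) (ht' : Tight w') (h : Cyc O A w) (h' : Cyc O A w') :
    Cyc O A (w ++ w') := by
  have a1 : ∀ F, (ls w F).s = A := fun F => by rw [ht.ls F (A, ∅), h.1]
  have a2 : ∀ F, (ls w' F).s = A := fun F => by rw [ht'.ls F (A, ∅), h'.1]
  have a3 : ∀ G, (fs w G).s = A := fun G => by rw [ht.fs G (A, ∅), h.fst]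
  have a4 : ∀ G, (fs w' G).s = A := fun G => by rw [ht'.fs G (A, ∅), h'.fst]
  refine ⟨by rw [ls_append, a2], path_append.2 ⟨?_, ?_⟩⟩
  · exact ht.path h.2 (by rw [ls_append, a2, a1]) (by rw [a4, a3])
  · exact ht'.path h'.2 (by rw [a1, a2]) (by rw [fs_append, a3, a4])

theorem cyc_split (ht : Tight w) (ht' : Tight w') (h : Cyc O A (w ++ w')) (hu : wok u w)
    (he : wv u.1 w = e A) : Cyc O A w ∧ Cyc O A w' := by
  obtain ⟨p1, p2⟩ := path_append.1 h.2
  have i1 := Path.iso p1 hu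
  rw [h.1, he, e_idem] at i1
  have j : (fs w' (fs (w ++ w') (A, ∅))).s = A := i1.tgt_eq (IsIso.id A)
  exact ⟨cyc_of ht p1 h.1 j, cyc_of ht' p2 (p1.lst.trans j) h.fst⟩

theorem alg {x a b : W r} (hx : IsIso B A x) (ha : e A * a = a * e A) :
    x * a * x.sw * (x * b * x.sw) = x * (a * b) * x.sw := by
  simp only [mul_assoc, hx.mc']
  rw [← mul_assoc a, ← ha, mul_assoc, hx.rc]

end Join

open Join in
theorem s_join : S_join := by
  intro r O B z Q h A w h' A' w' R u ht ht' hh hwf hu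
  obtain ⟨hsh, hnd, hoc⟩ := hwf
  simp only [List.forall_mem_cons, Sh.wf, pwf_cons, Pa.wf] at hsh
  obtain ⟨⟨hz, ⟨hA, hc⟩, ⟨-, hc'⟩, hQ⟩, hR⟩ := hsh
  simp only [sol_cons, Sh.ok, pok_cons, Pa.ok, pv_cons, Pa.v] at hu
  obtain ⟨⟨⟨⟨i1, o1⟩, ⟨i2, o2⟩, oQ⟩, he⟩, oR⟩ := hu
  rw [← hh] at i2 he
  obtain rfl : A = A' := i1.tgt_eq i2
  simp only [own_cons, pown_cons, Pa.own] at hnd
  simp only [oc_cons, poc_cons, Pa.oc] at hoc
  have hown : ({h} + wown w + ({h'} + wown w' + pown Q) + own R : Multiset ℕ) =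
      {h'} + ({h} + (wown w + wown w') + pown Q + own R) := by abel
  rw [hown, Multiset.singleton_add, Multiset.nodup_cons] at hnd
  obtain ⟨hn, hnd⟩ := hnd
  refine ⟨⟨?_, ?_, ?_⟩, ?_, ?_⟩
  · simp only [List.forall_mem_cons, Sh.wf, pwf_cons, Pa.wf]
    exact ⟨⟨hz, ⟨hA, cyc_append ht ht' hc hc'⟩, hQ⟩, hR⟩
  · simpa only [own_cons, pown_cons, Pa.own, wown_append] using hnd
  · simp only [oc_cons, poc_cons, Pa.oc, woc_append]
    rwa [← add_assoc (woc w)] at hoc
  · simp only [sol_cons, Sh.ok, pok_cons, Pa.ok, pv_cons, Pa.v, wok_append, wv_append]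
    refine ⟨⟨⟨⟨i1, o1, o2⟩, oQ⟩, ?_⟩, oR⟩
    rw [← alg i1 (comm hc o1), mul_assoc _ _ (pv u.1 Q)]
    exact he
  · refine App.map (fun v => (update v.1 h' (v.1 h), v.2)) ?_ ?_ ?_
    · intro i hi
      refine PW.update (PW.var ?_) fun hne => PW.var ?_
      · simp [Pa.own]
      · simp only [Set.mem_ofPred_eq, own_cons, pown_cons, Pa.own, wown_append] at hi ⊢
        rw [hown, Multiset.mem_add, Multiset.mem_singleton] at hi
        exact hi.resolve_left hne
    · intro v hv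
      simp only [sol_cons, Sh.ok, pok_cons, Pa.ok, pv_cons, Pa.v, wok_append, wv_append] at hv ⊢
      obtain ⟨⟨⟨⟨j1, p1, p2⟩, pQ⟩, pe⟩, pR⟩ := hv
      have loc : ∀ i ∈ ({h} + (wown w + wown w') + pown Q + own R : Multiset ℕ),
          v.1 i = update v.1 h' (v.1 h) i := fun i hi =>
        (update_of_ne (fun hi' : i = h' => hn (hi' ▸ hi)) _ _).symm
      have l0 := loc h (by simp)
      have l1 : ∀ i ∈ wown w, v.1 i = update v.1 h' (v.1 h) i := fun i hi => loc i (by simp [hi])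
      have l2 : ∀ i ∈ wown w', v.1 i = update v.1 h' (v.1 h) i := fun i hi => loc i (by simp [hi])
      have l3 : ∀ i ∈ pown Q, v.1 i = update v.1 h' (v.1 h) i := fun i hi => loc i (by simp [hi])
      have l4 : ∀ i ∈ own R, v.1 i = update v.1 h' (v.1 h) i := fun i hi => loc i (by simp [hi])
      rw [← l0, update_self, ← wv_congr l1, ← wv_congr l2, ← pv_congr l3]
      refine ⟨⟨⟨⟨j1, p1.congr l1 fun _ _ _ => rfl⟩, ⟨j1, p2.congr l2 fun _ _ _ => rfl⟩,
        pQ.congr l3 fun _ _ _ => rfl⟩, ?_⟩, sol_congr pR l4 fun _ _ _ => rfl⟩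
      rw [← mul_assoc _ _ (pv v.1 Q), alg j1 (comm hc p1)]
      exact pe
    · intro i _
      show update u.1 h' (u.1 h) i = u.1 i
      rw [hh, update_eq_self]

open Join in
theorem s_cut : S_cut := by
  intro r O B z h A w w' R N u ht ht' hw hwf hu hN
  obtain ⟨hsh, hnd, hoc⟩ := hwf
  simp only [List.forall_mem_cons, Sh.wf, pwf_cons, Pa.wf, pwf_nil, and_true] at hsh
  obtain ⟨⟨hz, hA, hc⟩, hR⟩ := hsh
  rw [sol_cons, one_cy hc, wok_append, wv_append, hw, ← mul_assoc, e_idem] at hu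
  obtain ⟨⟨i1, ⟨o1, o2⟩, he⟩, oR⟩ := hu
  obtain ⟨c1, c2⟩ := cyc_split ht ht' hc o1 hw
  have hlt := hN.1
  simp only [own_cons, pown_cons, Pa.own, wown_append, pown_nil, add_zero] at hnd hlt
  simp only [oc_cons, poc_cons, Pa.oc, woc_append, poc_nil, add_zero] at hoc
  have hown : ({N} + wown w + ({h} + wown w' + own R) : Multiset ℕ) =
      {N} + ({h} + (wown w + wown w') + own R) := by abel
  have loc : ∀ i ∈ ({h} + (wown w + wown w') + own R : Multiset ℕ),
      u.1 i = update u.1 N (u.1 h) i := fun i hi => (update_of_ne (hlt i hi).ne _ _).symm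
  have l0 := loc h (by simp)
  have l1 : ∀ i ∈ wown w, u.1 i = update u.1 N (u.1 h) i := fun i hi => loc i (by simp [hi])
  have l2 : ∀ i ∈ wown w', u.1 i = update u.1 N (u.1 h) i := fun i hi => loc i (by simp [hi])
  have l4 : ∀ i ∈ own R, u.1 i = update u.1 N (u.1 h) i := fun i hi => loc i (by simp [hi])
  refine ⟨(update u.1 N (u.1 h), u.2), ⟨?_, ?_, ?_⟩, ?_, ?_⟩
  · simp only [List.forall_mem_cons, Sh.wf, pwf_cons, Pa.wf, pwf_nil, and_true]
    exact ⟨⟨Un.one, hA, c1⟩, ⟨hz, hA, c2⟩, hR⟩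
  · simp only [own_cons, pown_cons, Pa.own, pown_nil, add_zero]
    rw [hown, Multiset.singleton_add, Multiset.nodup_cons]
    exact ⟨fun hi => (hlt N hi).false, hnd⟩
  · simp only [oc_cons, poc_cons, Pa.oc, poc_nil, add_zero]
    rwa [add_assoc (woc w)] at hoc
  · rw [sol_cons, sol_cons, one_cy c1, one_cy c2]
    dsimp only
    rw [← l0, update_self, ← wv_congr l1, ← wv_congr l2, hw, e_idem, sc_one, mul_one]
    exact ⟨⟨i1, o1.congr l1 fun _ _ _ => rfl, rfl⟩, ⟨i1, o2.congr l2 fun _ _ _ => rfl, he⟩,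
      sol_congr oR l4 fun _ _ _ => rfl⟩
  · refine App.map (fun v => v) ?_ ?_ ?_
    · intro i hi
      refine PW.var ?_
      simp only [Set.mem_ofPred_eq, own_cons, pown_cons, Pa.own, wown_append, pown_nil,
        add_zero] at hi ⊢
      rw [hown]
      exact Multiset.mem_add.2 (Or.inr hi)
    · intro v hv
      rw [sol_cons, sol_cons, one_cy c1, one_cy c2, sc_one, mul_one] at hv
      obtain ⟨⟨-, p1, q1⟩, ⟨j2, p2, q2⟩, pR⟩ := hv
      rw [sol_cons, one_cy hc, wok_append, wv_append, ← mul_assoc, q1]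
      exact ⟨⟨j2, ⟨p1, p2⟩, q2⟩, pR⟩
    · intro i hi
      simp only [Set.mem_ofPred_eq, own_cons, pown_cons, Pa.own, wown_append, pown_nil,
        add_zero] at hi
      exact (loc i hi).symm

end Vale.Agent.P002S
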