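import Vale.Agent.P002S.Stm

/-! The main induction. -/

namespace Vale.Agent.P002S

open Matrix Vale.Agent.P002 Function

namespace MainInd

variable {r : ℕ} {O : Subring ℂ} {u : Pt r} {i : ℕ}

theorem mem_wown {w : List (It r)} (h : i ∈ wown w) : ∃ x, .l x ∈ w ∧ i = x.i := by
  induction w with
  | nil => simp at h
  | cons a w ih =>
    cases a with
    | c D =>
      obtain ⟨x, h1, h2⟩ := ih (by simpa using h)
      exact ⟨x, List.mem_cons_of_mem _ h1, h2⟩
    | l y =>
      rw [wown_l, Multiset.mem_add, Multiset.mem_singleton] at h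
      rcases h with h | h
      · exact ⟨y, List.mem_cons_self, h⟩
      · obtain ⟨x, h1, h2⟩ := ih h
        exact ⟨x, List.mem_cons_of_mem _ h1, h2⟩

theorem mem_pown {ps : List (Pa r)} (h : i ∈ pown ps) : ∃ p ∈ ps, i ∈ p.own := by
  induction ps with
  | nil => simp at h
  | cons a ps ih =>
    rw [pown_cons, Multiset.mem_add] at h
    rcases h with h | h
    · exact ⟨a, List.mem_cons_self, h⟩
    · obtain ⟨x, h1, h2⟩ := ih h
      exact ⟨x, List.mem_cons_of_mem _ h1, h2⟩

theorem mem_own {P : Sy r} (h : i ∈ own P) : ∃ s ∈ P, i ∈ pown s.ps := by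
  induction P with
  | nil => simp at h
  | cons a P ih =>
    rw [own_cons, Multiset.mem_add] at h
    rcases h with h | h
    · exact ⟨a, List.mem_cons_self, h⟩
    · obtain ⟨x, h1, h2⟩ := ih h
      exact ⟨x, List.mem_cons_of_mem _ h1, h2⟩

theorem part_zero {p : Pa r} (hw : p.wf O ∅) (hu : p.ok u ∅) (h : i ∈ p.own) : u.1 i = e ∅ := by
  cases p with
  | hd a b =>
    simp only [Pa.own, Multiset.mem_add, Multiset.mem_singleton] at h
    rcases h with rfl | rfl
    · exact hu.1.empty
    · exact hu.2.empty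
  | cy k A w =>
    simp only [Pa.own, Multiset.mem_add, Multiset.mem_singleton] at h
    rcases h with rfl | h
    · exact hu.1.empty
    · obtain ⟨x, h1, rfl⟩ := mem_wown h
      have h2 := hw.2.2.card_src h1
      rw [hw.2.1, hw.1, Finset.card_empty, Finset.card_eq_zero] at h2
      have h3 : IsIso x.src.s x.tgt.s (u.1 x.i) := (hu.2 _ h1).1
      rw [h2] at h3
      exact h3.empty
  | pu k j l =>
    simp only [Pa.own, Multiset.mem_add, Multiset.mem_singleton] at h
    rcases h with rfl | rfl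
    · exact hu.1.empty
    · have h2 := hw.2
      rw [Finset.card_empty, Finset.card_eq_zero] at h2
      have h3 := hu.2.1
      rw [h2] at h3
      exact h3.empty

theorem base {P : Sy r} (hw : WF O P) (hu : u ∈ Sol P) (h : ∀ s ∈ P, s.B = ∅) : AP O P u := by
  refine App.self hu fun i hi p q => ?_
  obtain ⟨s, h1, h2⟩ := mem_own hi
  obtain ⟨a, h3, h4⟩ := mem_pown h2
  have h5 := (hw.sh s h1).2 a h3
  have h6 := (hu s h1).1 a h3
  rw [h s h1] at h5 h6
  rw [part_zero h5 h6 h4, e_a, e_b, E_empty]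
  exact ⟨zero_mem O, zero_mem O⟩

end MainInd

theorem s_main (hp : S_perm) (he : S_ce) (hq : S_cp) (hn : S_cn) : S_main := by
  intro r O P u hO
  induction hm : ms P using Nat.strong_induction_on generalizing P u with
  | _ n ih =>
  intro hw hu
  by_cases h0 : ∀ s ∈ P, s.B = ∅
  · exact MainInd.base hw hu h0
  obtain ⟨s0, h1, h2⟩ : ∃ s0 ∈ P, s0.B ≠ ∅ := by simpa using h0
  obtain ⟨s, h3, h4⟩ := Set.exists_max_image {s | s ∈ P} (fun s => s.B.card)
    (List.finite_toSet P) ⟨s0, h1⟩
  have h5 : s.B.Nonempty :=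
    Finset.card_pos.1 ((Finset.card_pos.2 (Finset.nonempty_iff_ne_empty.2 h2)).trans_le (h4 s0 h1))
  obtain ⟨X, Y, rfl⟩ := List.append_of_mem h3
  obtain ⟨st, hs⟩ := hp r O _ _ u List.perm_middle hw hu
  have h6 : ∀ s' ∈ X ++ Y, s'.B.card ≤ s.B.card := fun s' h =>
    h4 s' (List.perm_middle.mem_iff.2 (List.mem_cons_of_mem _ h))
  have h7 : Red O (s :: (X ++ Y)) u := by
    by_cases k1 : ∀ h i l, .pu h i l ∉ s.ps
    · by_cases k2 : ∀ h A w, .cy h A w ∈ s.ps → AllN w
      · exact hn r O s _ u hO k1 k2 st.wf st.sol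
      · simp only [AllN, not_forall] at k2
        obtain ⟨h, A, w, k3, x, k4, k5⟩ := k2
        exact he r O s _ h A w x u hO h5 h6 k3 k4 k5 st.wf st.sol
    · simp only [not_forall, not_not] at k1
      obtain ⟨h, i, l, k2⟩ := k1
      exact hq r O s _ h i l u h5 k2 st.wf st.sol
  obtain ⟨P', u', st', hlt⟩ := h7
  exact st.ap (st'.ap (ih _ (by omega) P' u' rfl st'.wf st'.sol))

end Vale.Agent.P002S
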