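import Vale.Agent.P002S.Stm

/-! The explicit standard triangle. -/

namespace Vale.Agent.P002S

open Matrix Vale.Agent.P002 Function

namespace Mod_

variable {r : ℕ} (T P : Finset (Fin r)) (π : Equiv.Perm (Fin r))

/-- the matrix of `p ↦ π p` on `P` -/
noncomputable def Q : Mat r := Matrix.of fun i j => if i ∈ P ∧ j = π i then 1 else 0

/-- diagonal on `T`, a two by two block on `P` and its image -/
noncomputable def mk (d : Fin r → ℂ) (a b c f : ℂ) : Mat r :=
  E T * diagonal d + (a • E P + c • (Q P π)ᵀ) + (b • Q P π + f • E (P.image π))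

/-- the three sets are disjoint -/
structure Dj : Prop where
  h1 : Disjoint T P
  h2 : Disjoint T (P.image π)
  h3 : Disjoint P (P.image π)

theorem q1 : E P * Q P π = Q P π := by
  ext i j
  by_cases h : i ∈ P <;> simp [E_mul_apply, Q, h]

theorem q2 : Q P π * E (P.image π) = Q P π := by
  ext i j
  rw [mul_E_apply]
  split_ifs with h
  · rfl
  · exact (if_neg fun e : i ∈ P ∧ j = π i => h (e.2 ▸ Finset.mem_image_of_mem _ e.1)).symm

theorem Et (S : Finset (Fin r)) : (E S)ᵀ = E S := diagonal_transpose _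

theorem q3 : (Q P π)ᵀ * E P = (Q P π)ᵀ := by rw [← Et P, ← transpose_mul, q1]

theorem q4 : E (P.image π) * (Q P π)ᵀ = (Q P π)ᵀ := by
  rw [← Et (P.image π), ← transpose_mul, q2]

theorem q5 : Q P π * (Q P π)ᵀ = E P := by
  ext i j
  rw [mul_apply, Finset.sum_eq_single (π i) (fun k _ h => by simp [Q, h]) (by simp)]
  by_cases h : i = j
  · subst h
    by_cases h : i ∈ P <;> simp [Q, E, h]
  · simp [Q, E, h]

theorem q6 : (Q P π)ᵀ * Q P π = E (P.image π) := by
  ext i j
  obtain ⟨i, rfl⟩ := π.surjective i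
  rw [mul_apply, Finset.sum_eq_single i (fun k _ h => by simp [Q, h.symm]) (by simp)]
  by_cases h : π i = j
  · subst h
    by_cases h : i ∈ P <;> simp [Q, E, h]
  · simp [Q, E, h, Ne.symm h]

theorem zz {x y : Mat r} {S S' : Finset (Fin r)} (hx : x * E S = x) (hy : E S' * y = y)
    (h : Disjoint S S') : x * y = 0 := by
  rw [← hx, ← hy, mul_assoc, ← mul_assoc (E S), E_disj h, zero_mul, mul_zero]

theorem Ed (d : Fin r → ℂ) : diagonal d * E T = E T * diagonal d := by
  simp only [E, diagonal_mul_diagonal, mul_comm]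

variable {T P π}

theorem mk_add (d d' : Fin r → ℂ) (a b c f a' b' c' f' : ℂ) :
    mk T P π d a b c f + mk T P π d' a' b' c' f' =
      mk T P π (fun j => d j + d' j) (a + a') (b + b') (c + c') (f + f') := by
  simp only [mk, ← diagonal_add, mul_add, add_smul]
  abel

theorem mk_mul (h : Dj T P π) (d d' : Fin r → ℂ) (a b c f a' b' c' f' : ℂ) :
    mk T P π d a b c f * mk T P π d' a' b' c' f' = mk T P π (fun j => d j * d' j)
      (a * a' + b * c') (a * b' + b * f') (c * a' + f * c') (c * b' + f * f') := by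
  have x1 : E T * diagonal d * E T = E T * diagonal d := by
    rw [mul_assoc, Ed, ← mul_assoc, E_idem]
  have x2 : (a • E P + c • (Q P π)ᵀ) * E P = a • E P + c • (Q P π)ᵀ := by
    simp only [add_mul, smul_mul_assoc, E_idem, q3]
  have x3 : (b • Q P π + f • E (P.image π)) * E (P.image π) = b • Q P π + f • E (P.image π) := by
    simp only [add_mul, smul_mul_assoc, E_idem, q2]
  have y1 : E T * (E T * diagonal d') = E T * diagonal d' := by rw [← mul_assoc, E_idem]
  have y2 : E P * (a' • E P + b' • Q P π) = a' • E P + b' • Q P π := by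
    simp only [mul_add, mul_smul_comm, E_idem, q1]
  have y3 : E (P.image π) * (c' • (Q P π)ᵀ + f' • E (P.image π)) =
      c' • (Q P π)ᵀ + f' • E (P.image π) := by
    simp only [mul_add, mul_smul_comm, E_idem, q4]
  have e : mk T P π d' a' b' c' f' = E T * diagonal d' + (a' • E P + b' • Q P π) +
      (c' • (Q P π)ᵀ + f' • E (P.image π)) := by
    rw [mk]; abel
  rw [e, mk, add_mul, add_mul, mul_add (E T * _), mul_add (E T * _), mul_add (_ + _),
    mul_add (_ + _), mul_add (b • _ + _), mul_add (b • _ + _), zz x1 y2 h.h1, zz x1 y3 h.h2,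
    zz x2 y1 h.h1.symm, zz x2 y3 h.h3, zz x3 y1 h.h2.symm, zz x3 y2 h.h3.symm, ← mul_assoc, x1,
    mul_assoc, diagonal_mul_diagonal, mk]
  simp only [add_mul, mul_add, smul_mul_assoc, mul_smul_comm, E_idem, q1, q2, q3, q4, q5, q6,
    add_smul, smul_smul, smul_add, mul_comm a', mul_comm b', mul_comm c', mul_comm f']
  abel

theorem mk_ext {d d' : Fin r → ℂ} {a b c f a' b' c' f' : ℂ} (h : ∀ j, d j = d' j)
    (h' : a = a' ∧ b = b' ∧ c = c' ∧ f = f') : mk T P π d a b c f = mk T P π d' a' b' c' f' := by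
  obtain ⟨rfl, rfl, rfl, rfl⟩ := h'
  rw [funext h]

theorem mk_ext' {d d' : Fin r → ℂ} {a b c f a' b' c' f' : ℂ} (h : ∀ j ∈ T, d j = d' j)
    (h' : a = a' ∧ b = b' ∧ c = c' ∧ f = f') : mk T P π d a b c f = mk T P π d' a' b' c' f' := by
  obtain ⟨rfl, rfl, rfl, rfl⟩ := h'
  have : E T * diagonal d = E T * diagonal d' := by
    simp only [E, diagonal_mul_diagonal]
    exact congrArg _ (funext fun j => by by_cases a : j ∈ T <;> simp [a, h])
  rw [mk, mk, this]

theorem mk_zero : (0 : Mat r) = mk T P π (fun _ => 0) 0 0 0 0 := by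
  simp [mk]

theorem mk_diag (h : Dj T P π) (d D : Fin r → ℂ) (a b c f z : ℂ) (hD : ∀ j, j ∉ T → D j = z) :
    mk T P π d a b c f * diagonal D =
      mk T P π (fun j => d j * D j) (a * z) (b * z) (c * z) (f * z) := by
  have e : ∀ S, Disjoint T S → ∀ x : Mat r, x * E S = x → x * diagonal D = z • x := by
    intro S hS x hx
    ext i j
    rw [mul_diagonal, Matrix.smul_apply, ← hx, mul_E_apply]
    split_ifs with hj
    · rw [hD j (Finset.disjoint_right.1 hS hj), smul_eq_mul, mul_comm]
    · simp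
  simp only [mk, add_mul, smul_mul_assoc, mul_assoc, diagonal_mul_diagonal, e _ h.h1 _ (E_idem P),
    e _ h.h1 _ (q3 P π), e _ h.h2 _ (q2 P π), e _ h.h2 _ (E_idem _), smul_smul]

theorem mk_mem {O : Subring ℂ} {d : Fin r → ℂ} {a b c f : ℂ} (hd : ∀ j, d j ∈ O) (ha : a ∈ O)
    (hb : b ∈ O) (hc : c ∈ O) (hf : f ∈ O) (p q : Fin r) : mk T P π d a b c f p q ∈ O := by
  simp only [mk, Matrix.add_apply, Matrix.smul_apply, mul_diagonal, transpose_apply, smul_eq_mul]
  have e : ∀ S : Finset (Fin r), E S p q ∈ O := fun S => by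
    rw [E, diagonal_apply]
    split_ifs <;> simp
  have e' : ∀ p q, Q P π p q ∈ O := fun p q => by
    rw [Q, of_apply]
    split_ifs <;> simp
  exact add_mem (add_mem (mul_mem (e _) (hd _)) (add_mem (mul_mem ha (e _)) (mul_mem hc (e' _ _))))
    (add_mem (mul_mem hb (e' _ _)) (mul_mem hf (e _)))

theorem E_fil (h : Dj T P π) (q : Fin r → Prop) [DecidablePred q] (x y : Prop) [Decidable x]
    [Decidable y] (hxy : x → ¬y) :
    E (T.filter q ∪ if x then P else if y then P.image π else ∅) = mk T P π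
      (fun j => if q j then 1 else 0) (if x then 1 else 0) 0 0 (if y then 1 else 0) := by
  have e : E (T.filter q) = E T * diagonal fun j => if q j then 1 else 0 := by
    simp only [E, diagonal_mul_diagonal, Finset.mem_filter]
    exact congrArg _ (funext fun j => by by_cases a : j ∈ T <;> simp [a])
  have a := h.h1.mono_left (Finset.filter_subset q T)
  have b := h.h2.mono_left (Finset.filter_subset q T)
  by_cases hx : x
  · simp [hx, hxy hx, E_union a, e, mk]
  · by_cases hy : y
    · simp [hx, hy, E_union b, e, mk]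
    · simp [hx, hy, e, mk]

theorem E_B (h : Dj T P π) : E (T ∪ P ∪ P.image π) = mk T P π (fun _ => 1) 1 0 0 1 := by
  rw [E_union (Finset.disjoint_union_left.2 ⟨h.h2, h.h3⟩), E_union h.h1]
  simp [mk]

/-- signs -/
def sb (b : Bool) : ℂˣ := if b then -1 else 1

theorem sb_inv (b : Bool) : (sb b)⁻¹ = sb b := by cases b <;> simp [sb]

theorem sb_mem (O : Subring ℂ) (b : Bool) : (sb b : ℂ) ∈ O := by cases b <;> simp [sb]

/-- the sign at the corner `i` -/
def cb (b : Fin 3 → Bool) (i : Fin 3) : Bool := !b (i + 1) && (b (i + 2) != b i)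

/-- target blocks -/
def mG (T P : Finset (Fin r)) (bit : Fin r → Fin 3 → Bool) (i : Fin 3) (δ ε : Bool) :
    Finset (Fin r) :=
  T.filter (fun t => bit t (i + 2) = δ ∧ bit t i = ε) ∪ if δ ≠ ε then P else ∅

theorem f3 (i : Fin 3) : i + 1 + 2 = i := by revert i; decide

theorem mem_H {bit : Fin r → Fin 3 → Bool} {i : Fin 3} {δ ε : Bool} {j : Fin r}
    {P' : Finset (Fin r)} : j ∈ mH T P P' bit i δ ε ↔ j ∈ T ∧ bit j (i + 2) = δ ∧ bit j i = ε ∨
      δ = false ∧ ε = true ∧ j ∈ P ∨ δ = true ∧ ε = false ∧ j ∈ P' := by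
  cases δ <;> cases ε <;> simp [mH]

theorem mem_G {bit : Fin r → Fin 3 → Bool} {i : Fin 3} {δ ε : Bool} {j : Fin r} :
    j ∈ mG T P bit i δ ε ↔ j ∈ T ∧ bit j (i + 2) = δ ∧ bit j i = ε ∨ δ ≠ ε ∧ j ∈ P := by
  cases δ <;> cases ε <;> simp [mG]

theorem H_dj (h : Dj T P π) (bit : Fin r → Fin 3 → Bool) (i : Fin 3) (δ ε δ' ε' : Bool)
    (n : (δ, ε) ≠ (δ', ε')) :
    Disjoint (mH T P (P.image π) bit i δ ε) (mH T P (P.image π) bit i δ' ε') := by
  refine Finset.disjoint_left.2 fun j a b => ?_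
  have h1 := @Finset.disjoint_left.1 h.h1 j
  have h2 := @Finset.disjoint_left.1 h.h2 j
  have h3 := @Finset.disjoint_left.1 h.h3 j
  rw [mem_H] at a b
  generalize P.image π = P' at *
  grind

theorem E_H (h : Dj T P π) (bit : Fin r → Fin 3 → Bool) (i : Fin 3) (δ ε : Bool) :
    E (mH T P (P.image π) bit i δ ε) = mk T P π
      (fun j => if bit j (i + 2) = δ ∧ bit j i = ε then 1 else 0)
      (if δ = false ∧ ε = true then 1 else 0) 0 0 (if δ = true ∧ ε = false then 1 else 0) :=
  E_fil h _ _ _ (by simp +contextual)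

theorem E_G (h : Dj T P π) (bit : Fin r → Fin 3 → Bool) (i : Fin 3) (δ ε : Bool) :
    E (mG T P bit i δ ε) = mk T P π (fun j => if bit j (i + 2) = δ ∧ bit j i = ε then 1 else 0)
      (if δ ≠ ε then 1 else 0) 0 0 0 := by
  simpa [mG] using E_fil h (fun j => bit j (i + 2) = δ ∧ bit j i = ε) (δ ≠ ε) False fun _ => id

theorem E_O (h : Dj T P π) (bit : Fin r → Fin 3 → Bool) (i : Fin 3) (ε : Bool) :
    E ((fO (mH T P (P.image π) bit i)).pt ε) = mk T P π (fun j => if bit j i = ε then 1 else 0)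
      (if ε then 1 else 0) 0 0 (if ε then 0 else 1) := by
  cases ε <;> simp only [fO, Fl.pt_false, Fl.pt_true] <;>
    rw [E_union (H_dj h bit i _ _ _ _ (by simp)), E_H h, E_H h, mk_add] <;>
    exact mk_ext (fun j => by cases bit j (i + 2) <;> simp) (by simp)

theorem E_I (h : Dj T P π) (bit : Fin r → Fin 3 → Bool) (i : Fin 3) (ε : Bool) :
    E ((fI (mH T P (P.image π) bit (i + 1))).pt ε) =
      mk T P π (fun j => if bit j i = ε then 1 else 0)
        (if ε then 0 else 1) 0 0 (if ε then 1 else 0) := by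
  cases ε <;> simp only [fI, Fl.pt_false, Fl.pt_true] <;>
    rw [E_union (H_dj h bit _ _ _ _ _ (by simp)), E_H h, E_H h, mk_add, f3] <;>
    exact mk_ext (fun j => by cases bit j (i + 1) <;> simp) (by simp)

/-- the model -/
noncomputable def md (h : Dj T P π) (O : Subring ℂ) (bit : Fin r → Fin 3 → Bool) : Mod O r where
  B := T ∪ P ∪ P.image π
  G := mG T P bit
  H := mH T P (P.image π) bit
  Γ i := ⟨mk T P π (fun j => sb (cb (bit j) i)) (-1) (-1) 1 0,
    mk T P π (fun j => sb (cb (bit j) i)) 0 1 (-1) (-1)⟩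
  ρ i δ ε := ⟨mk T P π (fun j => if bit j (i + 2) = δ ∧ bit j i = ε then 1 else 0)
      (if δ = false ∧ ε = true then 1 else 0) 0 (if δ = true ∧ ε = false then 1 else 0) 0,
    mk T P π (fun j => if bit j (i + 2) = δ ∧ bit j i = ε then 1 else 0)
      (if δ = false ∧ ε = true then 1 else 0) (if δ = true ∧ ε = false then 1 else 0) 0 0⟩
  σ i ε j := sb (if j ∈ T then cb (bit j) i else ε)
  Hd := H_dj h bit
  HB i := by
    ext j
    simp only [fI, Fl.s, Finset.mem_union, mem_H]
    generalize P.image π = P'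
    grind
  Gd1 i ε := Finset.disjoint_left.2 fun j a b => by
    have h1 := @Finset.disjoint_left.1 h.h1 j
    rw [mem_G] at a b
    grind
  Gd2 i ε := Finset.disjoint_left.2 fun j a b => by
    have h1 := @Finset.disjoint_left.1 h.h1 j
    rw [mem_G] at a b
    grind
  GY i ε := by
    ext j
    simp only [Finset.mem_union, mem_G, f3]
    grind
  ρi i δ ε := by
    refine IsIso.of_mat ?_ ?_ ?_ ?_ <;> simp only [E_H h, E_G h, mk_mul h] <;>
      exact mk_ext (fun j => by split_ifs <;> simp) (by cases δ <;> cases ε <;> simp)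
  ρO i δ ε p q := by
    constructor <;> refine mk_mem (fun j => ?_) ?_ ?_ ?_ ?_ p q <;>
      first | exact zero_mem _ | (split_ifs <;> simp)
  ΓO i p q := by
    constructor <;> exact mk_mem (fun j => sb_mem O _) (by simp) (by simp) (by simp) (by simp) p q
  Γi i := by
    refine IsIso.of_mat ?_ ?_ ?_ ?_ <;> simp only [E_B h, mk_mul h] <;>
      exact mk_ext (fun j => by cases cb (bit j) i <;> simp [sb]) (by simp)
  Γt i := by
    have a := E_O h bit i
    have b := E_I h bit i
    refine ⟨?_, ?_⟩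
    · rw [← Fl.pt_false, ← Fl.pt_true, a, b, mk_mul h, mk_mul h, mk_zero]
      exact mk_ext (fun j => by cases bit j i <;> simp) (by simp)
    · rw [← Fl.pt_false, ← Fl.pt_true, a, b, mk_mul h, mk_mul h, mk_zero]
      exact mk_ext (fun j => by cases bit j i <;> simp) (by simp)
  Γ3 := by
    refine W.ext ?_ ?_ <;> simp only [W.mul_a, W.mul_b, e_a, e_b, E_B h, mk_mul h] <;>
      refine mk_ext (fun j => ?_) (by simp) <;>
      cases h0 : bit j 0 <;> cases h1 : bit j 1 <;> cases h2 : bit j 2 <;>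
      simp [cb, sb, h0, h1, h2]
  σc i ε := by
    refine ⟨fun j => ⟨sb_mem O _, by rw [sb_inv]; exact sb_mem O _⟩, fun j hj k hk a b => ?_⟩
    have h1 := @Finset.disjoint_left.1 h.h1 j
    have h2 := @Finset.disjoint_left.1 h.h1 k
    simp only [Fl.s, Finset.mem_union, mem_G, f3] at hj hk a b
    refine congrArg sb ?_
    simp only [cb]
    grind
  Γg i ε := by
    have d := fun d a b c f => mk_diag h d
      (fun j => (sb (if j ∈ T then cb (bit j) i else ε) : ℂ)) a b c f (sb ε)
      fun j hj => by rw [if_neg hj]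
    refine W.ext ?_ ?_ <;>
      simp only [gr, dg, sb_inv, W.mul_a, W.mul_b, W.sw_a, W.sw_b, W.ad_a, W.ad_b, e_a, e_b, E_O h,
        E_I h, mk_add, ← mul_assoc, d, mk_mul h, f3] <;>
      refine mk_ext' (fun j hj => ?_) (by cases ε <;> simp [sb]) <;>
      cases bit j (i + 2) <;> cases bit j (i + 1) <;> simp [hj]

end Mod_

theorem s_mod : S_mod := by
  intro r O T P π bit h1 h2 h3
  refine ⟨Mod_.md ⟨h1, h2, h3⟩ O bit, rfl, rfl, fun i => ⟨fun t ht => ?_, fun p hp => ?_⟩⟩
  · have a := Finset.disjoint_left.1 h1 ht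
    have b := Finset.disjoint_left.1 h2 ht
    have c : ∀ j ∈ P, t ≠ π j := fun j hj e => b (e ▸ Finset.mem_image_of_mem _ hj)
    refine ⟨Mod_.sb (Mod_.cb (bit t) i), Units.ne_zero _, funext fun j => ?_⟩
    by_cases e : t = j
    · subst e
      simp [Mod_.md, Mod_.mk, Mod_.Q, E, a, b, ht]
    · simpa [Mod_.md, Mod_.mk, Mod_.Q, E, a, e, Ne.symm e] using c j
  · have m := Finset.mem_image_of_mem π hp
    have a := Finset.disjoint_right.1 h1 hp
    have b := Finset.disjoint_right.1 h2 m
    have c := Finset.disjoint_right.1 h3 m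
    have d := Finset.disjoint_left.1 h3 hp
    have f : ∀ j ∈ P, p ≠ π j := fun j hj e => d (e ▸ Finset.mem_image_of_mem _ hj)
    constructor <;> funext j
    · by_cases e : p = j
      · subst e
        simp [Mod_.md, Mod_.mk, Mod_.Q, E, b, c, hp, (f p hp).symm]
      · simp [Mod_.md, Mod_.mk, Mod_.Q, E, b, c, e, Ne.symm e, diagonal_apply]
    · by_cases e : p = j
      · subst e
        simp [Mod_.md, Mod_.mk, Mod_.Q, E, a, hp, f p hp]
      · have := f j
        by_cases e' : j ∈ P <;>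
          simp [Mod_.md, Mod_.mk, Mod_.Q, E, hp, e, e', f, Ne.symm e, Pi.single_apply]

end Vale.Agent.P002S
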