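import Vale.Agent.P002S.Stm

/-! Peeling one block off a puncture. -/

namespace Vale.Agent.P002S

open Matrix Vale.Agent.P002 Function

namespace Pu

variable {r : ℕ} {O : Subring ℂ} {S U B : Finset (Fin r)} {c z : ℂˣ} {q k m : W r}
  {l : List (ℂˣ × Finset (Fin r))} {Q : List (Pa r)} {R : Sy r} {h i N : ℕ}

theorem esc_a (S : Finset (Fin r)) (c : ℂˣ) : (e S * sc c).a = (c : ℂ) • E S := by
  rw [W.mul_a, sc_a, e_a, Matrix.mul_smul, Matrix.mul_one]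

theorem fwd (hd : Disjoint S U) (hq : IsIso (S ∪ U) (S ∪ U) q) (h : E S * q.a = (c : ℂ) • E S) :
    Tri (S, U) (S, U) q ∧ gr S S q = e S * sc c := by
  have ht : Tri (S, U) (S, U) q := Tri.of_card (F := (S, U)) (G := (S, U)) hq hd hd rfl (by
    rw [h, Matrix.smul_mul, E_disj hd, smul_zero])
  refine ⟨ht, (ht.iso hq hd hd false).ext ((IsIso.id S).dgr _) ?_⟩
  change E S * q.a * E S = (e S * sc c).a
  rw [h, esc_a, Matrix.smul_mul, E_idem]

theorem bwd (hd : Disjoint S (uni l)) (hq : IsIso (S ∪ uni l) (S ∪ uni l) q)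
    (ht : Tri (S, uni l) (S, uni l) q) (h1 : gr S S q = e S * sc c)
    (h2 : gr (uni l) (uni l) q = k * m * k.sw) (hk : IsIso (uni l) (uni l) k)
    (hm : IsIso (uni l) (uni l) m) (hl : TriM l m.a) :
    TriM ((c, S) :: l) (((e S).ad k).sw * q * (e S).ad k).a := by
  have hk' := (IsIso.id S).ad hk hd hd
  obtain ⟨t1, g1, g2⟩ := Tri.ad (F := (S, uni l)) (G := (S, uni l)) (IsIso.id S) hk hd hd
  have t2 := t1.sw.mul ht hk'.sw hq hd
  have t3 := t2.mul t1 (hk'.sw.mul hq) hk' hd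
  have i3 := (hk'.sw.mul hq).mul hk'
  have g : ∀ b, _ := fun b => (t2.gr_mul t1 (hk'.sw.mul hq) hk' hd b).trans
    (congrArg (· * _) (t1.sw.gr_mul ht hk'.sw hq hd b))
  have g3 := g false
  have g4 := g true
  simp only [Fl.pt_false, Fl.pt_true, ← gr_sw, g1, g2, h1, h2] at g3 g4
  replace g3 := g3.trans (show _ = e S * sc c by
    rw [e_sw, ← mul_assoc, e_idem, mul_assoc, sc_comm, ← mul_assoc, e_idem])
  replace g4 := g4.trans (show _ = m by simp only [mul_assoc, hk.mc', hk.m', hm.r', hm.l])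
  rw [← g4] at hl
  refine ⟨(congrArg (· * _) i3.la).trans i3.ra, ?_, hl⟩
  have g5 := (congrArg W.a g3).trans (esc_a S c)
  rw [← i3.ra, E_union hd, ← Matrix.mul_assoc, Matrix.mul_add, t3.1, add_zero]
  exact g5

theorem rel {a b d : W r} (ha : IsIso U U a) (hb : IsIso U U b)
    (h : e U * (a * b * a.sw * (d * m * d.sw)) = e U) :
    b.sw = a.sw * d * m * (a.sw * d).sw := by
  have h1 := congrArg (fun t => b.sw * (a.sw * (t * a))) h
  simp only [mul_assoc, ha.lc, ha.mc', hb.lc, hb.mc', ha.sw.lc, ha.l, ha.m', hb.sw.r'] at h1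
  simp only [mul_assoc, W.sw_mul, W.sw_sw, h1]

theorem cyc_fl (j n : ℕ) (σ : Bool) : Cyc O S [.l (fl j ⟨n, σ, S, S⟩)] := by
  simp [Cyc, fl, Lt.tgt, Lt.src, Lt.wf, Fl.s]

theorem sol_iff (O : Subring ℂ) (v : Pt r) : v ∈ Sol (puSy N B z Q h i c S l ++ R) ↔
    (((IsIso B (S ∪ uni l) (v.1 h) ∧ IsIso (S ∪ uni l) (S ∪ uni l) (v.1 i) ∧
      Tri (S, uni l) (S, uni l) (v.1 i) ∧ gr S S (v.1 i) = gr S S (v.2 N) ∧
      gr (uni l) (uni l) (v.1 i) = gr (uni l) (uni l) (v.2 (N + 1))) ∧ pok v B Q) ∧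
      e B * (v.1 h * v.1 i * (v.1 h).sw * pv v.1 Q) = e B * sc z) ∧
    (IsIso S S (v.1 N) ∧ (IsIso S S (v.1 (N + 1)) ∧ v.1 (N + 1) = (gr S S (v.2 N)).sw) ∧
      e S * v.1 (N + 1) = e S * sc c⁻¹) ∧
    (((IsIso (uni l) (uni l) (v.1 (N + 2)) ∧ IsIso (uni l) (uni l) (v.1 (N + 3)) ∧
      v.1 (N + 3) = (gr (uni l) (uni l) (v.2 (N + 1))).sw) ∧
      IsIso (uni l) (uni l) (v.1 (N + 4)) ∧ IsIso (uni l) (uni l) (v.1 (N + 5)) ∧
      TriM l (v.1 (N + 5)).a) ∧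
      e (uni l) * (v.1 (N + 2) * v.1 (N + 3) * (v.1 (N + 2)).sw *
        (v.1 (N + 4) * v.1 (N + 5) * (v.1 (N + 4)).sw)) = e (uni l)) ∧ v ∈ Sol R := by
  simp only [puSy, List.cons_append, List.nil_append, sol_cons, disk_ok (cyc_fl (O := O) _ _ _),
    wok_l, wok_nil, and_true, (full_fl _ _).ok]
  simp only [Sh.ok, pok_cons, pok_nil, pv_cons, pv_nil, Pa.ok, Pa.v, wok_l, wok_nil, wv_l, wv_nil,
    and_true, mul_one, (full_fl _ _).ok, sc_one, gr_sw]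
  rfl

theorem own_eq : own (puSy N B z Q h i c S l ++ R) =
    own (⟨B, z, .pu h i ((c, S) :: l) :: Q⟩ :: R) +
      ({N} + {N + 1} + {N + 2} + {N + 3} + {N + 4} + {N + 5}) := by
  simp only [puSy, own_append, own_cons, own_nil, pown_cons, pown_nil, Pa.own, wown_l, wown_nil,
    disk, fl]
  abel

theorem wf (hw : WF O (⟨B, z, .pu h i ((c, S) :: l) :: Q⟩ :: R))
    (hb : Below N (⟨B, z, .pu h i ((c, S) :: l) :: Q⟩ :: R)) :
    WF O (puSy N B z Q h i c S l ++ R) := by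
  obtain ⟨hz, h1⟩ := hw.sh _ List.mem_cons_self
  obtain ⟨⟨⟨hc, hd, hl⟩, hB⟩, hQ⟩ := (pwf_cons _ _ _).1 h1
  refine ⟨?_, ?_, ?_⟩
  · simp only [puSy, List.cons_append, List.nil_append, List.forall_mem_cons]
    exact ⟨⟨hz, (pwf_cons _ _ _).2 ⟨⟨hB, rfl, rfl, ⟨hd, hd, rfl, rfl⟩, rfl⟩, hQ⟩⟩,
      disk_wf.2 ⟨hc.inv, cyc_fl _ _ _⟩, ⟨Un.one, (pwf_cons _ _ _).2 ⟨⟨rfl, cyc_fl _ _ _⟩,
        (pwf_cons _ _ _).2 ⟨⟨hl, rfl⟩, pwf_nil _⟩⟩⟩, fun s hs => hw.sh s (List.mem_cons_of_mem _ hs)⟩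
  · rw [own_eq, Multiset.nodup_add]
    refine ⟨hw.nd, by simp, Multiset.disjoint_left.2 fun hj hj' => ?_⟩
    have := hb.1 _ hj
    simp only [Multiset.mem_add, Multiset.mem_singleton] at hj'
    omega
  · have e1 : oc (puSy N B z Q h i c S l ++ R) = {⟨0, false, ∅, ∅⟩} + ({⟨0, false, ∅, ∅⟩} +
        ({⟨N + 1, true, uni l, uni l⟩} + {Occ.flip ⟨N + 1, true, uni l, uni l⟩} +
          ({⟨N, true, S, S⟩} + {Occ.flip ⟨N, true, S, S⟩} +
            oc (⟨B, z, .pu h i ((c, S) :: l) :: Q⟩ :: R)))) := by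
      simp only [puSy, oc_append, oc_cons, oc_nil, poc_cons, poc_nil, Pa.oc, woc_l, woc_nil,
        disk, fl, Occ.flip, Bool.not_true]
      abel
    rw [e1, ocOk_empty rfl, ocOk_empty rfl]
    refine (hw.oc.add_pair rfl fun o ho hS => (hb.2 o ho hS).ne).add_pair rfl fun o ho hS => ?_
    rw [Multiset.mem_add, Multiset.mem_add, Multiset.mem_singleton, Multiset.mem_singleton] at ho
    rcases ho with (rfl | rfl) | ho
    · exact (Nat.lt_succ_self N).ne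
    · exact (Nat.lt_succ_self N).ne
    · exact ((hb.2 o ho hS).trans (Nat.lt_succ_self N)).ne

/-- the new point -/
noncomputable def pt (N : ℕ) (S U : Finset (Fin r)) (q : W r) (u : Pt r) : Pt r :=
  (fun j => if j < N then u.1 j else if j = N then e S else if j = N + 1 then (gr S S q).sw else
    if j = N + 3 then (gr U U q).sw else if j = N + 5 then gr U U q else e U,
    fun j => if j < N then u.2 j else q)

/-- the change of basis -/
noncomputable def kk (N : ℕ) (S : Finset (Fin r)) (v : Pt r) : W r :=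
  (e S).ad ((v.1 (N + 2)).sw * v.1 (N + 4))

/-- the map back -/
noncomputable def bk (N h i : ℕ) (S : Finset (Fin r)) (v : Pt r) : Pt r :=
  (update (update v.1 i ((kk N S v).sw * v.1 i * kk N S v)) h (v.1 h * kk N S v), v.2)

theorem bk_sol (hw : WF O (⟨B, z, .pu h i ((c, S) :: l) :: Q⟩ :: R)) {v : Pt r}
    (hv : v ∈ Sol (puSy N B z Q h i c S l ++ R)) :
    bk N h i S v ∈ Sol (⟨B, z, .pu h i ((c, S) :: l) :: Q⟩ :: R) := by
  have hd : Disjoint S (uni l) := ((pwf_cons _ _ _).1 (hw.sh _ List.mem_cons_self).2).1.1.2.1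
  have hn := hw.nd
  simp only [own_cons, pown_cons, Pa.own, add_assoc] at hn
  simp only [Multiset.singleton_add, Multiset.nodup_cons, Multiset.mem_cons, Multiset.mem_add,
    not_or] at hn
  obtain ⟨⟨n1, n2, n3⟩, ⟨n4, n5⟩, -⟩ := hn
  obtain ⟨⟨⟨⟨a1, a2, a3, a4, a5⟩, a6⟩, a7⟩, ⟨-, ⟨b1, b2⟩, b3⟩, ⟨⟨⟨c1, c2, c3⟩, c4, c5, c6⟩, c7⟩,
    hR⟩ := (sol_iff O v).1 hv
  have hk := c1.sw.mul c4
  have hk' : IsIso (S ∪ uni l) (S ∪ uni l) (kk N S v) := (IsIso.id S).ad hk hd hd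
  have e1 : (bk N h i S v).1 h = v.1 h * kk N S v := update_self ..
  have e2 : (bk N h i S v).1 i = (kk N S v).sw * v.1 i * kk N S v :=
    (update_of_ne (Ne.symm n1) ..).trans (update_self ..)
  have e3 : ∀ j, j ≠ h → j ≠ i → v.1 j = (bk N h i S v).1 j := fun j j1 j2 =>
    ((update_of_ne j1 ..).trans (update_of_ne j2 ..)).symm
  have e4 : ∀ j ∈ pown Q, v.1 j = (bk N h i S v).1 j := fun j hj =>
    e3 j (fun e => n2 (e ▸ hj)) fun e => n4 (e ▸ hj)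
  have g1 : gr S S (v.1 i) = e S * sc c := by
    rw [b1.l] at b3
    rw [a4, ← W.sw_sw (gr S S _), ← b2, b3, W.sw_mul, sc_sw, inv_inv, e_sw, sc_comm]
  have g2 := rel c1 c2 c7
  rw [c3, W.sw_sw, ← a5] at g2
  refine (sol_cons ..).2 ⟨⟨(pok_cons ..).2 ⟨?_, a6.congr e4 fun _ _ _ => rfl⟩, ?_⟩,
    sol_congr hR (fun j hj => e3 j (fun e => n3 (e ▸ hj)) fun e => n5 (e ▸ hj)) fun _ _ _ => rfl⟩
  · simp only [Pa.ok, e1, e2]
    exact ⟨a1.mul hk', (hk'.sw.mul a2).mul hk', bwd hd a2 a3 g1 g2 hk c5 c6⟩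
  · simp only [pv_cons, Pa.v, e1, e2, ← pv_congr e4, ← a7]
    simp only [mul_assoc, W.sw_mul, hk'.mc, a2.lc, a2.rc]

end Pu

open Pu in
theorem s_pu : S_pu := by
  intro r O B z Q h i c S l R N u hw hu hb
  have hd : Disjoint S (uni l) := ((pwf_cons _ _ _).1 (hw.sh _ List.mem_cons_self).2).1.1.2.1
  obtain ⟨⟨h1, h2⟩, hR⟩ := (sol_cons ..).1 hu
  obtain ⟨⟨a1, a2, -, a3, a4⟩, hQ⟩ := (pok_cons ..).1 h1
  obtain ⟨t1, g1⟩ := fwd hd a2 a3
  have i1 := t1.iso a2 hd hd false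
  have i2 := t1.iso a2 hd hd true
  have e0 : ∀ j ∈ own (⟨B, z, .pu h i ((c, S) :: l) :: Q⟩ :: R),
      u.1 j = (pt N S (uni l) (u.1 i) u).1 j := fun j hj => (if_pos (hb.1 j hj)).symm
  have e1 : ∀ o ∈ oc (⟨B, z, .pu h i ((c, S) :: l) :: Q⟩ :: R), o.S.Nonempty →
      u.2 o.e = (pt N S (uni l) (u.1 i) u).2 o.e := fun o ho hS => (if_pos (hb.2 o ho hS)).symm
  have eh := e0 h (by simp [Pa.own])
  have ei := e0 i (by simp [Pa.own])
  have eQ : ∀ j ∈ pown Q, u.1 j = (pt N S (uni l) (u.1 i) u).1 j := fun j hj => e0 j (by simp [hj])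
  have hm : ∀ j ∈ own (⟨B, z, .pu h i ((c, S) :: l) :: Q⟩ :: R),
      j ∈ {j | j ∈ own (puSy N B z Q h i c S l ++ R)} := fun j hj =>
    own_eq ▸ Multiset.mem_add.2 (Or.inl hj)
  refine ⟨pt N S (uni l) (u.1 i) u, wf hw hb, (sol_iff O _).2 ?_, App.map (bk N h i S) ?_
    (fun v => bk_sol hw) ?_⟩
  · rw [← eh, ← ei, ← pv_congr eQ]
    refine ⟨⟨⟨⟨a1, a2, t1, ?_⟩, hQ.congr eQ fun o ho => e1 o (by simp [ho])⟩, h2⟩, ?_, ?_,
      sol_congr hR (fun j hj => e0 j (by simp [hj])) fun o ho => e1 o (by simp [ho])⟩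
    · simp [pt]
    · simp only [pt, lt_self_iff_false, if_false, if_true, add_lt_iff_neg_left, Nat.not_lt_zero,
        Nat.add_eq_left, Nat.succ_ne_zero]
      refine ⟨IsIso.id S, ⟨i1.sw, trivial⟩, ?_⟩
      rw [g1, W.sw_mul, sc_sw, e_sw, sc_comm, ← mul_assoc, e_idem]
    · simp only [pt, if_false, if_true, add_lt_iff_neg_left, Nat.not_lt_zero,
        Nat.add_eq_left, Nat.succ_ne_zero, Nat.add_left_cancel_iff, Nat.reduceEqDiff]
      refine ⟨⟨⟨IsIso.id _, i2.sw, trivial⟩, IsIso.id _, i2, a4⟩, ?_⟩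
      have i3 : IsIso (uni l) (uni l) (gr (uni l) (uni l) (u.1 i)) := i2
      rw [e_sw, i3.sw.l, i3.sw.r', i3.l, i3.r', i3.m', e_idem]
  · have hk : PW O {j | j ∈ own (puSy N B z Q h i c S l ++ R)} (kk N S) :=
      (PW.e S).ad ((PW.var (by rw [own_eq]; simp)).sw.mul (PW.var (by rw [own_eq]; simp)))
    exact fun j hj => PW.update ((PW.var (hm h (by simp [Pa.own]))).mul hk) fun _ =>
      PW.update ((hk.sw.mul (PW.var (hm i (by simp [Pa.own])))).mul hk) fun _ => PW.var (hm j hj)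
  · have hk : kk N S (pt N S (uni l) (u.1 i) u) = e (S ∪ uni l) := by
      refine W.ext ?_ ?_ <;> simp [kk, pt, E_idem, E_union hd]
    intro j hj
    have a1' : IsIso B (S ∪ uni l) (u.1 h) := a1
    have a2' : IsIso (S ∪ uni l) (S ∪ uni l) (u.1 i) := a2
    simp only [bk, hk, ← eh, ← ei, e_sw, a1'.r', a2'.l, a2'.r']
    rw [update_eq_self_iff (a := i) |>.2 ei, update_eq_self_iff.2 eh, e0 j hj]

end Vale.Agent.P002S
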