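import Vale.Agent.P002S.Stm

/-! Pulling a cycle to the left. -/

namespace Vale.Agent.P002S

open Matrix Vale.Agent.P002 Function

namespace Pull

variable {r : ℕ} {O : Subring ℂ} {A B : Finset (Fin r)} {p k : W r}

theorem csw (h2 : e B * p = p * e B) : e B * p.sw = p.sw * e B := by
  simpa using (congrArg W.sw h2).symm

theorem isw (h1 : IsIso B B (e B * p)) (h2 : e B * p = p * e B) : IsIso B B (e B * p.sw) := by
  have := h1.sw
  rwa [W.sw_mul, e_sw, ← csw h2] at this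

theorem can (h1 : IsIso B B (e B * p)) (h2 : e B * p = p * e B) (hk : IsIso B A k) :
    p.sw * (p * k) = k := by
  have a := h1.mc' k
  rw [W.sw_mul, e_sw, hk.l, mul_assoc, ← mul_assoc (e B), ← mul_assoc (e B), e_idem, h2,
    mul_assoc, hk.l] at a
  exact a

theorem iso (h1 : IsIso B B (e B * p)) (h2 : e B * p = p * e B) (hk : IsIso B A k) :
    IsIso B A (p * k) := by
  have a := h1.mul hk
  rwa [h2, mul_assoc, hk.l] at a

variable {z : ℂˣ} {X0 X Y : List (Pa r)} {h : ℕ} {w : List (It r)} {R : Sy r} {u : Pt r}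

/-- the label is not used elsewhere -/
def Fr (h : ℕ) (X0 X Y : List (Pa r)) (w : List (It r)) (R : Sy r) : Prop :=
  h ∉ pown X0 ∧ h ∉ pown X ∧ h ∉ pown Y ∧ h ∉ wown w ∧ h ∉ own R

theorem up {K : Multiset ℕ} (hK : h ∉ K) (y : ℕ → W r) (g : W r) :
    ∀ i ∈ K, y i = update y h g i := fun i hi =>
  (update_of_ne (fun e : i = h => hK (e ▸ hi)) g y).symm

theorem pvu (hK : h ∉ pown X) (y : ℕ → W r) (g : W r) : pv (update y h g) X = pv y X :=
  (pv_congr (up hK y g)).symm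

theorem fwd (f : Fr h X0 X Y w R) (hX : pwf O B X)
    (hu : u ∈ Sol (⟨B, z, X0 ++ X ++ .cy h A w :: Y⟩ :: R)) :
    (update u.1 h (pv u.1 X * u.1 h), u.2) ∈
      Sol (⟨B, z, X0 ++ .cy h A w :: (X ++ Y)⟩ :: R) := by
  obtain ⟨f1, f2, f3, f4, f5⟩ := f
  simp only [sol_cons, Sh.ok, pok_append, pok_cons, Pa.ok, pv_append, pv_cons, Pa.v] at hu ⊢
  obtain ⟨⟨⟨⟨a1, a2⟩, ⟨a3, a4⟩, a5⟩, a6⟩, a7⟩ := hu
  have i1 := a2.iso hX
  have i2 := a2.comm hX
  refine ⟨⟨⟨a1.congr (up f1 _ _) fun _ _ _ => rfl, ⟨?_, a4.congr (up f4 _ _) fun _ _ _ => rfl⟩,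
    a2.congr (up f2 _ _) fun _ _ _ => rfl, a5.congr (up f3 _ _) fun _ _ _ => rfl⟩, ?_⟩,
    sol_congr a7 (up f5 _ _) fun _ _ _ => rfl⟩
  · rw [update_self]
    exact iso i1 i2 a3
  · have c : ∀ y, (u.1 h).sw * ((pv u.1 X).sw * (pv u.1 X * y)) = (u.1 h).sw * y := fun y => by
      have c1 := congrArg W.sw (can i1 i2 a3)
      simp only [W.sw_mul, W.sw_sw] at c1
      rw [← mul_assoc, ← mul_assoc, c1]
    rw [pvu f1, pvu f2, pvu f3, ← wv_congr (up f4 _ _), update_self, ← a6]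
    simp only [W.sw_mul, mul_assoc, c]

theorem bwd (f : Fr h X0 X Y w R) (hX : pwf O B X)
    (hu : u ∈ Sol (⟨B, z, X0 ++ .cy h A w :: (X ++ Y)⟩ :: R)) :
    (update u.1 h ((pv u.1 X).sw * u.1 h), u.2) ∈
      Sol (⟨B, z, X0 ++ X ++ .cy h A w :: Y⟩ :: R) := by
  obtain ⟨f1, f2, f3, f4, f5⟩ := f
  simp only [sol_cons, Sh.ok, pok_append, pok_cons, Pa.ok, pv_append, pv_cons, Pa.v] at hu ⊢
  obtain ⟨⟨⟨a1, ⟨a3, a4⟩, a2, a5⟩, a6⟩, a7⟩ := hu
  have i1 := a2.iso hX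
  have i2 := a2.comm hX
  refine ⟨⟨⟨⟨a1.congr (up f1 _ _) fun _ _ _ => rfl, a2.congr (up f2 _ _) fun _ _ _ => rfl⟩,
    ⟨?_, a4.congr (up f4 _ _) fun _ _ _ => rfl⟩, a5.congr (up f3 _ _) fun _ _ _ => rfl⟩, ?_⟩,
    sol_congr a7 (up f5 _ _) fun _ _ _ => rfl⟩
  · rw [update_self]
    exact iso (isw i1 i2) (csw i2) a3
  · have c : ∀ y, pv u.1 X * ((pv u.1 X).sw * (u.1 h * y)) = u.1 h * y := fun y => by
      have c1 := can (isw i1 i2) (csw i2) a3
      rw [W.sw_sw] at c1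
      rw [← mul_assoc (pv u.1 X).sw, ← mul_assoc, c1]
    rw [pvu f1, pvu f2, pvu f3, ← wv_congr (up f4 _ _), update_self, ← a6]
    simp only [W.sw_mul, W.sw_sw, mul_assoc, c]

end Pull

theorem s_pull : S_pull := by
  intro r O B z X0 X Y h A w R u hW hu
  have eo : own (⟨B, z, X0 ++ .cy h A w :: (X ++ Y)⟩ :: R) =
      own (⟨B, z, X0 ++ X ++ .cy h A w :: Y⟩ :: R) := by
    simp only [own_cons, pown_append, pown_cons]
    abel
  have ec : oc (⟨B, z, X0 ++ .cy h A w :: (X ++ Y)⟩ :: R) =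
      oc (⟨B, z, X0 ++ X ++ .cy h A w :: Y⟩ :: R) := by
    simp only [oc_cons, poc_append, poc_cons]
    abel
  have f : Pull.Fr h X0 X Y w R := by
    have a := Multiset.nodup_iff_count_le_one.1 hW.nd h
    simp only [own_cons, pown_append, pown_cons, Pa.own, Multiset.count_add,
      Multiset.count_singleton_self] at a
    refine ⟨?_, ?_, ?_, ?_, ?_⟩ <;> rw [← Multiset.count_eq_zero] <;> omega
  have hs := hW.sh _ List.mem_cons_self
  simp only [Sh.wf, pwf_append, pwf_cons] at hs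
  obtain ⟨s1, ⟨s2, s3⟩, s4, s5⟩ := hs
  refine ⟨⟨fun s hs => ?_, eo ▸ hW.nd, ec ▸ hW.oc⟩, Pull.fwd f s3 hu, fun H => ?_⟩
  · rcases List.mem_cons.1 hs with rfl | hs
    · simp only [Sh.wf, pwf_append, pwf_cons]
      exact ⟨s1, s2, s4, s3, s5⟩
    · exact hW.sh s (List.mem_cons_of_mem _ hs)
  · refine App.map (fun v => (update v.1 h ((pv v.1 X).sw * v.1 h), v.2)) (fun i hi => ?_)
      (fun v hv => Pull.bwd f s3 hv) (fun i _ => ?_) H
    · refine PW.update (y := fun v => v.1) ((PW.pv (fun j hj => ?_) s3).sw.mul (PW.var ?_))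
        fun _ => PW.var (by rw [Set.mem_ofPred_eq, eo]; exact hi)
      · simp [hj]
      · simp [Pa.own]
    · dsimp only
      rw [update_idem, update_self, Pull.pvu f.2.1]
      simp only [sol_cons, Sh.ok, pok_append, pok_cons, Pa.ok] at hu
      rw [Pull.can (hu.1.1.1.2.iso s3) (hu.1.1.1.2.comm s3) hu.1.1.2.1.1, update_eq_self]

end Vale.Agent.P002S
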