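import Vale.Agent.P002S.Stm

/-! Assembling a map that preserves two flags. -/

namespace Vale.Agent.P002S

open Matrix Vale.Agent.P002 Function

variable {r : ℕ}

namespace Quad1

theorem ee (S T : Finset (Fin r)) (M : Mat r) (i j : Fin r) :
    (E S * M * E T) i j = if i ∈ S ∧ j ∈ T then M i j else 0 := by
  rw [mul_E_apply, E_mul_apply]
  by_cases h1 : i ∈ S <;> by_cases h2 : j ∈ T <;> simp [h1, h2]

theorem sup {S T : Finset (Fin r)} {x : W r} (h : IsIso S T x) {i j : Fin r}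
    (hn : ¬(i ∈ S ∧ j ∈ T)) : x.a i j = 0 := by
  rw [← h.ra, ← h.la, ee, if_neg hn]

theorem zero {S T : Finset (Fin r)} {M : Mat r} (h : E S * M * E T = 0) {i j : Fin r}
    (hi : i ∈ S) (hj : j ∈ T) : M i j = 0 := by
  have := congrFun (congrFun h i) j
  rwa [ee, if_pos ⟨hi, hj⟩] at this

theorem same {S T : Finset (Fin r)} {x y : W r} (h : gr S T x = gr S T y) {i j : Fin r}
    (hi : i ∈ S) (hj : j ∈ T) : x.a i j = y.a i j := by
  have : (E S * x.a * E T) i j = (E S * y.a * E T) i j := congrFun (congrFun (congrArg W.a h) i) j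
  rwa [ee, ee, if_pos ⟨hi, hj⟩, if_pos ⟨hi, hj⟩] at this

theorem shear {S T S' T' : Finset (Fin r)} {x y : W r} {n : Mat r} (h : IsIso S T x)
    (h' : IsIso S' T' y) (hS : Disjoint S S') (hT : Disjoint T T') (n1 : E S' * n = n)
    (n2 : n * E T = n) :
    IsIso (S ∪ S') (T ∪ T') ⟨x.a + y.a + n, x.b + y.b - y.b * n * x.b⟩ := by
  have a1 : x.a * y.b = 0 := by
    rw [← h.ra, ← h'.lb, Matrix.mul_assoc, ← Matrix.mul_assoc (E T), E_disj hT]; simp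
  have a2 : y.a * x.b = 0 := by
    rw [← h'.ra, ← h.lb, Matrix.mul_assoc, ← Matrix.mul_assoc (E T'), E_disj hT.symm]; simp
  have a3 : x.b * y.a = 0 := by
    rw [← h.rb, ← h'.la, Matrix.mul_assoc, ← Matrix.mul_assoc (E S), E_disj hS]; simp
  have a4 : y.b * x.a = 0 := by
    rw [← h'.rb, ← h.la, Matrix.mul_assoc, ← Matrix.mul_assoc (E S'), E_disj hS.symm]; simp
  have a5 : n * y.b = 0 := by
    rw [← n2, ← h'.lb, Matrix.mul_assoc, ← Matrix.mul_assoc (E T), E_disj hT]; simp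
  have a6 : x.b * n = 0 := by
    rw [← h.rb, ← n1, Matrix.mul_assoc, ← Matrix.mul_assoc (E S), E_disj hS]; simp
  have b1 : E (S ∪ S') * x.a = x.a := by
    rw [← h.la, ← Matrix.mul_assoc, E_sub' Finset.subset_union_left]
  have b2 : E (S ∪ S') * y.a = y.a := by
    rw [← h'.la, ← Matrix.mul_assoc, E_sub' Finset.subset_union_right]
  have b3 : E (S ∪ S') * n = n := by
    rw [← n1, ← Matrix.mul_assoc, E_sub' Finset.subset_union_right]
  have b4 : x.b * E (S ∪ S') = x.b := by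
    rw [← h.rb, Matrix.mul_assoc, E_sub Finset.subset_union_left]
  have b5 : y.b * E (S ∪ S') = y.b := by
    rw [← h'.rb, Matrix.mul_assoc, E_sub Finset.subset_union_right]
  refine IsIso.of_mat ?_ ?_ ?_ ?_
  · simp only [mul_add, b1, b2, b3]
  · simp only [add_mul, sub_mul, Matrix.mul_assoc, b4, b5]
  · simp only [mul_add, add_mul, mul_sub, ← Matrix.mul_assoc, h.ab, h'.ab, a1, a2, a5, n1,
      Matrix.zero_mul, E_union hS]
    abel
  · simp only [mul_add, add_mul, sub_mul, Matrix.mul_assoc, h.ba, h'.ba, a3, a4, a6, n2,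
      Matrix.mul_zero, E_union hT]
    abel

theorem qa (I J I' J' : Fl r) (a b : Bool → W r) (v : Mat r) (i j : Fin r) :
    (quad I J I' J' a b v).a i j = (a false).a i j + (a true).a i j +
      ((if (i ∈ I.1 ∧ i ∈ J.2) ∧ j ∈ I'.1 ∧ j ∈ J'.1 then (b false).a i j else 0) +
        (if (i ∈ I.2 ∧ i ∈ J.2) ∧ j ∈ I'.2 ∧ j ∈ J'.1 then (b true).a i j else 0) +
        if (i ∈ I.2 ∧ i ∈ J.2) ∧ j ∈ I'.1 ∧ j ∈ J'.1 then v i j else 0) := by
  simp only [quad, Matrix.add_apply, ee, Finset.mem_inter]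

theorem flok {I J : Fl r} (h : FlOk I J) (i : Fin r) : ¬(i ∈ I.1 ∧ i ∈ I.2) ∧
    ¬(i ∈ J.1 ∧ i ∈ J.2) ∧ (i ∈ I.1 ∨ i ∈ I.2 → i ∈ J.1 ∨ i ∈ J.2) :=
  ⟨fun a => Finset.disjoint_left.1 h.1 a.1 a.2, fun a => Finset.disjoint_left.1 h.2.1 a.1 a.2,
    fun a => Finset.mem_union.1 (show i ∈ J.s from h.2.2 ▸ Finset.mem_union.2 a)⟩

end Quad1

open Quad1 in
theorem s_quad1 : S_quad1 := by
  intro r I J I' J' a b v h h' q
  have mi := @Finset.mem_inter_of_mem (Fin r) _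
  have A0 : ∀ i j, ¬(i ∈ J.1 ∧ j ∈ J'.1) → (a false).a i j = 0 := fun _ _ => sup (q.ia false)
  have A1 : ∀ i j, ¬(i ∈ J.2 ∧ j ∈ J'.2) → (a true).a i j = 0 := fun _ _ => sup (q.ia true)
  have g1 : IsIso J.s J'.s (quad I J I' J' a b v) := by
    refine shear (q.ia false) (q.ia true) h.2.1 h'.2.1 ?_ ?_
    · simp only [mul_add, ← Matrix.mul_assoc, Fl.pt_true, E_sub' Finset.inter_subset_right]
    · simp only [add_mul, Matrix.mul_assoc, Fl.pt_false, E_sub Finset.inter_subset_right]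
  have g1' : IsIso I.s I'.s (quad I J I' J' a b v) := by rw [h.2.2, h'.2.2]; exact g1
  have g2 : Tri J J' (quad I J I' J' a b v) := by
    refine Tri.of_card g1 h.2.1 h'.2.1 (q.ia false).card ?_
    ext i j
    obtain ⟨-, c2, -⟩ := flok h i
    obtain ⟨-, d2, -⟩ := flok h' j
    rw [ee, Matrix.zero_apply]
    split_ifs with c
    · rw [qa, A0 i j fun k => d2 ⟨k.2, c.2⟩, A1 i j fun k => c2 ⟨c.1, k.1⟩,
        if_neg fun k => c2 ⟨c.1, k.1.2⟩, if_neg fun k => c2 ⟨c.1, k.1.2⟩,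
        if_neg fun k => c2 ⟨c.1, k.1.2⟩]
      simp
    · rfl
  have g3 : Tri I I' (quad I J I' J' a b v) := by
    refine Tri.of_card g1' h.1 h'.1 (q.ib false).card ?_
    ext i j
    obtain ⟨c1, -, -⟩ := flok h i
    obtain ⟨d1, -, -⟩ := flok h' j
    rw [ee, Matrix.zero_apply]
    split_ifs with c
    · have e : ∀ ε, (a ε).a i j = 0 := fun ε => by
        by_cases k : i ∈ J.pt ε ∧ j ∈ J'.pt ε
        · exact zero (q.ta ε).1 (mi c.1 k.1) (mi c.2 k.2)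
        · exact sup (q.ia ε) k
      rw [qa, e, e, if_neg fun k => d1 ⟨k.2.1, c.2⟩, if_neg fun k => c1 ⟨c.1, k.1.1⟩,
        if_neg fun k => c1 ⟨c.1, k.1.1⟩]
      simp
    · rfl
  refine ⟨g1, g2, g3, fun ε => ?_, fun δ => ?_⟩
  · refine (g2.iso g1 h.2.1 h'.2.1 ε).ext (q.ia ε) ?_
    ext i j
    obtain ⟨-, c2, -⟩ := flok h i
    obtain ⟨-, d2, -⟩ := flok h' j
    refine (ee _ _ _ i j).trans ?_
    split_ifs with c
    · cases ε
      · rw [Fl.pt_false, Fl.pt_false] at c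
        rw [qa, A1 i j fun k => c2 ⟨c.1, k.1⟩, if_neg fun k => c2 ⟨c.1, k.1.2⟩,
          if_neg fun k => c2 ⟨c.1, k.1.2⟩, if_neg fun k => c2 ⟨c.1, k.1.2⟩]
        simp
      · rw [Fl.pt_true, Fl.pt_true] at c
        rw [qa, A0 i j fun k => c2 ⟨k.1, c.1⟩, if_neg fun k => d2 ⟨k.2.2, c.2⟩,
          if_neg fun k => d2 ⟨k.2.2, c.2⟩, if_neg fun k => d2 ⟨k.2.2, c.2⟩]
        simp
    · exact (sup (q.ia ε) c).symm
  · refine (g3.iso g1' h.1 h'.1 δ).ext (q.ib δ) ?_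
    ext i j
    obtain ⟨c1, c2, c3⟩ := flok h i
    obtain ⟨d1, d2, d3⟩ := flok h' j
    refine (ee _ _ _ i j).trans ?_
    split_ifs with c
    swap
    · exact (sup (q.ib δ) c).symm
    have m0 : i ∈ J.1 → j ∈ J'.1 → (a false).a i j = (b δ).a i j := fun k k' =>
      same (q.mt δ false) (mi c.1 k) (mi c.2 k')
    have m1 : i ∈ J.2 → j ∈ J'.2 → (a true).a i j = (b δ).a i j := fun k k' =>
      same (q.mt δ true) (mi c.1 k) (mi c.2 k')
    have m2 : i ∈ J.1 → j ∈ J'.2 → (b δ).a i j = 0 := fun k k' =>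
      zero (q.tb δ).1 (mi k c.1) (mi k' c.2)
    have k1 : i ∈ J.1 ∨ i ∈ J.2 := c3 (by cases δ; exacts [Or.inl c.1, Or.inr c.1])
    have k2 : j ∈ J'.1 ∨ j ∈ J'.2 := d3 (by cases δ; exacts [Or.inl c.2, Or.inr c.2])
    clear c3 d3
    rw [qa]
    rcases k1 with k | k <;> rcases k2 with k' | k'
    · rw [m0 k k', A1 i j fun l => c2 ⟨k, l.1⟩, if_neg fun l => c2 ⟨k, l.1.2⟩,
        if_neg fun l => c2 ⟨k, l.1.2⟩, if_neg fun l => c2 ⟨k, l.1.2⟩]
      simp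
    · rw [m2 k k', A0 i j fun l => d2 ⟨l.2, k'⟩, A1 i j fun l => c2 ⟨k, l.1⟩,
        if_neg fun l => c2 ⟨k, l.1.2⟩, if_neg fun l => c2 ⟨k, l.1.2⟩,
        if_neg fun l => c2 ⟨k, l.1.2⟩]
      simp
    · rw [A0 i j fun l => c2 ⟨l.1, k⟩, A1 i j fun l => d2 ⟨k', l.2⟩]
      cases δ
      · rw [Fl.pt_false, Fl.pt_false] at c
        rw [if_pos ⟨⟨c.1, k⟩, c.2, k'⟩, if_neg fun l => c1 ⟨c.1, l.1.1⟩,
          if_neg fun l => c1 ⟨c.1, l.1.1⟩]
        simp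
      · rw [Fl.pt_true, Fl.pt_true] at c
        rw [if_neg fun l => c1 ⟨l.1.1, c.1⟩, if_pos ⟨⟨c.1, k⟩, c.2, k'⟩,
          if_neg fun l => d1 ⟨l.2.1, c.2⟩]
        simp
    · rw [m1 k k', A0 i j fun l => c2 ⟨l.1, k⟩, if_neg fun l => d2 ⟨l.2.2, k'⟩,
        if_neg fun l => d2 ⟨l.2.2, k'⟩, if_neg fun l => d2 ⟨l.2.2, k'⟩]
      simp

end Vale.Agent.P002S
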