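import Vale.Agent.P002S.Stm

/-! A map that preserves two flags is assembled from its graded pieces. -/

namespace Vale.Agent.P002S

open Matrix Vale.Agent.P002 Function

namespace Quad2

variable {r : ℕ}

theorem gr_a (S T : Finset (Fin r)) (x : W r) (i j : Fin r) :
    (gr S T x).a i j = if i ∈ S ∧ j ∈ T then x.a i j else 0 := by
  have h : (gr S T x).a = E S * x.a * E T := rfl
  rw [h, mul_E_apply, E_mul_apply]
  by_cases h1 : i ∈ S <;> by_cases h2 : j ∈ T <;> simp [h1, h2]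

theorem gr_b (S T : Finset (Fin r)) (x : W r) (i j : Fin r) :
    (gr S T x).b i j = if i ∈ T ∧ j ∈ S then x.b i j else 0 := by
  have h : (gr S T x).b = E T * (x.b * E S) := rfl
  rw [h, E_mul_apply, mul_E_apply]
  by_cases h1 : i ∈ T <;> by_cases h2 : j ∈ S <;> simp [h1, h2]

theorem eme (S T : Finset (Fin r)) (M : Mat r) (i j : Fin r) :
    (E S * M * E T) i j = if i ∈ S ∧ j ∈ T then M i j else 0 := by
  rw [mul_E_apply, E_mul_apply]
  by_cases h1 : i ∈ S <;> by_cases h2 : j ∈ T <;> simp [h1, h2]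

theorem eme_zero {S T : Finset (Fin r)} {M : Mat r} :
    E S * M * E T = 0 ↔ ∀ i ∈ S, ∀ j ∈ T, M i j = 0 := by
  constructor
  · intro h i hi j hj
    have := congrFun (congrFun h i) j
    rw [eme, if_pos ⟨hi, hj⟩] at this
    exact this
  · intro h
    ext i j
    rw [eme]
    split_ifs with h1
    · exact h i h1.1 j h1.2
    · rfl

theorem tri_on {I I' : Fl r} {g : W r} (h : Tri I I' g) (S S' : Finset (Fin r)) :
    Tri (I.on S) (I'.on S') (gr S S' g) := by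
  constructor
  · refine eme_zero.2 fun i hi j hj => ?_
    rw [gr_a, eme_zero.1 h.1 i (Finset.mem_inter.1 hi).1 j (Finset.mem_inter.1 hj).1, ite_self]
  · refine eme_zero.2 fun i hi j hj => ?_
    rw [gr_b, eme_zero.1 h.2 i (Finset.mem_inter.1 hi).1 j (Finset.mem_inter.1 hj).1, ite_self]

theorem supp {S T : Finset (Fin r)} {g : W r} (h : IsIso S T g) (i j : Fin r)
    (hn : ¬ (i ∈ S ∧ j ∈ T)) : g.a i j = 0 := by
  rw [← h.gr, gr_a, if_neg hn]

end Quad2

open Quad2 in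
theorem s_quad2 (h : S_quad1) : S_quad2 := by
  intro r I J I' J' g hF hF' hg tJ tI
  have hgI : IsIso I.s I'.s g := by rw [hF.2.2, hF'.2.2]; exact hg
  have hq : QHyp I J I' J' (fun ε => gr (J.pt ε) (J'.pt ε) g)
      (fun δ => gr (I.pt δ) (I'.pt δ) g) :=
    { ia := fun ε => tJ.iso hg hF.2.1 hF'.2.1 ε
      ta := fun ε => tri_on tI _ _
      ib := fun δ => tI.iso hgI hF.1 hF'.1 δ
      tb := fun δ => tri_on tJ _ _
      mt := fun δ ε => by
        rw [gr_gr Finset.inter_subset_right Finset.inter_subset_right,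
          gr_gr Finset.inter_subset_left Finset.inter_subset_left] }
  refine ⟨hq, (h r I J I' J' _ _ g.a hF hF' hq).1.ext hg ?_⟩
  ext i j
  have hs := supp hg i j
  have h1 := eme_zero.1 tJ.1 i
  have h2 := eme_zero.1 tI.1 i
  have d1 : i ∈ I.1 → i ∉ I.2 := fun a => Finset.disjoint_left.1 hF.1 a
  have d2 : i ∈ J.1 → i ∉ J.2 := fun a => Finset.disjoint_left.1 hF.2.1 a
  have d3 : j ∈ I'.1 → j ∉ I'.2 := fun a => Finset.disjoint_left.1 hF'.1 a
  have d4 : j ∈ J'.1 → j ∉ J'.2 := fun a => Finset.disjoint_left.1 hF'.2.1 a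
  have e1 : i ∈ I.1 ∨ i ∈ I.2 ↔ i ∈ J.1 ∨ i ∈ J.2 := by
    rw [← Finset.mem_union, ← Finset.mem_union]
    exact Finset.ext_iff.1 hF.2.2 i
  have e2 : j ∈ I'.1 ∨ j ∈ I'.2 ↔ j ∈ J'.1 ∨ j ∈ J'.2 := by
    rw [← Finset.mem_union, ← Finset.mem_union]
    exact Finset.ext_iff.1 hF'.2.2 j
  simp only [Fl.s, Finset.mem_union] at hs
  simp only [quad, Matrix.add_apply, eme, gr_a, Fl.pt_false, Fl.pt_true, Finset.mem_inter]
  by_cases hz : g.a i j = 0
  · simp [hz]
  have k1 : i ∈ J.1 → j ∉ J'.2 := fun a b => hz (h1 a j b)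
  have k2 : i ∈ I.1 → j ∉ I'.2 := fun a b => hz (h2 a j b)
  have k3 : (i ∈ J.1 ∨ i ∈ J.2) ∧ (j ∈ J'.1 ∨ j ∈ J'.2) := by
    by_contra hn
    exact hz (hs hn)
  have k4 := e1.2 k3.1
  have k5 := e2.2 k3.2
  clear hs h1 h2 hz e1 e2
  have d1' : i ∈ I.2 → i ∉ I.1 := fun a b => d1 b a
  have d2' : i ∈ J.2 → i ∉ J.1 := fun a b => d2 b a
  have d3' : j ∈ I'.2 → j ∉ I'.1 := fun a b => d3 b a
  have d4' : j ∈ J'.2 → j ∉ J'.1 := fun a b => d4 b a
  rcases k3 with ⟨a | a, b | b⟩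
  · simp [a, b, d2 a, d4 b]
  · exact absurd b (k1 a)
  · rcases k4 with c | c <;> rcases k5 with d | d
    · simp [a, b, c, d, d2' a, d4 b, d1 c, d3 d]
    · exact absurd d (k2 c)
    · simp [a, b, c, d, d2' a, d4 b, d1' c, d3 d]
    · simp [a, b, c, d, d2' a, d4 b, d1' c, d3' d]
  · simp [a, b, d2' a, d4' b]

end Vale.Agent.P002S
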