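import Vale.Agent.P002S.Stm

/-! The triangle move. -/

namespace Vale.Agent.P002S

open Matrix Vale.Agent.P002 Function

variable {r : ℕ} {O : Subring ℂ}

namespace R3

theorem pw_quad {A : Set ℕ} (I J I' J' : Fl r) {a b : Pt r → Bool → W r} {v : Pt r → Mat r}
    (ha : ∀ ε, PW O A fun u => a u ε) (hb : ∀ ε, PW O A fun u => b u ε) (hv : PM O A v) :
    PW O A fun u => quad I J I' J' (a u) (b u) (v u) := by
  have hn := ((((PM.E (I.1 ∩ J.2)).mul (hb false).1).mul (PM.E (I'.1 ∩ J'.1))).add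
    (((PM.E (I.2 ∩ J.2)).mul (hb true).1).mul (PM.E (I'.2 ∩ J'.1)))).add
    (((PM.E (I.2 ∩ J.2)).mul hv).mul (PM.E (I'.1 ∩ J'.1)))
  exact ⟨((ha false).1.add (ha true).1).add hn,
    ((ha false).2.add (ha true).2).sub (((ha true).2.mul hn).mul (ha false).2)⟩

theorem pw_rq {A : Set ℕ} (m : Mod O r) (N : ℕ) {z : ℂˣ} (x : Fin 3 → Lt r)
    {D : Fin 3 → Fin r → ℂˣ} (hz : Un O z) (hD : ∀ i j, Un O (D i j))
    (h2 : ∀ i ε, lab N i ε + 2 ∈ A) (h3 : ∀ i ε, lab N i ε + 3 ∈ A) (hx : ∀ i, (x i).i ∈ A)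
    (i : Fin 3) : PW O A fun u => rq m N z x D u.1 i := by
  have hρ : ∀ i δ ε, PW O A fun _ : Pt r => m.ρ i δ ε := fun i δ ε => PW.const (m.ρO i δ ε)
  have hg : ∀ i, PW O A fun u => rg m N x u.1 i := fun i =>
    pw_quad _ _ _ _ (fun ε => (PW.var (h3 i ε)).sw.mul ((hρ i false ε).ad (hρ i true ε)).sw)
      (fun δ => (PW.var (h2 (i + 2) δ)).mul ((hρ i δ false).ad (hρ i δ true)).sw) (PW.var (hx i)).1
  refine ((PW.dg (hD i)).sw.mul (((hg i).mul (PW.const (m.ΓO i))).mul (hg (i + 1)).sw)).mul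
    (PW.sc ?_)
  unfold zz
  split_ifs
  exacts [hz, Un.one]

theorem own_low (N : ℕ) (z : ℂˣ) (x : Fin 3 → Lt r) (D G σ) (i : Fin 3) (ε : Bool) (j : ℕ) :
    j ∈ pown (low N z x D G σ i ε).ps ↔
      j = lab N i ε ∨ j = lab N i ε + 1 ∨ j = lab N i ε + 2 ∨ j = lab N i ε + 3 := by
  simp only [low, disk, Pa.own, fl, pown_cons, pown_nil, wown_l, wown_c, wown_nil, add_zero,
    Multiset.mem_add, Multiset.mem_singleton]

theorem own_lows (N : ℕ) (z : ℂˣ) (x : Fin 3 → Lt r) (D G σ) (j : ℕ) :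
    j ∈ own (lows N z x D G σ) ↔ ∃ i ε, j ∈ pown (low N z x D G σ i ε).ps := by
  simp only [lows, own_cons, own_nil, Multiset.mem_add, Multiset.notMem_zero, or_false,
    Fin.exists_fin_succ, Bool.exists_bool, IsEmpty.exists_iff, or_assoc]
  rfl

theorem le_lows {N : ℕ} {z : ℂˣ} {x : Fin 3 → Lt r} {D G σ} {j : ℕ}
    (h : j ∈ own (lows N z x D G σ)) : N ≤ j := by
  obtain ⟨i, ε, h⟩ := (own_lows ..).1 h
  rw [own_low] at h
  unfold lab at h
  omega

theorem own_tri (B : Finset (Fin r)) (z h A) (x : Fin 3 → Lt r) (D R) :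
    own (⟨B, z, [.cy h A (tw x D)]⟩ :: R) = h ::ₘ (x 0).i ::ₘ (x 1).i ::ₘ (x 2).i ::ₘ own R := by
  simp only [tw, Pa.own, own_cons, pown_cons, pown_nil, wown_l, wown_c, wown_nil, add_zero,
    Multiset.cons_add, Multiset.singleton_add]

end R3

theorem s_r3 (hw : S_r3w) (hf : S_r3f) (hb : S_r3b) (hi : S_iso) : S_r3 := by
  intro r O B z h A x D R N u hB hW hu hN
  have s1 := hW.sh _ List.mem_cons_self
  have hz : Un O z := s1.1
  have cyc : Cyc O A (tw x D) := (s1.2 _ List.mem_cons_self).2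
  rw [sol_cons, one_cy cyc] at hu
  obtain ⟨⟨u1, u2, u3⟩, uR⟩ := hu
  have nd := hW.nd
  have b1 := hN.1
  simp only [R3.own_tri, Multiset.nodup_cons, Multiset.mem_cons, not_or] at nd b1
  obtain ⟨⟨n1, n2, n3, n4⟩, ⟨n5, n6, n7⟩, ⟨n8, n9⟩, n10, -⟩ := nd
  have inj : Injective fun i => (x i).i := by
    intro i j e
    fin_cases i <;> fin_cases j <;> simp_all
  have hx : ∀ i, h ≠ (x i).i := fun i => by fin_cases i <;> assumption
  have xR : ∀ i, (x i).i ∉ own R := fun i => by fin_cases i <;> assumption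
  have xN : ∀ i, (x i).i < N := fun i => b1 _ (by fin_cases i <;> simp)
  have hN' : h < N := b1 _ (Or.inl rfl)
  have RN : ∀ j ∈ own R, j < N := fun j hj => b1 _ (by simp [hj])
  have eN : ∀ i ε, ((x i).pc ε).S.Nonempty → ((x i).pc ε).e < N := fun i ε =>
    hN.2 _ (by fin_cases i <;> cases ε <;> simp [tw, Pa.oc])
  have eR : ∀ o ∈ oc R, o.S.Nonempty → o.e < N := fun o ho => hN.2 _ (by simp [ho])
  obtain ⟨m, v, c1, c2, c3, c4, c5⟩ := hb r O z A x D N u cyc u2 u3 inj xN eN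
  have W' := hw r O B z h A x D R N m hW hN c1
  refine ⟨m.G, m.σ, v, W', (sol_append ..).2 ⟨c2, sol_congr uR
    (fun j hj => (c3 j (RN j hj) fun i e => xR i (e ▸ hj)).symm)
    fun o ho hS => (c4 _ (eR o ho hS)).symm⟩, fun a => ?_⟩
  have vh : v.1 h = u.1 h := c3 h hN' hx
  have nh : h ∉ own (lows N z x D m.G m.σ ++ R) := by
    rw [own_append, Multiset.mem_add]
    exact fun t => t.elim (fun t => by have := R3.le_lows t; omega) n4
  have nx : ∀ i, (x i).i ∉ own (lows N z x D m.G m.σ ++ R) := fun i => by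
    rw [own_append, Multiset.mem_add]
    exact fun t => t.elim (fun t => by have := R3.le_lows t; have := xN i; omega) (xR i)
  have a1 := App.prod a (hi r O B A h v hB (vh ▸ u1))
    (indep_sol fun j hj e => nh (e ▸ hj)) (fun w hw w' e => by
      rw [Set.mem_ofPred_eq, e h rfl]; exact hw) (Set.disjoint_singleton_right.2 nh)
  have ind : ∀ i, Indep (Sol (lows N z x D m.G m.σ ++ R) ∩ {u | IsIso B A (u.1 h)}) {(x i).i} :=
    fun i => (indep_sol fun j hj (e : j = (x i).i) => nx i (e ▸ hj)).inter (indep_iso (i := h) (hx i) B A)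
  have a2 := ((a1.free (ind 0) (by rintro (t | t); exacts [nx 0 t, n1 t.symm])).free (ind 1)
    (by rintro ((t | t) | t); exacts [nx 1 t, n2 t.symm, n5 t.symm])).free (ind 2)
    (by rintro (((t | t) | t) | t); exacts [nx 2 t, n3 t.symm, n6 t.symm, n8 t.symm])
  have ex : ∀ (w : Pt r) j, (∀ i, j ≠ (x i).i) →
      extend (fun i => (x i).i) (rq m N z x D w.1) w.1 j = w.1 j := fun w j hj =>
    extend_apply' _ _ _ fun ⟨i, e⟩ => hj i e.symm
  have cs : ∀ j ∈ own (⟨B, z, [.cy h A (tw x D)]⟩ :: R),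
      (∃ i, j = (x i).i) ∨ ((∀ i, j ≠ (x i).i) ∧ (j = h ∨ j ∈ own R)) := fun j hj => by
    by_cases e : ∃ i, j = (x i).i
    · exact Or.inl e
    · rw [not_exists] at e
      simp only [R3.own_tri, Multiset.mem_cons, e, false_or] at hj
      exact Or.inr ⟨e, hj⟩
  refine App.map (fun w => (extend (fun i => (x i).i) (rq m N z x D w.1) w.1, w.2))
    (fun j hj => ?_) (fun w hw => ?_) (fun j hj => ?_) a2
  · rcases cs j hj with ⟨i, rfl⟩ | ⟨e, e'⟩
    · simp only [inj.extend_apply]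
      have lo : ∀ j ∈ own (lows N z x D m.G m.σ), j ∈ {i | i ∈ own (lows N z x D m.G m.σ ++ R)} ∪
          {h} ∪ {(x 0).i} ∪ {(x 1).i} ∪ {(x 2).i} := fun j hj => by simp [hj]
      exact R3.pw_rq m N x hz (fun i => cyc.2.un (by fin_cases i <;> simp [tw]))
        (fun i ε => lo _ ((R3.own_lows ..).2 ⟨i, ε, by simp [R3.own_low]⟩))
        (fun i ε => lo _ ((R3.own_lows ..).2 ⟨i, ε, by simp [R3.own_low]⟩))
        (fun i => by fin_cases i <;> simp) i
    · simp only [ex _ j e]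
      exact PW.var (by rcases e' with e' | e' <;> simp [e'])
  · obtain ⟨w1, w2⟩ := hw
    rw [sol_append] at w1
    rw [sol_cons, one_cy cyc]
    exact ⟨⟨by dsimp only; rw [ex w h hx]; exact w2, hf r O z A x D N m w _ cyc
      (fun s hs => W'.sh s (List.mem_append_left _ hs)) w1.1 rfl fun i => inj.extend_apply _ _ i⟩,
      sol_congr w1.2 (fun j hj => (ex w j fun i e => xR i (e ▸ hj)).symm) fun _ _ _ => rfl⟩
  · rcases cs j hj with ⟨i, rfl⟩ | ⟨e, e'⟩
    · exact (inj.extend_apply _ _ i).trans (c5 i)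
    · exact (ex v j e).trans (c3 j (hN.1 j hj) e)

end Vale.Agent.P002S
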