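import Vale.Agent.P002S.Stm

/-! From the triangle to the lower system. -/

namespace Vale.Agent.P002S

open Matrix Vale.Agent.P002 Function

namespace R3b

variable {r : ℕ} {O : Subring ℂ}

theorem ex1 {X : Type} (N : ℕ) (val : Fin 3 → Bool → Fin 4 → X) (y0 : ℕ → X) :
    ∃ y : ℕ → X, (∀ i ε (k : Fin 4), y (lab N i ε + k) = val i ε k) ∧ ∀ j < N, y j = y0 j := by
  have hf : Injective fun p : Fin 3 × Bool × Fin 4 => lab N p.1 p.2.1 + p.2.2 := by
    rintro ⟨i, ε, k⟩ ⟨i', ε', k'⟩ h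
    cases ε <;> cases ε' <;>
      simp only [lab, Bool.toNat_false, Bool.toNat_true, Prod.mk.injEq, Fin.ext_iff, true_and,
        Bool.false_eq_true, Bool.true_eq_false, false_and, and_false] at h ⊢ <;> omega
  refine ⟨extend _ (fun p : Fin 3 × Bool × Fin 4 => val p.1 p.2.1 p.2.2) y0,
    fun i ε k => hf.extend_apply _ _ (i, ε, k), fun j hj => extend_apply' _ _ _ ?_⟩
  rintro ⟨p, rfl⟩
  simp only [lab] at hj
  omega

theorem ex2 {X : Type} (N : ℕ) (val : Fin 3 → Bool → Bool → X) (y0 : ℕ → X) :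
    ∃ y : ℕ → X, (∀ (i : Fin 3) δ ε, y (N + 4 * i + 2 * δ.toNat + ε.toNat) = val i δ ε) ∧
      ∀ j < N, y j = y0 j := by
  have hf : Injective fun p : Fin 3 × Bool × Bool =>
      N + 4 * (p.1 : ℕ) + 2 * p.2.1.toNat + p.2.2.toNat := by
    rintro ⟨i, δ, ε⟩ ⟨i', δ', ε'⟩ h
    cases ε <;> cases ε' <;> cases δ <;> cases δ' <;>
      simp only [Bool.toNat_false, Bool.toNat_true, Prod.mk.injEq, Fin.ext_iff, and_true,
        Bool.false_eq_true, Bool.true_eq_false, and_false] at h ⊢ <;> omega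
  refine ⟨extend _ (fun p : Fin 3 × Bool × Bool => val p.1 p.2.1 p.2.2) y0,
    fun i δ ε => hf.extend_apply _ _ (i, δ, ε), fun j hj => extend_apply' _ _ _ ?_⟩
  rintro ⟨p, rfl⟩
  omega

/-- a graded piece followed by the block sum of the model maps -/
structure Pc (F H G : Bool → Finset (Fin r)) (ρ : Bool → W r) (S S' : Finset (Fin r))
    (g : W r) : Prop where
  un : F false ∪ F true = S
  iso : IsIso S (G false ∪ G true) (gr S S' g * (ρ false).ad (ρ true))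
  tri : Tri (F false, F true) (G false, G true) (gr S S' g * (ρ false).ad (ρ true))
  pc : ∀ b, gr (F b) (G b) (gr S S' g * (ρ false).ad (ρ true)) = gr (F b) (H b) g * ρ b
  pi : ∀ b, IsIso (F b) (G b) (gr (F b) (H b) g * ρ b)
  can : gr S S' g * (ρ false).ad (ρ true) * ((ρ false).ad (ρ true)).sw = gr S S' g

section Piece

variable {F H G : Bool → Finset (Fin r)} {ρ : Bool → W r} {S S' : Finset (Fin r)} {g : W r}

theorem piece (hF : Disjoint (F false) (F true)) (hH : Disjoint (H false) (H true))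
    (hG : Disjoint (G false) (G true)) (hS : F false ∪ F true = S) (hS' : H false ∪ H true = S')
    (hi : IsIso S S' (gr S S' g)) (ht : Tri (F false, F true) (H false, H true) (gr S S' g))
    (hρ : ∀ b, IsIso (H b) (G b) (ρ b)) : Pc F H G ρ S S' g := by
  subst hS hS'
  have hR := (hρ false).ad (hρ true) hH hG
  obtain ⟨t1, t2, t3⟩ := Tri.ad (F := (H false, H true)) (G := (G false, G true)) (hρ false)
    (hρ true) hH hG
  have gm := ht.gr_mul t1 hi hR hH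
  have gi := ht.iso hi hF hH
  refine ⟨rfl, hi.mul hR, ht.mul t1 hi hR hH, fun b => ?_, fun b => .mul ?_ (hρ b), ?_⟩
  · have h := gm b
    cases b
    · rwa [Fl.pt_false, Fl.pt_false, Fl.pt_false, t2,
        gr_gr Finset.subset_union_left Finset.subset_union_left] at h
    · rwa [Fl.pt_true, Fl.pt_true, Fl.pt_true, t3,
        gr_gr Finset.subset_union_right Finset.subset_union_right] at h
  · have h := gi b
    cases b
    · rwa [Fl.pt_false, Fl.pt_false, gr_gr Finset.subset_union_left Finset.subset_union_left] at h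
    · rwa [Fl.pt_true, Fl.pt_true, gr_gr Finset.subset_union_right Finset.subset_union_right] at h
  · rw [mul_assoc, hR.m, hi.r']

theorem Pc.ok (h : Pc F H G ρ S S' g) (u : Pt r) (k : Bool → ℕ) (n : ℕ)
    (hv : ∀ b, u.2 (k b) = gr (F b) (H b) g * ρ b) :
    (u.1 n = gr S S' g * (ρ false).ad (ρ true) →
      Lt.ok u ⟨n, ⟨k false, true, F false, G false⟩, ⟨k true, true, F true, G true⟩⟩) ∧
    (u.1 n = (gr S S' g * (ρ false).ad (ρ true)).sw →
      Lt.ok u ⟨n, Occ.flip ⟨k false, true, F false, G false⟩,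
        Occ.flip ⟨k true, true, F true, G true⟩⟩) := by
  have h1 : ∀ b, gr (F b) (G b) (gr S S' g * (ρ false).ad (ρ true)) =
      ev u.2 ⟨k b, true, F b, G b⟩ := fun b => by
    rw [h.pc, ev, if_pos rfl, hv, (h.pi b).gr]
  refine ⟨fun e => ?_, fun e => ?_⟩ <;> unfold Lt.ok <;> rw [e]
  · exact ⟨h.un.symm ▸ h.iso, h.tri, h1 false, h1 true⟩
  · rw [ev_flip, ev_flip, ← h1, ← h1, gr_sw, gr_sw]
    exact ⟨IsIso.sw (h.un.symm ▸ h.iso), h.tri.sw, rfl, rfl⟩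

end Piece

theorem on_un {I J : Fl r} (h : J.s = I.s) (b : Bool) :
    I.pt false ∩ J.pt b ∪ I.pt true ∩ J.pt b = J.pt b := by
  rw [← Finset.union_inter_distrib_right]
  refine Finset.inter_eq_right.2 (Finset.Subset.trans ?_ h.subset)
  cases b
  · exact Finset.subset_union_left
  · exact Finset.subset_union_right

theorem corner (hq : S_quad2) {I J : Fl r} (m : Mod O r) (i : Fin 3) {g : W r} (hf : FlOk I J)
    (h1 : IsIso J.s m.B g) (h2 : Tri I (fI (m.H i)) g) (h3 : Tri J (fO (m.H i)) g) :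
    (∀ ε, Pc (fun δ => I.pt δ ∩ J.pt ε) (fun δ => m.H i δ ε) (fun δ => m.G i δ ε)
      (fun δ => m.ρ i δ ε) (J.pt ε) ((fO (m.H i)).pt ε) g) ∧
    (∀ δ, Pc (fun ε => I.pt δ ∩ J.pt ε) (m.H i δ) (m.G i δ) (m.ρ i δ) (I.pt δ)
      ((fI (m.H i)).pt δ) g) ∧
    FlOk (fI (m.H i)) (fO (m.H i)) ∧
    quad I J (fI (m.H i)) (fO (m.H i)) (fun ε => gr (J.pt ε) ((fO (m.H i)).pt ε) g)
      (fun δ => gr (I.pt δ) ((fI (m.H i)).pt δ) g) g.a = g := by
  have d : ∀ p δ ε δ' ε', p ∈ m.H i δ ε → p ∈ m.H i δ' ε' → δ = δ' ∧ ε = ε' :=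
    fun p δ ε δ' ε' a b => Prod.mk.inj (by_contra fun c =>
      Finset.disjoint_left.1 (m.Hd i δ ε δ' ε' c) a b)
  have mI : ∀ p δ, p ∈ (fI (m.H i)).pt δ ↔ ∃ ε, p ∈ m.H i δ ε := fun p δ => by
    cases δ <;> simp [fI]
  have mO : ∀ p ε, p ∈ (fO (m.H i)).pt ε ↔ ∃ δ, p ∈ m.H i δ ε := fun p ε => by
    cases ε <;> simp [fO]
  have s0 : ∀ δ ε, (fI (m.H i)).pt δ ∩ (fO (m.H i)).pt ε = m.H i δ ε := fun δ ε => by
    ext p
    rw [Finset.mem_inter, mI, mO]
    exact ⟨fun ⟨⟨_, a⟩, _, b⟩ => (d _ _ _ _ _ a b).1 ▸ b, fun a => ⟨⟨_, a⟩, _, a⟩⟩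
  have hf' : FlOk (fI (m.H i)) (fO (m.H i)) := by
    refine ⟨Finset.disjoint_left.2 fun p a b => ?_, Finset.disjoint_left.2 fun p a b => ?_, ?_⟩
    · obtain ⟨_, a⟩ := (mI p false).1 a
      obtain ⟨_, b⟩ := (mI p true).1 b
      exact Bool.noConfusion (d _ _ _ _ _ a b).1
    · obtain ⟨_, a⟩ := (mO p false).1 a
      obtain ⟨_, b⟩ := (mO p true).1 b
      exact Bool.noConfusion (d _ _ _ _ _ a b).2
    · ext p
      simp only [Fl.s, fI, fO, Finset.mem_union]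
      tauto
  obtain ⟨Q, e⟩ := hq r I J _ _ g hf hf' (hf'.2.2 ▸ (m.HB i).symm ▸ h1) h3 h2
  refine ⟨fun ε => piece ?_ (m.Hd i _ _ _ _ (by simp)) (m.Gd1 i ε) (on_un hf.2.2.symm ε) ?_
    (Q.ia ε) ?_ fun δ => m.ρi i δ ε, fun δ => piece ?_ (m.Hd i _ _ _ _ (by simp)) (m.Gd2 i δ) ?_ ?_
    (Q.ib δ) ?_ (m.ρi i δ), hf', e⟩
  · exact hf.1.mono Finset.inter_subset_left Finset.inter_subset_left
  · cases ε <;> rfl
  · rw [← s0 false ε, ← s0 true ε]
    exact Q.ta ε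
  · exact hf.2.1.mono Finset.inter_subset_right Finset.inter_subset_right
  · rw [Finset.inter_comm, Finset.inter_comm (I.pt δ)]
    exact on_un hf.2.2 δ
  · cases δ <;> rfl
  · rw [← s0 δ false, ← s0 δ true, Finset.inter_comm (I.pt δ), Finset.inter_comm (I.pt δ),
      Finset.inter_comm ((fI (m.H i)).pt δ), Finset.inter_comm ((fI (m.H i)).pt δ)]
    exact Q.tb δ

theorem undo (D : Fin r → ℂˣ) (z : ℂˣ) (P : W r) :
    (dg D).sw * (dg D * P * sc z⁻¹) * sc z = P := by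
  rw [mul_assoc, mul_assoc, sc_mul, inv_mul_cancel, sc_one, mul_one, ← mul_assoc, dg_sw_mul,
    one_mul]

theorem rel {S T Y : Finset (Fin r)} {a b P : W r} {σ D : Fin r → ℂˣ} {z : ℂˣ} (ha : IsIso S Y a)
    (hb : IsIso T Y b) (h : dg D * P * sc z⁻¹ = a * (dg σ).sw * b.sw) :
    e S * (e S * (P * (b * (dg σ * (a.sw * (dg D * 1))))) * (e S).sw * 1) = e S * sc z := by
  have h1 : ∀ y, (dg σ).sw * (e Y * (dg σ * y)) = e Y * y := fun y => by
    rw [← mul_assoc (e Y), ← dg_e, mul_assoc, ← mul_assoc, dg_sw_mul, one_mul]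
  have h2 : (dg D).sw * (e S * dg D) = e S := by rw [← dg_e, ← mul_assoc, dg_sw_mul, one_mul]
  rw [← undo D z P, h, ← sc_comm z]
  simp only [mul_assoc, mul_one, hb.mc', h1, ha.rc, ha.mc, e_sw]
  rw [← mul_assoc (e S) (dg D), ← mul_assoc (dg D).sw, h2, e_idem, ← mul_assoc, e_idem, sc_comm,
    ← mul_assoc, e_idem]

end R3b

open R3b in
theorem s_r3b (h3 : S_three) (hq : S_quad2) : S_r3b := by
  intro r O z A x D N u hc hu hz hinj hN hE
  have h12 : ∀ i : Fin 3, i + 1 + 2 = i := by decide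
  have h21 : ∀ i : Fin 3, i + 2 + 1 = i := by decide
  simp only [Cyc, tw, ls_c, ls_l, ls_nil, fs_c, fs_l, path_c, path_l, path_nil] at hc
  obtain ⟨c0, -, c1, w0, -, c2, w1, -, c3, w2, -⟩ := hc
  simp only [tw, wok_c, wok_l, wok_nil, and_true] at hu
  have hw : ∀ i, (x i).wf := fun i => by fin_cases i <;> assumption
  have ho : ∀ i, (x i).ok u := fun i => by
    fin_cases i
    exacts [hu.1, hu.2.1, hu.2.2]
  have hf : ∀ i, FlOk (x (i + 2)).tgt (x i).src := fun i =>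
    ⟨(hw _).2.1, (hw _).1, by fin_cases i <;> assumption⟩
  obtain ⟨m, g, hg⟩ := h3 r O (fun i => (x (i + 2)).tgt) (fun i => (x i).src)
    (fun i => dg (D i) * u.1 (x i).i * sc (zz z i)⁻¹) hf
    (fun i => by rw [h12]; exact ((ho i).1.dgl _).dgr _)
    (fun i => by rw [h12]; exact ((ho i).2.1.dgl _).dgr _) (by
      have h1 := ((ho 0).1.dgl (D 0)).lc
      simp only [tw, wv_c, wv_l, wv_nil, mul_one, ← c0, c1, ← mul_assoc (dg (D 0)), h1] at hz
      have h2 := congrArg (· * sc z⁻¹) hz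
      simpa [zz, mul_assoc, sc_mul] using h2)
  have K := fun i => corner hq m i (hf i) (hg i).1 (hg i).2.1 (hg i).2.2.1
  obtain ⟨y, y1, y2⟩ := ex1 N (fun i ε => ![e ((x i).pc ε).S, ev u.2 ((x i).pc ε),
    gr ((x (i + 1 + 2)).tgt.pt ε) ((fI (m.H (i + 1))).pt ε) (g (i + 1)) *
      (m.ρ (i + 1) ε false).ad (m.ρ (i + 1) ε true),
    (gr ((x i).src.pt ε) ((fO (m.H i)).pt ε) (g i) * (m.ρ i false ε).ad (m.ρ i true ε)).sw])
    (extend (fun i => (x i).i) g u.1)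
  obtain ⟨t, t1, t2⟩ := ex2 N (fun i δ ε =>
    gr ((x (i + 2)).tgt.pt δ ∩ (x i).src.pt ε) (m.H i δ ε) (g i) * m.ρ i δ ε) u.2
  have v0 : ∀ i ε, y (lab N i ε) = e ((x i).pc ε).S := fun i ε => y1 i ε 0
  have v1 : ∀ i ε, y (lab N i ε + 1) = ev u.2 ((x i).pc ε) := fun i ε => y1 i ε 1
  have v2 : ∀ i ε, y (lab N i ε + 2) =
      gr ((x (i + 1 + 2)).tgt.pt ε) ((fI (m.H (i + 1))).pt ε) (g (i + 1)) *
        (m.ρ (i + 1) ε false).ad (m.ρ (i + 1) ε true) := fun i ε => y1 i ε 2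
  have v3 : ∀ i ε, y (lab N i ε + 3) = (gr ((x i).src.pt ε) ((fO (m.H i)).pt ε) (g i) *
      (m.ρ i false ε).ad (m.ρ i true ε)).sw := fun i ε => y1 i ε 3
  have hl : ∀ i ε, (low N z x D m.G m.σ i ε).ok (y, t) := by
    intro i ε
    obtain ⟨p1, p2⟩ := (ho i).iso (hw i) ε
    have e1 : ((x i).pc ε).S = (x i).src.pt ε := by cases ε <;> rfl
    have e2 : ((x i).pc ε).T = (x (i + 1 + 2)).tgt.pt ε := by rw [h12]; cases ε <;> rfl
    have k1 := (K i).1 ε
    have k2 := (K (i + 1)).2.1 ε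
    simp only [low, disk, Sh.ok, pok_cons, pok_nil, Pa.ok, wok_l, wok_c, wok_nil, and_true, pv_cons,
      pv_nil, Pa.v, wv_l, wv_c, wv_nil, (full_fl _ _).ok]
    simp only [fl, v0, v1]
    refine ⟨⟨.id _, ⟨p1, ev_congr fun h => (t2 _ (hE i ε h)).symm⟩,
      (k2.ok (y, t) (fun b => (bo N x m.G (i + 1) ε b).e) _ fun b => t1 _ _ _).1 (v2 i ε),
      (k1.ok (y, t) (fun b => (bo N x m.G i b ε).e) _ fun b => t1 _ _ _).2 (v3 i ε)⟩, ?_⟩
    rw [v2, v3, e1]
    refine rel k1.iso (m.GY i ε ▸ k2.iso) ?_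
    obtain ⟨g1, -, g3, g4⟩ := hg i
    obtain ⟨g5, g6, -⟩ := hg (i + 1)
    have b1 := m.HB (i + 1)
    have b2 := (K i).2.2.1.2.2.symm.trans (m.HB i)
    have g7 : IsIso (fO (m.H i)).s (fI (m.H (i + 1))).s (m.Γ i) := b1.symm ▸ b2.symm ▸ m.Γi i
    rw [← b2] at g1
    rw [← b1, ← (hf (i + 1)).2.2] at g5
    have h1 := congrArg (gr ((x i).src.pt ε) ((x (i + 1 + 2)).tgt.pt ε)) g4
    rw [(g3.mul (m.Γt i) g1 g7 (K i).2.2.1.2.1).gr_mul g6.sw (g1.mul g7) g5.sw (K _).2.2.1.1,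
      g3.gr_mul (m.Γt i) g1 g7 (K i).2.2.1.2.1, m.Γg, sc, gr_dgr, gr_dgl, ← e1, ← e2, p2, e1, e2,
      ← gr_sw] at h1
    simpa only [mul_assoc, W.sw_mul, sc] using h1
  have hr : ∀ i, rg m N x y i = g i := fun i => by
    have a1 : ra m N y i = fun ε => gr ((x i).src.pt ε) ((fO (m.H i)).pt ε) (g i) :=
      funext fun ε => by
      rw [ra, v3, W.sw_sw]
      exact ((K i).1 ε).can
    have a2 : rb m N y i = fun δ => gr ((x (i + 2)).tgt.pt δ) ((fI (m.H i)).pt δ) (g i) :=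
      funext fun δ => by
      rw [rb, v2, h21]
      exact ((K i).2.1 δ).can
    rw [rg, a1, a2, y2 _ (hN i), hinj.extend_apply]
    exact (K i).2.2.2
  refine ⟨m, (y, t), fun i δ ε => (((K i).1 ε).pi δ).card, ?_, fun j hj h => ?_, t2, fun i => ?_⟩
  · simp only [lows, sol_cons, sol_nil, hl, and_self]
  · exact (y2 j hj).trans (extend_apply' _ _ _ fun ⟨i, e⟩ => h i e.symm)
  · rw [rq, hr, hr, ← (hg i).2.2.2, undo]

end Vale.Agent.P002S
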