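import Vale.Agent.P002S.Stm

/-! From the lower system to the triangle. -/

namespace Vale.Agent.P002S

open Matrix Vale.Agent.P002 Function

namespace R3f

variable {r : ℕ} {S T : Finset (Fin r)} {F G I J : Fl r} {H : Bool → Bool → Finset (Fin r)}

theorem on_pt (I : Fl r) (S : Finset (Fin r)) (b : Bool) : (I.on S).pt b = I.pt b ∩ S := by
  cases b <;> rfl

theorem on_s (h : I.s = J.s) (b : Bool) : (I.on (J.pt b)).s = J.pt b := by
  have h1 : J.pt b ⊆ I.s := by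
    rw [h]
    cases b
    exacts [Finset.subset_union_left, Finset.subset_union_right]
  exact (Finset.union_inter_distrib_right _ _ _).symm.trans (Finset.inter_eq_right.2 h1)

theorem fI_pt (H : Bool → Bool → Finset (Fin r)) (δ : Bool) :
    (fI H).pt δ = H δ false ∪ H δ true := by cases δ <;> rfl

theorem fO_pt (H : Bool → Bool → Finset (Fin r)) (ε : Bool) :
    (fO H).pt ε = H false ε ∪ H true ε := by cases ε <;> rfl

theorem inter (hd : ∀ δ ε δ' ε', (δ, ε) ≠ (δ', ε') → Disjoint (H δ ε) (H δ' ε')) (δ ε : Bool) :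
    (fI H).pt δ ∩ (fO H).pt ε = H δ ε := by
  rw [fI_pt, fO_pt]
  refine Finset.Subset.antisymm (fun a ha => ?_) fun a ha => ?_
  · obtain ⟨h1, h2⟩ := Finset.mem_inter.1 ha
    obtain ⟨ε', h3⟩ : ∃ b, a ∈ H δ b := (Finset.mem_union.1 h1).elim (⟨_, ·⟩) (⟨_, ·⟩)
    obtain ⟨δ', h4⟩ : ∃ b, a ∈ H b ε := (Finset.mem_union.1 h2).elim (⟨_, ·⟩) (⟨_, ·⟩)
    by_cases h : (δ, ε') = (δ', ε)
    · exact (Prod.mk.inj h).2 ▸ h3
    · exact absurd h4 (Finset.disjoint_left.1 (hd _ _ _ _ h) h3)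
  · cases δ <;> cases ε <;> simp [ha]

theorem flok (hd : ∀ δ ε δ' ε', (δ, ε) ≠ (δ', ε') → Disjoint (H δ ε) (H δ' ε')) :
    FlOk (fI H) (fO H) := by
  refine ⟨?_, ?_, ?_⟩
  · simp only [fI, Finset.disjoint_union_left, Finset.disjoint_union_right]
    exact ⟨⟨hd _ _ _ _ (by simp), hd _ _ _ _ (by simp)⟩, hd _ _ _ _ (by simp), hd _ _ _ _ (by simp)⟩
  · simp only [fO, Finset.disjoint_union_left, Finset.disjoint_union_right]
    exact ⟨⟨hd _ _ _ _ (by simp), hd _ _ _ _ (by simp)⟩, hd _ _ _ _ (by simp), hd _ _ _ _ (by simp)⟩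
  · exact Finset.union_union_union_comm _ _ _ _

theorem half {y : W r} {h g : Bool → Finset (Fin r)} {ρ : Bool → W r}
    (hy : IsIso F.s (Fl.s (g false, g true)) y) (ht : Tri F (g false, g true) y)
    (hρ : ∀ b, IsIso (h b) (g b) (ρ b)) (dh : Disjoint (h false) (h true))
    (dg : Disjoint (g false) (g true)) :
    IsIso F.s (h false ∪ h true) (y * ((ρ false).ad (ρ true)).sw) ∧
      Tri F (h false, h true) (y * ((ρ false).ad (ρ true)).sw) ∧
      ∀ b, gr (F.pt b) (h b) (y * ((ρ false).ad (ρ true)).sw) =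
        gr (F.pt b) (g b) y * (ρ b).sw := by
  have h1 := ((hρ false).ad (hρ true) dh dg).sw
  obtain ⟨h2, h3, h4⟩ := Tri.ad (F := (h false, h true)) (G := (g false, g true))
    (hρ false) (hρ true) dh dg
  refine ⟨hy.mul h1, ht.mul h2.sw hy h1 dg, fun b => ?_⟩
  have h5 := ht.gr_mul h2.sw hy h1 dg b
  cases b
  · exact h5.trans (by rw [← gr_sw]; exact congrArg (fun w => _ * W.sw w) h3)
  · exact h5.trans (by rw [← gr_sw]; exact congrArg (fun w => _ * W.sw w) h4)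

theorem corner {G : Bool → Bool → Finset (Fin r)} {ρ t : Bool → Bool → W r} {c d : Bool → W r}
    (hIJ : I.s = J.s) (hd : ∀ δ ε δ' ε', (δ, ε) ≠ (δ', ε') → Disjoint (H δ ε) (H δ' ε'))
    (g1 : ∀ ε, Disjoint (G false ε) (G true ε)) (g2 : ∀ δ, Disjoint (G δ false) (G δ true))
    (hρ : ∀ δ ε, IsIso (H δ ε) (G δ ε) (ρ δ ε))
    (hc : ∀ ε, IsIso (I.on (J.pt ε)).s (Fl.s (G false ε, G true ε)) (c ε) ∧
      Tri (I.on (J.pt ε)) (G false ε, G true ε) (c ε) ∧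
      ∀ δ, gr (I.pt δ ∩ J.pt ε) (G δ ε) (c ε) = t δ ε)
    (he : ∀ δ, IsIso (J.on (I.pt δ)).s (Fl.s (G δ false, G δ true)) (d δ) ∧
      Tri (J.on (I.pt δ)) (G δ false, G δ true) (d δ) ∧
      ∀ ε, gr (I.pt δ ∩ J.pt ε) (G δ ε) (d δ) = t δ ε) :
    QHyp I J (fI H) (fO H) (fun ε => c ε * ((ρ false ε).ad (ρ true ε)).sw)
      fun δ => d δ * ((ρ δ false).ad (ρ δ true)).sw := by
  have a := fun ε => half (h := fun δ => H δ ε) (g := fun δ => G δ ε) (ρ := fun δ => ρ δ ε)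
    (hc ε).1 (hc ε).2.1 (fun δ => hρ δ ε) (hd _ _ _ _ (by simp)) (g1 ε)
  have b := fun δ => half (h := H δ) (g := G δ) (ρ := ρ δ)
    (he δ).1 (he δ).2.1 (hρ δ) (hd _ _ _ _ (by simp)) (g2 δ)
  refine ⟨fun ε => ?_, fun ε => ?_, fun δ => ?_, fun δ => ?_, fun δ ε => ?_⟩
  · have := (a ε).1
    rwa [on_s hIJ, ← fO_pt] at this
  · have e1 : (fI H).on ((fO H).pt ε) = (H false ε, H true ε) :=
      Prod.ext (inter hd false ε) (inter hd true ε)
    rw [e1]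
    exact (a ε).2.1
  · have := (b δ).1
    rwa [on_s hIJ.symm, ← fI_pt] at this
  · have e1 : (fO H).on ((fI H).pt δ) = (H δ false, H δ true) :=
      Prod.ext ((Finset.inter_comm _ _).trans (inter hd δ false))
        ((Finset.inter_comm _ _).trans (inter hd δ true))
    rw [e1]
    exact (b δ).2.1
  · have h1 := (a ε).2.2 δ
    have h2 := (b δ).2.2 ε
    rw [on_pt, (hc ε).2.2] at h1
    rw [on_pt, Finset.inter_comm, (he δ).2.2] at h2
    rw [inter hd, h1, h2]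

theorem solve {y w : W r} {z : ℂˣ} (hy : IsIso S T y) (hw : IsIso T S w)
    (h : e S * (y * w) = e S * sc z) : y = w.sw * sc z := by
  rw [← hy.r', ← hw.m, ← mul_assoc, ← hy.lc, h, mul_assoc, sc_comm, hw.sw.lc]

end R3f

open R3f in
theorem s_r3f (hq : S_quad1) : S_r3f := by
  intro r O z A x D N m v v' hc hw hv h2 h1
  have i1 : ∀ i : Fin 3, i + 1 + 2 = i := by decide
  have i2 : ∀ i : Fin 3, i + 2 + 1 = i := by decide
  simp only [Cyc, tw, ls_c, ls_l, ls_nil, fs_c, fs_l, path_c, path_l, path_nil] at hc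
  obtain ⟨c0, -, c1, w0, -, c2, w1, -, c3, w2, -⟩ := hc
  have wf : ∀ i, (x i).wf := fun i => by fin_cases i <;> assumption
  have hs : ∀ i, (x (i + 2)).tgt.s = (x i).src.s := fun i => by fin_cases i <;> assumption
  have mem : ∀ i ε, low N z x D m.G m.σ i ε ∈ lows N z x D m.G m.σ := fun i ε => by
    fin_cases i <;> cases ε <;> simp [lows]
  have dk := fun i ε => (disk_ok (disk_wf.1 (hw _ (mem i ε))).2).1 (hv _ (mem i ε))
  simp only [wok_l, wok_c, wok_nil, wv_l, wv_c, wv_nil, mul_one, and_true] at dk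
  have k3 : ∀ i ε, IsIso ((x (i + 2)).tgt.on ((x i).src.pt ε)).s
      (Fl.s (m.G i false ε, m.G i true ε)) (v.1 (lab N i ε + 3)).sw ∧
      Tri ((x (i + 2)).tgt.on ((x i).src.pt ε)) (m.G i false ε, m.G i true ε)
        (v.1 (lab N i ε + 3)).sw ∧
      ∀ δ, gr ((x (i + 2)).tgt.pt δ ∩ (x i).src.pt ε) (m.G i δ ε) (v.1 (lab N i ε + 3)).sw =
        ev v.2 (bo N x m.G i δ ε) := fun i ε => by
    obtain ⟨a1, a2, a3, a4⟩ := (dk i ε).2.1.2.2
    refine ⟨a1.sw, a2.sw, fun δ => ?_⟩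
    rw [ev_flip] at a3 a4
    cases δ
    · exact (gr_sw _ _ _).symm.trans (congrArg W.sw a3)
    · exact (gr_sw _ _ _).symm.trans (congrArg W.sw a4)
  have k2 : ∀ i δ, IsIso ((x i).src.on ((x (i + 2)).tgt.pt δ)).s
      (Fl.s (m.G i δ false, m.G i δ true)) (v.1 (lab N (i + 2) δ + 2)) ∧
      Tri ((x i).src.on ((x (i + 2)).tgt.pt δ)) (m.G i δ false, m.G i δ true)
        (v.1 (lab N (i + 2) δ + 2)) ∧
      ∀ ε, gr ((x (i + 2)).tgt.pt δ ∩ (x i).src.pt ε) (m.G i δ ε) (v.1 (lab N (i + 2) δ + 2)) =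
        ev v.2 (bo N x m.G i δ ε) := fun i δ => by
    have a := (dk (i + 2) δ).2.1.2.1
    rw [i2] at a
    obtain ⟨a1, a2, a3, a4⟩ := a
    have e1 : (x i).src.on ((x (i + 2)).tgt.pt δ) =
        ((bo N x m.G i δ false).S, (bo N x m.G i δ true).S) :=
      Prod.ext (Finset.inter_comm _ _) (Finset.inter_comm _ _)
    rw [e1]
    refine ⟨a1, a2, fun ε => ?_⟩
    cases ε
    exacts [a3, a4]
  have fo := fun i => flok (m.Hd i)
  have hg := fun i => hq r _ _ _ _ (ra m N v.1 i) (rb m N v.1 i) (v.1 (x i).i).a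
    ⟨(wf (i + 2)).2.1, (wf i).1, hs i⟩ (fo i)
    (corner (hs i) (m.Hd i) (m.Gd1 i) (m.Gd2 i) (m.ρi i) (k3 i) (k2 i))
  have eO : ∀ i, (fO (m.H i)).s = m.B := fun i => (fo i).2.2.symm.trans (m.HB i)
  have gi : ∀ i, IsIso (x i).src.s m.B (rg m N x v.1 i) := fun i => eO i ▸ (hg i).1
  have key : ∀ i, (x i).ok v' := fun i => by
    have g1 : IsIso (x i).src.s (fO (m.H i)).s (rg m N x v.1 i) := (hg i).1
    have g2 : IsIso (fO (m.H i)).s (fI (m.H (i + 1))).s (m.Γ i) := by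
      rw [eO, m.HB]; exact m.Γi i
    have g3 : IsIso (fI (m.H (i + 1))).s (x (i + 1 + 2)).tgt.s (rg m N x v.1 (i + 1)).sw := by
      rw [m.HB, hs]; exact (gi (i + 1)).sw
    have t1 : Tri (x i).src (fO (m.H i)) (rg m N x v.1 i) := (hg i).2.1
    have t3 : Tri (fI (m.H (i + 1))) (x (i + 1 + 2)).tgt (rg m N x v.1 (i + 1)).sw :=
      (hg (i + 1)).2.2.1.sw
    have t2 := t1.mul (m.Γt i) g1 g2 (fo i).2.1
    have t4 := t2.mul t3 (g1.mul g2) g3 (fo (i + 1)).1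
    have gr1 : ∀ ε, gr ((x i).src.pt ε) ((x (i + 1 + 2)).tgt.pt ε) (rq m N z x D v.1 i) =
        ev v.2 ((x i).pc ε) := fun ε => by
      have p1 : gr ((x i).src.pt ε) ((fO (m.H i)).pt ε) (rg m N x v.1 i) = ra m N v.1 i ε :=
        (hg i).2.2.2.1 ε
      have p2 : gr ((x (i + 1 + 2)).tgt.pt ε) ((fI (m.H (i + 1))).pt ε) (rg m N x v.1 (i + 1)) =
          rb m N v.1 (i + 1) ε := (hg (i + 1)).2.2.2.2 ε
      obtain ⟨b1, b2⟩ := ((full_fl _ _).ok v).1 (dk i ε).2.1.1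
      have b3 := (k2 (i + 1) ε).1
      have b4 := (k3 i ε).1
      rw [on_s (hs _).symm, i1] at b3
      rw [on_s (hs _)] at b4
      have b5 : ((x i).pc ε).S = (x i).src.pt ε ∧ ((x i).pc ε).T = (x i).tgt.pt ε := by
        cases ε <;> exact ⟨rfl, rfl⟩
      have b6 : Fl.s (m.G (i + 1) ε false, m.G (i + 1) ε true) =
          Fl.s (m.G i false ε, m.G i true ε) := (m.GY i ε).symm
      have b7 := (dk i ε).2.2
      have b8 := b3.mul (b6 ▸ (b4.sw.dgr (D i)).dgl (m.σ i ε))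
      rw [b5.1, b5.2] at b1
      rw [b5.1] at b7
      have q1 := (m.ρi i false ε).ad (m.ρi i true ε) (m.Hd _ _ _ _ _ (by simp)) (m.Gd1 i ε)
      have q2 := (m.ρi (i + 1) ε false).ad (m.ρi (i + 1) ε true) (m.Hd _ _ _ _ _ (by simp))
        (m.Gd2 (i + 1) ε)
      rw [← b2, solve b1 b8 b7, rq, dg_sw, sc, gr_dgr, gr_dgl,
        t2.gr_mul t3 (g1.mul g2) g3 (fo (i + 1)).1, t1.gr_mul (m.Γt i) g1 g2 (fo i).2.1, p1,
        ← gr_sw, p2, m.Γg, ra, rb, i1]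
      simp only [mul_assoc, W.sw_mul, W.sw_sw, q1.mc', q2.mc']
      rw [dg_sw (D i)]
      erw [b4.rc, b3.sw.lc]
    rw [Lt.ok, h1, h2]
    rw [i1] at g3 t4 gr1
    refine ⟨?_, ?_, gr1 false, gr1 true⟩
    · rw [rq, dg_sw]
      exact (((g1.mul g2).mul g3).dgl _).dgr _
    · rw [rq, dg_sw]
      exact (t4.dgl _).dgr _
  refine ⟨by simp [tw, key], ?_⟩
  have e1 : ∀ i y, dg (D i) * (rq m N z x D v.1 i * y) = rg m N x v.1 i *
      (m.Γ i * ((rg m N x v.1 (i + 1)).sw * (sc (zz z i) * y))) := fun i y => by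
    simp only [rq, ← mul_assoc, dg_mul_sw, one_mul]
  have e2 : ∀ y, m.Γ 0 * (m.Γ 1 * (m.Γ 2 * y)) = e m.B * y := fun y => by
    rw [← m.Γ3]; simp only [mul_assoc]
  simp only [tw, wv_c, wv_l, wv_nil, h1, e1]
  rw [← c0, c1]
  have z0 : zz z 0 = 1 := rfl
  have z1 : zz z 1 = 1 := rfl
  have z2 : zz z 2 = z := rfl
  have j0 : (0 + 1 : Fin 3) = 1 := rfl
  have j1 : (1 + 1 : Fin 3) = 2 := rfl
  have j2 : (2 + 1 : Fin 3) = 0 := rfl
  simp only [z0, z1, z2, j0, j1, j2, sc_one, one_mul, mul_one, (gi _).mc', (m.Γi _).rc, e2,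
    (gi _).rc, (gi _).mc]
  rw [← mul_assoc, e_idem]

end Vale.Agent.P002S
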