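import Vale.Agent.P002S.Stm

/-! The lower system of a triangle is well formed. -/

namespace Vale.Agent.P002S

open Matrix Vale.Agent.P002 Function

variable {r : ℕ}

namespace R3w

variable {O : Subring ℂ}

theorem corner {A : Finset (Fin r)} {x : Fin 3 → Lt r} {D : Fin 3 → Fin r → ℂˣ}
    (h : Cyc O A (tw x D)) (i : Fin 3) :
    Cst O (D i) (x (i + 2)).tgt (x i).src ∧ (x (i + 2)).tgt.s = (x i).src.s ∧ (x i).wf := by
  obtain ⟨-, a1, a2, a3, b1, b2, b3, c1, c2, c3, -⟩ := h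
  fin_cases i
  exacts [⟨a1, a2, a3⟩, ⟨b1, b2, b3⟩, ⟨c1, c2, c3⟩]

theorem pt_sub (F : Fl r) (b : Bool) : F.pt b ⊆ F.s := by
  cases b
  exacts [Finset.subset_union_left, Finset.subset_union_right]

theorem on_left {I : Fl r} {S : Finset (Fin r)} (h : S ⊆ I.s) :
    Fl.s ((I.1 ∩ S, I.2 ∩ S) : Fl r) = S := by
  rw [Fl.s, ← Finset.union_inter_distrib_right]
  exact Finset.inter_eq_right.2 h

theorem on_right {I : Fl r} {S : Finset (Fin r)} (h : S ⊆ I.s) :
    Fl.s ((S ∩ I.1, S ∩ I.2) : Fl r) = S := by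
  rw [Finset.inter_comm S, Finset.inter_comm S, on_left h]

theorem cst {D : Fin r → ℂˣ} {I J G : Fl r} (h : Cst O D I J) (hJ : Disjoint J.1 J.2) (b : Bool) :
    Cst O D (I.1 ∩ J.pt b, I.2 ∩ J.pt b) G := by
  refine ⟨h.1, fun k hk l hl h1 _ => ?_⟩
  simp only [Fl.s, Finset.mem_union, Finset.mem_inter] at hk hl h1
  have h2 : k ∈ J.pt b := hk.elim And.right And.right
  have h3 : l ∈ J.pt b := hl.elim And.right And.right
  refine h.2 k (Finset.mem_union.2 (hk.imp And.left And.left)) l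
    (Finset.mem_union.2 (hl.imp And.left And.left)) (by simpa only [h2, h3, and_true] using h1) ?_
  cases b
  · exact iff_of_true h2 h3
  · exact iff_of_false (Finset.disjoint_right.1 hJ h2) (Finset.disjoint_right.1 hJ h3)

theorem low_wf {A : Finset (Fin r)} {x : Fin 3 → Lt r} {D : Fin 3 → Fin r → ℂˣ} {z : ℂˣ} {N : ℕ}
    (m : Mod O r) (hz : Un O z) (h : Cyc O A (tw x D))
    (hc : ∀ i δ ε, (bo N x m.G i δ ε).S.card = (m.G i δ ε).card) (i : Fin 3) (ε : Bool) :
    (low N z x D m.G m.σ i ε).wf O := by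
  obtain ⟨a1, a2, a3⟩ := corner h i
  obtain ⟨-, b2, b3⟩ := corner h (i + 1)
  obtain ⟨-, -, c3⟩ := corner h (i + 2)
  have e1 : ((x i).pc ε).S = (x i).src.pt ε := by cases ε <;> rfl
  have e2 : ((x i).pc ε).T = (x (i + 1 + 2)).tgt.pt ε := by
    rw [show i + 1 + 2 = i by fin_cases i <;> rfl]
    cases ε <;> rfl
  have e3 : ((x i).pc ε).S.card = ((x i).pc ε).T.card := by
    cases ε
    exacts [a3.2.2.1, a3.2.2.2]
  have k : Fl.s (((x (i + 2)).tgt.1 ∩ (x i).src.pt ε, (x (i + 2)).tgt.2 ∩ (x i).src.pt ε) : Fl r) =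
      ((x i).pc ε).S := (on_left (a2 ▸ pt_sub _ ε)).trans e1.symm
  refine disk_wf.2 ⟨?_, k, k.trans (Fl.s_triv _).symm,
    ⟨Finset.disjoint_empty_right _, Finset.disjoint_empty_right _, e3, rfl⟩,
    (Fl.s_triv _).trans (e2.trans (on_right (b2 ▸ pt_sub _ ε)).symm),
    ⟨b3.1.mono Finset.inter_subset_right Finset.inter_subset_right, m.Gd2 _ _, hc _ _ _, hc _ _ _⟩,
    m.σc i ε, (m.GY i ε).symm,
    ⟨m.Gd1 _ _, c3.2.1.mono Finset.inter_subset_left Finset.inter_subset_left, (hc _ _ _).symm,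
      (hc _ _ _).symm⟩, cst a1 a3.1 ε, k.trans (Fl.s_triv _).symm⟩
  unfold zz
  split_ifs
  exacts [hz, Un.one]

theorem own_lows (N : ℕ) (z : ℂˣ) (x : Fin 3 → Lt r) (D : Fin 3 → Fin r → ℂˣ)
    (G : Fin 3 → Bool → Bool → Finset (Fin r)) (σ : Fin 3 → Bool → Fin r → ℂˣ) :
    own (lows N z x D G σ) = ((List.range 24).map (N + ·) : List ℕ) := rfl

/-- the twelve new edges -/
def Jm (b : Fin 3 → Bool → Bool → Occ r) : Multiset (Occ r) :=
  {b 0 false false} + ({b 0 false true} + ({b 0 true false} + ({b 0 true true} +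
    ({b 1 false false} + ({b 1 false true} + ({b 1 true false} + ({b 1 true true} +
      ({b 2 false false} + ({b 2 false true} + ({b 2 true false} + {b 2 true true}))))))))))

theorem mem_Jm {b : Fin 3 → Bool → Bool → Occ r} {o : Occ r} (h : o ∈ Jm b) :
    ∃ i δ ε, o = b i δ ε := by
  simp only [Jm, Multiset.mem_add, Multiset.mem_singleton] at h
  rcases h with h | h | h | h | h | h | h | h | h | h | h | h <;> exact ⟨_, _, _, h⟩

theorem e_Jm (N : ℕ) (x : Fin 3 → Lt r) (G : Fin 3 → Bool → Bool → Finset (Fin r)) :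
    (Jm (bo N x G)).map Occ.e = ((List.range 12).map (N + ·) : List ℕ) := rfl

theorem oc_lows (N : ℕ) (z : ℂˣ) (x : Fin 3 → Lt r) (D : Fin 3 → Fin r → ℂˣ)
    (G : Fin 3 → Bool → Bool → Finset (Fin r)) (σ : Fin 3 → Bool → Fin r → ℂˣ)
    (K : Multiset (Occ r)) (o : Occ r) (ho : o = ⟨0, false, ∅, ∅⟩) :
    oc (lows N z x D G σ) + K = {o} + ({o} + ({o} + ({o} + ({o} + ({o} +
      (Jm (bo N x G) + (Jm (bo N x G)).map Occ.flip + (woc (tw x D) + K))))))) := by
  simp only [lows, low, disk, fl, tw, Jm, oc_cons, oc_nil, poc_cons, poc_nil, Pa.oc, woc_l, woc_c,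
    woc_nil, Lt.pc_false, Lt.pc_true, Multiset.map_add, Multiset.map_singleton, ← ho, zero_add,
    Fin.reduceAdd]
  generalize bo N x G = b
  abel

theorem nd (N n : ℕ) : (((List.range n).map (N + ·) : List ℕ) : Multiset ℕ).Nodup :=
  Multiset.coe_nodup.2 (List.nodup_range.map (add_right_injective N))

end R3w

theorem s_r3w : S_r3w := by
  intro r O B z h A x D R N m hW hB hc
  have h1 := hW.sh _ List.mem_cons_self
  have hz : Un O z := h1.1
  have hC : Cyc O A (tw x D) := (h1.2 _ List.mem_cons_self).2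
  refine ⟨fun s hs => ?_, ?_, ?_⟩
  · rcases List.mem_append.1 hs with hs | hs
    · simp only [lows, List.mem_cons, List.not_mem_nil, or_false] at hs
      rcases hs with rfl | rfl | rfl | rfl | rfl | rfl <;> exact R3w.low_wf m hz hC hc _ _
    · exact hW.sh s (List.mem_cons_of_mem _ hs)
  · have h2 := hW.nd
    rw [own_cons, Multiset.nodup_add] at h2
    rw [own_append, R3w.own_lows, Multiset.nodup_add]
    refine ⟨R3w.nd N 24, h2.2.1, Multiset.disjoint_left.2 fun {i} hi hi' => ?_⟩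
    have h3 := hB.1 i (by rw [own_cons]; exact Multiset.mem_add.2 (Or.inr hi'))
    obtain ⟨j, -, rfl⟩ := List.mem_map.1 (Multiset.mem_coe.1 hi)
    omega
  · have e : oc (⟨B, z, [.cy h A (tw x D)]⟩ :: R) = woc (tw x D) + oc R := by simp [Pa.oc]
    rw [oc_append, R3w.oc_lows N z x D m.G m.σ _ _ rfl]
    simp only [ocOk_empty (o := ⟨0, false, ∅, ∅⟩) rfl]
    rw [← e]
    refine hW.oc.add_pairs _ (fun o ho => ?_) (R3w.e_Jm N x m.G ▸ R3w.nd N 12)
      fun o ho o' ho' hn => ?_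
    · obtain ⟨i, δ, ε, rfl⟩ := R3w.mem_Jm ho
      exact hc i δ ε
    · obtain ⟨i, δ, ε, rfl⟩ := R3w.mem_Jm ho
      have h3 := hB.2 o' ho' hn
      show o'.e ≠ N + 4 * i + 2 * δ.toNat + ε.toNat
      omega

end Vale.Agent.P002S
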