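import Vale.Agent.P002S.Stm

/-! Rotation of a boundary cycle. -/

namespace Vale.Agent.P002S

open Matrix Vale.Agent.P002 Function

namespace Rot

variable {r : ℕ} {O : Subring ℂ}

theorem dich (w : List (It r)) : (∀ F, ls w F = F ∧ fs w F = F) ∨
    ∃ K K', ∀ F, ls w F = K ∧ fs w F = K' := by
  induction w with
  | nil => exact Or.inl fun _ => ⟨rfl, rfl⟩
  | cons a w ih =>
    cases a with
    | c D => exact ih
    | l x => exact Or.inr ⟨ls w x.tgt, x.src, fun _ => ⟨rfl, rfl⟩⟩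

theorem paths {A : Finset (Fin r)} {w1 w2 : List (It r)} (h : Cyc O A (w1 ++ w2)) :
    Cyc O (ls w1 (A, ∅)).s (w2 ++ w1) ∧ ∃ F G F' G' : Fl r, F.s = A ∧ G.s = (ls w1 (A, ∅)).s ∧
      F'.s = (ls w1 (A, ∅)).s ∧ G'.s = A ∧ Path O F w1 G ∧ Path O F' w2 G' := by
  have h0 := h.fst
  obtain ⟨h1, h2⟩ := h
  obtain ⟨p1, p2⟩ := path_append.1 h2
  have h3 : (ls w1 (ls (w1 ++ w2) (A, ∅))).s = (ls w1 (A, ∅)).s := by
    rcases dich w1 with a | ⟨K, K', a⟩
    · rw [(a _).1, (a _).1, h1, Fl.s_triv]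
    · rw [(a _).1, (a _).1]
  refine ⟨?_, _, _, _, _, h1, p1.lst.symm.trans h3, h3, h0, p1, p2⟩
  unfold Cyc
  rw [path_append]
  simp only [ls_append, fs_append] at h1 p1 p2 ⊢
  rcases dich w1 with a | ⟨K, K', a⟩ <;> rcases dich w2 with b | ⟨J, J', b⟩ <;>
    simp only [fun F => (a F).1, fun F => (a F).2, fun F => (b F).1, fun F => (b F).2,
      Fl.s_triv] at h1 p1 p2 ⊢
  · exact ⟨trivial, p2, p1⟩
  · exact ⟨h1, p2, p1⟩
  · exact ⟨trivial, p2, p1⟩
  · exact ⟨trivial, p2, p1⟩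

variable {A A' B : Finset (Fin r)} {a b g : W r}

theorem fwd (hg : IsIso B A g) (ha : IsIso A A' (e A * a)) (hc : e A * a = a * e A') :
    IsIso B A' (g * a) ∧ g * a * a.sw = g := by
  have e1 : g * a = g * (e A * a) := (hg.rc a).symm
  have e2 : e A' * a.sw = (e A * a).sw := by rw [hc, W.sw_mul, e_sw]
  refine ⟨e1 ▸ hg.mul ha, ?_⟩
  rw [e1, mul_assoc, ← ha.rc, e2, ha.m, hg.r']

theorem bwd (hg : IsIso B A' g) (ha : IsIso A A' (e A * a)) (hc : e A * a = a * e A') :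
    IsIso B A (g * a.sw) ∧ g * a.sw * a = g := by
  have e2 : e A' * a.sw = (e A * a).sw := by rw [hc, W.sw_mul, e_sw]
  exact fwd hg (e2 ▸ ha.sw) (by rw [e2, W.sw_mul, e_sw])

theorem val (hg : IsIso B A g) (ha : IsIso A A' (e A * a)) (hb : e A' * b = b * e A) :
    g * a * (b * a) * (g * a).sw = g * (a * b) * g.sw := by
  have e1 : g * a = g * (e A * a) := (hg.rc a).symm
  have e2 : e A * a * b = e A * a * (b * e A) := by rw [← hb, ha.rc]
  calc g * a * (b * a) * (g * a).sw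
      = g * ((e A * a * b) * a) * ((e A * a).sw * g.sw) := by
        rw [← W.sw_mul, ← e1]
        simp only [mul_assoc, hg.rc]
    _ = g * (a * b) * ((e A * a) * ((e A * a).sw * g.sw)) := by
        rw [e2]
        simp only [mul_assoc, hg.rc]
    _ = g * (a * b) * g.sw := by rw [ha.mc, hg.sw.l]

theorem fresh {z : ℂˣ} {X Y : List (Pa r)} {h : ℕ} {w : List (It r)} {R : Sy r}
    (nd : (own (⟨B, z, X ++ .cy h A w :: Y⟩ :: R)).Nodup) :
    h ∉ pown X ∧ h ∉ wown w ∧ h ∉ pown Y ∧ h ∉ own R := by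
  have k := Multiset.nodup_iff_count_le_one.1 nd h
  simp only [own_cons, pown_append, pown_cons, Pa.own, Multiset.count_add,
    Multiset.count_singleton_self] at k
  simp only [← Multiset.count_eq_zero]
  omega

theorem transfer {z : ℂˣ} {X Y : List (Pa r)} {h : ℕ} {w w' : List (It r)} {R : Sy r} {u : Pt r}
    (nd : (own (⟨B, z, X ++ .cy h A w :: Y⟩ :: R)).Nodup) (hw : wown w' = wown w)
    (hu : u ∈ Sol (⟨B, z, X ++ .cy h A w :: Y⟩ :: R)) (hk : wok u w') (hg : IsIso B A' g)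
    (hv : g * wv u.1 w' * g.sw = u.1 h * wv u.1 w * (u.1 h).sw) :
    (update u.1 h g, u.2) ∈ Sol (⟨B, z, X ++ .cy h A' w' :: Y⟩ :: R) := by
  obtain ⟨n1, n2, n3, n4⟩ := fresh nd
  have up : ∀ K : Multiset ℕ, h ∉ K → ∀ i ∈ K, u.1 i = update u.1 h g i := fun K hK i hi =>
    (update_of_ne (fun k : i = h => hK (k ▸ hi)) _ _).symm
  simp only [sol_cons, Sh.ok, pok_append, pok_cons, Pa.ok, pv_append, pv_cons, Pa.v] at hu ⊢
  obtain ⟨⟨⟨a1, -, a3⟩, a4⟩, a5⟩ := hu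
  rw [← hw] at n2
  refine ⟨⟨⟨a1.congr (up _ n1) fun _ _ _ => rfl, ⟨?_, hk.congr (up _ n2) fun _ _ _ => rfl⟩,
    a3.congr (up _ n3) fun _ _ _ => rfl⟩, ?_⟩, sol_congr a5 (up _ n4) fun _ _ _ => rfl⟩
  · rw [update_self]
    exact hg
  · rw [update_self, ← pv_congr (up _ n1), ← pv_congr (up _ n3), ← wv_congr (up _ n2), hv]
    exact a4

theorem part {z : ℂˣ} {X Y : List (Pa r)} {h : ℕ} {w : List (It r)} {R : Sy r} {u : Pt r}
    (hu : u ∈ Sol (⟨B, z, X ++ .cy h A w :: Y⟩ :: R)) : IsIso B A (u.1 h) ∧ wok u w := by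
  simp only [sol_cons, Sh.ok, pok_append, pok_cons, Pa.ok] at hu
  exact hu.1.1.2.1

end Rot

open Rot in
theorem s_rot : S_rot := by
  intro r O B z X Y h A w1 w2 R u hW hu
  have hs := hW.sh _ List.mem_cons_self
  simp only [Sh.wf, pwf_append, pwf_cons, Pa.wf] at hs
  obtain ⟨z1, x1, ⟨c1, c2⟩, y1⟩ := hs
  obtain ⟨c3, F, G, F', G', f1, g1, f2, g2, p1, p2⟩ := paths c2
  generalize (ls w1 (A, ∅)).s = A' at c3 g1 f2 ⊢
  have ho : own (⟨B, z, X ++ .cy h A' (w2 ++ w1) :: Y⟩ :: R) =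
      own (⟨B, z, X ++ .cy h A (w1 ++ w2) :: Y⟩ :: R) := by
    simp only [own_cons, pown_append, pown_cons, Pa.own, wown_append, add_comm (wown w1)]
  have hc : oc (⟨B, z, X ++ .cy h A' (w2 ++ w1) :: Y⟩ :: R) =
      oc (⟨B, z, X ++ .cy h A (w1 ++ w2) :: Y⟩ :: R) := by
    simp only [oc_cons, poc_append, poc_cons, Pa.oc, woc_append, add_comm (woc w1)]
  have alg : ∀ v : Pt r, wok v w1 → wok v w2 → IsIso A A' (e A * wv v.1 w1) ∧
      e A * wv v.1 w1 = wv v.1 w1 * e A' ∧ e A' * wv v.1 w2 = wv v.1 w2 * e A := fun v k1 k2 => by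
    have a1 := p1.iso k1
    have a2 := p1.comm k1
    have a3 := p2.comm k2
    rw [f1, g1] at a1 a2
    rw [f2, g2] at a3
    exact ⟨a1, a2, a3⟩
  have hw : wown (w2 ++ w1) = wown (w1 ++ w2) := by simp only [wown_append, add_comm]
  obtain ⟨u1, u2⟩ := part hu
  obtain ⟨k1, k2⟩ := (wok_append _ _ _).1 u2
  obtain ⟨a1, a2, a3⟩ := alg u k1 k2
  have n2 : h ∉ wown w1 := fun k => (fresh hW.nd).2.1 (by simp [k])
  refine ⟨⟨fun s hs => ?_, ho ▸ hW.nd, hc ▸ hW.oc⟩, ?_, fun ap => ?_⟩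
  · rcases List.mem_cons.1 hs with rfl | hs
    · simp only [Sh.wf, pwf_append, pwf_cons, Pa.wf]
      refine ⟨z1, x1, ⟨?_, c3⟩, y1⟩
      rw [← c1, ← f1, ← g1, p1.card]
    · exact hW.sh s (List.mem_cons_of_mem _ hs)
  · refine transfer hW.nd hw hu ((wok_append _ _ _).2 ⟨k2, k1⟩) (fwd u1 a1 a2).1 ?_
    rw [wv_append, wv_append]
    exact val u1 a1 a3
  · refine App.map (fun v => (update v.1 h (v.1 h * (wv v.1 w1).sw), v.2)) (fun i hi => ?_)
      (fun v hv => ?_) (fun i _ => ?_) ap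
    · refine PW.update ((PW.var ?_).mul (PW.wv (fun j hj => ?_) fun D hD => p1.un hD).sw)
        fun _ => PW.var (by rw [Set.mem_ofPred_eq, ho]; exact hi)
      · simp [Pa.own]
      · simp [Pa.own, hj]
    · obtain ⟨v1, v2⟩ := part hv
      obtain ⟨l2, l1⟩ := (wok_append _ _ _).1 v2
      obtain ⟨b1, b2, b3⟩ := alg v l1 l2
      obtain ⟨d1, d2⟩ := bwd v1 b1 b2
      refine transfer (ho ▸ hW.nd) hw.symm hv ((wok_append _ _ _).2 ⟨l1, l2⟩) d1 ?_
      rw [wv_append, wv_append, ← val d1 b1 b3, d2]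
    · have e1 : wv (update u.1 h (u.1 h * wv u.1 w1)) w1 = wv u.1 w1 :=
        wv_congr fun j hj => update_of_ne (fun k : j = h => n2 (k ▸ hj)) _ _
      simp only [update_self, e1, update_idem, (fwd u1 a1 a2).2, update_eq_self]

end Vale.Agent.P002S
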