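import Vale.Agent.P002S.Stm

/-! Splitting a letter. -/

namespace Vale.Agent.P002S

open Matrix Vale.Agent.P002 Function

namespace Sp

variable {r : ℕ} {O : Subring ℂ} {B A : Finset (Fin r)} {z : ℂˣ} {X Y : List (Pa r)} {h : ℕ}
  {U V w w' : List (It r)} {R : Sy r} {u u' : Pt r}

/-- replacing a subword -/
theorem tr (hu : u ∈ Sol (⟨B, z, X ++ .cy h A (U ++ (w ++ V)) :: Y⟩ :: R))
    (h1 : ∀ i ∈ own (⟨B, z, X ++ .cy h A (U ++ V) :: Y⟩ :: R), u.1 i = u'.1 i)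
    (h2 : ∀ o ∈ oc (⟨B, z, X ++ .cy h A (U ++ V) :: Y⟩ :: R), o.S.Nonempty → u.2 o.e = u'.2 o.e)
    (hw : wok u' w') (hv : wv u.1 w = wv u'.1 w') :
    u' ∈ Sol (⟨B, z, X ++ .cy h A (U ++ (w' ++ V)) :: Y⟩ :: R) := by
  simp only [own_cons, pown_append, pown_cons, Pa.own, wown_append, Multiset.mem_add,
    Multiset.mem_singleton, or_imp, forall_and, forall_eq] at h1
  simp only [oc_cons, poc_append, poc_cons, Pa.oc, woc_append, Multiset.mem_add, or_imp,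
    forall_and] at h2
  obtain ⟨⟨a1, ⟨a2, a3, a4⟩, a5⟩, a6⟩ := h1
  obtain ⟨⟨b1, ⟨b3, b4⟩, b5⟩, b6⟩ := h2
  simp only [sol_cons, Sh.ok, pok_append, pok_cons, Pa.ok, wok_append, pv_append, pv_cons, Pa.v,
    wv_append] at hu ⊢
  obtain ⟨⟨⟨c1, ⟨c2, c3, -, c4⟩, c5⟩, c6⟩, c7⟩ := hu
  refine ⟨⟨⟨c1.congr a1 b1, ⟨a2 ▸ c2, c3.congr a3 b3, hw, c4.congr a4 b4⟩, c5.congr a5 b5⟩, ?_⟩,
    sol_congr c7 a6 b6⟩
  rwa [← pv_congr a1, ← pv_congr a5, ← wv_congr a3, ← wv_congr a4, ← hv, ← a2]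

/-- the triangle -/
theorem tri {M : ℕ} {o1 o2 o3 : Occ r} (hc : (tri3 M o1 o2.flip o3.flip).wf O) (h1 : o3.S = o1.S)
    (h2 : o2.S = o3.T) (h3 : o2.T = o1.T) (v : Pt r) : (tri3 M o1 o2.flip o3.flip).ok v ↔
      IsIso o1.S o1.S (v.1 M) ∧ v.1 (M + 1) = ev v.2 o1 ∧ v.1 (M + 2) = (ev v.2 o2).sw ∧
        v.1 (M + 3) = (ev v.2 o3).sw ∧ IsIso o1.S o3.T (ev v.2 o3) ∧
          IsIso o3.T o1.T (ev v.2 o2) ∧ ev v.2 o1 = ev v.2 o3 * ev v.2 o2 := by
  rw [tri3, disk_ok (disk_wf.1 hc).2]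
  simp only [wok_l, wok_nil, and_true, (full_fl _ _).ok, wv_l, wv_nil, mul_one, sc_one, ev_flip]
  simp only [fl, Occ.flip, h1, h2, h3]
  constructor
  · rintro ⟨a0, ⟨⟨a1, e1⟩, ⟨a2, e2⟩, a3, e3⟩, a⟩
    rw [e1] at a1
    rw [e2] at a2
    rw [e3] at a3
    rw [e1, e2, e3] at a
    have b2 := a2.sw
    have b3 := a3.sw
    rw [W.sw_sw] at b2 b3
    refine ⟨a0, e1, e2, e3, b3, b2, ?_⟩
    have := congrArg (· * (ev v.2 o3 * ev v.2 o2)) a
    simpa only [mul_assoc, a1.lc, b3.lc, b3.mc', b2.l, b2.m', a1.r'] using this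
  · rintro ⟨a0, e1, e2, e3, b3, b2, a⟩
    rw [e1, e2, e3, a]
    refine ⟨a0, ⟨⟨b3.mul b2, rfl⟩, ⟨b2.sw, rfl⟩, b3.sw, rfl⟩, ?_⟩
    simp only [mul_assoc, b2.mc, b3.rc, b3.m, e_idem]

end Sp

theorem s_sp (hw : S_spw) : S_sp := by
  intro r O B z X Y h A U V x R N K g u wf hu hb hK hg hT
  have eo : own (⟨B, z, X ++ .cy h A (U ++ .l x :: V) :: Y⟩ :: R) =
      {x.i} + own (⟨B, z, X ++ .cy h A (U ++ V) :: Y⟩ :: R) := by
    simp only [own_cons, pown_append, pown_cons, Pa.own, wown_append, wown_l]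
    abel
  have eo' : own (⟨B, z, X ++ .cy h A (U ++ .l (sp1 N x K) :: .l (sp2 N x K) :: V) :: Y⟩ ::
      (spSy N x K ++ R)) = {N} + own (⟨B, z, X ++ .cy h A (U ++ .l x :: V) :: Y⟩ :: R) +
        own (spSy N x K) := by
    simp only [own_cons, own_append, pown_append, pown_cons, Pa.own, wown_append, wown_l, sp1, sp2]
    abel
  have ec : oc (⟨B, z, X ++ .cy h A (U ++ .l x :: V) :: Y⟩ :: R) =
      {x.p} + {x.q} + oc (⟨B, z, X ++ .cy h A (U ++ V) :: Y⟩ :: R) := by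
    simp only [oc_cons, poc_append, poc_cons, Pa.oc, woc_append, woc_l]
    abel
  have nd := wf.nd
  obtain ⟨hb1, hb2⟩ := hb
  rw [eo, Multiset.singleton_add, Multiset.nodup_cons] at nd
  have xN : x.i < N := hb1 _ (by rw [eo]; simp)
  have xw : x.wf := by
    have a := (wf.sh _ List.mem_cons_self).2
    simp only [pwf_append, pwf_cons, Pa.wf] at a
    exact a.2.1.2.2.wf (by simp)
  have xo : x.ok u := by
    have a := ((sol_cons _ _ _).1 hu).1.1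
    simp only [pok_append, pok_cons, Pa.ok, wok_append, wok_l] at a
    exact a.2.1.2.2.1
  have i1 := fun b => hT.iso hg xw.1 hK b
  have c1 : x.p.S.card = K.1.card := (i1 false).card
  have c2 : x.q.S.card = K.2.card := (i1 true).card
  obtain ⟨wf', hb'⟩ := hw r O B z X Y h A U V x R N K wf ⟨hb1, hb2⟩ hK c1 c2
  have w1 := wf'.sh (tri3 (N + 1) x.p (sp2 N x K).p.flip (sp1 N x K).p.flip) (by simp [spSy])
  have w2 := wf'.sh (tri3 (N + 5) x.q (sp2 N x K).q.flip (sp1 N x K).q.flip) (by simp [spSy])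
  have t1 := Sp.tri w1 rfl rfl rfl
  have t2 := Sp.tri w2 rfl rfl rfl
  obtain ⟨q2, hq2⟩ : ∃ q2, q2 = g.sw * u.1 x.i := ⟨_, rfl⟩
  have g2 : IsIso K.s x.tgt.s q2 := hq2 ▸ hg.sw.mul xo.1
  have T2 : Tri K x.tgt q2 := hq2 ▸ hT.sw.mul xo.2.1 hg.sw xo.1 xw.1
  have gq : g * q2 = u.1 x.i := by rw [hq2, hg.mc, xo.1.l]
  have i2 := fun b => T2.iso g2 hK xw.2.1 b
  have gm := fun b => hT.gr_mul T2 hg g2 hK b
  rw [gq] at gm
  obtain ⟨t, ht⟩ : ∃ t : ℕ → W r,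
    t = fun j => if j < N then u.2 j else if j < N + 2 then g else q2 := ⟨_, rfl⟩
  have t0 : ∀ j < N, u.2 j = t j := fun j hj => by simp only [ht, if_pos hj]
  have s1p : ev t (sp1 N x K).p = gr x.p.S K.1 g := by simp [ev, sp1, ht]
  have s1q : ev t (sp1 N x K).q = gr x.q.S K.2 g := by simp [ev, sp1, ht]
  have s2p : ev t (sp2 N x K).p = gr K.1 x.p.T q2 := by simp [ev, sp2, ht]
  have s2q : ev t (sp2 N x K).q = gr K.2 x.q.T q2 := by simp [ev, sp2, ht]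
  have sp : ev u.2 x.p = ev t x.p := ev_congr fun k => t0 _ (hb2 _ (by rw [ec]; simp) k)
  have sq : ev u.2 x.q = ev t x.q := ev_congr fun k => t0 _ (hb2 _ (by rw [ec]; simp) k)
  obtain ⟨L, hL⟩ : ∃ L : List (W r), L = [g, e x.p.S, ev t x.p, (ev t (sp2 N x K).p).sw,
    (ev t (sp1 N x K).p).sw, e x.q.S, ev t x.q, (ev t (sp2 N x K).q).sw,
    (ev t (sp1 N x K).q).sw] := ⟨_, rfl⟩
  obtain ⟨y, hy⟩ : ∃ y : ℕ → W r,
    y = fun i => if i < N then update u.1 x.i q2 i else L.getD (i - N) 1 := ⟨_, rfl⟩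
  have y0 : ∀ i < N, i ≠ x.i → y i = u.1 i := fun i hi k => by
    simp only [hy, if_pos hi, update_of_ne k]
  have yx : y x.i = q2 := by simp only [hy, if_pos xN, update_self]
  have yN : ∀ k, y (N + k) = L.getD k 1 := fun k => by
    simp only [hy, if_neg (Nat.not_lt.2 (Nat.le_add_right N k)), Nat.add_sub_cancel_left]
  subst hL
  have yg : y N = g := yN 0
  refine ⟨(y, t), ⟨wf', ?_, ?_⟩, hb', yg, yx.trans hq2, y0, c1, c2⟩
  · have a := Sp.tr (w := [.l x]) (w' := [.l (sp1 N x K), .l (sp2 N x K)]) (u' := (y, t)) hu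
      (fun i hi => (y0 i (hb1 i (by rw [eo]; exact Multiset.mem_add.2 (Or.inr hi)))
        fun k => nd.1 (k ▸ hi)).symm)
      (fun o ho k => t0 _ (hb2 o (by rw [ec]; exact Multiset.mem_add.2 (Or.inr ho)) k))
      (by
        simp only [wok_l, wok_nil, and_true, Lt.ok, s1p, s1q, s2p, s2q]
        simp only [sp1, sp2, yg, yx]
        exact ⟨⟨hg, hT, trivial, trivial⟩, g2, T2, trivial, trivial⟩)
      (by simp only [wv_l, wv_nil, mul_one, sp1, sp2, yg, yx, gq])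
    rw [sol_cons] at a
    simp only [sol_cons, sol_append, spSy, sol_nil, and_true, t1, t2]
    refine ⟨a.1, ⟨⟨?_, yN 2, yN 3, yN 4, ?_, ?_, ?_⟩, ?_, yN 6, yN 7, yN 8, ?_, ?_, ?_⟩, a.2⟩
    · exact (yN 1).symm ▸ IsIso.id _
    · exact s1p.symm ▸ i1 false
    · exact s2p.symm ▸ i2 false
    · rw [s1p, s2p, ← sp, ← xo.2.2.1]
      exact gm false
    · exact (yN 5).symm ▸ IsIso.id _
    · exact s1q.symm ▸ i1 true
    · exact s2q.symm ▸ i2 true
    · rw [s1q, s2q, ← sq, ← xo.2.2.2]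
      exact gm true
  · refine App.map (fun v => (update v.1 x.i (v.1 N * v.1 x.i), v.2)) (fun i hi => ?_)
      (fun v hv => ?_) fun i hi => ?_
    · refine PW.update (y := fun v => v.1) ((PW.var ?_).mul (PW.var ?_)) fun _ => PW.var ?_
      · rw [Set.mem_ofPred_eq, eo']; simp
      · rw [Set.mem_ofPred_eq, eo', eo]; simp
      · rw [Set.mem_ofPred_eq, eo']
        exact Multiset.mem_add.2 (Or.inl (Multiset.mem_add.2 (Or.inr hi)))
    · simp only [sol_cons, sol_append, spSy, sol_nil, and_true, t1, t2] at hv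
      obtain ⟨a, ⟨⟨-, -, -, -, -, -, b1⟩, -, -, -, -, -, -, b2⟩, a'⟩ := hv
      have k := a.1
      simp only [pok_append, pok_cons, Pa.ok, wok_append, wok_l] at k
      obtain ⟨-, ⟨-, -, ⟨k1, k2, k3, k4⟩, ⟨l1, l2, l3, l4⟩, -⟩, -⟩ := k
      have m := fun b => k2.gr_mul l2 k1 l1 hK b
      refine Sp.tr (w := [.l (sp1 N x K), .l (sp2 N x K)]) (w' := [.l x])
        ((sol_cons _ _ _).2 ⟨a, a'⟩)
        (fun i hi => (update_of_ne (fun k : i = x.i => nd.1 (k ▸ hi)) _ _).symm)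
        (fun _ _ _ => rfl) ?_ (by simp only [wv_l, wv_nil, mul_one, update_self, sp1, sp2])
      simp only [wok_l, wok_nil, and_true, Lt.ok, update_self]
      refine ⟨k1.mul l1, k2.mul l2 k1 l1 hK, ?_, ?_⟩
      · rw [b1, ← k3, ← l3]
        exact m false
      · rw [b2, ← k4, ← l4]
        exact m true
    · by_cases k : i = x.i
      · subst k
        simp only [update_self, yg, yx, gq]
      · simp only [update_of_ne k]
        exact y0 i (hb1 i hi) k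

end Vale.Agent.P002S
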