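import Vale.Agent.P002S.Stm

/-! Well formedness of the system obtained by splitting a letter. -/

namespace Vale.Agent.P002S

open Matrix Vale.Agent.P002 Function

namespace Spw

variable {r : ℕ} {O : Subring ℂ}

theorem cyc_split {A : Finset (Fin r)} {U V : List (It r)} {x : Lt r} {N : ℕ} {K : Fl r}
    (h : Cyc O A (U ++ .l x :: V)) (hK : Disjoint K.1 K.2) (h1 : x.p.S.card = K.1.card)
    (h2 : x.q.S.card = K.2.card) :
    Cyc O A (U ++ .l (sp1 N x K) :: .l (sp2 N x K) :: V) := by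
  have e1 : (sp1 N x K).src = x.src := rfl
  have e2 : (sp1 N x K).tgt = K := rfl
  have e3 : (sp2 N x K).src = K := rfl
  have e4 : (sp2 N x K).tgt = x.tgt := rfl
  obtain ⟨ha, hb⟩ := h
  simp only [ls_append, ls_l, fs_append, fs_l, path_append, path_l] at ha hb
  obtain ⟨hU, hs, ⟨w1, w2, w3, w4⟩, hV⟩ := hb
  refine ⟨?_, ?_⟩
  · simp only [ls_append, ls_l, e4]
    exact ha
  · simp only [ls_append, ls_l, fs_append, fs_l, path_append, path_l, e1, e2, e3, e4]
    exact ⟨hU, hs, ⟨w1, hK, h1, h2⟩, trivial, ⟨hK, w2, h1.symm.trans w3, h2.symm.trans w4⟩, hV⟩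

theorem tri_wf (M : ℕ) {o1 o2 o3 : Occ r} (h1 : o1.T = o2.S) (h2 : o2.T = o3.S)
    (h3 : o3.T = o1.S) (c1 : o1.S.card = o1.T.card) (c2 : o2.S.card = o2.T.card)
    (c3 : o3.S.card = o3.T.card) : (tri3 M o1 o2 o3).wf O := by
  unfold tri3
  rw [disk_wf]
  refine ⟨Un.one, ?_⟩
  simp only [Cyc, ls_l, ls_nil, fs_l, path_l, path_nil, Lt.wf, fl, Lt.src, Lt.tgt, Fl.s,
    Finset.union_empty, Finset.disjoint_empty_right, true_and, and_true]
  exact ⟨h3, h3, c1, h1, c2, h2, c3, h3⟩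

/-- the nine new labels -/
def nw (N : ℕ) : Multiset ℕ :=
  {N} + {N + 1} + {N + 2} + {N + 3} + {N + 4} + {N + 5} + {N + 6} + {N + 7} + {N + 8}

theorem mem_nw {N i : ℕ} (h : i ∈ nw N) : N ≤ i ∧ i < N + 9 := by
  simp only [nw, Multiset.mem_add, Multiset.mem_singleton] at h
  omega

theorem nw_nodup (N : ℕ) : (nw N).Nodup := by
  rw [Multiset.nodup_iff_count_le_one]
  intro a
  simp only [nw, Multiset.count_add, Multiset.count_singleton]
  split_ifs <;> omega

/-- the four new occurrences -/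
def J (N : ℕ) (x : Lt r) (K : Fl r) : Multiset (Occ r) :=
  {(sp1 N x K).p} + {(sp1 N x K).q} + {(sp2 N x K).p} + {(sp2 N x K).q}

/-- the empty piece -/
def o0 (r : ℕ) : Occ r := ⟨0, false, ∅, ∅⟩

theorem own_eq (B : Finset (Fin r)) (z : ℂˣ) (X Y : List (Pa r)) (h : ℕ) (A : Finset (Fin r))
    (U V : List (It r)) (x : Lt r) (R : Sy r) (N : ℕ) (K : Fl r) :
    own (⟨B, z, X ++ .cy h A (U ++ .l (sp1 N x K) :: .l (sp2 N x K) :: V) :: Y⟩ ::
      (spSy N x K ++ R)) = nw N + own (⟨B, z, X ++ .cy h A (U ++ .l x :: V) :: Y⟩ :: R) := by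
  simp only [own_cons, own_append, own_nil, pown_append, pown_cons, pown_nil, Pa.own, wown_append,
    wown_l, wown_nil, spSy, tri3, disk, fl, sp1, sp2, nw, add_assoc N]
  abel

theorem oc_eq (B : Finset (Fin r)) (z : ℂˣ) (X Y : List (Pa r)) (h : ℕ) (A : Finset (Fin r))
    (U V : List (It r)) (x : Lt r) (R : Sy r) (N : ℕ) (K : Fl r) :
    oc (⟨B, z, X ++ .cy h A (U ++ .l (sp1 N x K) :: .l (sp2 N x K) :: V) :: Y⟩ ::
      (spSy N x K ++ R)) = {o0 r} + ({o0 r} + ({o0 r} + ({o0 r} + ({o0 r} + ({o0 r} +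
        (J N x K + (J N x K).map Occ.flip +
          oc (⟨B, z, X ++ .cy h A (U ++ .l x :: V) :: Y⟩ :: R))))))) := by
  simp only [oc_cons, oc_append, oc_nil, poc_append, poc_cons, poc_nil, Pa.oc, woc_append,
    woc_l, woc_nil, spSy, tri3, disk, fl, J, o0, Multiset.map_add, Multiset.map_singleton]
  abel

theorem mem_J {N : ℕ} {x : Lt r} {K : Fl r} {o : Occ r} (h : o ∈ J N x K) :
    N ≤ o.e ∧ o.e < N + 9 := by
  simp only [J, Multiset.mem_add, Multiset.mem_singleton] at h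
  rcases h with ((rfl | rfl) | rfl) | rfl <;> simp only [sp1, sp2] <;> omega

theorem J_nodup (N : ℕ) (x : Lt r) (K : Fl r) : ((J N x K).map Occ.e).Nodup := by
  rw [Multiset.nodup_iff_count_le_one]
  intro a
  simp only [J, Multiset.map_add, Multiset.map_singleton, sp1, sp2, Multiset.count_add,
    Multiset.count_singleton]
  split_ifs <;> omega

theorem J_card {N : ℕ} {x : Lt r} {K : Fl r} (hx : x.wf) (h1 : x.p.S.card = K.1.card)
    (h2 : x.q.S.card = K.2.card) : ∀ o ∈ J N x K, o.S.card = o.T.card := by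
  intro o h
  obtain ⟨-, -, w3, w4⟩ := hx
  simp only [J, Multiset.mem_add, Multiset.mem_singleton] at h
  rcases h with ((rfl | rfl) | rfl) | rfl
  · exact h1
  · exact h2
  · exact h1.symm.trans w3
  · exact h2.symm.trans w4

end Spw

open Spw in
theorem s_spw : S_spw := by
  intro r O B z X Y h A U V x R N K hW hB hK h1 h2
  have hs := hW.sh _ List.mem_cons_self
  simp only [Sh.wf, pwf_append, pwf_cons, Pa.wf] at hs
  obtain ⟨hz, hX, ⟨hA, hC⟩, hY⟩ := hs
  have hx : x.wf := hC.2.wf (by simp)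
  refine ⟨⟨?_, ?_, ?_⟩, ?_, ?_⟩
  · intro s hs
    simp only [spSy, List.cons_append, List.nil_append, List.mem_cons] at hs
    rcases hs with rfl | rfl | rfl | hs
    · simp only [Sh.wf, pwf_append, pwf_cons, Pa.wf]
      exact ⟨hz, hX, ⟨hA, cyc_split hC hK h1 h2⟩, hY⟩
    · exact tri_wf _ rfl rfl rfl hx.2.2.1 (h1.symm.trans hx.2.2.1).symm h1.symm
    · exact tri_wf _ rfl rfl rfl hx.2.2.2 (h2.symm.trans hx.2.2.2).symm h2.symm
    · exact hW.sh s (List.mem_cons_of_mem _ hs)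
  · rw [own_eq, Multiset.nodup_add]
    refine ⟨nw_nodup N, hW.nd, Multiset.disjoint_left.2 fun {i} hi hi' => ?_⟩
    have := mem_nw hi
    have := hB.1 i hi'
    omega
  · have h0 : (o0 r).S = ∅ := rfl
    rw [oc_eq]
    simp only [ocOk_empty h0]
    refine hW.oc.add_pairs _ (J_card hx h1 h2) (J_nodup N x K) fun o ho o' ho' hS => ?_
    have := mem_J ho
    have := hB.2 o' ho' hS
    omega
  · intro i hi
    rw [own_eq, Multiset.mem_add] at hi
    rcases hi with hi | hi
    · exact (mem_nw hi).2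
    · have := hB.1 i hi
      omega
  · intro o ho hS
    have h0 : o ≠ o0 r := by
      rintro rfl
      simp [o0] at hS
    rw [oc_eq] at ho
    simp only [Multiset.mem_add, Multiset.mem_singleton, h0, false_or, Multiset.mem_map] at ho
    rcases ho with (ho | ⟨o', ho, rfl⟩) | ho
    · exact (mem_J ho).2
    · exact (mem_J ho).2
    · have := hB.2 o ho hS
      omega

end Vale.Agent.P002S
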