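import Vale.Agent.P002S.A3
import Vale.Agent.P002S.A4

/-! Statements of the moves. See `skel/P002S/README.md`. -/

namespace Vale.Agent.P002S

open Matrix Vale.Agent.P002 Function

variable {r : ℕ}

/-! ### Base cases of approximation -/

def S_iso : Prop := ∀ (r : ℕ) (O : Subring ℂ) (S T : Finset (Fin r)) (i : ℕ) (x : Pt r), Big O r →
  IsIso S T (x.1 i) → App O {u | IsIso S T (u.1 i)} {i} x

def S_closed : Prop := ∀ (r : ℕ) (O : Subring ℂ) (s : Sh r) (x : Pt r), Big O r →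
  (∀ p ∈ s.ps, ∃ a b, p = .hd a b) → (pown s.ps).Nodup → s.ok x →
  App O {u | s.ok u} {i | i ∈ pown s.ps} x

/-! ### Structural moves -/

def S_perm : Prop := ∀ (r : ℕ) (O : Subring ℂ) (P P' : Sy r) (u : Pt r), P.Perm P' → WF O P →
  u ∈ Sol P → Step O P u P' u ∧ ms P' = ms P

def S_prot : Prop := ∀ (r : ℕ) (O : Subring ℂ) B z (X Y : List (Pa r)) R (u : Pt r),
  WF O (⟨B, z, X ++ Y⟩ :: R) → u ∈ Sol (⟨B, z, X ++ Y⟩ :: R) →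
  Step O (⟨B, z, X ++ Y⟩ :: R) u (⟨B, z, Y ++ X⟩ :: R) u

def S_pull : Prop := ∀ (r : ℕ) (O : Subring ℂ) B z (X0 X Y : List (Pa r)) h A w R (u : Pt r),
  WF O (⟨B, z, X0 ++ X ++ .cy h A w :: Y⟩ :: R) →
  u ∈ Sol (⟨B, z, X0 ++ X ++ .cy h A w :: Y⟩ :: R) →
  Step O (⟨B, z, X0 ++ X ++ .cy h A w :: Y⟩ :: R) u (⟨B, z, X0 ++ .cy h A w :: (X ++ Y)⟩ :: R)
    (update u.1 h (pv u.1 X * u.1 h), u.2)

def S_rot : Prop := ∀ (r : ℕ) (O : Subring ℂ) B z (X Y : List (Pa r)) h A w1 w2 R (u : Pt r),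
  WF O (⟨B, z, X ++ .cy h A (w1 ++ w2) :: Y⟩ :: R) →
  u ∈ Sol (⟨B, z, X ++ .cy h A (w1 ++ w2) :: Y⟩ :: R) →
  Step O (⟨B, z, X ++ .cy h A (w1 ++ w2) :: Y⟩ :: R) u
    (⟨B, z, X ++ .cy h (ls w1 (A, ∅)).s (w2 ++ w1) :: Y⟩ :: R)
    (update u.1 h (u.1 h * wv u.1 w1), u.2)

def S_norm : Prop := ∀ (r : ℕ) (O : Subring ℂ) B z (X Y : List (Pa r)) h A (U C V : List (It r)) R
  (u : Pt r),
  AllC C → WF O (⟨B, z, X ++ .cy h A (U ++ C ++ V) :: Y⟩ :: R) →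
  u ∈ Sol (⟨B, z, X ++ .cy h A (U ++ C ++ V) :: Y⟩ :: R) →
  ∃ D, Step O (⟨B, z, X ++ .cy h A (U ++ C ++ V) :: Y⟩ :: R) u
    (⟨B, z, X ++ .cy h A (U ++ .c D :: V) :: Y⟩ :: R) u

def S_del : Prop := ∀ (r : ℕ) (O : Subring ℂ) B z (Q : List (Pa r)) h A w R (u : Pt r), Big O r →
  AllC w → WF O (⟨B, z, .cy h A w :: Q⟩ :: R) → u ∈ Sol (⟨B, z, .cy h A w :: Q⟩ :: R) →
  ∃ z', Step O (⟨B, z, .cy h A w :: Q⟩ :: R) u (⟨B, z', Q⟩ :: R) u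

def S_cl : Prop := ∀ (r : ℕ) (O : Subring ℂ) (s : Sh r) R (u : Pt r), Big O r →
  (∀ p ∈ s.ps, ∃ a b, p = .hd a b) → WF O (s :: R) → u ∈ Sol (s :: R) → Step O (s :: R) u R u

/-! ### Punctures -/

def puSy (N : ℕ) (B : Finset (Fin r)) (z : ℂˣ) (Q : List (Pa r)) (h i : ℕ) (c : ℂˣ)
    (S : Finset (Fin r)) (l : List (ℂˣ × Finset (Fin r))) : Sy r :=
  [⟨B, z, .cy h (S ∪ uni l) [.l ⟨i, ⟨N, true, S, S⟩, ⟨N + 1, true, uni l, uni l⟩⟩] :: Q⟩,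
    disk N S c⁻¹ [.l (fl (N + 1) ⟨N, false, S, S⟩)],
    ⟨uni l, 1, [.cy (N + 2) (uni l) [.l (fl (N + 3) ⟨N + 1, false, uni l, uni l⟩)],
      .pu (N + 4) (N + 5) l]⟩]

def S_pu : Prop := ∀ (r : ℕ) (O : Subring ℂ) B z (Q : List (Pa r)) h i c S l R N (u : Pt r),
  WF O (⟨B, z, .pu h i ((c, S) :: l) :: Q⟩ :: R) → u ∈ Sol (⟨B, z, .pu h i ((c, S) :: l) :: Q⟩ :: R) →
  Below N (⟨B, z, .pu h i ((c, S) :: l) :: Q⟩ :: R) →
  ∃ u', Step O (⟨B, z, .pu h i ((c, S) :: l) :: Q⟩ :: R) u (puSy N B z Q h i c S l ++ R) u'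

/-! ### Elimination of a pair of full letters -/

def S_e3 : Prop := ∀ (r : ℕ) (O : Subring ℂ) B z (Q : List (Pa r)) h A x x' o X Y R (u : Pt r),
  Full x o → Full x' o.flip → o.S.Nonempty →
  WF O (⟨B, z, .cy h A (.l x :: X ++ .l x' :: Y) :: Q⟩ :: R) →
  u ∈ Sol (⟨B, z, .cy h A (.l x :: X ++ .l x' :: Y) :: Q⟩ :: R) →
  ∃ u', Step O (⟨B, z, .cy h A (.l x :: X ++ .l x' :: Y) :: Q⟩ :: R) u
    (⟨B, z, .cy x.i o.T X :: .cy h A Y :: Q⟩ :: R) u'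

def S_e2 : Prop := ∀ (r : ℕ) (O : Subring ℂ) B z (Q : List (Pa r)) h A h' A' x x' o X Y R
  (u : Pt r), Full x o → Full x' o.flip → o.S.Nonempty →
  WF O (⟨B, z, .cy h A (.l x :: X) :: .cy h' A' (.l x' :: Y) :: Q⟩ :: R) →
  u ∈ Sol (⟨B, z, .cy h A (.l x :: X) :: .cy h' A' (.l x' :: Y) :: Q⟩ :: R) →
  ∃ u', Step O (⟨B, z, .cy h A (.l x :: X) :: .cy h' A' (.l x' :: Y) :: Q⟩ :: R) u
    (⟨B, z, .hd x.i h :: .cy h' A' (X ++ Y) :: Q⟩ :: R) u'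

/-- labels of the handles, labels of the connectors -/
def hdl : List (Pa r) → List ℕ
  | [] => []
  | .hd a b :: ps => a :: b :: hdl ps
  | _ :: ps => hdl ps

def cnl : List (Pa r) → List ℕ
  | [] => []
  | .hd _ _ :: ps => cnl ps
  | .cy h _ _ :: ps => h :: cnl ps
  | .pu h _ _ :: ps => h :: cnl ps

/-- conjugate all parts of `ps` by `g` -/
noncomputable def cj (ps : List (Pa r)) (g : W r) (y : ℕ → W r) (i : ℕ) : W r :=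
  if i ∈ hdl ps then g * y i * g.sw else if i ∈ cnl ps then g * y i else y i

def S_cj : Prop := ∀ (r : ℕ) (O : Subring ℂ) (ps : List (Pa r)) B B' (g : W r) (u : Pt r),
  (pown ps).Nodup → pwf O B' ps → pok u B' ps → IsIso B B' g →
  pok (cj ps g u.1, u.2) B ps ∧ e B * pv (cj ps g u.1) ps = g * pv u.1 ps * g.sw ∧
    (∀ i, i ∉ pown ps → cj ps g u.1 i = u.1 i) ∧
    (∀ i ∈ pown ps, cj ps g.sw (cj ps g u.1) i = u.1 i) ∧
    ∀ (A : Set ℕ) (f : Pt r → W r) (y : Pt r → ℕ → W r) (i : ℕ), PW O A f →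
      (PW O A fun v => y v i) → PW O A fun v => cj ps (f v) (y v) i

def S_e1 : Prop := ∀ (r : ℕ) (O : Subring ℂ) B z B' z' (Q Q' : List (Pa r)) h A h' A' x x' o X Y R
  (u : Pt r), Big O r → Full x o → Full x' o.flip → o.S.Nonempty →
  WF O (⟨B, z, .cy h A (.l x :: X) :: Q⟩ :: ⟨B', z', .cy h' A' (.l x' :: Y) :: Q'⟩ :: R) →
  u ∈ Sol (⟨B, z, .cy h A (.l x :: X) :: Q⟩ :: ⟨B', z', .cy h' A' (.l x' :: Y) :: Q'⟩ :: R) →
  ∃ u', Step O (⟨B, z, .cy h A (.l x :: X) :: Q⟩ :: ⟨B', z', .cy h' A' (.l x' :: Y) :: Q'⟩ :: R) u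
    (⟨B, z * z', Q' ++ .cy h A (Y ++ X) :: Q⟩ :: R) u'

/-! ### Splitting a letter, cutting -/

def spSy (N : ℕ) (x : Lt r) (K : Fl r) : Sy r :=
  [tri3 (N + 1) x.p (sp2 N x K).p.flip (sp1 N x K).p.flip,
    tri3 (N + 5) x.q (sp2 N x K).q.flip (sp1 N x K).q.flip]

/-- well formedness part of `S_sp` -/
def S_spw : Prop := ∀ (r : ℕ) (O : Subring ℂ) B z (X Y : List (Pa r)) h A (U V : List (It r))
  (x : Lt r) R N
  (K : Fl r), WF O (⟨B, z, X ++ .cy h A (U ++ .l x :: V) :: Y⟩ :: R) →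
  Below N (⟨B, z, X ++ .cy h A (U ++ .l x :: V) :: Y⟩ :: R) → Disjoint K.1 K.2 →
  x.p.S.card = K.1.card → x.q.S.card = K.2.card →
  WF O (⟨B, z, X ++ .cy h A (U ++ .l (sp1 N x K) :: .l (sp2 N x K) :: V) :: Y⟩ ::
    (spSy N x K ++ R)) ∧
  Below (N + 9) (⟨B, z, X ++ .cy h A (U ++ .l (sp1 N x K) :: .l (sp2 N x K) :: V) :: Y⟩ ::
    (spSy N x K ++ R))

def S_sp : Prop := ∀ (r : ℕ) (O : Subring ℂ) B z (X Y : List (Pa r)) h A (U V : List (It r))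
  (x : Lt r) R N
  (K : Fl r) (g : W r) (u : Pt r), WF O (⟨B, z, X ++ .cy h A (U ++ .l x :: V) :: Y⟩ :: R) →
  u ∈ Sol (⟨B, z, X ++ .cy h A (U ++ .l x :: V) :: Y⟩ :: R) →
  Below N (⟨B, z, X ++ .cy h A (U ++ .l x :: V) :: Y⟩ :: R) → Disjoint K.1 K.2 →
  IsIso x.src.s K.s g → Tri x.src K g →
  ∃ u' : Pt r, Step O (⟨B, z, X ++ .cy h A (U ++ .l x :: V) :: Y⟩ :: R) u
      (⟨B, z, X ++ .cy h A (U ++ .l (sp1 N x K) :: .l (sp2 N x K) :: V) :: Y⟩ ::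
        (spSy N x K ++ R)) u' ∧
    Below (N + 9) (⟨B, z, X ++ .cy h A (U ++ .l (sp1 N x K) :: .l (sp2 N x K) :: V) :: Y⟩ ::
      (spSy N x K ++ R)) ∧
    u'.1 N = g ∧ u'.1 x.i = g.sw * u.1 x.i ∧ (∀ i < N, i ≠ x.i → u'.1 i = u.1 i) ∧
    x.p.S.card = K.1.card ∧ x.q.S.card = K.2.card

def S_join : Prop := ∀ (r : ℕ) (O : Subring ℂ) B z (Q : List (Pa r)) h A w h' A' w' R (u : Pt r),
  Tight w → Tight w' → u.1 h = u.1 h' →
  WF O (⟨B, z, .cy h A w :: .cy h' A' w' :: Q⟩ :: R) →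
  u ∈ Sol (⟨B, z, .cy h A w :: .cy h' A' w' :: Q⟩ :: R) →
  Step O (⟨B, z, .cy h A w :: .cy h' A' w' :: Q⟩ :: R) u (⟨B, z, .cy h A (w ++ w') :: Q⟩ :: R) u

def S_cut : Prop := ∀ (r : ℕ) (O : Subring ℂ) B z h A (w w' : List (It r)) R N (u : Pt r),
  Tight w → Tight w' → wv u.1 w = e A → WF O (⟨B, z, [.cy h A (w ++ w')]⟩ :: R) →
  u ∈ Sol (⟨B, z, [.cy h A (w ++ w')]⟩ :: R) → Below N (⟨B, z, [.cy h A (w ++ w')]⟩ :: R) →
  ∃ u', Step O (⟨B, z, [.cy h A (w ++ w')]⟩ :: R) u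
    (⟨B, 1, [.cy N A w]⟩ :: ⟨B, z, [.cy h A w']⟩ :: R) u'

def S_hand : Prop := ∀ (r : ℕ) (O : Subring ℂ) B z (Q : List (Pa r)) a b h A (q : Lt r) w R
  (u : Pt r), Tight w → q.tgt.s = A → u.1 b = u.1 h * u.1 q.i * (u.1 h).sw →
  WF O (⟨B, z, .hd a b :: .cy h A (.l q :: w) :: Q⟩ :: R) →
  u ∈ Sol (⟨B, z, .hd a b :: .cy h A (.l q :: w) :: Q⟩ :: R) →
  ∃ u', Step O (⟨B, z, .hd a b :: .cy h A (.l q :: w) :: Q⟩ :: R) u
    (⟨B, z, .cy a A [.l q] :: .cy h A w :: Q⟩ :: R) u'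

/-! ### Linear algebra -/

def S_three1 : Prop := ∀ (V : Type) [AddCommGroup V] [Module ℂ V] [FiniteDimensional ℂ V]
  (K0 K1 K2 : Submodule ℂ V), ∃ (ι κ : Type) (_ : Fintype ι) (_ : Fintype κ)
    (bit : ι → Fin 3 → Bool) (b : Module.Basis (ι ⊕ κ ⊕ κ) ℂ V),
    K0 = Submodule.span ℂ ((fun t => b (.inl t)) '' {t | bit t 0 = false} ∪
      Set.range fun p => b (.inr (.inl p))) ∧
    K1 = Submodule.span ℂ ((fun t => b (.inl t)) '' {t | bit t 1 = false} ∪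
      Set.range fun p => b (.inr (.inr p))) ∧
    K2 = Submodule.span ℂ ((fun t => b (.inl t)) '' {t | bit t 2 = false} ∪
      Set.range fun p => b (.inr (.inl p)) + b (.inr (.inr p)))

def S_br : Prop := ∀ (r : ℕ) (F F' : Fl r) (x : W r), Disjoint F.1 F.2 → Disjoint F'.1 F'.2 →
  IsIso F.s F'.s x → ∃ (K K' : Fl r) (α β : W r), Disjoint K.1 K.2 ∧ Disjoint K'.1 K'.2 ∧
    K.s = F.s ∧ K'.s = F.s ∧ IsIso K.s F.s α ∧ Tri K F α ∧ IsIso F'.s K'.s β ∧ Tri F' K' β ∧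
    α * x * β = e F.s

def FlOk (I J : Fl r) : Prop := Disjoint I.1 I.2 ∧ Disjoint J.1 J.2 ∧ I.s = J.s

/-- flag induced by `I` on a part `S` -/
def Fl.on (I : Fl r) (S : Finset (Fin r)) : Fl r := (I.1 ∩ S, I.2 ∩ S)

/-- assembling a map that preserves two flags from its graded pieces -/
noncomputable def quad (I J I' J' : Fl r) (a b : Bool → W r) (v : Mat r) : W r :=
  let n := E (I.1 ∩ J.2) * (b false).a * E (I'.1 ∩ J'.1) +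
    E (I.2 ∩ J.2) * (b true).a * E (I'.2 ∩ J'.1) + E (I.2 ∩ J.2) * v * E (I'.1 ∩ J'.1)
  ⟨(a false).a + (a true).a + n, (a false).b + (a true).b - (a true).b * n * (a false).b⟩

structure QHyp (I J I' J' : Fl r) (a b : Bool → W r) : Prop where
  ia : ∀ ε, IsIso (J.pt ε) (J'.pt ε) (a ε)
  ta : ∀ ε, Tri (I.on (J.pt ε)) (I'.on (J'.pt ε)) (a ε)
  ib : ∀ δ, IsIso (I.pt δ) (I'.pt δ) (b δ)
  tb : ∀ δ, Tri (J.on (I.pt δ)) (J'.on (I'.pt δ)) (b δ)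
  mt : ∀ δ ε, gr (I.pt δ ∩ J.pt ε) (I'.pt δ ∩ J'.pt ε) (a ε) =
    gr (I.pt δ ∩ J.pt ε) (I'.pt δ ∩ J'.pt ε) (b δ)

def S_quad1 : Prop := ∀ (r : ℕ) (I J I' J' : Fl r) (a b : Bool → W r) (v : Mat r), FlOk I J →
  FlOk I' J' → QHyp I J I' J' a b → IsIso J.s J'.s (quad I J I' J' a b v) ∧
    Tri J J' (quad I J I' J' a b v) ∧ Tri I I' (quad I J I' J' a b v) ∧
    (∀ ε, gr (J.pt ε) (J'.pt ε) (quad I J I' J' a b v) = a ε) ∧
    ∀ δ, gr (I.pt δ) (I'.pt δ) (quad I J I' J' a b v) = b δ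

def S_quad2 : Prop := ∀ (r : ℕ) (I J I' J' : Fl r) (g : W r), FlOk I J → FlOk I' J' →
  IsIso J.s J'.s g → Tri J J' g → Tri I I' g →
  QHyp I J I' J' (fun ε => gr (J.pt ε) (J'.pt ε) g) (fun δ => gr (I.pt δ) (I'.pt δ) g) ∧
    quad I J I' J' (fun ε => gr (J.pt ε) (J'.pt ε) g) (fun δ => gr (I.pt δ) (I'.pt δ) g) g.a = g

/-- in-flag and out-flag given by four blocks `H δ ε` -/
def fI (H : Bool → Bool → Finset (Fin r)) : Fl r :=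
  (H false false ∪ H false true, H true false ∪ H true true)
def fO (H : Bool → Bool → Finset (Fin r)) : Fl r :=
  (H false false ∪ H true false, H false true ∪ H true true)

/-- the standard triangle -/
structure Mod (O : Subring ℂ) (r : ℕ) where
  B : Finset (Fin r)
  G : Fin 3 → Bool → Bool → Finset (Fin r)
  H : Fin 3 → Bool → Bool → Finset (Fin r)
  Γ : Fin 3 → W r
  ρ : Fin 3 → Bool → Bool → W r
  σ : Fin 3 → Bool → Fin r → ℂˣ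
  Hd : ∀ i δ ε δ' ε', (δ, ε) ≠ (δ', ε') → Disjoint (H i δ ε) (H i δ' ε')
  HB : ∀ i, (fI (H i)).s = B
  Gd1 : ∀ i ε, Disjoint (G i false ε) (G i true ε)
  Gd2 : ∀ i δ, Disjoint (G i δ false) (G i δ true)
  GY : ∀ i ε, G i false ε ∪ G i true ε = G (i + 1) ε false ∪ G (i + 1) ε true
  ρi : ∀ i δ ε, IsIso (H i δ ε) (G i δ ε) (ρ i δ ε)
  ρO : ∀ i δ ε p q, (ρ i δ ε).a p q ∈ O ∧ (ρ i δ ε).b p q ∈ O
  ΓO : ∀ i p q, (Γ i).a p q ∈ O ∧ (Γ i).b p q ∈ O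
  Γi : ∀ i, IsIso B B (Γ i)
  Γt : ∀ i, Tri (fO (H i)) (fI (H (i + 1))) (Γ i)
  Γ3 : Γ 0 * Γ 1 * Γ 2 = e B
  σc : ∀ i ε, Cst O (σ i ε) (G (i + 1) ε false, G (i + 1) ε true) (G i false ε, G i true ε)
  Γg : ∀ i ε, gr ((fO (H i)).pt ε) ((fI (H (i + 1))).pt ε) (Γ i) =
    (ρ i false ε).ad (ρ i true ε) * (dg (σ i ε)).sw *
      ((ρ (i + 1) ε false).ad (ρ (i + 1) ε true)).sw

/-- the blocks of the explicit model -/
def mH (T P P' : Finset (Fin r)) (bit : Fin r → Fin 3 → Bool) (i : Fin 3) (δ ε : Bool) :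
    Finset (Fin r) :=
  T.filter (fun t => bit t (i + 2) = δ ∧ bit t i = ε) ∪
    if δ = false ∧ ε = true then P else if δ = true ∧ ε = false then P' else ∅

def S_mod : Prop := ∀ (r : ℕ) (O : Subring ℂ) (T P : Finset (Fin r)) (π : Equiv.Perm (Fin r))
  (bit : Fin r → Fin 3 → Bool), Disjoint T P → Disjoint T (P.image π) → Disjoint P (P.image π) →
  ∃ m : Mod O r, m.B = T ∪ P ∪ P.image π ∧ m.H = mH T P (P.image π) bit ∧ ∀ i,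
    (∀ t ∈ T, ∃ s : ℂ, s ≠ 0 ∧ (m.Γ i).a t = s • Pi.single t 1) ∧
    ∀ p ∈ P, (m.Γ i).a (π p) = Pi.single p 1 ∧
      (m.Γ i).a p = -Pi.single p 1 - Pi.single (π p) 1

def S_three : Prop := ∀ (r : ℕ) (O : Subring ℂ) (I J : Fin 3 → Fl r) (q : Fin 3 → W r),
  (∀ i, FlOk (I i) (J i)) → (∀ i, IsIso (J i).s (I (i + 1)).s (q i)) →
  (∀ i, Tri (J i) (I (i + 1)) (q i)) → q 0 * q 1 * q 2 = e (J 0).s →
  ∃ (m : Mod O r) (g : Fin 3 → W r), ∀ i, IsIso (J i).s m.B (g i) ∧ Tri (I i) (fI (m.H i)) (g i) ∧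
    Tri (J i) (fO (m.H i)) (g i) ∧ q i = g i * m.Γ i * (g (i + 1)).sw

/-! ### The triangle -/

def tw (x : Fin 3 → Lt r) (D : Fin 3 → Fin r → ℂˣ) : List (It r) :=
  [.c (D 0), .l (x 0), .c (D 1), .l (x 1), .c (D 2), .l (x 2)]

/-- the edge of the block `(δ, ε)` at the corner `i` -/
def bo (N : ℕ) (x : Fin 3 → Lt r) (G : Fin 3 → Bool → Bool → Finset (Fin r)) (i : Fin 3)
    (δ ε : Bool) : Occ r :=
  ⟨N + 4 * i + 2 * δ.toNat + ε.toNat, true, (x (i + 2)).tgt.pt δ ∩ (x i).src.pt ε, G i δ ε⟩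

def lab (N : ℕ) (i : Fin 3) (ε : Bool) : ℕ := N + 8 * i + 4 * ε.toNat

def zz (z : ℂˣ) (i : Fin 3) : ℂˣ := if i = 2 then z else 1

def low (N : ℕ) (z : ℂˣ) (x : Fin 3 → Lt r) (D : Fin 3 → Fin r → ℂˣ)
    (G : Fin 3 → Bool → Bool → Finset (Fin r)) (σ : Fin 3 → Bool → Fin r → ℂˣ) (i : Fin 3)
    (ε : Bool) : Sh r :=
  disk (lab N i ε) ((x i).pc ε).S (zz z i)
    [.l (fl (lab N i ε + 1) ((x i).pc ε)),
      .l ⟨lab N i ε + 2, bo N x G (i + 1) ε false, bo N x G (i + 1) ε true⟩, .c (σ i ε),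
      .l ⟨lab N i ε + 3, (bo N x G i false ε).flip, (bo N x G i true ε).flip⟩, .c (D i)]

def lows (N : ℕ) (z : ℂˣ) (x : Fin 3 → Lt r) (D : Fin 3 → Fin r → ℂˣ)
    (G : Fin 3 → Bool → Bool → Finset (Fin r)) (σ : Fin 3 → Bool → Fin r → ℂˣ) : Sy r :=
  [low N z x D G σ 0 false, low N z x D G σ 0 true, low N z x D G σ 1 false,
    low N z x D G σ 1 true, low N z x D G σ 2 false, low N z x D G σ 2 true]

/-- out pieces and in pieces at the corner `i`, read off from a point of the lower system -/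
noncomputable def ra {O : Subring ℂ} (m : Mod O r) (N : ℕ) (y : ℕ → W r) (i : Fin 3) (ε : Bool) :
    W r := (y (lab N i ε + 3)).sw * ((m.ρ i false ε).ad (m.ρ i true ε)).sw
noncomputable def rb {O : Subring ℂ} (m : Mod O r) (N : ℕ) (y : ℕ → W r) (i : Fin 3) (δ : Bool) :
    W r := y (lab N (i + 2) δ + 2) * ((m.ρ i δ false).ad (m.ρ i δ true)).sw
noncomputable def rg {O : Subring ℂ} (m : Mod O r) (N : ℕ) (x : Fin 3 → Lt r) (y : ℕ → W r)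
    (i : Fin 3) : W r :=
  quad (x (i + 2)).tgt (x i).src (fI (m.H i)) (fO (m.H i)) (ra m N y i) (rb m N y i) (y (x i).i).a
noncomputable def rq {O : Subring ℂ} (m : Mod O r) (N : ℕ) (z : ℂˣ) (x : Fin 3 → Lt r)
    (D : Fin 3 → Fin r → ℂˣ) (y : ℕ → W r) (i : Fin 3) : W r :=
  (dg (D i)).sw * (rg m N x y i * m.Γ i * (rg m N x y (i + 1)).sw) * sc (zz z i)

def S_r3w : Prop := ∀ (r : ℕ) (O : Subring ℂ) B z h A (x : Fin 3 → Lt r) D R N (m : Mod O r),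
  WF O (⟨B, z, [.cy h A (tw x D)]⟩ :: R) → Below N (⟨B, z, [.cy h A (tw x D)]⟩ :: R) →
  (∀ i δ ε, (bo N x m.G i δ ε).S.card = (m.G i δ ε).card) → WF O (lows N z x D m.G m.σ ++ R)

/-- from the lower system to the triangle -/
def S_r3f : Prop := ∀ (r : ℕ) (O : Subring ℂ) z A (x : Fin 3 → Lt r) D N (m : Mod O r)
  (v v' : Pt r), Cyc O A (tw x D) → (∀ s ∈ lows N z x D m.G m.σ, s.wf O) →
  v ∈ Sol (lows N z x D m.G m.σ) → v'.2 = v.2 → (∀ i, v'.1 (x i).i = rq m N z x D v.1 i) →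
  wok v' (tw x D) ∧ e A * wv v'.1 (tw x D) = e A * sc z

/-- from the triangle to the lower system -/
def S_r3b : Prop := ∀ (r : ℕ) (O : Subring ℂ) z A (x : Fin 3 → Lt r) D N (u : Pt r),
  Cyc O A (tw x D) → wok u (tw x D) → e A * wv u.1 (tw x D) = e A * sc z →
  Injective (fun i => (x i).i) → (∀ i, (x i).i < N) →
  (∀ i ε, ((x i).pc ε).S.Nonempty → ((x i).pc ε).e < N) →
  ∃ (m : Mod O r) (v : Pt r), (∀ i δ ε, (bo N x m.G i δ ε).S.card = (m.G i δ ε).card) ∧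
    v ∈ Sol (lows N z x D m.G m.σ) ∧ (∀ j < N, (∀ i, j ≠ (x i).i) → v.1 j = u.1 j) ∧
    (∀ j < N, v.2 j = u.2 j) ∧ ∀ i, rq m N z x D v.1 i = u.1 (x i).i

def S_r3 : Prop := ∀ (r : ℕ) (O : Subring ℂ) B z h A (x : Fin 3 → Lt r) D R N (u : Pt r),
  Big O r → WF O (⟨B, z, [.cy h A (tw x D)]⟩ :: R) → u ∈ Sol (⟨B, z, [.cy h A (tw x D)]⟩ :: R) →
  Below N (⟨B, z, [.cy h A (tw x D)]⟩ :: R) →
  ∃ G σ u', Step O (⟨B, z, [.cy h A (tw x D)]⟩ :: R) u (lows N z x D G σ ++ R) u'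

/-! ### Reductions -/

/-- remove a disc with at most three letters -/
def S_c3 : Prop := ∀ (r : ℕ) (O : Subring ℂ) B z h A (w : List (It r)) R (u : Pt r), Big O r →
  AllN w → 1 ≤ wwt w → wwt w ≤ 3 → WF O (⟨B, z, [.cy h A w]⟩ :: R) →
  u ∈ Sol (⟨B, z, [.cy h A w]⟩ :: R) →
  ∃ P' u', Step O (⟨B, z, [.cy h A w]⟩ :: R) u (P' ++ R) u' ∧ ms P' ≤ 100 * 1000 ^ (B.card - 1)

def S_c4 : Prop := ∀ (r : ℕ) (O : Subring ℂ) B z (Q : List (Pa r)) a b h A (q : Lt r) w R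
  (u : Pt r), q.nt → WF O (⟨B, z, .hd a b :: .cy h A (.l q :: w) :: Q⟩ :: R) →
  u ∈ Sol (⟨B, z, .hd a b :: .cy h A (.l q :: w) :: Q⟩ :: R) →
  Red O (⟨B, z, .hd a b :: .cy h A (.l q :: w) :: Q⟩ :: R) u

def S_c5 : Prop := ∀ (r : ℕ) (O : Subring ℂ) B z (Q : List (Pa r)) h A (q : Lt r) w h' A'
  (q' : Lt r) w' R (u : Pt r), q.nt → q'.nt →
  WF O (⟨B, z, .cy h A (.l q :: w) :: .cy h' A' (.l q' :: w') :: Q⟩ :: R) →
  u ∈ Sol (⟨B, z, .cy h A (.l q :: w) :: .cy h' A' (.l q' :: w') :: Q⟩ :: R) →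
  Red O (⟨B, z, .cy h A (.l q :: w) :: .cy h' A' (.l q' :: w') :: Q⟩ :: R) u

def S_c6 : Prop := ∀ (r : ℕ) (O : Subring ℂ) B z h A (w : List (It r)) R (u : Pt r), Big O r →
  AllN w → 1 ≤ wwt w → WF O (⟨B, z, [.cy h A w]⟩ :: R) → u ∈ Sol (⟨B, z, [.cy h A w]⟩ :: R) →
  Red O (⟨B, z, [.cy h A w]⟩ :: R) u

/-- a full letter in a sheet of maximal rank -/
def S_ce : Prop := ∀ (r : ℕ) (O : Subring ℂ) (s : Sh r) R h A w (x : Lt r) (u : Pt r), Big O r →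
  s.B.Nonempty → (∀ s' ∈ R, s'.B.card ≤ s.B.card) → .cy h A w ∈ s.ps → .l x ∈ w → ¬ x.nt →
  WF O (s :: R) → u ∈ Sol (s :: R) → Red O (s :: R) u

/-- a sheet with a puncture -/
def S_cp : Prop := ∀ (r : ℕ) (O : Subring ℂ) (s : Sh r) R h i l (u : Pt r),
  s.B.Nonempty → .pu h i l ∈ s.ps → WF O (s :: R) → u ∈ Sol (s :: R) → Red O (s :: R) u

/-- a sheet without punctures whose letters are all nontrivial -/
def S_cn : Prop := ∀ (r : ℕ) (O : Subring ℂ) (s : Sh r) R (u : Pt r), Big O r →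
  (∀ h i l, .pu h i l ∉ s.ps) → (∀ h A w, .cy h A w ∈ s.ps → AllN w) →
  WF O (s :: R) → u ∈ Sol (s :: R) → Red O (s :: R) u

def S_main : Prop := ∀ (r : ℕ) (O : Subring ℂ) (P : Sy r) (u : Pt r), Big O r → WF O P →
  u ∈ Sol P → AP O P u

end Vale.Agent.P002S
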