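import Vale.Agent.P002S.Stm

/-! Structural moves. -/

namespace Vale.Agent.P002S

open Matrix Vale.Agent.P002 Function

namespace Struct

variable {r : ℕ} {O : Subring ℂ} {P P' : Sy r} {u : Pt r}

theorem same (hw : WF O P) (h1 : own P' = own P) (h2 : oc P' = oc P) (h3 : ∀ s ∈ P', s.wf O)
    (h4 : u ∈ Sol P') (h5 : Sol P' ⊆ Sol P) : Step O P u P' u :=
  ⟨⟨h3, h1 ▸ hw.nd, h2 ▸ hw.oc⟩, h4, fun h => App.congr h h5 fun _ hi => h1 ▸ hi⟩

theorem rot {B : Finset (Fin r)} {z : ℂˣ} {X Y : List (Pa r)} (hX : pwf O B X) (hY : pwf O B Y)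
    (h : Sh.ok u ⟨B, z, X ++ Y⟩) : Sh.ok u ⟨B, z, Y ++ X⟩ := by
  obtain ⟨h1, h2⟩ := h
  simp only [pok_append, pv_append] at h1 h2
  have k1 := h1.1.iso hX
  have k2 := h1.2.comm hY
  refine ⟨(pok_append _ _ _ _).2 h1.symm, ?_⟩
  simp only [pv_append]
  calc e B * (pv u.1 Y * pv u.1 X)
      = (e B * pv u.1 X).sw * (e B * pv u.1 X) * (pv u.1 Y * e B * pv u.1 X) := by
        rw [k1.m', ← k2, ← mul_assoc (e B) (e B * pv u.1 Y), ← mul_assoc (e B) (e B), e_idem,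
          mul_assoc]
    _ = (e B * pv u.1 X).sw * (e B * (pv u.1 X * pv u.1 Y)) * (e B * pv u.1 X) := by
        simp only [mul_assoc]
    _ = e B * sc z := by
        rw [h2, mul_assoc, mul_assoc, sc_comm, k1.lc, k1.mc']

end Struct

theorem s_perm : S_perm := by
  intro r O P P' u hp hw hu
  exact ⟨Struct.same hw (hp.map _).sum_eq.symm (hp.map _).sum_eq.symm
    (fun s hs => hw.sh s (hp.mem_iff.2 hs)) (fun s hs => hu s (hp.mem_iff.2 hs))
    fun v hv s hs => hv s (hp.mem_iff.1 hs), (hp.map _).sum_eq.symm⟩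

theorem s_prot : S_prot := by
  intro r O B z X Y R u hw hu
  obtain ⟨⟨h1, h2⟩, h3⟩ := List.forall_mem_cons.1 hw.sh
  obtain ⟨hX, hY⟩ := (pwf_append _ _ _).1 h2
  rw [sol_cons] at hu
  refine Struct.same hw (by simp only [own_cons, pown_append, add_comm])
    (by simp only [oc_cons, poc_append, add_comm])
    (List.forall_mem_cons.2 ⟨⟨h1, (pwf_append _ _ _).2 ⟨hY, hX⟩⟩, h3⟩)
    ((sol_cons _ _ _).2 ⟨Struct.rot hX hY hu.1, hu.2⟩) fun v hv => ?_
  rw [sol_cons] at hv ⊢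
  exact ⟨Struct.rot hY hX hv.1, hv.2⟩

theorem s_norm : S_norm := by
  intro r O B z X Y h A U C V R u hC hw hu
  obtain ⟨D, d1, d2, d3, -, d5, d6⟩ := hC.wv
  obtain ⟨⟨h1, h2⟩, h3⟩ := List.forall_mem_cons.1 hw.sh
  have hs : Sol (⟨B, z, X ++ .cy h A (U ++ .c D :: V) :: Y⟩ :: R) =
      Sol (⟨B, z, X ++ .cy h A (U ++ C ++ V) :: Y⟩ :: R) := by
    ext v
    simp only [sol_cons, Sh.ok, pok_append, pok_cons, pv_append, pv_cons, Pa.ok, Pa.v, wok_append,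
      wok_c, wv_append, wv_c, d1, d5, and_true, mul_assoc]
  refine ⟨D, Struct.same hw ?_ ?_ (List.forall_mem_cons.2 ⟨⟨h1, ?_⟩, h3⟩) (hs ▸ hu) hs.le⟩
  · simp only [own_cons, pown_append, pown_cons, Pa.own, wown_append, wown_c, d2, add_zero]
  · simp only [oc_cons, poc_append, poc_cons, Pa.oc, woc_append, woc_c, d3, add_zero]
  · simp only [pwf_append, pwf_cons, Pa.wf, Cyc, path_append, ls_append, fs_append, ls_c, fs_c,
      hC.fs, hC.ls, path_c] at h2 ⊢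
    obtain ⟨a1, ⟨a2, a3, ⟨a4, a5⟩, a6⟩, a7⟩ := h2
    exact ⟨a1, ⟨a2, a3, a4, (d6 O _ _ a5).1, a6⟩, a7⟩

theorem s_cl (h : S_closed) : S_cl := by
  intro r O s R u hb hs hw hu
  have h0 : poc s.ps = 0 := List.sum_eq_zero fun x hx => by
    obtain ⟨p, hp, rfl⟩ := List.mem_map.1 hx
    obtain ⟨a, b, rfl⟩ := hs p hp
    rfl
  have h1 := hw.nd
  have h2 := hw.oc
  rw [own_cons, Multiset.nodup_add] at h1
  rw [oc_cons, h0, zero_add] at h2
  rw [sol_cons] at hu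
  have hd : ∀ i ∈ own R, i ∉ {i | i ∈ pown s.ps} := fun i hi hi' =>
    Multiset.disjoint_left.1 h1.2.2 hi' hi
  refine ⟨⟨(List.forall_mem_cons.1 hw.sh).2, h1.2.1, h2⟩, hu.2, fun ha => App.congr
    (App.prod ha (h r O s u hb hs h1.1 hu.1) (indep_sol hd)
      (fun v hv v' e => Sh.ok.congr hv (fun i hi => (e i hi).symm) fun o ho => ?_)
      (Set.disjoint_left.2 hd)) (fun v hv => (sol_cons _ _ _).2 ⟨hv.2, hv.1⟩) fun i hi => ?_⟩
  · rw [h0] at ho
    exact absurd ho (Multiset.notMem_zero o)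
  · rw [Set.mem_ofPred_eq, own_cons, Multiset.mem_add] at hi
    exact hi.symm

end Vale.Agent.P002S
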