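import Vale.Agent.P002S.Stm

/-! The relaxed variety as the solution set of a system with one sheet. -/

namespace Vale.Agent.P002S

open Matrix Vale.Agent.P002 Function

namespace TT

variable {n g s : ℕ}

theorem step {P Q A b : Mat n} {c : ℂ} (hc : c ≠ 0) (hP : P * P = P) (hQ : Q * Q = Q)
    (hPQ : P * Q = 0) (hQP : Q * P = 0) (hA : (P + Q) * A * (P + Q) = A) (hPA : P * A = c • P)
    (h1 : Q * A * Q * b = Q) (h2 : Q * b = b) : ∃ b', A * b' = P + Q ∧ (P + Q) * b' = b' := by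
  have a1 : A * P = c • P + Q * A * P := by
    calc A * P = (P + Q) * A * ((P + Q) * P) := by rw [← Matrix.mul_assoc, hA]
      _ = c • P + Q * A * P := by
        rw [add_mul P Q P, hP, hQP, add_zero, add_mul, add_mul, hPA, Matrix.smul_mul, hP]
  have a2 : A * Q = Q * A * Q := by
    calc A * Q = (P + Q) * A * ((P + Q) * Q) := by rw [← Matrix.mul_assoc, hA]
      _ = Q * A * Q := by
        rw [add_mul P Q Q, hQ, hPQ, zero_add, add_mul, add_mul, hPA, Matrix.smul_mul, hPQ,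
          smul_zero, zero_add]
  have a3 : A * b = Q := by rw [← h2, ← Matrix.mul_assoc, a2, h1]
  have a4 : Q * (Q * A * P) = Q * A * P := by rw [← Matrix.mul_assoc, ← Matrix.mul_assoc, hQ]
  have a5 : (P + Q) * b = b := by
    rw [← h2, ← Matrix.mul_assoc, add_mul, hPQ, hQ, zero_add]
  refine ⟨c⁻¹ • P + b - c⁻¹ • (b * (Q * A * P)), ?_, ?_⟩
  · rw [mul_sub, mul_add, Matrix.mul_smul, Matrix.mul_smul, ← Matrix.mul_assoc A b, a1, a3, a4,
      smul_add, smul_smul, inv_mul_cancel₀ hc, one_smul]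
    abel
  · rw [mul_sub, mul_add, Matrix.mul_smul, Matrix.mul_smul, ← Matrix.mul_assoc (P + Q) b, a5,
      add_mul P Q P, hP, hQP, add_zero]

theorem tri_inv {O : Subring ℂ} : ∀ (l : List (ℂˣ × Finset (Fin n))) (A : Mat n), BlOk O l →
    TriM l A → ∃ b, A * b = E (uni l) ∧ E (uni l) * b = b
  | [], A, _, h => ⟨0, by simp [uni], by simp⟩
  | p :: l, A, hb, h => by
    obtain ⟨b, h1, h2⟩ := tri_inv l _ hb.2.2 h.2.2
    have hu := E_union hb.2.1
    have h0 := h.1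
    show ∃ b, A * b = E (p.2 ∪ uni l) ∧ E (p.2 ∪ uni l) * b = b
    rw [hu] at h0 ⊢
    exact step p.1.ne_zero (E_idem _) (E_idem _) (E_disj hb.2.1) (E_disj hb.2.1.symm) h0 h.2.1
      h1 h2

theorem tri_det {O : Subring ℂ} {l : List (ℂˣ × Finset (Fin n))} {A : Mat n} (hb : BlOk O l)
    (h : TriM l A) (hu : uni l = Finset.univ) : A.det ≠ 0 := by
  obtain ⟨b, h1, -⟩ := tri_inv l A hb h
  rw [hu, E_univ] at h1
  intro h0
  have := congrArg Matrix.det h1
  rw [det_mul, h0, zero_mul, det_one] at this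
  exact zero_ne_one this

theorem iso_iff {x : W n} :
    IsIso Finset.univ Finset.univ x ↔ x.a.det ≠ 0 ∧ x.b = x.a⁻¹ := by
  constructor
  · intro h
    have h1 := h.ab
    rw [E_univ] at h1
    refine ⟨fun h0 => ?_, (Matrix.inv_eq_right_inv h1).symm⟩
    have := congrArg Matrix.det h1
    rw [det_mul, h0, zero_mul, det_one] at this
    exact zero_ne_one this
  · rintro ⟨h1, h2⟩
    have hu : IsUnit x.a.det := isUnit_iff_ne_zero.2 h1
    refine IsIso.of_mat (by simp) (by simp) ?_ ?_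
    · rw [h2, E_univ, Matrix.mul_nonsing_inv _ hu]
    · rw [h2, E_univ, Matrix.nonsing_inv_mul _ hu]

/-- the space of the relaxed variety -/
abbrev Y (n g s : ℕ) :=
  ((Fin g → Mat n) × (Fin g → Mat n)) × (Fin s → Mat n) × (Fin s → Mat n)

def parts (g : ℕ) (l : Fin s → List (ℂˣ × Finset (Fin n))) : List (Pa n) :=
  List.ofFn (fun i : Fin g => Pa.hd (4 * i + 0) (4 * i + 1)) ++
    List.ofFn fun j : Fin s => Pa.pu (4 * j + 2) (4 * j + 3) (l j)

def sheet (g : ℕ) (l : Fin s → List (ℂˣ × Finset (Fin n))) : Sh n :=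
  ⟨Finset.univ, 1, parts g l⟩

noncomputable def ex (a : Fin g → Mat n) (k : ℕ) : W n :=
  if h : k < g then ⟨a ⟨k, h⟩, (a ⟨k, h⟩)⁻¹⟩ else 1

theorem ex_val (a : Fin g → Mat n) (i : Fin g) : ex a i = ⟨a i, (a i)⁻¹⟩ := by
  simp [ex]

noncomputable def φ (y : Y n g s) : Pt n :=
  (fun k => if k % 4 = 0 then ex y.1.1 (k / 4) else if k % 4 = 1 then ex y.1.2 (k / 4)
    else if k % 4 = 2 then ex y.2.1 (k / 4) else ex y.2.2 (k / 4), fun _ => 1)

def ψ (g s : ℕ) (u : Pt n) : Y n g s :=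
  ((fun i => (u.1 (4 * i + 0)).a, fun i => (u.1 (4 * i + 1)).a),
    fun j => (u.1 (4 * j + 2)).a, fun j => (u.1 (4 * j + 3)).a)

theorem φ0 (y : Y n g s) (i : Fin g) : (φ y).1 (4 * i + 0) = ⟨y.1.1 i, (y.1.1 i)⁻¹⟩ := by
  have h1 : (4 * (i : ℕ) + 0) % 4 = 0 := by omega
  have h2 : (4 * (i : ℕ) + 0) / 4 = i := by omega
  simp only [φ, h1, h2, if_true, ex_val]

theorem φ1 (y : Y n g s) (i : Fin g) : (φ y).1 (4 * i + 1) = ⟨y.1.2 i, (y.1.2 i)⁻¹⟩ := by
  have h1 : (4 * (i : ℕ) + 1) % 4 = 1 := by omega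
  have h2 : (4 * (i : ℕ) + 1) / 4 = i := by omega
  simp only [φ, h1, h2, if_true, ex_val]
  simp

theorem φ2 (y : Y n g s) (i : Fin s) : (φ y).1 (4 * i + 2) = ⟨y.2.1 i, (y.2.1 i)⁻¹⟩ := by
  have h1 : (4 * (i : ℕ) + 2) % 4 = 2 := by omega
  have h2 : (4 * (i : ℕ) + 2) / 4 = i := by omega
  simp only [φ, h1, h2, if_true, ex_val]
  simp

theorem φ3 (y : Y n g s) (i : Fin s) : (φ y).1 (4 * i + 3) = ⟨y.2.2 i, (y.2.2 i)⁻¹⟩ := by
  have h1 : (4 * (i : ℕ) + 3) % 4 = 3 := by omega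
  have h2 : (4 * (i : ℕ) + 3) / 4 = i := by omega
  simp only [φ, h1, h2, ex_val]
  simp

theorem ψφ (y : Y n g s) : ψ g s (φ y) = y := by
  simp only [ψ, φ0, φ1, φ2, φ3]

theorem pok_iff {l : Fin s → List (ℂˣ × Finset (Fin n))} (hu : ∀ j, uni (l j) = Finset.univ)
    (u : Pt n) : pok u Finset.univ (parts g l) ↔
      (∀ i : Fin g, IsIso Finset.univ Finset.univ (u.1 (4 * i + 0)) ∧
        IsIso Finset.univ Finset.univ (u.1 (4 * i + 1))) ∧
      ∀ j : Fin s, IsIso Finset.univ Finset.univ (u.1 (4 * j + 2)) ∧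
        IsIso Finset.univ Finset.univ (u.1 (4 * j + 3)) ∧ TriM (l j) (u.1 (4 * j + 3)).a := by
  rw [parts, pok_append]
  simp only [pok, List.forall_mem_ofFn_iff, Pa.ok, hu]

/-- the first component as a homomorphism -/
noncomputable def aH (n : ℕ) : W n →* Mat n := ⟨⟨W.a, rfl⟩, fun _ _ => rfl⟩

theorem pv_ofFn (y : ℕ → W n) (f : Fin g → Pa n) :
    (pv y (List.ofFn f)).a = (List.ofFn fun i => ((f i).v y).a).prod := by
  have := map_list_prod (aH n) ((List.ofFn f).map (Pa.v y))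
  rw [List.map_map, List.map_ofFn (g := aH n ∘ Pa.v y)] at this
  exact this

theorem pv_a {l : Fin s → List (ℂˣ × Finset (Fin n))} (hu : ∀ j, uni (l j) = Finset.univ)
    {u : Pt n} (h : pok u Finset.univ (parts g l)) : (pv u.1 (parts g l)).a =
      hprod (ψ g s u).1.1 (ψ g s u).1.2 * (List.ofFn fun j => (ψ g s u).2.1 j * (ψ g s u).2.2 j *
        ((ψ g s u).2.1 j)⁻¹).prod := by
  obtain ⟨h1, h2⟩ := (pok_iff hu u).1 h
  rw [parts, pv_append, W.mul_a, pv_ofFn, pv_ofFn, hprod]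
  congr 3
  · funext i
    simp only [Pa.v, W.mul_a, W.sw_a, cm, ψ, (iso_iff.1 (h1 i).1).2, (iso_iff.1 (h1 i).2).2]
  · funext j
    simp only [Pa.v, W.mul_a, W.sw_a, ψ, (iso_iff.1 (h2 j).1).2]

theorem own_eq (l : Fin s → List (ℂˣ × Finset (Fin n))) : own [sheet g l] =
    (∑ i : Fin g, ({4 * (i : ℕ) + 0} + {4 * (i : ℕ) + 1} : Multiset ℕ)) +
      ∑ j : Fin s, ({4 * (j : ℕ) + 2} + {4 * (j : ℕ) + 3} : Multiset ℕ) := by
  rw [own_cons, own_nil, add_zero, sheet, parts, pown_append]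
  simp only [pown, List.map_ofFn, List.sum_ofFn, Function.comp, Pa.own]

theorem nd {c d : ℕ} (hc : c < 4) (hd : d < 4) (hcd : c ≠ d) (g : ℕ) :
    (∑ i : Fin g, ({4 * (i : ℕ) + c} + {4 * (i : ℕ) + d} : Multiset ℕ)).Nodup := by
  induction g with
  | zero => simp
  | succ g ih =>
    rw [Fin.sum_univ_castSucc, Multiset.nodup_add]
    refine ⟨ih, ?_, ?_⟩
    · rw [Multiset.nodup_add]
      refine ⟨Multiset.nodup_singleton _, Multiset.nodup_singleton _, ?_⟩
      rw [Multiset.disjoint_left]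
      intro a h1 h2
      rw [Multiset.mem_singleton] at h1 h2
      omega
    · rw [Multiset.disjoint_left]
      intro a h1 h2
      obtain ⟨i, -, h1⟩ := Multiset.mem_sum.1 h1
      have := i.2
      simp only [Multiset.mem_add, Multiset.mem_singleton, Fin.val_castSucc, Fin.val_last] at h1 h2
      omega

theorem wf {O : Subring ℂ} {l : Fin s → List (ℂˣ × Finset (Fin n))} (hb : ∀ j, BlOk O (l j))
    (hu : ∀ j, uni (l j) = Finset.univ) : WF O [sheet g l] := by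
  refine ⟨fun t ht => ?_, ?_, ?_⟩
  · rw [List.mem_singleton] at ht
    subst ht
    refine ⟨Un.one, ?_⟩
    show pwf O Finset.univ (parts g l)
    rw [parts, pwf_append]
    simp only [pwf, List.forall_mem_ofFn_iff, Pa.wf, hu, hb, implies_true, and_self]
  · rw [own_eq, Multiset.nodup_add]
    refine ⟨nd (by omega) (by omega) (by omega) g, nd (by omega) (by omega) (by omega) s, ?_⟩
    rw [Multiset.disjoint_left]
    intro a h1 h2
    obtain ⟨i, -, h1⟩ := Multiset.mem_sum.1 h1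
    obtain ⟨j, -, h2⟩ := Multiset.mem_sum.1 h2
    simp only [Multiset.mem_add, Multiset.mem_singleton] at h1 h2
    omega
  · have : oc [sheet g l] = 0 := by
      rw [oc_cons, oc_nil, add_zero, sheet, parts, poc_append]
      simp [poc, List.map_ofFn, List.sum_ofFn, Function.comp, Pa.oc]
    rw [this]
    exact OcOk.zero

theorem mem_own (l : Fin s → List (ℂˣ × Finset (Fin n))) :
    (∀ i : Fin g, 4 * (i : ℕ) + 0 ∈ own [sheet g l] ∧ 4 * (i : ℕ) + 1 ∈ own [sheet g l]) ∧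
      ∀ j : Fin s, 4 * (j : ℕ) + 2 ∈ own [sheet g l] ∧ 4 * (j : ℕ) + 3 ∈ own [sheet g l] := by
  rw [own_eq]
  refine ⟨fun i => ⟨?_, ?_⟩, fun j => ⟨?_, ?_⟩⟩
  · exact Multiset.mem_add.2 (.inl (Multiset.mem_sum.2 ⟨i, Finset.mem_univ _, by simp⟩))
  · exact Multiset.mem_add.2 (.inl (Multiset.mem_sum.2 ⟨i, Finset.mem_univ _, by simp⟩))
  · exact Multiset.mem_add.2 (.inr (Multiset.mem_sum.2 ⟨j, Finset.mem_univ _, by simp⟩))
  · exact Multiset.mem_add.2 (.inr (Multiset.mem_sum.2 ⟨j, Finset.mem_univ _, by simp⟩))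

theorem sol_iff (l : Fin s → List (ℂˣ × Finset (Fin n))) (u : Pt n) :
    u ∈ Sol [sheet g l] ↔ pok u Finset.univ (parts g l) ∧ pv u.1 (parts g l) = 1 := by
  simp [Sh.ok, sheet]

theorem rel_of_sol {l : Fin s → List (ℂˣ × Finset (Fin n))} (hu : ∀ j, uni (l j) = Finset.univ)
    {u : Pt n} (h : u ∈ Sol [sheet g l]) : Rel l (ψ g s u) := by
  obtain ⟨h0, h3⟩ := (sol_iff l u).1 h
  obtain ⟨h1, h2⟩ := (pok_iff hu u).1 h0
  refine ⟨fun i => (iso_iff.1 (h1 i).1).1, fun i => (iso_iff.1 (h1 i).2).1,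
    fun j => (iso_iff.1 (h2 j).1).1, fun j => (h2 j).2.2, ?_⟩
  rw [← pv_a hu h0, h3, W.one_a]

theorem sol_of_rel {O : Subring ℂ} {l : Fin s → List (ℂˣ × Finset (Fin n))}
    (hb : ∀ j, BlOk O (l j)) (hu : ∀ j, uni (l j) = Finset.univ) {y : Y n g s} (h : Rel l y) :
    φ y ∈ Sol [sheet g l] := by
  obtain ⟨h1, h2, h3, h4, h5⟩ := h
  have h0 : pok (φ y) Finset.univ (parts g l) := by
    rw [pok_iff hu]
    simp only [φ0, φ1, φ2, φ3, iso_iff, and_true]
    exact ⟨fun i => ⟨h1 i, h2 i⟩, fun j => ⟨h3 j, tri_det (hb j) (h4 j) (hu j), h4 j⟩⟩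
  refine (sol_iff l _).2 ⟨h0, ?_⟩
  have hw : pwf O Finset.univ (parts g l) :=
    ((wf (g := g) hb hu).sh _ (List.mem_singleton_self _)).2
  have hi := pok.iso h0 hw
  have h1' := IsIso.id (Finset.univ : Finset (Fin n))
  rw [e_univ, one_mul] at hi
  rw [e_univ] at h1'
  refine hi.ext h1' ?_
  rw [pv_a hu h0, ψφ, h5, W.one_a]

theorem intGL {O : Subring ℂ} {x : W n} (h : IsIso Finset.univ Finset.univ x)
    (hi : ∀ p q, x.a p q ∈ O ∧ x.b p q ∈ O) : IntGL O x.a :=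
  ⟨fun p q => (hi p q).1, (iso_iff.1 h).1, fun p q => (iso_iff.1 h).2 ▸ (hi p q).2⟩

section Lin

variable {X : Type} (R : Subalgebra ℂ (X → ℂ))

/-- all linear functionals of `f` lie in `R` -/
def Lin {V : Type} [AddCommGroup V] [Module ℂ V] (f : X → V) : Prop :=
  ∀ L : V →ₗ[ℂ] ℂ, (fun u => L (f u)) ∈ R

variable {R} {V V' : Type} [AddCommGroup V] [Module ℂ V] [AddCommGroup V'] [Module ℂ V']

theorem Lin.sc {f : X → ℂ} (h : f ∈ R) : Lin R f := fun L => by
  have : (fun u => L (f u)) = L 1 • f := by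
    funext u
    rw [Pi.smul_apply, smul_eq_mul, mul_comm, ← smul_eq_mul, ← map_smul, smul_eq_mul, mul_one]
  rw [this]
  exact R.smul_mem h _

theorem Lin.prod {f : X → V × V'} (h : Lin R fun u => (f u).1) (h' : Lin R fun u => (f u).2) :
    Lin R f := fun L => by
  have : (fun u => L (f u)) = (fun u => (L.comp (LinearMap.inl ℂ V V')) (f u).1) +
      fun u => (L.comp (LinearMap.inr ℂ V V')) (f u).2 := by
    funext u
    simp [← map_add]
  rw [this]
  exact R.add_mem (h _) (h' _)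

theorem Lin.pi {f : X → Fin g → V} (h : ∀ i, Lin R fun u => f u i) : Lin R f := fun L => by
  have : (fun u => L (f u)) =
      ∑ i, fun u => (L.comp (LinearMap.single ℂ (fun _ : Fin g => V) i)) (f u i) := by
    funext u
    rw [Finset.sum_apply]
    simp only [LinearMap.comp_apply, LinearMap.coe_single, ← map_sum, Finset.univ_sum_single]
  rw [this]
  exact R.sum_mem fun i _ => h i _

theorem Lin.mat {f : X → Mat n} (h : ∀ p q, (fun u => f u p q) ∈ R) : Lin R f :=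
  Lin.pi (V := Fin n → ℂ) (f := f) fun p => Lin.pi fun q => Lin.sc (h p q)

theorem Lin.poly {f : X → V} (h : Lin R f) {P : V → ℂ} (hP : IsPoly P) :
    (fun u => P (f u)) ∈ R := by
  induction hP with
  | const c => exact R.algebraMap_mem c
  | lin L => exact h L
  | add _ _ h1 h2 => exact R.add_mem h1 h2
  | mul _ _ h1 h2 => exact R.mul_mem h1 h2

end Lin

theorem lin_var {A : Set ℕ} {i : ℕ} (hi : i ∈ A) :
    Lin (Algebra.adjoin ℂ (co A : Set (Pt n → ℂ))) fun u => (u.1 i).a :=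
  Lin.mat fun p q => Algebra.subset_adjoin ⟨i, hi, p, q, .inl rfl⟩

theorem lin_ψ (l : Fin s → List (ℂˣ × Finset (Fin n))) :
    Lin (Algebra.adjoin ℂ (co {i | i ∈ own [sheet g l]} : Set (Pt n → ℂ))) (ψ g s) :=
  Lin.prod
    (Lin.prod (Lin.pi fun i => lin_var ((mem_own l).1 i).1)
      (Lin.pi fun i => lin_var ((mem_own l).1 i).2))
    (Lin.prod (Lin.pi fun j => lin_var ((mem_own l).2 j).1)
      (Lin.pi fun j => lin_var ((mem_own l).2 j).2))

end TT

open TT in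
theorem s_t_of (h : S_main) : S_t := by
  intro O n g s l hB hb hu y hy P hP h0
  have := h n O [sheet g l] (φ y) hB (wf hb hu) (sol_of_rel hb hu hy) _ ((lin_ψ l).poly hP)
    fun u hs hi => by
      obtain ⟨h1, h2⟩ := (pok_iff hu u).1 ((sol_iff l u).1 hs).1
      obtain ⟨m1, m2⟩ := mem_own (g := g) l
      exact h0 _ ⟨rel_of_sol hu hs, fun i => intGL (h1 i).1 (hi _ (m1 i).1),
        fun i => intGL (h1 i).2 (hi _ (m1 i).2), fun j => intGL (h2 j).1 (hi _ (m2 j).1),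
        fun j => intGL (h2 j).2.1 (hi _ (m2 j).2)⟩
  rwa [ψφ] at this

end Vale.Agent.P002S
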