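import Vale.Agent.P002S.Stm

/-! Normal form of a triangle of flag preserving isomorphisms. -/

namespace Vale.Agent.P002S

open Matrix Vale.Agent.P002 Function

namespace Three

variable {r : ℕ}

/-- vectors supported on `S` -/
def Sp (S : Finset (Fin r)) : Submodule ℂ (Fin r → ℂ) where
  carrier := {v | ∀ j, j ∉ S → v j = 0}
  add_mem' ha hb j hj := by simp [ha j hj, hb j hj]
  zero_mem' _ _ := rfl
  smul_mem' c _ h j hj := by simp [h j hj]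

theorem vec_E (v : Fin r → ℂ) (S : Finset (Fin r)) (j : Fin r) :
    (v ᵥ* E S) j = if j ∈ S then v j else 0 := by
  simp [E, vecMul_diagonal]

theorem Sp_E {S : Finset (Fin r)} {v : Fin r → ℂ} (h : v ∈ Sp S) : v ᵥ* E S = v := by
  funext j
  rw [vec_E]
  split_ifs with hj
  · rfl
  · exact (h j hj).symm

theorem E_Sp (S : Finset (Fin r)) (v : Fin r → ℂ) : v ᵥ* E S ∈ Sp S := fun j hj => by
  rw [vec_E, if_neg hj]

theorem Sp_mono {S T : Finset (Fin r)} (h : S ⊆ T) {v : Fin r → ℂ} (hv : v ∈ Sp S) : v ∈ Sp T :=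
  fun j hj => hv j fun k => hj (h k)

theorem single_Sp {S : Finset (Fin r)} {p : Fin r} (h : p ∈ S) : Pi.single p (1 : ℂ) ∈ Sp S :=
  fun j hj => Pi.single_eq_of_ne (fun k : j = p => hj (k ▸ h)) _

theorem rows_zero {S T U : Finset (Fin r)} {M : Mat r} (h : ∀ p ∈ S, M p ∈ Sp T)
    (hd : Disjoint T U) : E S * M * E U = 0 := by
  ext i j
  rw [mul_E_apply, E_mul_apply]
  split_ifs with h1 h2
  · exact h i h2 j (Finset.disjoint_right.1 hd h1)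
  · rfl
  · rfl

theorem tri_span {F G : Fl r} {x : W r} (hx : IsIso F.s G.s x) (hF : Disjoint F.1 F.2)
    (hG : Disjoint G.1 G.2) (h1 : ∀ p ∈ F.1, x.a p ∈ Sp G.1)
    (h2 : Sp G.1 ≤ Submodule.span ℂ ((fun p => x.a p) '' F.1)) : Tri F G x := by
  refine ⟨rows_zero h1 hG, rows_zero (fun j hj => ?_) hF⟩
  have k : Submodule.span ℂ ((fun p => x.a p) '' F.1) ≤ (Sp F.1).comap (vecMulLinear x.b) := by
    rw [Submodule.span_le]
    rintro _ ⟨p, hp, rfl⟩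
    have e1 : x.a p ᵥ* x.b = Pi.single p 1 := by
      rw [← mul_apply_eq_vecMul, hx.ab, ← Sp_E (single_Sp (Finset.mem_union_left F.2 hp)),
        single_one_vecMul]
      rfl
    change x.a p ᵥ* x.b ∈ Sp F.1
    rw [e1]
    exact single_Sp hp
  have k2 : Pi.single j 1 ᵥ* x.b ∈ Sp F.1 := k (h2 (single_Sp hj))
  rwa [single_one_vecMul] at k2

theorem tri_gen {V ι κ : Type} [AddCommGroup V] [Module ℂ V] (L : V →ₗ[ℂ] Fin r → ℂ) {A : Set ι}
    {u : ι → V} {w : κ → V} {a : ι → Fin r} {c : κ → Fin r} {F G : Fl r} {x : W r}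
    (hx : IsIso F.s G.s x) (hF : Disjoint F.1 F.2) (hG : Disjoint G.1 G.2)
    (hK : (Sp G.1).comap L = Submodule.span ℂ (u '' A ∪ Set.range w))
    (hs : ∀ v ∈ Sp G.1, ∃ z, L z = v) (hm : ∀ p, p ∈ F.1 ↔ (∃ t ∈ A, a t = p) ∨ ∃ k, c k = p)
    (h1 : ∀ t, ∃ s : ℂ, s ≠ 0 ∧ x.a (a t) = s • L (u t))
    (h2 : ∀ k, ∃ s : ℂ, s ≠ 0 ∧ x.a (c k) = s • L (w k)) : Tri F G x := by
  have m : ∀ z ∈ u '' A ∪ Set.range w, L z ∈ Sp G.1 := fun z hz => by
    have : z ∈ (Sp G.1).comap L := hK ▸ Submodule.subset_span hz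
    exact this
  refine tri_span hx hF hG (fun p hp => ?_) fun v hv => ?_
  · rcases (hm p).1 hp with ⟨t, ht, rfl⟩ | ⟨k, rfl⟩
    · obtain ⟨s, -, e1⟩ := h1 t
      exact e1 ▸ Submodule.smul_mem _ _ (m _ (Or.inl ⟨t, ht, rfl⟩))
    · obtain ⟨s, -, e1⟩ := h2 k
      exact e1 ▸ Submodule.smul_mem _ _ (m _ (Or.inr ⟨k, rfl⟩))
  · obtain ⟨z, rfl⟩ := hs v hv
    have k : Submodule.span ℂ (u '' A ∪ Set.range w) ≤
        (Submodule.span ℂ ((fun p => x.a p) '' F.1)).comap L := by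
      rw [Submodule.span_le]
      rintro _ (⟨t, ht, rfl⟩ | ⟨k, rfl⟩)
      · obtain ⟨s, s0, e1⟩ := h1 t
        exact (Submodule.smul_mem_iff (Submodule.span ℂ ((fun p => x.a p) '' F.1)) s0).1
          (Submodule.subset_span ⟨a t, (hm _).2 (Or.inl ⟨t, ht, rfl⟩), e1⟩)
      · obtain ⟨s, s0, e1⟩ := h2 k
        exact (Submodule.smul_mem_iff (Submodule.span ℂ ((fun p => x.a p) '' F.1)) s0).1
          (Submodule.subset_span ⟨c k, (hm _).2 (Or.inr ⟨k, rfl⟩), e1⟩)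
    exact k (hK ▸ hv)

/-- extension by zero -/
def ext0 (B : Finset (Fin r)) : (B → ℂ) →ₗ[ℂ] Fin r → ℂ where
  toFun v j := if h : j ∈ B then v ⟨j, h⟩ else 0
  map_add' u v := funext fun j => by by_cases h : j ∈ B <;> simp [h]
  map_smul' c v := funext fun j => by by_cases h : j ∈ B <;> simp [h]

theorem ext0_mem (B : Finset (Fin r)) (v : B → ℂ) : ext0 B v ∈ Sp B := fun _ hj => dif_neg hj

theorem ext0_inj (B : Finset (Fin r)) : Injective (ext0 B) := fun u v h => funext fun j => by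
  have k : ext0 B u j = ext0 B v j := congrFun h j
  exact (dif_pos j.2).symm.trans (k.trans (dif_pos j.2))

theorem ext0_sur {B : Finset (Fin r)} {v : Fin r → ℂ} (h : v ∈ Sp B) : ∃ z, ext0 B z = v :=
  ⟨fun j => v j, funext fun j => by
    by_cases k : j ∈ B
    · exact dif_pos k
    · exact (dif_neg k).trans (h j k).symm⟩

theorem mem_fI (T P P' : Finset (Fin r)) (bit : Fin r → Fin 3 → Bool) (i : Fin 3) (p : Fin r) :
    p ∈ (fI (mH T P P' bit i)).1 ↔ (p ∈ T ∧ bit p (i + 2) = false) ∨ p ∈ P := by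
  cases h : bit p i <;> simp [fI, mH, h]

theorem mem_fO (T P P' : Finset (Fin r)) (bit : Fin r → Fin 3 → Bool) (i : Fin 3) (p : Fin r) :
    p ∈ (fO (mH T P P' bit i)).1 ↔ (p ∈ T ∧ bit p i = false) ∨ p ∈ P' := by
  cases h : bit p (i + 2) <;> simp [fO, mH, h]

theorem mod_fl {O : Subring ℂ} (m : Mod O r) (i : Fin 3) : (fO (m.H i)).s = m.B ∧
    Disjoint (fI (m.H i)).1 (fI (m.H i)).2 ∧ Disjoint (fO (m.H i)).1 (fO (m.H i)).2 := by
  refine ⟨?_, ?_, ?_⟩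
  · rw [← m.HB i]
    simp only [Fl.s, fI, fO]
    ac_rfl
  all_goals
    simp only [fI, fO, Finset.disjoint_union_left, Finset.disjoint_union_right]
    exact ⟨⟨m.Hd _ _ _ _ _ (by simp), m.Hd _ _ _ _ _ (by simp)⟩,
      m.Hd _ _ _ _ _ (by simp), m.Hd _ _ _ _ _ (by simp)⟩

theorem third {S T : Finset (Fin r)} {x y : W r} (hx : IsIso S T x) (hy : IsIso T S y)
    (h : x * y = e S) : y = x.sw := by
  rw [← hy.l, ← hx.m', mul_assoc, h, hx.sw.r']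

/-- the model and a frame adapted to the first three flags -/
theorem frame (h1 : S_three1) (hm : S_mod) (O : Subring ℂ) {I0 J0 J1 : Fl r} {q : W r}
    (hI : FlOk I0 J0) (hJ : Disjoint J1.1 J1.2) (hq : IsIso J0.s J1.s q) :
    ∃ (m : Mod O r) (x : W r), m.B = J0.s ∧ IsIso m.B J0.s x ∧ Tri (fI (m.H 0)) I0 (m.Γ 0 * x) ∧
      Tri (fO (m.H 0)) J0 (m.Γ 0 * x) ∧ Tri (fO (m.H 1)) J1 (x * q) := by
  obtain ⟨ι, κ, _, _, bit, b, k0, k1, k2⟩ := h1 (J0.s → ℂ) ((Sp J0.1).comap (ext0 _))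
    ((Sp J1.1).comap (vecMulLinear q.a ∘ₗ ext0 _)) ((Sp I0.1).comap (ext0 _))
  obtain ⟨φ⟩ : Nonempty ((ι ⊕ κ ⊕ κ) ≃ J0.s) := Fintype.card_eq.1 (by
    rw [← Module.finrank_eq_card_basis b, Module.finrank_fintype_fun_eq_card])
  set f : ι ⊕ κ ⊕ κ → Fin r := fun z => φ z with hf
  have fi : Injective f := Subtype.val_injective.comp φ.injective
  obtain ⟨π, hπ⟩ : ∃ π : Equiv.Perm (Fin r), ∀ k, π (f (.inr (.inl k))) = f (.inr (.inr k)) :=
    ⟨Equiv.Perm.extendDomain (Equiv.sumCongr (Equiv.refl ι) (Equiv.sumComm κ κ)) φ,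
      fun k => Equiv.Perm.extendDomain_apply_image _ _ _⟩
  obtain ⟨T, hT⟩ : ∃ T : Finset (Fin r), ∀ p, p ∈ T ↔ ∃ t, f (.inl t) = p :=
    ⟨Finset.univ.image fun t => f (.inl t), by simp⟩
  obtain ⟨P, hP⟩ : ∃ P : Finset (Fin r), ∀ p, p ∈ P ↔ ∃ k, f (.inr (.inl k)) = p :=
    ⟨Finset.univ.image fun k => f (.inr (.inl k)), by simp⟩
  have hP' : ∀ p, p ∈ P.image π ↔ ∃ k, f (.inr (.inr k)) = p := fun p => by
    simp [hP, hπ]
  obtain ⟨bt, hb⟩ : ∃ bt : Fin r → Fin 3 → Bool, ∀ t, bt (f (.inl t)) = bit t :=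
    ⟨extend (f ∘ Sum.inl) bit fun _ _ => false,
      fun t => (fi.comp Sum.inl_injective).extend_apply _ _ t⟩
  have hb' : ∀ i p, (p ∈ T ∧ bt p i = false) ↔ ∃ t ∈ {t | bit t i = false}, f (.inl t) = p :=
    fun i p => ⟨fun ⟨a, c⟩ => by
      obtain ⟨t, rfl⟩ := (hT p).1 a
      exact ⟨t, by rwa [hb] at c, rfl⟩, by
      rintro ⟨t, a, rfl⟩
      exact ⟨(hT _).2 ⟨t, rfl⟩, by rwa [hb]⟩⟩
  obtain ⟨m, mB, mH', mΓ⟩ := hm r O T P π bt
    (Finset.disjoint_left.2 fun p a c => by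
      obtain ⟨t, rfl⟩ := (hT p).1 a
      obtain ⟨k, e1⟩ := (hP _).1 c
      cases fi e1)
    (Finset.disjoint_left.2 fun p a c => by
      obtain ⟨t, rfl⟩ := (hT p).1 a
      obtain ⟨k, e1⟩ := (hP' _).1 c
      cases fi e1)
    (Finset.disjoint_left.2 fun p a c => by
      obtain ⟨t, rfl⟩ := (hP p).1 a
      obtain ⟨k, e1⟩ := (hP' _).1 c
      cases fi e1)
  have mB' : m.B = J0.s := by
    rw [mB]
    ext p
    simp only [Finset.mem_union (s := T ∪ P), Finset.mem_union (s := T), hT, hP, hP']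
    refine ⟨?_, fun hp => ?_⟩
    · rintro ((⟨t, rfl⟩ | ⟨t, rfl⟩) | ⟨t, rfl⟩) <;> exact (φ _).2
    · obtain ⟨z, hz⟩ := φ.surjective ⟨p, hp⟩
      have hz' : f z = p := congrArg Subtype.val hz
      rcases z with t | t | t
      exacts [Or.inl (Or.inl ⟨t, hz'⟩), Or.inl (Or.inr ⟨t, hz'⟩), Or.inr ⟨t, hz'⟩]
  have hv : ∀ z, extend f (fun z => ext0 _ (b z)) 0 (f z) = ext0 _ (b z) := fi.extend_apply _ _
  obtain ⟨x, hx, xa⟩ := exists_iso_of_li (S := J0.s) (T := J0.s)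
    (extend f (fun z => ext0 _ (b z)) 0) (fun p hp => by
      obtain ⟨z, hz⟩ := φ.surjective ⟨p, hp⟩
      have hz' : f z = p := congrArg Subtype.val hz
      rw [← hz', hv]
      exact ext0_mem _ _)
    ((linearIndependent_equiv' φ (f := fun p => extend f (fun z => ext0 _ (b z)) 0 p)
      (funext hv)).1
      (b.linearIndependent.map' _ (LinearMap.ker_eq_bot.2 (ext0_inj _)))) rfl
  have xr : ∀ z, x.a (f z) = ext0 _ (b z) := fun z => (xa _ (φ z).2).trans (hv z)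
  have xs : ∀ z, Pi.single (f z) 1 ᵥ* x.a = ext0 _ (b z) := fun z =>
    (single_one_vecMul _ _).trans (xr z)
  have hx' : IsIso m.B J0.s x := mB' ▸ hx
  have gx := (m.Γi 0).mul hx'
  have r1 : ∀ t, ∃ s : ℂ, s ≠ 0 ∧ (m.Γ 0 * x).a (f (.inl t)) = s • ext0 _ (b (.inl t)) := fun t => by
    obtain ⟨s, s0, e1⟩ := (mΓ 0).1 _ ((hT _).2 ⟨t, rfl⟩)
    exact ⟨s, s0, by rw [W.mul_a, mul_apply_eq_vecMul, e1, smul_vecMul, xs]⟩
  have r2 := fun k => (mΓ 0).2 _ ((hP _).2 ⟨k, rfl⟩)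
  simp only [hπ] at r2
  refine ⟨m, x, mB', hx', ?_, ?_, ?_⟩
  · refine tri_gen (ext0 _) (by rw [m.HB, hI.2.2]; exact gx) (mod_fl m 0).2.1 hI.1 k2
      (fun v hv => ext0_sur (hI.2.2 ▸ Sp_mono Finset.subset_union_left hv))
      (c := fun k => f (.inr (.inl k))) (fun p => ?_) r1 fun k => ⟨-1, by norm_num, ?_⟩
    · rw [mH', mem_fI, hb', hP]
      rfl
    · rw [W.mul_a, mul_apply_eq_vecMul, (r2 k).2, sub_vecMul, neg_vecMul, xs, xs, map_add]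
      module
  · refine tri_gen (ext0 _) (by rw [(mod_fl m 0).1]; exact gx) (mod_fl m 0).2.2 hI.2.1 k0
      (fun v hv => ext0_sur (Sp_mono Finset.subset_union_left hv))
      (c := fun k => f (.inr (.inr k))) (fun p => ?_) r1 fun k => ⟨1, one_ne_zero, ?_⟩
    · rw [mH', mem_fO, hb', hP']
    · rw [W.mul_a, mul_apply_eq_vecMul, (r2 k).1, xs, one_smul]
  · have r3 : ∀ z, ∃ s : ℂ, s ≠ 0 ∧ (x * q).a (f z) = s • (vecMulLinear q.a ∘ₗ ext0 _) (b z) :=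
      fun z => ⟨1, one_ne_zero, by rw [W.mul_a, mul_apply_eq_vecMul, xr, one_smul]; rfl⟩
    refine tri_gen _ (by rw [(mod_fl m 1).1]; exact hx'.mul hq) (mod_fl m 1).2.2 hJ k1
      (fun v hv => ?_) (a := fun t => f (.inl t)) (c := fun k => f (.inr (.inr k))) (fun p => ?_)
      (fun t => r3 _) fun k => r3 _
    · obtain ⟨z, hz⟩ := ext0_sur (E_Sp J0.s (v ᵥ* q.b))
      refine ⟨z, ?_⟩
      change ext0 _ z ᵥ* q.a = v
      rw [hz, vecMul_vecMul, vecMul_vecMul, hq.la, hq.ba]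
      exact Sp_E (Sp_mono Finset.subset_union_left hv)
    · rw [mH', mem_fO, hb', hP']

end Three

theorem s_three (h1 : S_three1) (hm : S_mod) : S_three := by
  intro r O I J q hI hq ht h3
  have q0 : IsIso (J 0).s (J 1).s (q 0) := (hI 1).2.2 ▸ hq 0
  have q1 : IsIso (J 1).s (J 2).s (q 1) := (hI 2).2.2 ▸ hq 1
  have q2 : IsIso (J 2).s (J 0).s (q 2) := (hI 0).2.2 ▸ hq 2
  obtain ⟨m, x, -, hx, t1, t2, t3⟩ := Three.frame h1 hm O (hI 0) (hI 1).2.1 q0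
  have G0 := m.Γi 0
  have G1 := m.Γi 1
  have G2 := m.Γi 2
  have e1 := Three.third (q0.mul q1) q2 h3
  have e2 := Three.third (G0.mul G1) G2 m.Γ3
  have g0 := (G0.mul hx).sw
  have g1 := (hx.mul q0).sw
  have g2 := (q1.sw.mul g1).mul G1
  have o := fun i => (Three.mod_fl m i).1
  have a1 : (x * q 0).sw = (q 0).sw * (m.Γ 0 * x).sw * m.Γ 0 := by
    simp only [mul_assoc, W.sw_mul, G0.m', hx.sw.r']
  have a2 : (q 1).sw * (x * q 0).sw * m.Γ 1 = q 2 * (m.Γ 0 * x).sw * (m.Γ 2).sw := by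
    rw [e1, e2]
    simp only [mul_assoc, W.sw_mul, W.sw_sw, G0.mc', hx.sw.rc]
  have s0 : Tri (I 1) (fI (m.H 1)) (x * q 0).sw := by
    rw [a1]
    exact (((ht 0).sw.mul t2.sw (hq 0).sw (by rw [o]; exact g0) (hI 0).2.1).mul (m.Γt 0)
      (by rw [o]; exact (hq 0).sw.mul g0) (by rw [o, m.HB]; exact G0) (Three.mod_fl m 0).2.2 :)
  have s1 : Tri (I 2) (fI (m.H 2)) ((q 1).sw * (x * q 0).sw * m.Γ 1) :=
    (((ht 1).sw.mul t3.sw (hq 1).sw (by rw [o]; exact g1) (hI 1).2.1).mul (m.Γt 1)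
      (by rw [o]; exact (hq 1).sw.mul g1) (by rw [o, m.HB]; exact G1) (Three.mod_fl m 1).2.2 :)
  have s2 : Tri (J 2) (fO (m.H 2)) ((q 1).sw * (x * q 0).sw * m.Γ 1) := by
    have t4 : Tri (J 2) (I 0) (q 2) := ht 2
    have t5 : Tri (fO (m.H 2)) (fI (m.H 0)) (m.Γ 2) := m.Γt 2
    rw [a2]
    exact (t4.mul t1.sw (hq 2) (by rw [m.HB, (hI 0).2.2]; exact g0) (hI 0).1).mul t5.sw
      (by rw [m.HB]; exact q2.mul g0) (by rw [o, m.HB]; exact G2.sw) (Three.mod_fl m 0).2.1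
  refine ⟨m, ![(m.Γ 0 * x).sw, (x * q 0).sw, (q 1).sw * (x * q 0).sw * m.Γ 1], fun i => ?_⟩
  match i with
  | 0 =>
    refine ⟨g0, t1.sw, t2.sw, ?_⟩
    change q 0 = (m.Γ 0 * x).sw * m.Γ 0 * (x * q 0).sw.sw
    simp only [mul_assoc, W.sw_mul, W.sw_sw, G0.mc', hx.lc, hx.mc', q0.l]
  | 1 =>
    refine ⟨g1, s0, t3.sw, ?_⟩
    change q 1 = (x * q 0).sw * m.Γ 1 * ((q 1).sw * (x * q 0).sw * m.Γ 1).sw
    simp only [mul_assoc, W.sw_mul, W.sw_sw, G1.mc, hx.lc, hx.mc', q0.lc, q0.mc', q1.l]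
  | 2 =>
    refine ⟨g2, s1, s2, ?_⟩
    change q 2 = (q 1).sw * (x * q 0).sw * m.Γ 1 * m.Γ 2 * (m.Γ 0 * x).sw.sw
    rw [a2]
    simp only [mul_assoc, W.sw_mul, W.sw_sw, G2.mc', G0.lc, G0.mc', hx.l, hx.m', q2.r']

end Vale.Agent.P002S
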