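import Vale.Agent.P002S.Stm

/-! A basis adapted to three subspaces. -/

namespace Vale.Agent.P002S

open Submodule

namespace Three1

variable {V : Type} [AddCommGroup V] [Module ℂ V]

theorem compl {U W : Submodule ℂ V} (h : U ≤ W) :
    ∃ C, U ⊔ C = W ∧ C ≤ W ∧ ∀ x ∈ U, x ∈ C → x = 0 := by
  obtain ⟨C, h1, h2⟩ := IsModularLattice.exists_disjoint_and_sup_eq h
  exact ⟨C, h2, h2 ▸ le_sup_right, disjoint_def.1 h1⟩

theorem spanb (U : Submodule ℂ V) {ι : Type} (b : Module.Basis ι ℂ U) {T : Submodule ℂ V}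
    (h : ∀ i, (b i : V) ∈ T) : U ≤ T := fun x hx => by
  have h1 : (⊤ : Submodule ℂ U) ≤ T.comap U.subtype := by
    rw [← b.span_eq, span_le]
    rintro _ ⟨i, rfl⟩
    exact h i
  exact h1 (show (⟨x, hx⟩ : U) ∈ ⊤ from trivial)

theorem indb (U : Submodule ℂ V) {ι : Type} [Fintype ι] (b : Module.Basis ι ℂ U) (g : ι → ℂ)
    (h : ∑ i, g i • (b i : V) = 0) (i : ι) : g i = 0 :=
  Fintype.linearIndependent_iff.1 (b.linearIndependent.map' U.subtype U.ker_subtype) g h i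

/-- membership table -/
def tb : Fin 8 → Fin 3 → Bool :=
  ![![false, false, false], ![false, false, true], ![false, true, false], ![true, false, false],
    ![false, true, true], ![true, false, true], ![true, true, false], ![true, true, true]]

end Three1

open Three1

theorem s_three1 : S_three1 := by
  intro V _ _ _ K0 K1 K2
  obtain ⟨A01, e01, l01, d01⟩ := compl (show K0 ⊓ K1 ⊓ K2 ≤ K0 ⊓ K1 from inf_le_left)
  obtain ⟨A02, e02, l02, d02⟩ := compl (show K0 ⊓ K1 ⊓ K2 ≤ K0 ⊓ K2 from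
    inf_le_inf_right _ inf_le_left)
  obtain ⟨A12, e12, l12, d12⟩ := compl (show K0 ⊓ K1 ⊓ K2 ≤ K1 ⊓ K2 from
    inf_le_inf_right _ inf_le_right)
  obtain ⟨C, eC, lC, dC⟩ := compl (show K0 ⊓ K2 ⊔ K1 ⊓ K2 ≤ (K0 ⊔ K1) ⊓ K2 from
    sup_le (inf_le_inf_right _ le_sup_left) (inf_le_inf_right _ le_sup_right))
  obtain ⟨c⟩ : Nonempty (Module.Basis (Fin (Module.finrank ℂ C)) ℂ C) := ⟨Module.finBasis ℂ C⟩
  choose x hx y hy hxy using fun p => mem_sup.1 (lC (c p).2).1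
  have hX : ∀ g : Fin (Module.finrank ℂ C) → ℂ, ∑ p, g p • x p ∈ span ℂ (Set.range x) := fun g =>
    sum_mem fun p _ => smul_mem _ _ (subset_span ⟨p, rfl⟩)
  have hY : ∀ g : Fin (Module.finrank ℂ C) → ℂ, ∑ p, g p • y p ∈ span ℂ (Set.range y) := fun g =>
    sum_mem fun p _ => smul_mem _ _ (subset_span ⟨p, rfl⟩)
  have lX : span ℂ (Set.range x) ≤ K0 := span_le.2 (Set.range_subset_iff.2 hx)
  have lY : span ℂ (Set.range y) ≤ K1 := span_le.2 (Set.range_subset_iff.2 hy)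
  have hC : ∀ g : Fin (Module.finrank ℂ C) → ℂ, ∑ p, g p • x p + ∑ p, g p • y p ∈ C ∧
      (∑ p, g p • x p + ∑ p, g p • y p = 0 → ∀ p, g p = 0) := fun g => by
    simp only [← Finset.sum_add_distrib, ← smul_add, hxy]
    exact ⟨sum_mem fun p _ => smul_mem _ _ (c p).2, indb C c g⟩
  obtain ⟨B0, e0, l0, d0⟩ := compl (show K0 ⊓ K1 ⊔ K0 ⊓ K2 ⊔ span ℂ (Set.range x) ≤ K0 from
    sup_le (sup_le inf_le_left inf_le_left) lX)
  obtain ⟨B1, e1, l1, d1⟩ := compl (show K0 ⊓ K1 ⊔ K1 ⊓ K2 ⊔ span ℂ (Set.range y) ≤ K1 from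
    sup_le (sup_le inf_le_right inf_le_left) lY)
  obtain ⟨B2, e2, l2, d2⟩ := compl (show (K0 ⊔ K1) ⊓ K2 ≤ K2 from inf_le_right)
  obtain ⟨Z, eZ, -, dZ⟩ := compl (show K0 ⊔ K1 ⊔ K2 ≤ ⊤ from le_top)
  obtain ⟨U, hU⟩ : ∃ U : Fin 8 → Submodule ℂ V, U = ![K0 ⊓ K1 ⊓ K2, A01, A02, A12, B0, B1, B2, Z] :=
    ⟨_, rfl⟩
  have u0 : U 0 = K0 ⊓ K1 ⊓ K2 := by rw [hU]; rfl
  have u1 : U 1 = A01 := by rw [hU]; rfl
  have u2 : U 2 = A02 := by rw [hU]; rfl
  have u3 : U 3 = A12 := by rw [hU]; rfl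
  have u4 : U 4 = B0 := by rw [hU]; rfl
  have u5 : U 5 = B1 := by rw [hU]; rfl
  have u6 : U 6 = B2 := by rw [hU]; rfl
  have u7 : U 7 = Z := by rw [hU]; rfl
  obtain ⟨v, hv⟩ : ∃ v : (Σ s : Fin 8, Fin (Module.finrank ℂ (U s))) → V,
      ∀ s j, v ⟨s, j⟩ = Module.finBasis ℂ (U s) j := ⟨fun t => Module.finBasis ℂ (U t.1) t.2,
    fun _ _ => rfl⟩
  have vm : ∀ s j, v ⟨s, j⟩ ∈ U s := fun s j => hv s j ▸ (Module.finBasis ℂ (U s) j).2
  have ge : ∀ (i : Fin 3) (R : Set V) (s : Fin 8), tb s i = false →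
      U s ≤ span ℂ (v '' {t | tb t.1 i = false} ∪ R) := fun i R s hs =>
    spanb _ (Module.finBasis ℂ (U s)) fun j => subset_span (Or.inl ⟨⟨s, j⟩, hs, hv s j⟩)
  have le : ∀ (i : Fin 3) (R : Set V) (K : Submodule ℂ V), (∀ s, tb s i = false → U s ≤ K) →
      R ⊆ K → span ℂ (v '' {t | tb t.1 i = false} ∪ R) ≤ K := fun i R K h1 h2 =>
    span_le.2 (Set.union_subset (by rintro _ ⟨⟨s, j⟩, hs, rfl⟩; exact h1 s hs (vm s j)) h2)
  have k0 : K0 = span ℂ (v '' {t | tb t.1 0 = false} ∪ Set.range x) := by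
    refine le_antisymm (e0.symm.trans_le (sup_le (sup_le (sup_le
      (e01.symm.trans_le (sup_le (u0 ▸ ge 0 _ 0 rfl) (u1 ▸ ge 0 _ 1 rfl)))
      (e02.symm.trans_le (sup_le (u0 ▸ ge 0 _ 0 rfl) (u2 ▸ ge 0 _ 2 rfl))))
      (span_mono Set.subset_union_right)) (u4 ▸ ge 0 _ 4 rfl)))
      (le 0 _ _ (fun s hs => ?_) (Set.range_subset_iff.2 hx))
    fin_cases s
    exacts [u0.trans_le (inf_le_left.trans inf_le_left), u1.trans_le (l01.trans inf_le_left),
      u2.trans_le (l02.trans inf_le_left), absurd hs (by decide), u4.trans_le l0,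
      absurd hs (by decide), absurd hs (by decide), absurd hs (by decide)]
  have k1 : K1 = span ℂ (v '' {t | tb t.1 1 = false} ∪ Set.range y) := by
    refine le_antisymm (e1.symm.trans_le (sup_le (sup_le (sup_le
      (e01.symm.trans_le (sup_le (u0 ▸ ge 1 _ 0 rfl) (u1 ▸ ge 1 _ 1 rfl)))
      (e12.symm.trans_le (sup_le (u0 ▸ ge 1 _ 0 rfl) (u3 ▸ ge 1 _ 3 rfl))))
      (span_mono Set.subset_union_right)) (u5 ▸ ge 1 _ 5 rfl)))
      (le 1 _ _ (fun s hs => ?_) (Set.range_subset_iff.2 hy))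
    fin_cases s
    exacts [u0.trans_le (inf_le_left.trans inf_le_right), u1.trans_le (l01.trans inf_le_right),
      absurd hs (by decide), u3.trans_le (l12.trans inf_le_left), absurd hs (by decide),
      u5.trans_le l1, absurd hs (by decide), absurd hs (by decide)]
  have k2 : K2 = span ℂ (v '' {t | tb t.1 2 = false} ∪ Set.range fun p => x p + y p) := by
    refine le_antisymm (e2.symm.trans_le (sup_le (eC.symm.trans_le (sup_le (sup_le
      (e02.symm.trans_le (sup_le (u0 ▸ ge 2 _ 0 rfl) (u2 ▸ ge 2 _ 2 rfl)))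
      (e12.symm.trans_le (sup_le (u0 ▸ ge 2 _ 0 rfl) (u3 ▸ ge 2 _ 3 rfl))))
      (spanb C c fun p => subset_span (Or.inr ⟨p, hxy p⟩)))) (u6 ▸ ge 2 _ 6 rfl)))
      (le 2 _ _ (fun s hs => ?_) (Set.range_subset_iff.2 fun p => hxy p ▸ (lC (c p).2).2))
    fin_cases s
    exacts [u0.trans_le inf_le_right, absurd hs (by decide), u2.trans_le (l02.trans inf_le_right),
      u3.trans_le (l12.trans inf_le_right), absurd hs (by decide), absurd hs (by decide),
      u6.trans_le l2, absurd hs (by decide)]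
  have top : ⊤ ≤ span ℂ (Set.range (Sum.elim v (Sum.elim x y))) := by
    have a : ∀ s, U s ≤ span ℂ (Set.range (Sum.elim v (Sum.elim x y))) := fun s =>
      spanb _ (Module.finBasis ℂ (U s)) fun j => subset_span ⟨.inl ⟨s, j⟩, hv s j⟩
    have bx : ∀ p, x p ∈ span ℂ (Set.range (Sum.elim v (Sum.elim x y))) := fun p =>
      subset_span ⟨.inr (.inl p), rfl⟩
    have by' : ∀ p, y p ∈ span ℂ (Set.range (Sum.elim v (Sum.elim x y))) := fun p =>
      subset_span ⟨.inr (.inr p), rfl⟩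
    exact eZ.symm.trans_le (sup_le (sup_le (sup_le
      (k0.trans_le (le 0 _ _ (fun s _ => a s) (Set.range_subset_iff.2 bx)))
      (k1.trans_le (le 1 _ _ (fun s _ => a s) (Set.range_subset_iff.2 by'))))
      (k2.trans_le (le 2 _ _ (fun s _ => a s)
        (Set.range_subset_iff.2 fun p => add_mem (bx p) (by' p))))) (u7 ▸ a 7))
  have ind : LinearIndependent ℂ (Sum.elim v (Sum.elim x y)) := by
    refine Fintype.linearIndependent_iff.2 fun g hg => ?_
    simp only [Fintype.sum_sum_type, Fintype.sum_sigma, Sum.elim_inl, Sum.elim_inr] at hg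
    obtain ⟨w, hw⟩ : ∃ w : Fin 8 → V, ∀ s, w s = ∑ j, g (.inl ⟨s, j⟩) • v ⟨s, j⟩ :=
      ⟨_, fun _ => rfl⟩
    have wm : ∀ s, w s ∈ U s := fun s => hw s ▸ sum_mem fun j _ => smul_mem _ _ (vm s j)
    simp only [← hw, Fin.sum_univ_eight] at hg
    have w0 := u0 ▸ wm 0
    have w1 := u1 ▸ wm 1
    have w2 := u2 ▸ wm 2
    have w3 := u3 ▸ wm 3
    have w4 := u4 ▸ wm 4
    have w5 := u5 ▸ wm 5
    have w6 := u6 ▸ wm 6
    have w7 := u7 ▸ wm 7
    obtain ⟨cx, nx⟩ := hC fun p => g (.inr (.inl p))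
    obtain ⟨cy, ny⟩ := hC fun p => g (.inr (.inr p))
    have x1 := hX fun p => g (.inr (.inl p))
    have x2 := lX (hX fun p => g (.inr (.inr p)))
    have y1 := hY fun p => g (.inr (.inr p))
    have y2 := lY (hY fun p => g (.inr (.inl p)))
    have nx' := fun h => Finset.sum_eq_zero (s := Finset.univ)
      fun p _ => show g (.inr (.inl p)) • x p = 0 by rw [nx h p, zero_smul]
    have ny' := fun h => Finset.sum_eq_zero (s := Finset.univ)
      fun p _ => show g (.inr (.inr p)) • y p = 0 by rw [ny h p, zero_smul]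
    generalize ∑ p, g (.inr (.inl p)) • x p = X at *
    generalize ∑ p, g (.inr (.inr p)) • y p = Y at *
    generalize ∑ p, g (.inr (.inr p)) • x p = X' at *
    generalize ∑ p, g (.inr (.inl p)) • y p = Y' at *
    obtain ⟨m, hm⟩ : ∃ m, m = w 0 + w 1 + w 2 + X + w 4 := ⟨_, rfl⟩
    obtain ⟨n, hn⟩ : ∃ n, n = w 3 + Y + w 5 := ⟨_, rfl⟩
    have m0 : m ∈ K0 := hm ▸ add_mem (add_mem (add_mem (add_mem w0.1.1 (l01 w1).1) (l02 w2).1)
      (lX x1)) (l0 w4)
    have n1 : n ∈ K1 := hn ▸ add_mem (add_mem (l12 w3).1 (lY y1)) (l1 w5)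
    have mn : m + n ∈ K0 ⊔ K1 := add_mem_sup m0 n1
    have h0 : m + n + w 6 + w 7 = 0 := by rw [hm, hn, ← hg]; abel
    have z7 : w 7 = 0 := dZ _ (by
      rw [eq_neg_of_add_eq_zero_right h0]; exact neg_mem (add_mem_sup mn (l2 w6))) w7
    rw [z7, add_zero] at h0
    have z6 : w 6 = 0 := d2 _ ⟨by
      rw [eq_neg_of_add_eq_zero_right h0]; exact neg_mem mn, l2 w6⟩ w6
    rw [z6, add_zero] at h0
    have m1 : m ∈ K1 := by rw [eq_neg_of_add_eq_zero_left h0]; exact neg_mem n1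
    have n0 : n ∈ K0 := by rw [eq_neg_of_add_eq_zero_right h0]; exact neg_mem m0
    have q : m - w 0 - w 1 ∈ K0 ⊓ K1 := sub_mem (sub_mem ⟨m0, m1⟩ w0.1) (l01 w1)
    have z4 : w 4 = 0 := d0 _ (by
      rw [show w 4 = m - w 0 - w 1 + -w 2 + -X by rw [hm]; abel]
      exact add_mem_sup (add_mem_sup q (neg_mem (l02 w2))) (neg_mem x1)) w4
    have z5 : w 5 = 0 := d1 _ (by
      rw [show w 5 = n + -w 3 + -Y by rw [hn]; abel]
      exact add_mem_sup (add_mem_sup ⟨n0, n1⟩ (neg_mem (l12 w3))) (neg_mem y1)) w5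
    rw [z4, add_zero] at hm
    rw [z5, add_zero] at hn
    have zx : X + Y' = 0 := dC _ (by
      rw [show X + Y' = -w 2 + (X + Y' + w 2) by abel]
      refine add_mem_sup (neg_mem (l02 w2)) ⟨?_, add_mem (lC cx).2 (l02 w2).2⟩
      rw [show X + Y' + w 2 = m - w 0 - w 1 + Y' by rw [hm]; abel]
      exact add_mem q.2 y2) cx
    have zy : X' + Y = 0 := dC _ (by
      rw [show X' + Y = X' + Y + w 3 + -w 3 by abel]
      refine add_mem_sup ⟨?_, add_mem (lC cy).2 (l12 w3).2⟩ (neg_mem (l12 w3))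
      rw [show X' + Y + w 3 = X' + n by rw [hn]; abel]
      exact add_mem x2 n0) cy
    rw [nx' zx, add_zero] at hm
    rw [ny' zy, add_zero] at hn
    have z2 : w 2 = 0 := d02 _ ⟨by
      rw [show w 2 = m - w 0 - w 1 by rw [hm]; abel]; exact q, (l02 w2).2⟩ w2
    have z3 : w 3 = 0 := d12 _ ⟨hn ▸ ⟨n0, n1⟩, (l12 w3).2⟩ w3
    rw [hm, hn, z2, z3, add_zero, add_zero] at h0
    have z1 : w 1 = 0 := d01 _ (by
      rw [eq_neg_of_add_eq_zero_right h0]; exact neg_mem w0) w1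
    rw [z1, add_zero] at h0
    have z : ∀ s, w s = 0 := fun s => by
      fin_cases s
      exacts [h0, z1, z2, z3, z4, z5, z6, z7]
    rintro (⟨s, j⟩ | p | p)
    · refine indb _ (Module.finBasis ℂ (U s)) (fun j => g (.inl ⟨s, j⟩)) ?_ j
      simp only [← hv]
      exact (hw s).symm.trans (z s)
    · exact nx zx p
    · exact ny zy p
  refine ⟨_, _, inferInstance, inferInstance, fun t => tb t.1, Module.Basis.mk ind top, ?_⟩
  simp only [Module.Basis.coe_mk, Sum.elim_inl, Sum.elim_inr]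
  exact ⟨k0, k1, k2⟩

end Vale.Agent.P002S
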