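import Vale.Agent.P002S.Iso
import Vale.Agent.P002S.Closed
import Vale.Agent.P002S.Struct
import Vale.Agent.P002S.Pull
import Vale.Agent.P002S.Rot
import Vale.Agent.P002S.Del
import Vale.Agent.P002S.Pu
import Vale.Agent.P002S.E1
import Vale.Agent.P002S.E2
import Vale.Agent.P002S.E3
import Vale.Agent.P002S.Cj
import Vale.Agent.P002S.Spw
import Vale.Agent.P002S.Sp
import Vale.Agent.P002S.Join
import Vale.Agent.P002S.Hand
import Vale.Agent.P002S.Three1
import Vale.Agent.P002S.Three
import Vale.Agent.P002S.Br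
import Vale.Agent.P002S.Quad1
import Vale.Agent.P002S.Quad2
import Vale.Agent.P002S.Mod
import Vale.Agent.P002S.R3w
import Vale.Agent.P002S.R3f
import Vale.Agent.P002S.R3b
import Vale.Agent.P002S.R3
import Vale.Agent.P002S.C3
import Vale.Agent.P002S.C4
import Vale.Agent.P002S.C5
import Vale.Agent.P002S.C6
import Vale.Agent.P002S.Ce
import Vale.Agent.P002S.Cp
import Vale.Agent.P002S.Cn
import Vale.Agent.P002S.MainInd
import Vale.Agent.P002S.TT

/-! Part T: assembly. -/

namespace Vale.Agent.P002S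

theorem s_t : S_t :=
  have sp := s_sp s_spw
  have br := s_br s_three1
  have r3 := s_r3 s_r3w (s_r3f s_quad1) (s_r3b (s_three s_three1 s_mod) (s_quad2 s_quad1)) s_iso
  have c3 := s_c3 sp s_rot s_norm r3
  s_t_of (s_main s_perm
    (s_ce s_perm s_prot s_pull s_rot (s_e1 s_cj s_iso) s_e2 s_e3) (s_cp s_prot s_pu)
    (s_cn s_prot s_pull s_rot (s_del s_iso) (s_cl s_closed) (s_c4 sp s_rot br s_hand)
      (s_c5 sp s_rot br s_join) (s_c6 c3 sp s_rot br s_cut)))

end Vale.Agent.P002S
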