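import Vale.Agent.P002S.Iface

/-! Part Z of the proof for all curves: definitions, small lemmas and the statements. -/

namespace Vale.Agent.P002S.Z

open Matrix Vale.Agent.P002

section Defs

variable {n : ℕ}

/-- cyclic matrices -/
def Cyc (M : Mat n) : Prop := ∃ u : Fin n → ℂ, (kry M u).det ≠ 0

/-- every left eigenspace has dimension at most one -/
def ND (M : Mat n) : Prop := ∀ (s : ℂ) (w w' : Fin n → ℂ), w ᵥ* M = s • w → w' ᵥ* M = s • w' →
  w ≠ 0 → ∃ c : ℂ, w' = c • w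

/-- the twisted representation variety of a closed surface -/
def XX (n g : ℕ) (z : ℂ) : Set ((Fin g → Mat n) × (Fin g → Mat n)) :=
  {y | (∀ i, (y.1 i).det ≠ 0) ∧ (∀ i, (y.2 i).det ≠ 0) ∧ hprod y.1 y.2 = z • (1 : Mat n)}

/-- its integral points up to scalars -/
def GX (L : IntermediateField ℚ ℂ) (n g : ℕ) (z : ℂ) : Set ((Fin g → Mat n) × (Fin g → Mat n)) :=
  {y | (∀ i, Gp L (y.1 i)) ∧ (∀ i, Gp L (y.2 i)) ∧ hprod y.1 y.2 = z • (1 : Mat n)}

/-- companion matrix with last column `c` -/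
noncomputable def cpn (c : Fin n → ℂ) : Mat n :=
  Matrix.of fun i j => if (j : ℕ) + 1 = n then c i else if (i : ℕ) = (j : ℕ) + 1 then 1 else 0

/-- the diagonal matrix of the powers of `z` -/
noncomputable def Dz (n : ℕ) (z : ℂ) : Mat n := diagonal fun j => z ^ (j : ℕ)

/-- vectors supported where `z ^ i = 1` -/
def Msk (z : ℂ) (c : Fin n → ℂ) : Prop := ∀ i : Fin n, z ^ (i : ℕ) ≠ 1 → c i = 0

/-- polynomial in `B` with coefficients `q` -/
noncomputable def pol (B : Mat n) (q : Fin n → ℂ) : Mat n := ∑ j : Fin n, q j • B ^ (j : ℕ)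

/-- `L` contains the roots of unity of order `2 n` -/
def Rt (L : IntermediateField ℚ ℂ) (n : ℕ) : Prop := ∀ w : ℂ, w ^ (2 * n) = 1 → w ∈ L

/-- integral pairs (up to scalars) with commutator `z` -/
def G1 (L : IntermediateField ℚ ℂ) (n : ℕ) (z : ℂ) : Set (Mat n × Mat n) :=
  {q | Gp L q.1 ∧ Gp L q.2 ∧ cm q.1 q.2 = z • (1 : Mat n)}

end Defs

section Small

variable {V : Type} [AddCommGroup V] [Module ℂ V]

/-- sets covered by finitely many polynomial images of spaces of dimension at most `D` -/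
inductive Small (D : ℕ) : Set V → Prop
  | par (F : Type) [AddCommGroup F] [Module ℂ F] [FiniteDimensional ℂ F]
      (hF : Module.finrank ℂ F ≤ D) (f : F → V) (hf : RegF Set.univ f) : Small D (Set.range f)
  | empty : Small D ∅
  | union {A B : Set V} : Small D A → Small D B → Small D (A ∪ B)
  | sub {A B : Set V} : Small D A → B ⊆ A → Small D B

theorem Small.iUnion {D : ℕ} {ι : Type} [Finite ι] {A : ι → Set V} (h : ∀ i, Small D (A i)) :
    Small D (⋃ i, A i) := by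
  classical
  have := Fintype.ofFinite ι
  have key : ∀ s : Finset ι, Small D (⋃ i ∈ s, A i) := by
    intro s
    induction s using Finset.induction_on with
    | empty => exact Small.empty.sub (by simp)
    | insert a s ha ih => exact ((h a).union ih).sub (by simp)
  exact (key Finset.univ).sub (by simp)

/-- a function that is regular everywhere is a polynomial -/
theorem reg_univ_poly {φ : V → ℂ} (h : Reg Set.univ φ) : IsPoly φ := by
  obtain ⟨P, Q, hP, hQ, h⟩ := h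
  have hc : ∀ x, Q x = Q 0 := by
    intro x
    obtain ⟨q, hq⟩ := hQ.line 0 x
    have hd : q.degree = 0 := by
      by_contra hd
      obtain ⟨t, ht⟩ := IsAlgClosed.exists_root q hd
      exact (h (0 + t • x) (Set.mem_univ _)).1 (by rw [hq]; exact ht)
    have h1 := hq 1
    have h0 := hq 0
    rw [Polynomial.eq_C_of_degree_eq_zero hd, Polynomial.eval_C] at h1 h0
    simp only [zero_add, one_smul, zero_smul] at h1 h0
    rw [h1, h0]
  refine (hP.smul (Q 0)⁻¹).congr fun x => ?_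
  rw [← (h x (Set.mem_univ _)).2, hc x]
  field_simp [(h 0 (Set.mem_univ _)).1]

/-- closure of a finite product -/
theorem zc_pi {ι : Type} [Finite ι] {S : ι → Set V} {x : ι → V} (h : ∀ i, x i ∈ Zc (S i)) :
    x ∈ Zc {y : ι → V | ∀ i, y i ∈ S i} := by
  classical
  have := Fintype.ofFinite ι
  have key : ∀ s : Finset ι, x ∈ Zc {y : ι → V | (∀ i ∈ s, y i ∈ S i) ∧ ∀ i ∉ s, y i = x i} := by
    intro s
    induction s using Finset.induction_on with
    | empty => exact Zc.subset _ ⟨by simp, fun _ _ => rfl⟩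
    | insert a s ha ih =>
      refine Zc.of_subset (fun y hy => ?_) ih
      have e : y = Function.update y a (x a) := by
        rw [← hy.2 a ha, Function.update_eq_self]
      rw [e]
      refine Zc.map (h a) Bas.univ (Set.mem_univ _) (f := fun t => Function.update y a t)
        ((RegF.const y).update a RegF.id) fun t ht _ => Zc.subset _ ⟨fun i hi => ?_, fun i hi => ?_⟩
      · by_cases hia : i = a
        · subst hia; simpa using ht
        · rw [Function.update_of_ne hia]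
          exact hy.1 i ((Finset.mem_insert.1 hi).resolve_left hia)
      · rw [Finset.mem_insert, not_or] at hi
        rw [Function.update_of_ne hi.1]
        exact hy.2 i hi.2
  exact Zc.mono (fun y hy i => hy.1 i (Finset.mem_univ i)) (key Finset.univ)

end Small

theorem hprod_succ {n g : ℕ} (a b : Fin (g + 1) → Mat n) :
    hprod a b = cm (a 0) (b 0) * hprod (fun i => a i.succ) fun i => b i.succ := by
  simp only [hprod, List.ofFn_succ, List.prod_cons]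

theorem hprod_det {n g : ℕ} {a b : Fin g → Mat n} (ha : ∀ i, (a i).det ≠ 0)
    (hb : ∀ i, (b i).det ≠ 0) : (hprod a b).det = 1 := by
  induction g with
  | zero => simp [hprod]
  | succ g ih =>
    rw [hprod_succ, det_mul, det_cm (ha 0) (hb 0), ih (fun i => ha _) fun i => hb _, one_mul]

theorem regF_hprod {n g : ℕ} {V : Type} [AddCommGroup V] [Module ℂ V] {U : Set V}
    {a b : V → Fin g → Mat n} (ha : RegF U a) (hb : RegF U b)
    (ha0 : ∀ x ∈ U, ∀ i, (a x i).det ≠ 0) (hb0 : ∀ x ∈ U, ∀ i, (b x i).det ≠ 0) :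
    RegF U fun x => hprod (a x) (b x) := by
  induction g with
  | zero => exact (RegF.const 1).congr fun x _ => by simp [hprod]
  | succ g ih =>
    exact ((regF_cm (ha.apply 0) (hb.apply 0) (fun x hx => ha0 x hx 0) fun x hx => hb0 x hx 0).mul
      (ih (RegF.pi fun i => ha.apply i.succ) (RegF.pi fun i => hb.apply i.succ)
        (fun x hx i => ha0 x hx _) fun x hx i => hb0 x hx _)).congr fun x _ => hprod_succ _ _

theorem XX.pow {n g : ℕ} {z : ℂ} {y : (Fin g → Mat n) × (Fin g → Mat n)} (h : y ∈ XX n g z) :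
    z ^ n = 1 := by
  have := hprod_det h.1 h.2.1
  rwa [h.2.2, det_smul, det_one, mul_one, Fintype.card_fin] at this

/-! statements -/

def Z_cn : Prop := ∀ (n : ℕ) (M : Mat n), Cyc M → ND M

def Z_nc : Prop := ∀ (n : ℕ) (M : Mat n), ND M → Cyc M

def Z_jor : Prop := ∀ (n : ℕ) (a : Mat n), ∃ a' : Mat n, a' * a = a * a' ∧ ND a'

def Z_rb : Prop := ∀ (n : ℕ) (a b : Mat n), b.det ≠ 0 →
  ∃ t : Mat n, t * a = a * t ∧ t.det ≠ 0 ∧ Cyc (b * t)

def Z_cyc : Prop := ∀ (n g : ℕ) (z : ℂ), ∀ y ∈ XX n (g + 1) z,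
  y ∈ Zc {u | u ∈ XX n (g + 1) z ∧ Cyc (u.2 0)}

def Z_kr : Prop := ∀ (m : ℕ) (φ : Fin m → (Fin (m + 1) → ℂ) → ℂ), (∀ i, IsPoly (φ i)) →
  (∀ i, φ i 0 = 0) → (0 : Fin (m + 1) → ℂ) ∈ Zc {s | s ≠ 0 ∧ ∀ i, φ i s = 0}

def Z_ht : Prop := ∀ (m : ℕ) (P : Ideal (MvPolynomial (Fin m) ℂ)), P.IsPrime →
  (∀ j, MvPolynomial.X j ∈ P) → (m : ℕ∞) ≤ P.height

def Z_thin : Prop := ∀ (F V : Type) [AddCommGroup F] [Module ℂ F] [FiniteDimensional ℂ F]
  [AddCommGroup V] [Module ℂ V] [FiniteDimensional ℂ V] (f : F → V),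
  Module.finrank ℂ F < Module.finrank ℂ V → RegF Set.univ f → Gen fun x => x ∉ Set.range f

def Z_slice : Prop := ∀ (V : Type) [AddCommGroup V] [Module ℂ V] [FiniteDimensional ℂ V]
  (D k : ℕ) (B : Set V) (x₀ : V), Small D B → D + k < Module.finrank ℂ V →
  ∃ v : Fin k → V, ∀ s : Fin k → ℂ, s ≠ 0 → x₀ + ∑ j, s j • v j ∉ B

def Z_dim : Prop := ∀ (V : Type) [AddCommGroup V] [Module ℂ V] [FiniteDimensional ℂ V]
  (D m : ℕ) (B U : Set V) (x₀ : V) (φ : Fin m → V → ℂ), Small D B →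
  D + (m + 1) < Module.finrank ℂ V → Bas U → x₀ ∈ U → (∀ i, Reg U (φ i)) → (∀ i, φ i x₀ = 0) →
  x₀ ∈ Zc {x | x ∈ U ∧ (∀ i, φ i x = 0) ∧ x ∉ B}

def Z_graph : Prop := ∀ (n : ℕ) (N : Submodule ℂ (Fin n → ℂ)),
  ∃ (S : Finset (Fin n)) (X : Mat n), E S * X = 0 ∧ X * E S = X ∧
    ∀ v, v ∈ N ↔ (E S + X) *ᵥ v = v

def Z_chart : Prop := ∀ (n : ℕ) (ι : Type) [Fintype ι] (S : Finset (Fin n)), 3 ≤ Fintype.card ι →
  3 ≤ n → S.Nonempty → Sᶜ.Nonempty → Small (Fintype.card ι * (n * n) - (n + 1))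
    {f : ι → Mat n | ∃ X : Mat n, E S * X = 0 ∧ X * E S = X ∧
      ∀ k, (1 - (E S + X)) * f k * (E S + X) = 0}

def Z_bad2 : Prop := ∀ (ι : Type) [Fintype ι], 3 ≤ Fintype.card ι →
  Small (Fintype.card ι * (2 * 2) - (2 + 1)) {f : ι → Mat 2 | ¬ Schur f}

def Z_bad : Prop := ∀ (n : ℕ) (ι : Type) [Fintype ι], 3 ≤ Fintype.card ι → 0 < n →
  Small (Fintype.card ι * (n * n) - (n + 1)) {f : ι → Mat n | ¬ Schur f}

def Z_sch : Prop := ∀ (n g : ℕ) (z : ℂ), 0 < n → ∀ y ∈ XX n (g + 2) z, Cyc (y.2 0) →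
  y ∈ Zc {u | u ∈ XX n (g + 2) z ∧ Schur (Sum.elim u.1 u.2)}

def Z_str : Prop := ∀ (n : ℕ) (z : ℂ) (a b : Mat n), z ^ n = 1 → a.det ≠ 0 → b.det ≠ 0 →
  cm a b = z • (1 : Mat n) → Cyc b → ∃ (P : Mat n) (c q : Fin n → ℂ), P.det ≠ 0 ∧ Msk z c ∧
    a = P * (Dz n z * pol (cpn c) q) * P⁻¹ ∧ b = P * cpn c * P⁻¹

def Z_cmp : Prop := ∀ (n : ℕ) [NeZero n],
  (∀ (z : ℂ) (c : Fin n → ℂ), z ^ n = 1 → Msk z c → Dz n z * cpn c = z • (cpn c * Dz n z)) ∧
  (∀ (b : Mat n) (u c : Fin n → ℂ), b ^ n *ᵥ u = kry b u *ᵥ c → b * kry b u = kry b u * cpn c) ∧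
  RS (cpn (Pi.single (0 : Fin n) (1 : ℂ))) ∧
  ∃ κ : ℂ, κ ^ 2 = 1 ∧ ∀ c : Fin n → ℂ, (cpn c).det = κ * c 0

def Z_pair : Prop := ∀ (n : ℕ) (L : IntermediateField ℚ ℂ) (z : ℂ), 0 < n → Rt L n → z ^ n = 1 →
  Gp L (Dz n z) ∧ ∃ A B : Mat n, Gp L A ∧ Gp L B ∧ RS A ∧ cm A B = z • (1 : Mat n)

def Z_base : Prop := ∀ (n : ℕ) (L : IntermediateField ℚ ℂ) (z : ℂ), 0 < n → Good L n → Rt L n →
  z ^ n = 1 → ∀ (P : Mat n) (c : Fin n → ℂ), P.det ≠ 0 → Msk z c →
    (P * Dz n z * P⁻¹, P * cpn c * P⁻¹) ∈ Zc (G1 L n z)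

def Z_one : Prop := ∀ (n : ℕ) (L : IntermediateField ℚ ℂ) (z : ℂ), 0 < n → Good L n → Rt L n →
  z ^ n = 1 → ∀ (P : Mat n) (c q : Fin n → ℂ), P.det ≠ 0 → Msk z c →
    (P * (Dz n z * pol (cpn c) q) * P⁻¹, P * cpn c * P⁻¹) ∈ Zc (G1 L n z)

def Z_unit : Prop := ∀ (n : ℕ) (L : IntermediateField ℚ ℂ), Good L n → ZGl (OL L) n ∧
  ∀ (g : ℕ) (z : ℂ), GX L n g z ⊆ Zc {u | (∀ i, IntGL (OL L) (u.1 i)) ∧
    (∀ i, IntGL (OL L) (u.2 i)) ∧ hprod u.1 u.2 = z • (1 : Mat n)}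

def Z_high : Prop := ∀ (n g : ℕ) (L : IntermediateField ℚ ℂ) (z : ℂ) (A B : Mat n), 0 < n →
  Good L n → Gp L A → Gp L B → RS A → cm A B = z • (1 : Mat n) →
  ∀ y ∈ XX n (g + 2) z, Schur (Sum.elim y.1 y.2) → y ∈ Zc (GX L n (g + 2) z)

end Vale.Agent.P002S.Z
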