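import Vale.Agent.P002S.ZDefs

/-! Generic slices avoid small sets. -/

namespace Vale.Agent.P002S.Z

open Matrix Vale.Agent.P002

namespace ZSlice_

variable {V F : Type} [AddCommGroup V] [Module ℂ V] [AddCommGroup F] [Module ℂ F] {k : ℕ}

/-- the parametrisation of the bad directions -/
noncomputable def g (f : F → V) (x₀ : V) (j : Fin k)
    (z : F × (Fin k → ℂ) × ({i // i ≠ j} → V)) (i : Fin k) : V :=
  if h : i = j then z.2.1 j • (f z.1 - x₀ - ∑ i' : {i // i ≠ j}, z.2.1 i'.1 • z.2.2 i')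
  else z.2.2 ⟨i, h⟩

theorem g_reg {f : F → V} (hf : RegF Set.univ f) (x₀ : V) (j : Fin k) :
    RegF Set.univ (g f x₀ j) := by
  refine RegF.pi fun i => ?_
  by_cases h : i = j
  · simp only [g, dif_pos h]
    exact RegF.smul (RegF.id.snd.fst.apply j).reg
      (((hf.comp RegF.id.fst fun _ _ => trivial).sub (RegF.const x₀)).sub
        (RegF.sum Finset.univ fun i' _ =>
          RegF.smul (RegF.id.snd.fst.apply i'.1).reg (RegF.id.snd.snd.apply i')))
  · simp only [g, dif_neg h]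
    exact RegF.id.snd.snd.apply _

theorem g_mem {f : F → V} {x₀ : V} {j : Fin k} {v : Fin k → V} {s : Fin k → ℂ} {p : F}
    (hs : s j ≠ 0) (e : f p = x₀ + ∑ i, s i • v i) : v ∈ Set.range (g f x₀ j) := by
  refine ⟨(p, Function.update s j (s j)⁻¹, fun i => v i), funext fun i => ?_⟩
  by_cases h : i = j
  · have h1 : ∑ i' : {i // i ≠ j}, Function.update s j (s j)⁻¹ i'.1 • v i'.1 =
        ∑ i' : {i // i ≠ j}, s i'.1 • v i'.1 :=
      Finset.sum_congr rfl fun i' _ => by rw [Function.update_of_ne i'.2]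
    simp only [g, dif_pos h, Function.update_self]
    rw [h1, e, Fintype.sum_eq_add_sum_subtype_ne _ j, add_sub_cancel_left, add_sub_cancel_right,
      smul_smul, inv_mul_cancel₀ hs, one_smul, h]
  · simp only [g, dif_neg h]

theorem rank [FiniteDimensional ℂ V] [FiniteDimensional ℂ F] {D : ℕ}
    (hF : Module.finrank ℂ F ≤ D) (h : D + k < Module.finrank ℂ V) (j : Fin k) :
    Module.finrank ℂ (F × (Fin k → ℂ) × ({i // i ≠ j} → V)) < Module.finrank ℂ (Fin k → V) := by
  have hc : Fintype.card {i // i ≠ j} = k - 1 := by simp [Fintype.card_subtype_compl]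
  obtain ⟨m, rfl⟩ : ∃ m, k = m + 1 := ⟨k - 1, by have := j.pos; omega⟩
  simp only [Module.finrank_prod, Module.finrank_pi_fintype, Finset.sum_const, Finset.card_univ,
    hc, Fintype.card_fin, smul_eq_mul, Module.finrank_self, mul_one, Nat.add_sub_cancel, add_mul,
    one_mul]
  omega

end ZSlice_

theorem z_slice (h : Z_thin) : Z_slice := by
  intro V _ _ _ D k B x₀ hB hD
  suffices H : Gen fun v : Fin k → V => ∀ s : Fin k → ℂ, s ≠ 0 → x₀ + ∑ j, s j • v j ∉ B from H.ex
  induction hB with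
  | par F hF f hf =>
    refine (Gen.all fun j : Fin k => h _ _ (ZSlice_.g f x₀ j) (ZSlice_.rank hF hD j)
      (ZSlice_.g_reg hf x₀ j)).mono fun v hv s hs ⟨p, hp⟩ => ?_
    obtain ⟨j, hj⟩ := Function.ne_iff.1 hs
    exact hv j (ZSlice_.g_mem hj hp)
  | empty => exact Gen.of_forall fun _ _ _ k => k
  | union _ _ h1 h2 => exact (h1.and h2).mono fun v hv s hs k => k.elim (hv.1 s hs) (hv.2 s hs)
  | sub _ k h1 => exact h1.mono fun v hv s hs k' => hv s hs (k k')

theorem z_dim (h1 : Z_kr) (h2 : Z_slice) : Z_dim := by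
  intro V _ _ _ D m B U x₀ φ hB hD hU hx hφ h0
  obtain ⟨v, hv⟩ := h2 V D (m + 1) B x₀ hB hD
  have hγ : RegF Set.univ fun s : Fin (m + 1) → ℂ => x₀ + ∑ j, s j • v j :=
    (RegF.const x₀).add (RegF.sum Finset.univ fun j _ =>
      RegF.smul (RegF.proj j).reg (RegF.const (v j)))
  choose P Q hP hQ hPQ using hφ
  have e : x₀ + ∑ j, (0 : Fin (m + 1) → ℂ) j • v j = x₀ := by simp
  have h3 := h1 m (fun i s => P i (x₀ + ∑ j, s j • v j))
    (fun i => reg_univ_poly ((hP i).comp hγ)) fun i => by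
      rw [e, ← (hPQ i x₀ hx).2, h0 i, zero_mul]
  have h4 := Zc.map (T := {x | x ∈ U ∧ (∀ i, φ i x = 0) ∧ x ∉ B}) h3 (Bas.univ.preimage hU hγ)
    ⟨trivial, by rw [e]; exact hx⟩ (hγ.mono (Set.subset_univ _)) fun s hs hs' =>
      Zc.subset _ ⟨hs'.2, fun i => by
        have a := hPQ i _ hs'.2
        exact (mul_eq_zero.1 (a.2.trans (hs.2 i))).resolve_right a.1, hv s hs.1⟩
  rwa [e] at h4

end Vale.Agent.P002S.Z
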